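import Crest.Agent.R195.Basic

/-!
# Row 195: constructions of tableaux, partitions
-/

set_option autoImplicit false

namespace Crest.Agent.R195

open Finset

variable {ι ι' : Type} [Fintype ι] [DecidableEq ι] [Fintype ι'] [DecidableEq ι']

theorem IsConj.symm {α α' : ℕ → ℕ} (h : IsConj α α') : IsConj α' α := fun a b => (h b a).symm

theorem IsConj.unique {α β β' : ℕ → ℕ} (h : IsConj α β) (h' : IsConj α β') : β = β' := by
  funext b
  apply le_antisymm
  · by_contra hlt
    push Not at hlt
    exact lt_irrefl _ ((h' _ _).1 ((h _ _).2 hlt))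
  · by_contra hlt
    push Not at hlt
    exact lt_irrefl _ ((h _ _).1 ((h' _ _).2 hlt))

theorem IsConj.antitone {α α' : ℕ → ℕ} (h : IsConj α α') : Antitone α := by
  intro a a' haa
  by_contra hlt
  push Not at hlt
  have := (h a' (α a)).1 hlt
  exact lt_irrefl _ ((h a (α a)).2 (lt_of_le_of_lt haa this))

theorem tab1_sum {α : ℕ → ℕ} (h : Antitone α) {m m' : ℕ} (hm : α m = 0) (hmm : m ≤ m') :
    ∑ a ∈ range m', α a = ∑ a ∈ range m, α a := by
  symm
  refine Finset.sum_subset (range_subset_range.2 hmm) fun a _ ha => ?_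
  have := h (show m ≤ a by simpa using ha)
  omega

/-- If `α N = 0` the sum can be taken over `range N`. -/
theorem IsPart.sum_eq {n : ℕ} {α : ℕ → ℕ} (h : IsPart n α) {N : ℕ} (hN : α N = 0) :
    ∑ a ∈ range N, α a = n := by
  rcases le_total n N with hle | hle
  · rw [tab1_sum h.1 h.2.1 hle, h.2.2]
  · rw [← tab1_sum h.1 hN hle, h.2.2]

/-- Building `IsPart` from any vanishing point (if `α n > 0` then the sum would exceed `n`). -/
theorem isPart_of {n N : ℕ} {α : ℕ → ℕ} (h : Antitone α) (hN : α N = 0)
    (hs : ∑ a ∈ range N, α a = n) : IsPart n α := by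
  have h0 : α n = 0 := by
    rcases le_or_gt N n with hle | hlt
    · have := h hle
      omega
    · by_contra hne
      have h1 : ∑ a ∈ range (n + 1), α a ≤ ∑ a ∈ range N, α a :=
        Finset.sum_le_sum_of_subset (range_subset_range.2 hlt)
      have h2 : ∑ _a ∈ range (n + 1), 1 ≤ ∑ a ∈ range (n + 1), α a :=
        Finset.sum_le_sum fun a ha => by
          have := h (show a ≤ n by simpa [Nat.lt_succ_iff] using ha)
          omega
      simp only [sum_const, card_range, smul_eq_mul, mul_one] at h2
      omega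
  refine ⟨h, h0, ?_⟩
  rcases le_total n N with hle | hle
  · rw [← tab1_sum h h0 hle, hs]
  · rw [tab1_sum h hN hle, hs]

theorem IsPart.unique {n n' : ℕ} {α : ℕ → ℕ} (h : IsPart n α) (h' : IsPart n' α) : n = n' := by
  rw [← h.sum_eq h'.2.1, h'.2.2]

/-- Double counting of the cells. -/
theorem IsPart.conj {n : ℕ} {α α' : ℕ → ℕ} (h : IsPart n α) (hc : IsConj α α') : IsPart n α' := by
  have hle : ∀ a, α a ≤ n := fun a => by
    rcases le_or_gt n a with h1 | h1
    · have := h.1 h1
      have := h.2.1
      omega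
    · rw [← h.2.2]
      exact Finset.single_le_sum (f := α) (fun _ _ => Nat.zero_le _) (mem_range.2 h1)
  have hle' : ∀ b, α' b ≤ n := fun b => by
    by_contra hlt
    have := (hc n b).2 (not_le.1 hlt)
    have := h.2.1
    omega
  refine ⟨hc.symm.antitone, ?_, ?_⟩
  · by_contra hne
    have := (hc 0 n).2 (Nat.pos_of_ne_zero hne)
    have := hle 0
    omega
  · have e1 : ∀ b, α' b = ∑ a ∈ range n, if b < α a then 1 else 0 := fun b => by
      rw [← Finset.card_filter]
      have : (range n).filter (fun a => b < α a) = range (α' b) := by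
        ext a
        have := hle' b
        simp only [mem_filter, mem_range, hc a b]
        omega
      rw [this, card_range]
    have e2 : ∀ a, α a = ∑ b ∈ range n, if b < α a then 1 else 0 := fun a => by
      rw [← Finset.card_filter]
      have : (range n).filter (fun b => b < α a) = range (α a) := by
        ext b
        have := hle a
        simp only [mem_filter, mem_range]
        omega
      rw [this, card_range]
    rw [Finset.sum_congr rfl fun b _ => e1 b, Finset.sum_comm,
      ← Finset.sum_congr rfl fun a _ => e2 a, h.2.2]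

/-- `α' b = #{a < n | b < α a}`. -/
theorem IsPart.exists_conj {n : ℕ} {α : ℕ → ℕ} (h : IsPart n α) : ∃ α', IsConj α α' := by
  have hex : ∀ b, ∃ a, α a ≤ b := fun b => ⟨n, by rw [h.2.1]; exact Nat.zero_le _⟩
  refine ⟨fun b => Nat.find (hex b), fun a b => ?_⟩
  rw [Nat.lt_find_iff]
  exact ⟨fun h1 m hm => not_le.2 (h1.trans_le (h.1 hm)), fun h1 => not_le.1 (h1 a le_rfl)⟩

/-- The shape of a tableau is a partition of the number of letters
(antitone: `down` and `inj` give an injection from row `a+1` to row `a`). -/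
theorem Tab.isPart {α : ℕ → ℕ} (t : Tab ι α) : IsPart (Fintype.card ι) α := by
  refine isPart_of (N := univ.sup t.r + 1) (antitone_nat_of_succ_le fun a => ?_) ?_ ?_
  · rw [← t.cnt, ← t.cnt]
    have hd : ∀ i, ∃ j, t.r i = a + 1 → t.r j = a ∧ t.c j = t.c i := fun i => by
      by_cases hi : t.r i = a + 1
      · obtain ⟨j, hj⟩ := t.down i a (by omega)
        exact ⟨j, fun _ => hj⟩
      · exact ⟨i, fun h => absurd h hi⟩
    choose f hf using hd
    refine Finset.card_le_card_of_injOn f (fun i hi => ?_) fun i hi j hj hij => ?_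
    · simp only [coe_filter, mem_univ, true_and, Set.mem_ofPred_eq] at hi ⊢
      exact (hf i hi).1
    · simp only [coe_filter, mem_univ, true_and, Set.mem_ofPred_eq] at hi hj
      exact t.inj i j (hi.trans hj.symm) (by rw [← (hf i hi).2, ← (hf j hj).2, hij])
  · rw [← t.cnt, card_eq_zero, filter_eq_empty_iff]
    intro i _ hi
    have := Finset.le_sup (f := t.r) (mem_univ i)
    omega
  · rw [← Finset.card_univ, Finset.card_eq_sum_card_fiberwise (f := t.r)
      (t := range (univ.sup t.r + 1)) fun i _ => by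
        have := Finset.le_sup (f := t.r) (mem_univ i)
        simp only [coe_range, Set.mem_Iio]
        omega]
    exact Finset.sum_congr rfl fun a _ => (t.cnt a).symm

theorem tab1_surj (r c : ι → ℕ) (hinj : ∀ i j, r i = r j → c i = c j → i = j) {a k : ℕ}
    (hc : ∀ i, r i = a → c i < k) (hcnt : (univ.filter fun i => r i = a).card = k) {b : ℕ}
    (hb : b < k) : ∃ i, r i = a ∧ c i = b := by
  have h1 : (univ.filter fun i => r i = a).image c = range k := by
    refine Finset.eq_of_subset_of_card_le (fun x hx => ?_) ?_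
    · obtain ⟨i, hi, rfl⟩ := mem_image.1 hx
      exact mem_range.2 (hc i (mem_filter.1 hi).2)
    · rw [card_range, Finset.card_image_of_injOn, hcnt]
      intro i hi j hj hij
      simp only [coe_filter, mem_univ, true_and, Set.mem_ofPred_eq] at hi hj
      exact hinj i j (hi.trans hj.symm) hij
  obtain ⟨i, hi, rfl⟩ := mem_image.1 (h1 ▸ mem_range.2 hb)
  exact ⟨i, (mem_filter.1 hi).2, rfl⟩

/-- An injective placement of the letters into the cells of a diagram with as many cells as letters
is a standard tableau (it is a bijection onto the finset of cells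
`(range n).sigma fun a => range (α a)`). -/
theorem exists_tab_of {α : ℕ → ℕ} (hα : IsPart (Fintype.card ι) α) (r c : ι → ℕ)
    (hinj : ∀ i j, r i = r j → c i = c j → i = j) (hc : ∀ i, c i < α (r i)) :
    ∃ t : Tab ι α, t.r = r ∧ t.c = c ∧ t.Std := by
  have hle : ∀ a, (univ.filter fun i => r i = a).card ≤ α a := fun a => by
    rw [← card_range (α a)]
    refine Finset.card_le_card_of_injOn c (fun i hi => ?_) fun i hi j hj hij => ?_
    · simp only [coe_filter, mem_univ, true_and, Set.mem_ofPred_eq] at hi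
      simp only [coe_range, Set.mem_Iio, ← hi]
      exact hc i
    · simp only [coe_filter, mem_univ, true_and, Set.mem_ofPred_eq] at hi hj
      exact hinj i j (hi.trans hj.symm) hij
  have hz : ∀ a, Fintype.card ι ≤ a → α a = 0 := fun a ha => by
    have := hα.1 ha
    have := hα.2.1
    omega
  have hs : ∑ a ∈ range (Fintype.card ι), (univ.filter fun i => r i = a).card =
      ∑ a ∈ range (Fintype.card ι), α a := by
    rw [hα.2.2, ← Finset.card_eq_sum_card_fiberwise (f := r) fun i _ => ?_, card_univ]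
    simp only [coe_range, Set.mem_Iio]
    by_contra hlt
    have := hz _ (not_lt.1 hlt)
    have := hc i
    omega
  have hcnt : ∀ a, (univ.filter fun i => r i = a).card = α a := fun a => by
    rcases lt_or_ge a (Fintype.card ι) with h1 | h1
    · exact (Finset.sum_eq_sum_iff_of_le fun a _ => hle a).1 hs a (mem_range.2 h1)
    · have := hz a h1
      have := hle a
      omega
  refine ⟨⟨r, c, hinj, fun i a ha => ?_, hcnt⟩, rfl, rfl, hc⟩
  exact tab1_surj r c hinj (fun j hj => hj ▸ hc j) (hcnt a) ((hc i).trans_le (hα.1 ha.le))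

/-- Every cell of a standard tableau holds a letter (row `a` has `α a` letters with distinct
column labels `< α a`). -/
theorem Tab.Std.surj {α : ℕ → ℕ} {t : Tab ι α} (h : t.Std) {a b : ℕ} (hb : b < α a) :
    ∃ i, t.r i = a ∧ t.c i = b := by
  exact tab1_surj t.r t.c t.inj (fun j hj => hj ▸ h j) (t.cnt a) hb

theorem exists_tab {α : ℕ → ℕ} (hα : IsPart (Fintype.card ι) α) : ∃ t : Tab ι α, t.Std := by
  let S : Finset (Σ _ : ℕ, ℕ) := (range (Fintype.card ι)).sigma fun a => range (α a)
  have hS : Fintype.card ι = Fintype.card S := by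
    rw [Fintype.card_coe, card_sigma]
    simp only [card_range]
    exact hα.2.2.symm
  let e := Fintype.equivOfCardEq hS
  obtain ⟨t, -, -, ht⟩ := exists_tab_of hα (fun i => (e i).1.1) (fun i => (e i).1.2)
    (fun i j h1 h2 => e.injective (Subtype.ext (Sigma.ext h1 (heq_of_eq h2))))
    fun i => mem_range.1 (mem_sigma.1 (e i).2).2
  exact ⟨t, ht⟩

/-- Relabelling of the letters. -/
theorem Tab.exists_relabel {α : ℕ → ℕ} (t : Tab ι' α) (e : ι ≃ ι') :
    ∃ t' : Tab ι α, t'.r = t.r ∘ e ∧ t'.c = t.c ∘ e := by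
  refine ⟨⟨t.r ∘ e, t.c ∘ e, fun i j h1 h2 => e.injective (t.inj _ _ h1 h2), fun i a ha => ?_,
    fun a => ?_⟩, rfl, rfl⟩
  · obtain ⟨j, h1, h2⟩ := t.down (e i) a ha
    exact ⟨e.symm j, by simpa using h1, by simpa using h2⟩
  · rw [← t.cnt]
    exact Finset.card_equiv e fun i => by simp

theorem tab1_ht {α : ℕ → ℕ} (t : Tab ι α) (i : ι) (a : ℕ) :
    (∃ j, t.c j = t.c i ∧ t.r j = a) ↔ a < (univ.filter fun j => t.c j = t.c i).card := by
  have hc : (univ.filter fun j => t.c j = t.c i).card =
      ((univ.filter fun j => t.c j = t.c i).image t.r).card := by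
    refine (Finset.card_image_of_injOn fun j hj k hk hjk => ?_).symm
    simp only [coe_filter, mem_univ, true_and, Set.mem_ofPred_eq] at hj hk
    exact t.inj j k hjk (hj.trans hk.symm)
  have hm : ∀ b, b ∈ (univ.filter fun j => t.c j = t.c i).image t.r ↔
      ∃ j, t.c j = t.c i ∧ t.r j = b := fun b => by simp
  have hd : ∀ b b', b' ≤ b → (∃ j, t.c j = t.c i ∧ t.r j = b) → ∃ j, t.c j = t.c i ∧ t.r j = b' := by
    rintro b b' hb ⟨j, h1, rfl⟩
    rcases hb.eq_or_lt with h2 | h2
    · exact ⟨j, h1, h2.symm⟩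
    · obtain ⟨k, h3, h4⟩ := t.down j b' h2
      exact ⟨k, h4.trans h1, h3⟩
  rw [hc]
  constructor
  · intro h
    have : range (a + 1) ⊆ (univ.filter fun j => t.c j = t.c i).image t.r := fun b hb =>
      (hm b).2 (hd a b (by simpa [Nat.lt_succ_iff] using hb) h)
    simpa using card_le_card this
  · intro h
    by_contra hn
    have : (univ.filter fun j => t.c j = t.c i).image t.r ⊆ range a := fun b hb =>
      mem_range.2 (not_le.1 fun hab => hn (hd b a hab ((hm b).1 hb)))
    have := card_le_card this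
    rw [card_range] at this
    omega

/-- Standardisation of the column labels.  Let `ht x` be the number of letters with label `x`
(the letters of a column have rows `0,…,ht x - 1`).  New label of a column with label `x`: the number of
used labels `y` with `ht y > ht x` or (`ht y = ht x` and `y < x`).  If letter `i` has row `a` then
`a < ht x`, all those `y` and `x` itself meet row `a`, so the new label is `< α a`. -/
theorem Tab.exists_std {α : ℕ → ℕ} (t : Tab ι α) :
    ∃ t' : Tab ι α, t'.Std ∧ t'.r = t.r ∧ ∀ i j, t'.c i = t'.c j ↔ t.c i = t.c j := by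
  let ht : ℕ → ℕ := fun x => (univ.filter fun j => t.c j = x).card
  let F : ℕ → Finset ℕ := fun x =>
    (univ.image t.c).filter fun y => ht x < ht y ∨ (ht y = ht x ∧ y < x)
  have hlt : ∀ i j, (ht (t.c j) < ht (t.c i) ∨ (ht (t.c i) = ht (t.c j) ∧ t.c i < t.c j)) →
      (F (t.c i)).card < (F (t.c j)).card := fun i j hij => by
    refine card_lt_card ((ssubset_iff_of_subset fun y hy => ?_).2 ⟨t.c i, ?_, ?_⟩)
    · simp only [F, mem_filter] at hy ⊢
      refine ⟨hy.1, ?_⟩
      have := hy.2
      omega
    · exact mem_filter.2 ⟨mem_image_of_mem _ (mem_univ i), hij⟩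
    · simp [F]
  have hiff : ∀ i j, (F (t.c i)).card = (F (t.c j)).card ↔ t.c i = t.c j := fun i j => by
    refine ⟨fun h => ?_, fun h => by rw [h]⟩
    have h1 := hlt i j
    have h2 := hlt j i
    omega
  obtain ⟨t', h1, h2, h3⟩ := exists_tab_of t.isPart t.r (fun i => (F (t.c i)).card)
    (fun i j h1 h2 => t.inj i j h1 ((hiff i j).1 h2)) fun i => by
      have hi : t.r i < ht (t.c i) := (tab1_ht t i _).1 ⟨i, rfl, rfl⟩
      have hsub : insert (t.c i) (F (t.c i)) ⊆ (univ.filter fun j => t.r j = t.r i).image t.c := by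
        intro y hy
        rcases mem_insert.1 hy with rfl | hy
        · exact mem_image_of_mem _ (by simp)
        · obtain ⟨hy1, hy2⟩ := mem_filter.1 hy
          obtain ⟨k, -, rfl⟩ := mem_image.1 hy1
          obtain ⟨j, hj1, hj2⟩ := (tab1_ht t k (t.r i)).2 (show t.r i < ht (t.c k) by omega)
          exact mem_image.2 ⟨j, by simpa using hj2, hj1⟩
      have h4 := (card_le_card hsub).trans card_image_le
      rw [card_insert_of_notMem (by simp [F]), t.cnt] at h4
      exact h4
  exact ⟨t', h3, h1, fun i j => by rw [h2]; exact hiff i j⟩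

/-- Two standard tableaux of the same shape are conjugate (use `Tab.Std.surj`). -/
theorem std_conj {α : ℕ → ℕ} (t : Tab ι α) (t' : Tab ι' α) (h : t.Std) (h' : t'.Std) :
    ∃ e : ι ≃ ι', t.r = t'.r ∘ e ∧ t.c = t'.c ∘ e := by
  choose f hf1 hf2 using fun i => h'.surj (h i)
  refine ⟨Equiv.ofBijective f ⟨fun i j hij => t.inj i j ?_ ?_, fun j => ?_⟩,
    funext fun i => (hf1 i).symm, funext fun i => (hf2 i).symm⟩
  · rw [← hf1, ← hf1, hij]
  · rw [← hf2, ← hf2, hij]
  · obtain ⟨i, h1, h2⟩ := h.surj (h' j)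
    exact ⟨i, t'.inj _ _ ((hf1 i).trans h1) ((hf2 i).trans h2)⟩

/-- The transposed tableau (use `exists_tab_of`). -/
theorem Tab.Std.exists_tr {α α' : ℕ → ℕ} {t : Tab ι α} (h : t.Std) (hc : IsConj α α') :
    ∃ t' : Tab ι α', t'.r = t.c ∧ t'.c = t.r ∧ t'.Std := by
  exact exists_tab_of (t.isPart.conj hc) t.c t.r (fun i j h1 h2 => t.inj i j h2 h1)
    fun i => (hc _ _).1 (h i)

/-- Side by side (labels `2c` and `2c+1`). -/
theorem exists_tab_add {α β : ℕ → ℕ} (t : Tab ι α) (t' : Tab ι' β) :
    ∃ s : Tab (ι ⊕ ι') (α + β), s.r = Sum.elim t.r t'.r ∧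
      s.c = Sum.elim (fun i => 2 * t.c i) (fun j => 2 * t'.c j + 1) := by
  refine ⟨⟨Sum.elim t.r t'.r, Sum.elim (fun i => 2 * t.c i) (fun j => 2 * t'.c j + 1), ?_, ?_,
    fun a => ?_⟩, rfl, rfl⟩
  · rintro (i | i) (j | j) h1 h2 <;> simp only [Sum.elim_inl, Sum.elim_inr] at h1 h2
    · rw [t.inj i j h1 (by omega)]
    · omega
    · omega
    · rw [t'.inj i j h1 (by omega)]
  · rintro (i | i) a ha
    · obtain ⟨j, h1, h2⟩ := t.down i a ha
      exact ⟨Sum.inl j, h1, by simp [h2]⟩
    · obtain ⟨j, h1, h2⟩ := t'.down i a ha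
      exact ⟨Sum.inr j, h1, by simp [h2]⟩
  · rw [Pi.add_apply, ← t.cnt, ← t'.cnt, card_filter, card_filter, card_filter,
      Fintype.sum_sum_type]
    rfl

/-- The letters in the column of `i` have exactly the rows `0, …, ht - 1`. -/
theorem Tab.r_lt_ht {α : ℕ → ℕ} (t : Tab ι α) (i : ι) (a : ℕ) :
    (∃ j, t.c j = t.c i ∧ t.r j = a) ↔ a < (univ.filter fun j => t.c j = t.c i).card := by
  exact tab1_ht t i a

end Crest.Agent.R195
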