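import Crest.Agent.R195.Defs2
import Crest.Agent.R195.Tab1

/-!
# Row 195: soundness of the list-level tests
Structural inductions on lists.
-/

set_option autoImplicit false

namespace Crest.Agent.R195

open Finset

@[simp] theorem fn_nil (a : ℕ) : fn [] a = 0 := by simp [fn]

@[simp] theorem fn_cons_zero (x : ℕ) (l : List ℕ) : fn (x :: l) 0 = x := by simp [fn]

@[simp] theorem fn_cons_succ (x : ℕ) (l : List ℕ) (a : ℕ) : fn (x :: l) (a + 1) = fn l a := by
  simp [fn]

theorem fn_of_length_le {l : List ℕ} {a : ℕ} (h : l.length ≤ a) : fn l a = 0 := by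
  simp [fn, List.getD_eq_getElem?_getD, List.getElem?_eq_none h]

theorem fn_append (l l' : List ℕ) (a : ℕ) :
    fn (l ++ l') a = if a < l.length then fn l a else fn l' (a - l.length) := by
  simp only [fn, List.getD_eq_getElem?_getD, List.getElem?_append]
  split_ifs <;> rfl

theorem sum_range_fn (l : List ℕ) (j : ℕ) : ∑ a ∈ range j, fn l a = (l.take j).sum := by
  induction l generalizing j with
  | nil => simp
  | cons x l ih => cases j <;> simp [sum_range_succ', ih, add_comm]

theorem fn_map_range (f : ℕ → ℕ) (H : ℕ) (hf : ∀ a, H ≤ a → f a = 0) :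
    fn ((List.range H).map f) = f := by
  funext a
  by_cases h : a < H
  · simp [fn, List.getD_eq_getElem?_getD, h]
  · rw [fn_of_length_le (by simpa using h), hf a (not_lt.1 h)]

theorem fn_replicate_one (k : ℕ) : fn (List.replicate k 1) = ind k := by
  funext a
  simp only [fn, ind, List.getD_eq_getElem?_getD, List.getElem?_replicate]
  split_ifs <;> rfl

theorem li_partB (U : ℕ) (l : List ℕ) :
    partB U l = true ↔ (U :: l).Pairwise (fun x y => y ≤ x) ∧ ∀ x ∈ l, 0 < x := by
  induction l generalizing U with
  | nil => simp [partB]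
  | cons x l ih =>
    simp only [partB, Bool.and_eq_true, decide_eq_true_eq, ih, List.pairwise_cons,
      List.forall_mem_cons]
    exact ⟨fun h => ⟨⟨⟨h.1.2, fun a ha => (h.2.1.1 a ha).trans h.1.2⟩, h.2.1⟩, h.1.1, h.2.2⟩,
      fun h => ⟨⟨h.2.1, h.1.1.1⟩, h.1.2, h.2.2⟩⟩

theorem isPartL_iff (l : List ℕ) :
    isPartL l = true ↔ l.Pairwise (fun x y => y ≤ x) ∧ ∀ x ∈ l, 0 < x := by
  rw [isPartL, li_partB]
  cases l with
  | nil => simp
  | cons x l =>
    simp only [List.headD_cons, List.pairwise_cons, List.forall_mem_cons, le_refl, true_and]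
    tauto

theorem li_mem (l : List ℕ) (a : ℕ) : fn l a = 0 ∨ fn l a ∈ l := by
  induction l generalizing a with
  | nil => simp
  | cons x l ih => cases a <;> simp [← or_assoc, (ih _).imp_left Or.inl]

theorem li_count {l : List ℕ} (h : l.Pairwise fun x y => y ≤ x) (a b : ℕ) :
    b < fn l a ↔ a < l.countP fun x => decide (b < x) := by
  induction l generalizing a with
  | nil => simp
  | cons x l ih =>
    rw [List.pairwise_cons] at h
    by_cases hx : b < x
    · cases a <;> simp [hx, ih h.2]
    · have : l.countP (fun x => decide (b < x)) = 0 :=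
        List.countP_eq_zero.2 fun y hy => by simpa using (h.1 y hy).trans (not_lt.1 hx)
      cases a <;> simp [hx, ih h.2, this]

theorem li_conj {l : List ℕ} (h : isPartL l = true) (b : ℕ) :
    fn (conjL l) b = l.countP fun x => decide (b < x) := by
  rw [conjL, fn_map_range]
  intro a ha
  refine Nat.eq_zero_of_not_pos fun h0 => ha.not_gt ?_
  have := (li_count ((isPartL_iff l).1 h).1 0 a).2 h0
  cases l
  exacts [absurd this (Nat.not_lt_zero _), this]

theorem isPartL_sound {l : List ℕ} (h : isPartL l = true) : IsPart l.sum (fn l) := by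
  refine isPart_of (IsConj.antitone (α' := fun b => l.countP fun x => decide (b < x))
    (li_count ((isPartL_iff l).1 h).1)) (fn_of_length_le le_rfl) ?_
  rw [sum_range_fn, List.take_length]

theorem conjL_sound {l : List ℕ} (h : isPartL l = true) : IsConj (fn l) (fn (conjL l)) := by
  intro a b
  rw [li_conj h, li_count ((isPartL_iff l).1 h).1]

theorem fn_conjL_zero {l : List ℕ} (h : isPartL l = true) : fn (conjL l) 0 = l.length := by
  rw [li_conj h, List.countP_eq_length]
  simpa using ((isPartL_iff l).1 h).2

theorem fn_conjL_one {l : List ℕ} (h : isPartL l = true) :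
    fn (conjL l) 1 = l.countP fun x => decide (1 < x) := by
  exact li_conj h 1

/-- Every partition is a list. -/
theorem IsPart.exists_list {n : ℕ} {lam : ℕ → ℕ} (h : IsPart n lam) :
    ∃ L : List ℕ, isPartL L = true ∧ fn L = lam ∧ L.sum = n := by
  have hex : ∃ k, lam k = 0 := ⟨n, h.2.1⟩
  have h0 : ∀ a, Nat.find hex ≤ a → lam a = 0 := fun a ha =>
    Nat.le_zero.1 ((h.1 ha).trans (Nat.find_spec hex).le)
  refine ⟨(List.range (Nat.find hex)).map lam, (isPartL_iff _).2 ⟨?_, fun x hx => ?_⟩,
    fn_map_range lam _ h0, ?_⟩
  · exact List.pairwise_map.2 (List.pairwise_lt_range.imp fun hab => h.1 hab.le)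
  · obtain ⟨a, ha, rfl⟩ := List.mem_map.1 hx
    exact Nat.pos_of_ne_zero (Nat.find_min hex (List.mem_range.1 ha))
  · exact h.sum_eq (Nat.find_spec hex)

theorem fn_dropZ (l : List ℕ) : fn (dropZ l) = fn l := by
  induction l with
  | nil => rfl
  | cons x l ih =>
    funext a
    rw [dropZ]
    split <;> rename_i h <;> rw [h] at ih
    · split_ifs with hx <;> cases a <;> simp [← ih, *]
    · cases a <;> simp [← ih]

theorem fn_subL (a p : List ℕ) (i : ℕ) : fn (subL a p) i = fn a i - fn p i := by
  induction a generalizing p i with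
  | nil => simp [subL]
  | cons x a ih => cases p <;> cases i <;> simp [subL, ih]

theorem leL_sound {p a : List ℕ} (h : leL p a = true) (i : ℕ) : fn p i ≤ fn a i := by
  induction p generalizing a i with
  | nil => simp
  | cons y p ih =>
    cases a <;> simp only [leL, Bool.and_eq_true, decide_eq_true_eq] at h <;> cases i
    · simp [h.1]
    · simpa using ih h.2 _
    · simpa using h.1
    · simpa using ih h.2 _

theorem fn_tail (l : List ℕ) (i : ℕ) : fn l.tail i = fn l (i + 1) := by
  cases l <;> simp

theorem interB_sound {nu lam : List ℕ} (h : interB nu lam = true) : Inter (fn nu) (fn lam) := by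
  rw [interB, Bool.and_eq_true] at h
  exact fun a => ⟨fn_tail lam a ▸ leL_sound h.2 a, leL_sound h.1 a⟩

theorem stripB_sound {k : ℕ} {b1 b2 : List ℕ} (h : stripB k b1 b2 = true) :
    StripOK k (fn b1) (fn b2) := by
  intro s hs
  simp only [stripB, List.all_eq_true, List.mem_range, decide_eq_true_eq, List.countP_map] at h
  refine (h s hs).trans_eq ?_
  rw [List.countP_eq_length_filter]
  rfl

theorem li_insD (x : ℕ) (l : List ℕ) : (insD x l).Perm (x :: l) := by
  induction l with
  | nil => rfl
  | cons y l ih =>
    rw [insD]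
    split_ifs
    exacts [.refl _, (ih.cons y).trans (.swap x y l)]

theorem sortD_perm (l : List ℕ) : (sortD l).Perm l := by
  induction l with
  | nil => rfl
  | cons x l ih => exact (li_insD x _).trans (ih.cons x)

theorem sortD_sorted (l : List ℕ) : (sortD l).Pairwise fun x y => y ≤ x := by
  have key : ∀ x (l : List ℕ), l.Pairwise (fun x y => y ≤ x) →
      (insD x l).Pairwise fun x y => y ≤ x := fun x l => by
    induction l with
    | nil => simp [insD]
    | cons y l ih =>
      intro h
      have h' := List.pairwise_cons.1 h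
      rw [insD]
      split_ifs with hxy
      · exact List.pairwise_cons.2 ⟨List.forall_mem_cons.2 ⟨hxy, fun a ha => (h'.1 a ha).trans hxy⟩, h⟩
      · refine List.pairwise_cons.2 ⟨fun a ha => ?_, ih h'.2⟩
        exact (List.mem_cons.1 ((li_insD x l).subset ha)).elim (· ▸ (not_le.1 hxy).le) (h'.1 a)
  induction l with
  | nil => simp [sortD]
  | cons x l ih => exact key x _ ih

theorem domB_iff (L M : List ℕ) (s : ℕ) :
    domB L M s = true ↔ ∀ j, (M.take j).sum ≤ s + (L.take j).sum := by
  induction M generalizing L s with
  | nil => simp [domB]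
  | cons m M ih =>
    cases L <;> simp only [domB, Bool.and_eq_true, decide_eq_true_eq, ih] <;>
      refine ⟨fun h j => ?_, fun h => ⟨by simpa using h 1, fun j => ?_⟩⟩
    · rcases j with _ | j
      · simp
      · have := h.2 j
        simp at this ⊢
        omega
    · have := h (j + 1)
      simp at this ⊢
      omega
    · rcases j with _ | j
      · simp
      · have := h.2 j
        simp at this ⊢
        omega
    · have := h (j + 1)
      simp at this ⊢
      omega

theorem li_take (m : ℕ) (M : List ℕ) (h : (m :: M).Pairwise fun x y => y ≤ x) (j : ℕ) :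
    (M.take j).sum ≤ ((m :: M).take j).sum := by
  induction M generalizing m j with
  | nil => simp
  | cons y M ih =>
    rw [List.pairwise_cons] at h
    rcases j with _ | j
    · simp
    · simpa using add_le_add (h.1 y List.mem_cons_self) (ih y h.2 j)

/-- A sub-multiset with `j` elements of a decreasing list has sum at most that of the first `j` entries
(induction on the list; `Multiset.le_cons_of_notMem`, `Multiset.cons_le_cons_iff`, or `List.Subperm`/`List.Sublist`). -/
theorem sum_le_take {M : List ℕ} (hM : M.Pairwise fun x y => y ≤ x) (S : Multiset ℕ)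
    (hS : S ≤ (M : Multiset ℕ)) : S.sum ≤ (M.take (Multiset.card S)).sum := by
  induction M generalizing S with
  | nil => simp [Multiset.le_zero.1 hS]
  | cons m M ih =>
    rw [← Multiset.cons_coe] at hS
    by_cases h : m ∈ S
    · obtain ⟨T, rfl⟩ := Multiset.exists_cons_of_mem h
      simpa using ih hM.of_cons T ((Multiset.cons_le_cons_iff m).1 hS)
    · exact (ih hM.of_cons S ((Multiset.le_cons_of_notMem h).1 hS)).trans (li_take m M hM _)

theorem dom_of_domB {L μ : List ℕ} (h : domB L (sortD μ) 0 = true) : Dom (fn L) μ := by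
  intro S hS
  rw [sum_range_fn]
  rw [← Multiset.coe_eq_coe.2 (sortD_perm μ)] at hS
  simpa using (sum_le_take (sortD_sorted μ) S hS).trans ((domB_iff _ _ _).1 h _)

theorem critB_sound {H n : ℕ} {μ : List ℕ} {l0 num den : ℕ} (h : critB H n μ l0 num den = true) :
    Crit H n μ l0 num den := by
  simpa only [critB, Crit, Bool.and_eq_true, decide_eq_true_eq, List.all_eq_true, and_assoc] using h

end Crest.Agent.R195
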