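import Crest.Agent.R195.Tab2

/-!
# Row 195: elementary rules for `Pos`
-/

set_option autoImplicit false

namespace Crest.Agent.R195

open Finset

variable {ι ι' : Type} [Fintype ι] [DecidableEq ι] [Fintype ι'] [DecidableEq ι']

/-- Relabelling does not change `P3` (`alt_relabel` three times, `Equiv.prod_comp`). -/
theorem P3_relabel {α β γ : ℕ → ℕ} (t1 : Tab ι' α) (t2 : Tab ι' β) (t3 : Tab ι' γ)
    (s1 : Tab ι α) (s2 : Tab ι β) (s3 : Tab ι γ) (e : ι ≃ ι')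
    (h1r : s1.r = t1.r ∘ e) (h1c : s1.c = t1.c ∘ e) (h2r : s2.r = t2.r ∘ e) (h2c : s2.c = t2.c ∘ e)
    (h3r : s3.r = t3.r ∘ e) (h3c : s3.c = t3.c ∘ e) : P3 s1 s2 s3 = P3 t1 t2 t3 := by
  unfold P3
  rw [alt_relabel t1 s1 e h1r h1c]
  refine congrArg _ (funext fun a => ?_)
  rw [alt_relabel t2 s2 e h2r h2c]
  refine congrArg _ (funext fun b => ?_)
  rw [alt_relabel t3 s3 e h3r h3c]
  refine congrArg _ (funext fun c => ?_)
  exact (Equiv.prod_comp e.symm fun i => (MvPolynomial.X (a i, b i, c i) : MvPolynomial (ℕ × ℕ × ℕ) ℂ)).symm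

/-- One may prescribe the letters and the third tableau, and take the first two standard
(`alt_conj`, `Tab.exists_relabel`, `Tab.exists_std`, `alt_congr_tab`). -/
theorem Pos.fix {α β γ : ℕ → ℕ} (h : Pos α β γ) (t3 : Tab ι γ) :
    ∃ (t1 : Tab ι α) (t2 : Tab ι β), t1.Std ∧ t2.Std ∧ P3 t1 t2 t3 ≠ 0 := by
  obtain ⟨ι0, _, _, u1, u2, u3, h⟩ := h
  obtain ⟨e, h1, h2, -⟩ := alt_conj u3 t3
  obtain ⟨s1, a1, b1⟩ := u1.exists_relabel e
  obtain ⟨s2, a2, b2⟩ := u2.exists_relabel e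
  obtain ⟨s3, a3, b3⟩ := u3.exists_relabel e
  obtain ⟨t1, c1, d1, e1⟩ := s1.exists_std
  obtain ⟨t2, c2, d2, e2⟩ := s2.exists_std
  refine ⟨t1, t2, c1, c2, ?_⟩
  rw [← P3_relabel u1 u2 u3 s1 s2 s3 e a1 b1 a2 b2 a3 b3] at h
  unfold P3 at h ⊢
  rw [alt_congr_tab s1 t1 d1 e1]
  simp only [alt_congr_tab s2 t2 d2 e2,
    alt_congr_tab s3 t3 (h1.trans a3.symm) (fun i j => by rw [h2, b3]; rfl)]
  exact h

theorem Pos.parts {α β γ : ℕ → ℕ} (h : Pos α β γ) :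
    ∃ n, IsPart n α ∧ IsPart n β ∧ IsPart n γ := by
  obtain ⟨ι, _, _, t1, t2, t3, -⟩ := h
  exact ⟨_, t1.isPart, t2.isPart, t3.isPart⟩

theorem pb_aeval {α β γ : ℕ → ℕ} (t1 : Tab ι α) (t2 : Tab ι β) (t3 : Tab ι γ)
    {R : Type} [CommRing R] [Algebra ℂ R] (z : ℕ × ℕ × ℕ → R)
    (h : (alt t1 fun a => alt t2 fun b => alt t3 fun c => ∏ i, z (a i, b i, c i)) ≠ 0) :
    Pos α β γ := by
  refine ⟨ι, inferInstance, inferInstance, t1, t2, t3, fun h0 => h ?_⟩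
  have h1 := congrArg (MvPolynomial.aeval (R := ℂ) z) h0
  rw [map_zero] at h1
  simpa only [P3, alt, map_altw, map_prod, MvPolynomial.aeval_X] using h1

/-- A nonzero evaluation (`MvPolynomial.eval`, `map_altw`). -/
theorem pos_of_eval {α β γ : ℕ → ℕ} (t1 : Tab ι α) (t2 : Tab ι β) (t3 : Tab ι γ)
    (z : ℕ → ℕ → ℕ → ℂ)
    (h : (alt t1 fun a => alt t2 fun b => alt t3 fun c => ∏ i, z (a i) (b i) (c i)) ≠ 0) :
    Pos α β γ := by
  exact pb_aeval t1 t2 t3 (fun p => z p.1 p.2.1 p.2.2) h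

/-- A nonzero image under an algebra map that is determined by the images of the variables. -/
theorem pos_of_aeval {α β γ : ℕ → ℕ} (t1 : Tab ι α) (t2 : Tab ι β) (t3 : Tab ι γ)
    {R : Type} [CommRing R] [Algebra ℂ R] (z : ℕ × ℕ × ℕ → R)
    (h : (alt t1 fun a => alt t2 fun b => alt t3 fun c => ∏ i, z (a i, b i, c i)) ≠ 0) :
    Pos α β γ := by
  exact pb_aeval t1 t2 t3 z h

/-- `altw_comm` and `MvPolynomial.rename` along the swap of coordinates (injective). -/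
theorem Pos.swap12 {α β γ : ℕ → ℕ} (h : Pos α β γ) : Pos β α γ := by
  obtain ⟨ι, _, _, t1, t2, t3, h⟩ := h
  refine pb_aeval t2 t1 t3 (fun p => (MvPolynomial.X (p.2.1, p.1, p.2.2) : MvPolynomial (ℕ × ℕ × ℕ) ℂ)) ?_
  unfold P3 alt at h
  unfold alt
  rwa [altw_comm] at h

theorem Pos.swap23 {α β γ : ℕ → ℕ} (h : Pos α β γ) : Pos α γ β := by
  obtain ⟨ι, _, _, t1, t2, t3, h⟩ := h
  refine pb_aeval t1 t3 t2 (fun p => (MvPolynomial.X (p.1, p.2.2, p.2.1) : MvPolynomial (ℕ × ℕ × ℕ) ℂ)) ?_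
  unfold P3 alt at h
  unfold alt
  simp only [altw_comm t3.c t3.r t2.c t2.r]
  exact h

theorem pb_alt_mul {α α' : ℕ → ℕ} (t : Tab ι α) (t' : Tab ι' α') (s : Tab (ι ⊕ ι') (α + α'))
    (hr : s.r = Sum.elim t.r t'.r) (hc : s.c = Sum.elim (fun i => 2 * t.c i) (fun j => 2 * t'.c j + 1))
    {R : Type} [Ring R] (f : (ι → ℕ) → R) (g : (ι' → ℕ) → R) :
    (alt s fun x => f (x ∘ Sum.inl) * g (x ∘ Sum.inr)) = alt t f * alt t' g := by
  unfold alt
  rw [altw_sumType _ _ (fun i j => by rw [hc]; simp only [Sum.elim_inl, Sum.elim_inr]; omega), hr, hc]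
  simp only [Sum.elim_comp_inl, Sum.elim_comp_inr, altw_mul_left, altw_mul_right]
  rw [altw_colGrp (c' := t.c) (colGrp_congr fun i j => by omega),
    altw_colGrp (c' := t'.c) (colGrp_congr fun i j => by omega)]

/-- Semigroup property: `exists_tab_add`, `altw_sumType`, `altw_comm`; `P3` of the sums is the
product of the `P3`, and `MvPolynomial` is a domain. -/
theorem Pos.add {α β γ α' β' γ' : ℕ → ℕ} (h : Pos α β γ) (h' : Pos α' β' γ') :
    Pos (α + α') (β + β') (γ + γ') := by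
  obtain ⟨ι, _, _, t1, t2, t3, h⟩ := h
  obtain ⟨ι', _, _, t1', t2', t3', h'⟩ := h'
  obtain ⟨s1, a1, b1⟩ := exists_tab_add t1 t1'
  obtain ⟨s2, a2, b2⟩ := exists_tab_add t2 t2'
  obtain ⟨s3, a3, b3⟩ := exists_tab_add t3 t3'
  refine ⟨ι ⊕ ι', inferInstance, inferInstance, s1, s2, s3, ?_⟩
  suffices e : P3 s1 s2 s3 = P3 t1 t2 t3 * P3 t1' t2' t3' from e ▸ mul_ne_zero h h'
  unfold P3
  rw [← pb_alt_mul t1 t1' s1 a1 b1]
  refine congrArg _ (funext fun a => ?_)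
  rw [← pb_alt_mul t2 t2' s2 a2 b2]
  refine congrArg _ (funext fun b => ?_)
  rw [← pb_alt_mul t3 t3' s3 a3 b3]
  refine congrArg _ (funext fun c => ?_)
  rw [Fintype.prod_sum_type]
  rfl

theorem pb_prod_X {τ : Type} (f : ι → τ) : (∏ i, MvPolynomial.X (f i) : MvPolynomial τ ℂ) =
    MvPolynomial.monomial (∑ i, Finsupp.single (f i) 1) 1 := by
  rw [MvPolynomial.monomial_sum_one]
  rfl

theorem pb_coeff {α β γ : ℕ → ℕ} (t1 : Tab ι α) (t2 : Tab ι β) (t3 : Tab ι γ) (d : ℕ × ℕ × ℕ →₀ ℕ) :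
    MvPolynomial.coeff d (P3 t1 t2 t3) = alt t1 fun a => alt t2 fun b => alt t3 fun c =>
      MvPolynomial.coeff d (∏ i, MvPolynomial.X (a i, b i, c i) : MvPolynomial (ℕ × ℕ × ℕ) ℂ) := by
  have h := fun (c w : ι → ℕ) (F : (ι → ℕ) → MvPolynomial (ℕ × ℕ × ℕ) ℂ) =>
    map_altw (MvPolynomial.coeffAddMonoidHom d) c w F
  simp only [MvPolynomial.coeffAddMonoidHom_apply] at h
  simp only [P3, alt, h]

theorem pb_stab_ne {τ : Type} [DecidableEq τ] (f : ι → τ) :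
    (∑ g : Equiv.Perm ι, if f = f ∘ g then (1 : ℂ) else 0) ≠ 0 := by
  rw [Finset.sum_boole, Nat.cast_ne_zero, ← Nat.pos_iff_ne_zero, Finset.card_pos]
  exact ⟨1, by simp⟩

theorem pb_count {τ : Type} [DecidableEq τ] (f f' : ι → τ) :
    (∑ g : Equiv.Perm ι, if f' = f ∘ g then (1 : ℂ) else 0) =
      (∑ g : Equiv.Perm ι, if f = f ∘ g then (1 : ℂ) else 0) *
        MvPolynomial.coeff (∑ i, Finsupp.single (f i) 1) (∏ i, MvPolynomial.X (f' i) : MvPolynomial τ ℂ) := by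
  have h : (∑ i, Finsupp.single (f' i) 1 = ∑ i, Finsupp.single (f i) 1) ↔ ∃ π : Equiv.Perm ι, f' = f ∘ π := by
    rw [← prod_X_eq_iff (R := ℂ), pb_prod_X, pb_prod_X, MvPolynomial.monomial_left_inj one_ne_zero]
  rw [pb_prod_X, MvPolynomial.coeff_monomial]
  split_ifs with h1
  · obtain ⟨π, rfl⟩ := h.1 h1
    rw [mul_one, ← Equiv.sum_comp (Equiv.mulRight π)]
    refine Finset.sum_congr rfl fun g _ => if_congr ?_ rfl rfl
    rw [Equiv.coe_mulRight, Equiv.Perm.coe_mul, ← Function.comp_assoc]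
    exact π.surjective.right_cancellable
  · rw [mul_zero]
    exact Finset.sum_eq_zero fun g _ => if_neg fun h2 => h1 (h.2 ⟨g, h2⟩)

theorem pb_co {α : ℕ → ℕ} (t : Tab ι α) (w : ι → ℕ) :
    (co t w : ℂ) = alt t fun w' => if w' = w then (1 : ℂ) else 0 := by
  have h := map_altw (Int.castAddHom ℂ) t.c t.r fun w' => if w' = w then (1 : ℤ) else 0
  simpa [co, alt] using h

theorem pb_tri {α β γ : ℕ → ℕ} (t1 : Tab ι α) (t2 : Tab ι β) (t3 : Tab ι γ) (a b c : ι → ℕ) :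
    (tri t1 t2 t3 a b c : ℂ) = (∑ g : Equiv.Perm ι,
      if (fun i => (a i, b i, c i)) = (fun i => (a i, b i, c i)) ∘ g then (1 : ℂ) else 0) *
      MvPolynomial.coeff (∑ i, Finsupp.single (a i, b i, c i) 1) (P3 t1 t2 t3) := by
  rw [pb_coeff, tri]
  push_cast
  simp only [pb_co, alt, ← altw_mul_left, ← pb_count (fun i => (a i, b i, c i)), altw_sum]
  refine Finset.sum_congr rfl fun g _ => ?_
  have e : ∀ a' b' c' : ι → ℕ, (if (fun i => (a' i, b' i, c' i)) = (fun i => (a i, b i, c i)) ∘ g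
      then (1 : ℂ) else 0) = (if a' = a ∘ g then 1 else 0) * ((if b' = b ∘ g then 1 else 0) *
        if c' = c ∘ g then 1 else 0) := by
    intro a' b' c'
    simp only [ite_zero_mul_ite_zero, mul_one]
    refine if_congr ?_ rfl rfl
    simp only [funext_iff, Function.comp_apply, Prod.mk.injEq, forall_and]
  simp only [e, altw_mul_left, altw_mul_right, mul_assoc]

/-- Let `m = ∏ i, X (a i, b i, c i)`.  Expanding, `P3 = ∑ σ₁ σ₂ σ₃, ± ∏ X (r₁σ₁ i, r₂σ₂ i, r₃σ₃ i)`.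
By `prod_X_eq_iff` the monomial of `(σ₁,σ₂,σ₃)` equals `m` iff `(r₁σ₁, r₂σ₂, r₃σ₃) = (a,b,c) ∘ g` for some `g`, and then
the number of such `g` is the order `N > 0` of the stabiliser of `(a,b,c)`.  Hence
`tri t1 t2 t3 a b c = N * coeff m (P3 t1 t2 t3)`; if `P3 ≠ 0` some coefficient is nonzero, and it is
the coefficient of a monomial of this form. -/
theorem P3_ne_iff {α β γ : ℕ → ℕ} (t1 : Tab ι α) (t2 : Tab ι β) (t3 : Tab ι γ) :
    P3 t1 t2 t3 ≠ 0 ↔ ∃ a b c, tri t1 t2 t3 a b c ≠ 0 := by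
  constructor
  · intro h
    obtain ⟨d, hd⟩ := MvPolynomial.ne_zero_iff.1 h
    by_contra hn
    push Not at hn
    refine hd ?_
    by_cases hx : ∃ a b c : ι → ℕ, d = ∑ i, Finsupp.single (a i, b i, c i) 1
    · obtain ⟨a, b, c, rfl⟩ := hx
      have h1 := pb_tri t1 t2 t3 a b c
      rw [hn, Int.cast_zero] at h1
      exact (mul_eq_zero.1 h1.symm).resolve_left (pb_stab_ne _)
    · rw [pb_coeff]
      have e : ∀ a b c : ι → ℕ, MvPolynomial.coeff d
          (∏ i, MvPolynomial.X (a i, b i, c i) : MvPolynomial (ℕ × ℕ × ℕ) ℂ) = 0 := fun a b c => by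
        rw [pb_prod_X, MvPolynomial.coeff_monomial, if_neg fun h => hx ⟨a, b, c, h.symm⟩]
      simp only [e, alt, altw_zero]
  · rintro ⟨a, b, c, h⟩ h0
    have h1 := pb_tri t1 t2 t3 a b c
    rw [h0, MvPolynomial.coeff_zero, mul_zero] at h1
    exact h (by exact_mod_cast h1)

/-- `Complete n α` forces `α` to be a partition of `n` (test with the one-row partition). -/
theorem Complete.isPart {n : ℕ} {α : ℕ → ℕ} (h : Complete n α) : IsPart n α := by
  have h1 : IsPart n fun a => if a = 0 then n else 0 := by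
    refine isPart_of (N := 1) (fun a b hab => ?_) (by simp) (by simp)
    split_ifs <;> omega
  obtain ⟨m, h2, -, h3⟩ := (h _ h1).parts
  rwa [h1.unique h3]

end Crest.Agent.R195
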