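import Crest.Agent.R195.Eps
import Crest.Agent.R195.Lists
import Crest.Agent.R195.PosB

/-!
# Row 195: soundness of the direct evaluator
-/

set_option autoImplicit false

namespace Crest.Agent.R195

open Finset

/-- The weight function of a list of weighted triples. -/
def zf (z : List (Tr × ℤ)) (x : Tr) : ℤ := ((z.filter fun p => decide (p.1 = x)).map (·.2)).sum

theorem sgnTo_eq (C x : Tr) (l : List (Tr × Tr)) :
    sgnTo C x l = (l.map fun d => pf3 d.1 C d.2 x).prod := by
  induction l with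
  | nil => rfl
  | cons d l ih =>
    rw [sgnTo, List.map_cons, List.prod_cons, ih]
    split_ifs with h
    · rw [h, zero_mul]
    · rfl

theorem ba_sum_cons {m : ℕ} {τ M : Type} [AddCommMonoid M] (S : Fin (m + 1) → Finset τ)
    (f : (Fin (m + 1) → τ) → M) :
    ∑ w ∈ Fintype.piFinset S, f w =
      ∑ x ∈ S 0, ∑ w ∈ Fintype.piFinset (fun i : Fin m => S i.succ), f (Fin.cons x w) := by
  rw [← Finset.sum_product']
  symm
  refine Finset.sum_nbij' (fun p => Fin.cons p.1 p.2) (fun w => (w 0, Fin.tail w)) ?_ ?_ ?_ ?_ ?_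
  · intro p hp
    rw [Finset.mem_product, Fintype.mem_piFinset] at hp
    rw [Fintype.mem_piFinset]
    intro i
    refine Fin.cases ?_ (fun i => ?_) i
    · exact hp.1
    · exact hp.2 i
  · intro w hw
    rw [Fintype.mem_piFinset] at hw
    rw [Finset.mem_product, Fintype.mem_piFinset]
    exact ⟨hw 0, fun i => hw i.succ⟩
  · intro p _
    simp
  · intro w _
    simp
  · intro p _
    rfl

theorem ba_prod_Iio {m : ℕ} {M : Type} [CommMonoid M] (i : Fin m) (g : Fin m → M) :
    ∏ j ∈ Iio i, g j = ∏ j, if j < i then g j else 1 := by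
  rw [← Finset.prod_filter]
  exact Finset.prod_congr (by ext j; simp) fun _ _ => rfl

theorem ba_prod_Iio_succ {m : ℕ} {M : Type} [CommMonoid M] (i : Fin m) (g : Fin (m + 1) → M) :
    ∏ j ∈ Iio i.succ, g j = g 0 * ∏ j ∈ Iio i, g j.succ := by
  rw [ba_prod_Iio, ba_prod_Iio, Fin.prod_univ_succ, if_pos (Fin.succ_pos i)]
  simp only [Fin.succ_lt_succ_iff]

theorem ba_prod_Iio_zero {m : ℕ} {M : Type} [CommMonoid M] (g : Fin (m + 1) → M) :
    ∏ j ∈ Iio (0 : Fin (m + 1)), g j = 1 := by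
  rw [ba_prod_Iio]
  simp

theorem ba_zf (z : List (Tr × ℤ)) (B : Finset Tr) (g : Tr → ℤ) :
    ∑ x ∈ B, zf z x * g x = (z.map fun p => if p.1 ∈ B then p.2 * g p.1 else 0).sum := by
  induction z with
  | nil => simp [zf]
  | cons p z ih =>
    have h1 : ∀ x, zf (p :: z) x = (if p.1 = x then p.2 else 0) + zf z x := fun x => by
      unfold zf
      by_cases h : p.1 = x
      · rw [List.filter_cons_of_pos (by simpa using h), if_pos h, List.map_cons, List.sum_cons]
      · rw [List.filter_cons_of_neg (by simpa using h), if_neg h, zero_add]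
    rw [List.map_cons, List.sum_cons, ← ih]
    simp only [h1, add_mul, Finset.sum_add_distrib, ite_mul, zero_mul, Finset.sum_ite_eq]

theorem ba_ltTr (x H : Tr) :
    ltTr x H = true ↔ x ∈ range H.1 ×ˢ range H.2.1 ×ˢ range H.2.2 := by
  simp [ltTr, and_assoc]

theorem ba_sum_pair {ι τ τ' M : Type} [Fintype ι] [DecidableEq ι] [AddCommMonoid M]
    (A : ι → Finset τ) (B : ι → Finset τ') (f : (ι → τ × τ') → M) :
    ∑ w ∈ Fintype.piFinset (fun i => A i ×ˢ B i), f w =
      ∑ a ∈ Fintype.piFinset A, ∑ b ∈ Fintype.piFinset B, f (fun i => (a i, b i)) := by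
  rw [← Finset.sum_product']
  refine Finset.sum_nbij' (fun w => (fun i => (w i).1, fun i => (w i).2))
    (fun p => fun i => (p.1 i, p.2 i)) ?_ ?_ ?_ ?_ ?_
  · intro w hw
    rw [Fintype.mem_piFinset] at hw
    rw [Finset.mem_product, Fintype.mem_piFinset, Fintype.mem_piFinset]
    exact ⟨fun i => (Finset.mem_product.1 (hw i)).1, fun i => (Finset.mem_product.1 (hw i)).2⟩
  · intro p hp
    rw [Finset.mem_product, Fintype.mem_piFinset, Fintype.mem_piFinset] at hp
    rw [Fintype.mem_piFinset]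
    exact fun i => Finset.mem_product.2 ⟨hp.1 i, hp.2 i⟩
  · intro w _
    rfl
  · intro p _
    rfl
  · intro w _
    rfl

theorem ba_countP {n : ℕ} {τ : Type} (g : Fin n → τ) (p : τ → Prop) [DecidablePred p] :
    (List.ofFn g).countP (fun q => decide (p q)) = (univ.filter fun i => p (g i)).card := by
  induction n with
  | zero => simp
  | succ n ih =>
    rw [List.ofFn_succ, List.countP_cons, ih, Fin.card_filter_univ_succ', add_comm]
    simp

theorem ba_tab {α : List ℕ} {n : ℕ} (r c : Fin n → ℕ)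
    (h : tabB α (List.ofFn fun i => (r i, c i)) = true) :
    ∃ t : Tab (Fin n) (fn α), t.r = r ∧ t.c = c := by
  unfold tabB at h
  simp only [Bool.and_eq_true, decide_eq_true_eq, List.all_eq_true, List.length_ofFn] at h
  obtain ⟨⟨⟨h1, h2⟩, h3⟩, h4⟩ := h
  have hp : IsPart (Fintype.card (Fin n)) (fn α) := by
    rw [Fintype.card_fin, ← h2]
    exact isPartL_sound h1
  obtain ⟨t, a1, a2, -⟩ := exists_tab_of hp r c
    (fun i j hr hc => List.nodup_ofFn.1 h3 (Prod.ext hr hc))
    (fun i => h4 (r i, c i) (List.mem_ofFn.2 ⟨i, rfl⟩))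
  exact ⟨t, a1, a2⟩

/-- Induction on `m` (for all `done`), splitting words with `Fin.cons` (`Fin.consEquiv`, `Fintype.piFinset` over `Fin (m+1)`:
`Finset.sum_piFinset_succ`-like lemma `Fin.cons_mem_piFinset_cons`, `Finset.sum_nbij'`), and
`∑_{x ∈ box} zf z x * g x = (z.map fun p => if ltTr p.1 H then p.2 * g p.1 else 0).sum`. -/
theorem evB_eq (z : List (Tr × ℤ)) (m : ℕ) (C H : Fin m → Tr) (done : List (Tr × Tr)) :
    evB z (List.ofFn fun i => (C i, H i)) done =
      ∑ w ∈ Fintype.piFinset (fun i => range (H i).1 ×ˢ range (H i).2.1 ×ˢ range (H i).2.2),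
        (∏ i, zf z (w i)) * (∏ i, (done.map fun d => pf3 d.1 (C i) d.2 (w i)).prod) *
          ∏ i, ∏ j ∈ Iio i, pf3 (C j) (C i) (w j) (w i) := by
  induction m generalizing done with
  | zero => simp [evB]
  | succ m ih =>
    rw [List.ofFn_succ, evB, ba_sum_cons]
    have key : ∀ x : Tr, ∑ w ∈ Fintype.piFinset (fun i : Fin m =>
          range (H i.succ).1 ×ˢ range (H i.succ).2.1 ×ˢ range (H i.succ).2.2),
        (∏ i, zf z ((Fin.cons x w : Fin (m + 1) → Tr) i)) *
          (∏ i, (done.map fun d => pf3 d.1 (C i) d.2 ((Fin.cons x w : Fin (m + 1) → Tr) i)).prod) *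
          ∏ i, ∏ j ∈ Iio i, pf3 (C j) (C i) ((Fin.cons x w : Fin (m + 1) → Tr) j)
            ((Fin.cons x w : Fin (m + 1) → Tr) i) =
        zf z x * (sgnTo (C 0) x done *
          evB z (List.ofFn fun i : Fin m => (C i.succ, H i.succ)) ((C 0, x) :: done)) := by
      intro x
      rw [ih (fun i => C i.succ) (fun i => H i.succ), sgnTo_eq, Finset.mul_sum, Finset.mul_sum]
      refine Finset.sum_congr rfl fun w _ => ?_
      rw [Fin.prod_univ_succ, Fin.prod_univ_succ, Fin.prod_univ_succ, ba_prod_Iio_zero]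
      simp only [ba_prod_Iio_succ, Fin.cons_zero, Fin.cons_succ, List.map_cons, List.prod_cons,
        Finset.prod_mul_distrib]
      ring
    rw [Finset.sum_congr rfl fun x _ => key x, ba_zf]
    congr 1
    refine List.map_congr_left fun p _ => ?_
    by_cases h : ltTr p.1 (H 0) = true
    · rw [if_pos h, if_pos ((ba_ltTr _ _).1 h)]
      split_ifs with h0
      · rw [h0, zero_mul, mul_zero]
      · ring
    · rw [if_neg h, if_neg fun h' => h ((ba_ltTr _ _).2 h')]

/-- `exists_tab_of` on `Fin cells.length`. -/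
theorem tabB_sound {α : List ℕ} {cells : List (ℕ × ℕ)} (h : tabB α cells = true) :
    ∃ t : Tab (Fin cells.length) (fn α), ∀ i, t.r i = (cells.get i).1 ∧ t.c i = (cells.get i).2 := by
  obtain ⟨t, h1, h2⟩ := ba_tab (α := α) (fun i => (cells.get i).1) (fun i => (cells.get i).2)
    (by rw [show (List.ofFn fun i => ((cells.get i).1, (cells.get i).2)) = cells from
      List.ofFn_get cells]; exact h)
  exact ⟨t, fun i => ⟨congrFun h1 i, congrFun h2 i⟩⟩

/-- `evB_eq` with `done = []`, split the words of triples into three words, `alt_eps` three times: the value is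
`± alt t1 (alt t2 (alt t3 ∏ zf))`; `pos_of_eval`.  (Transport the three tableaux to `Fin cells.length` with `Tab.exists_relabel` and `finCongr`.) -/
theorem base_sound {a b c : List ℕ} {cells : List (Tr × Tr)} {z : List (Tr × ℤ)}
    (h : baseOK a b c cells z = true) : Pos (fn a) (fn b) (fn c) := by
  obtain ⟨n, g, rfl⟩ : ∃ (n : ℕ) (g : Fin n → Tr × Tr), cells = List.ofFn g :=
    ⟨_, cells.get, (List.ofFn_get cells).symm⟩
  unfold baseOK at h
  simp only [Bool.and_eq_true, decide_eq_true_eq, List.map_ofFn] at h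
  obtain ⟨⟨⟨h1, h2⟩, h3⟩, h4⟩ := h
  obtain ⟨t1, r1, c1⟩ := ba_tab (fun i => (g i).1.1) (fun i => (g i).2.1) h1
  obtain ⟨t2, r2, c2⟩ := ba_tab (fun i => (g i).1.2.1) (fun i => (g i).2.2.1) h2
  obtain ⟨t3, r3, c3⟩ := ba_tab (fun i => (g i).1.2.2) (fun i => (g i).2.2.2) h3
  obtain ⟨H1, e1⟩ : ∃ H1 : Fin n → ℕ, ∀ i, H1 i = (univ.filter fun j => t1.c j = t1.c i).card :=
    ⟨_, fun _ => rfl⟩
  obtain ⟨H2, e2⟩ : ∃ H2 : Fin n → ℕ, ∀ i, H2 i = (univ.filter fun j => t2.c j = t2.c i).card :=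
    ⟨_, fun _ => rfl⟩
  obtain ⟨H3, e3⟩ : ∃ H3 : Fin n → ℕ, ∀ i, H3 i = (univ.filter fun j => t3.c j = t3.c i).card :=
    ⟨_, fun _ => rfl⟩
  have h5 : evB z (List.ofFn fun i => ((t1.c i, t2.c i, t3.c i), (H1 i, H2 i, H3 i))) [] ≠ 0 := by
    convert h4 using 4 with i
    simp only [Function.comp_apply, ba_countP, e1, e2, e3, c1, c2, c3]
  rw [evB_eq, ba_sum_pair] at h5
  refine pos_of_eval t1 t2 t3 (fun x y w => (zf z (x, y, w) : ℂ)) fun h0 => h5 ?_
  have h6 : ((∑ x ∈ Fintype.piFinset (fun i => range (H1 i)),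
      ∑ y ∈ Fintype.piFinset (fun i => range (H2 i)), ∑ w ∈ Fintype.piFinset (fun i => range (H3 i)),
        sW t1.c x * (sW t2.c y * (sW t3.c w * ∏ i, zf z (x i, y i, w i))) : ℤ) : ℂ) = 0 := by
    push_cast
    simp only [← Finset.mul_sum]
    have k3 : ∀ x y : Fin n → ℕ, ∑ w ∈ Fintype.piFinset (fun i => range (H3 i)),
        (sW t3.c w : ℂ) * ∏ i, (zf z (x i, y i, w i) : ℂ) =
        (sW t3.c t3.r : ℂ) * alt t3 fun w => ∏ i, (zf z (x i, y i, w i) : ℂ) :=
      fun x y => alt_eps t3 H3 e3 _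
    have k2 : ∀ x : Fin n → ℕ, ∑ y ∈ Fintype.piFinset (fun i => range (H2 i)),
        (sW t2.c y : ℂ) * ((sW t3.c t3.r : ℂ) * alt t3 fun w => ∏ i, (zf z (x i, y i, w i) : ℂ)) =
        (sW t3.c t3.r : ℂ) * ((sW t2.c t2.r : ℂ) *
          alt t2 fun y => alt t3 fun w => ∏ i, (zf z (x i, y i, w i) : ℂ)) := by
      intro x
      rw [← alt_eps t2 H2 e2, Finset.mul_sum]
      exact Finset.sum_congr rfl fun y _ => by ring
    have k1 : ∑ x ∈ Fintype.piFinset (fun i => range (H1 i)),
        (sW t1.c x : ℂ) * ((sW t3.c t3.r : ℂ) * ((sW t2.c t2.r : ℂ) *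
          alt t2 fun y => alt t3 fun w => ∏ i, (zf z (x i, y i, w i) : ℂ))) =
        (sW t3.c t3.r : ℂ) * ((sW t2.c t2.r : ℂ) * ((sW t1.c t1.r : ℂ) *
          alt t1 fun x => alt t2 fun y => alt t3 fun w => ∏ i, (zf z (x i, y i, w i) : ℂ))) := by
      rw [← alt_eps t1 H1 e1, Finset.mul_sum, Finset.mul_sum]
      exact Finset.sum_congr rfl fun y _ => by ring
    simp only [k3, k2, k1, h0, mul_zero]
  have h7 := Int.cast_eq_zero.1 h6
  rw [← h7]
  refine Finset.sum_congr rfl fun x _ => ?_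
  rw [ba_sum_pair]
  refine Finset.sum_congr rfl fun y _ => Finset.sum_congr rfl fun w _ => ?_
  simp only [List.map_nil, List.prod_nil, Finset.prod_const_one, mul_one, pf3, sW,
    Finset.prod_mul_distrib]
  ring

end Crest.Agent.R195
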