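import Crest.Agent.R195.Defs

/-!
# Row 195: basic API for `colGrp`, `sg`, `altw`
All proofs are reindexings of finite sums over the group `colGrp c`.
-/

set_option autoImplicit false

namespace Crest.Agent.R195

open Finset

variable {ι ι' : Type} [Fintype ι] [DecidableEq ι] [Fintype ι'] [DecidableEq ι']
variable {M N : Type*} [AddCommGroup M] [AddCommGroup N]

omit [DecidableEq ι] [DecidableEq ι'] in
theorem bs_exists_perm_of_card {τ : Type*} [DecidableEq τ] (f : ι → τ) (g : ι' → τ)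
    (h : ∀ k, (univ.filter fun i => f i = k).card = (univ.filter fun i => g i = k).card) :
    ∃ e : ι ≃ ι', f = g ∘ e := by
  classical
  have hc : ∀ k, Fintype.card {a // f a = k} = Fintype.card {b // g b = k} := fun k => by
    rw [Fintype.card_subtype, Fintype.card_subtype]
    exact h k
  refine ⟨Equiv.ofFiberEquiv (f := f) (g := g) fun k => Fintype.equivOfCardEq (hc k), ?_⟩
  funext a
  exact (Equiv.ofFiberEquiv_map _ a).symm

theorem mem_colGrp {c : ι → ℕ} {σ : Equiv.Perm ι} : σ ∈ colGrp c ↔ ∀ i, c (σ i) = c i := by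
  simp [colGrp]

theorem one_mem_colGrp (c : ι → ℕ) : (1 : Equiv.Perm ι) ∈ colGrp c := by
  simp [mem_colGrp]

theorem mul_mem_colGrp {c : ι → ℕ} {σ τ : Equiv.Perm ι} (hσ : σ ∈ colGrp c) (hτ : τ ∈ colGrp c) :
    σ * τ ∈ colGrp c := by
  rw [mem_colGrp] at *
  intro i
  rw [Equiv.Perm.mul_apply, hσ, hτ]

theorem inv_mem_colGrp {c : ι → ℕ} {σ : Equiv.Perm ι} (hσ : σ ∈ colGrp c) : σ⁻¹ ∈ colGrp c := by
  rw [mem_colGrp] at *
  intro i
  have := hσ (σ⁻¹ i)
  simpa using this.symm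

theorem swap_mem_colGrp {c : ι → ℕ} {i j : ι} (h : c i = c j) : Equiv.swap i j ∈ colGrp c := by
  rw [mem_colGrp]
  intro k
  rw [Equiv.swap_apply_def]
  split_ifs with h1 h2
  · rw [h1, h]
  · rw [h2, h]
  · rfl

theorem colGrp_congr {c c' : ι → ℕ} (h : ∀ i j, c i = c j ↔ c' i = c' j) :
    colGrp c = colGrp c' := by
  ext σ
  simp only [mem_colGrp, h]

theorem sg_one : sg (1 : Equiv.Perm ι) = 1 := by simp [sg]

theorem sg_mul (σ τ : Equiv.Perm ι) : sg (σ * τ) = sg σ * sg τ := by simp [sg]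

theorem sg_inv (σ : Equiv.Perm ι) : sg σ⁻¹ = sg σ := by simp [sg]

theorem sg_mul_self (σ : Equiv.Perm ι) : sg σ * sg σ = 1 := by
  unfold sg
  rw [← Units.val_mul, Int.units_mul_self]; rfl

theorem sg_swap {i j : ι} (h : i ≠ j) : sg (Equiv.swap i j) = -1 := by
  simp [sg, Equiv.Perm.sign_swap h]

theorem altw_congr {c w : ι → ℕ} {F F' : (ι → ℕ) → M}
    (h : ∀ σ ∈ colGrp c, F (w ∘ σ) = F' (w ∘ σ)) : altw c w F = altw c w F' :=
  Finset.sum_congr rfl fun σ hσ => by rw [h σ hσ]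

theorem altw_colGrp {c c' : ι → ℕ} (h : colGrp c = colGrp c') (w : ι → ℕ) (F : (ι → ℕ) → M) :
    altw c w F = altw c' w F := by
  unfold altw; rw [h]

theorem altw_zero (c w : ι → ℕ) : altw c w (fun _ => (0 : M)) = 0 := by simp [altw]

theorem altw_add (c w : ι → ℕ) (F F' : (ι → ℕ) → M) :
    altw c w (fun x => F x + F' x) = altw c w F + altw c w F' := by
  simp [altw, Finset.sum_add_distrib]

theorem altw_sum {κ : Type*} (s : Finset κ) (c w : ι → ℕ) (F : κ → (ι → ℕ) → M) :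
    altw c w (fun x => ∑ k ∈ s, F k x) = ∑ k ∈ s, altw c w (F k) := by
  unfold altw
  simp only [Finset.smul_sum]
  exact Finset.sum_comm

theorem map_altw {Φ : Type*} [FunLike Φ M N] [AddMonoidHomClass Φ M N] (f : Φ) (c w : ι → ℕ)
    (F : (ι → ℕ) → M) : f (altw c w F) = altw c w (fun x => f (F x)) := by
  unfold altw
  rw [map_sum]
  exact Finset.sum_congr rfl fun σ _ => map_zsmul f _ _

theorem altw_smul {R : Type*} [Semiring R] [Module R M] (a : R) (c w : ι → ℕ) (F : (ι → ℕ) → M) :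
    altw c w (fun x => a • F x) = a • altw c w F := by
  unfold altw
  rw [Finset.smul_sum]
  exact Finset.sum_congr rfl fun σ _ => smul_comm _ _ _

theorem altw_mul_left {R : Type*} [Ring R] (a : R) (c w : ι → ℕ) (F : (ι → ℕ) → R) :
    altw c w (fun x => a * F x) = a * altw c w F :=
  altw_smul a c w F

theorem altw_mul_right {R : Type*} [Ring R] (a : R) (c w : ι → ℕ) (F : (ι → ℕ) → R) :
    altw c w (fun x => F x * a) = altw c w F * a := by
  unfold altw
  rw [Finset.sum_mul]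
  exact Finset.sum_congr rfl fun σ _ => (smul_mul_assoc _ _ _).symm

/-- Fubini. -/
theorem altw_comm (c w : ι → ℕ) (c' w' : ι' → ℕ) (F : (ι → ℕ) → (ι' → ℕ) → M) :
    altw c w (fun a => altw c' w' (fun b => F a b)) =
      altw c' w' (fun b => altw c w (fun a => F a b)) := by
  unfold altw
  simp only [Finset.smul_sum]
  rw [Finset.sum_comm]
  exact Finset.sum_congr rfl fun σ _ => Finset.sum_congr rfl fun τ _ => smul_comm _ _ _

/-- Reindex `τ ↦ σ * τ`. -/
theorem altw_comp_word {c : ι → ℕ} {σ : Equiv.Perm ι} (hσ : σ ∈ colGrp c) (w : ι → ℕ)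
    (F : (ι → ℕ) → M) : altw c (w ∘ σ) F = sg σ • altw c w F := by
  unfold altw
  rw [Finset.smul_sum]
  refine Finset.sum_nbij' (fun τ => σ * τ) (fun ρ => σ⁻¹ * ρ) ?_ ?_ ?_ ?_ ?_
  · intro τ hτ; exact mul_mem_colGrp hσ hτ
  · intro ρ hρ; exact mul_mem_colGrp (inv_mem_colGrp hσ) hρ
  · intro τ _; simp
  · intro ρ _; simp
  · intro τ _
    rw [smul_smul, sg_mul, ← mul_assoc, sg_mul_self, one_mul]
    rfl

/-- Reindex `τ ↦ τ * σ`. -/
theorem altw_comp_fun {c : ι → ℕ} {σ : Equiv.Perm ι} (hσ : σ ∈ colGrp c) (w : ι → ℕ)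
    (F : (ι → ℕ) → M) : altw c w (fun x => F (x ∘ σ)) = sg σ • altw c w F := by
  unfold altw
  rw [Finset.smul_sum]
  refine Finset.sum_nbij' (fun τ => τ * σ) (fun ρ => ρ * σ⁻¹) ?_ ?_ ?_ ?_ ?_
  · intro τ hτ; exact mul_mem_colGrp hτ hσ
  · intro ρ hρ; exact mul_mem_colGrp hρ (inv_mem_colGrp hσ)
  · intro τ _; simp
  · intro ρ _; simp
  · intro τ _
    rw [smul_smul, sg_mul, mul_comm (sg τ), ← mul_assoc, sg_mul_self, one_mul]
    rfl

/-- Relabelling along `e` (reindex by `Equiv.permCongr e`, `Equiv.Perm.sign_permCongr`). -/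
theorem altw_relabel (e : ι ≃ ι') (c w : ι' → ℕ) (F : (ι' → ℕ) → M) :
    altw c w F = altw (c ∘ e) (w ∘ e) (fun x => F (x ∘ e.symm)) := by
  unfold altw
  symm
  refine Finset.sum_nbij' (fun τ => e.permCongr τ) (fun ρ => e.symm.permCongr ρ) ?_ ?_ ?_ ?_ ?_
  · intro τ hτ
    rw [mem_colGrp] at hτ ⊢
    intro i
    have := hτ (e.symm i)
    simpa [Equiv.permCongr_apply] using this
  · intro ρ hρ
    rw [mem_colGrp] at hρ ⊢
    intro i
    have := hρ (e i)
    simpa [Equiv.permCongr_apply] using this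
  · intro τ _
    ext i
    simp [Equiv.permCongr_apply]
  · intro ρ _
    ext i
    simp [Equiv.permCongr_apply]
  · intro τ _
    have h1 : sg (e.permCongr τ) = sg τ := by simp [sg]
    rw [h1]
    rfl

/-- A word with a repeated value in a column is killed
(`Finset.sum_involution` with `σ ↦ swap i j * σ`). -/
theorem altw_eq_zero_word {c w : ι → ℕ} {i j : ι} (hij : i ≠ j) (hc : c i = c j) (hw : w i = w j)
    (F : (ι → ℕ) → M) : altw c w F = 0 := by
  unfold altw
  have hws : w ∘ Equiv.swap i j = w := by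
    funext k
    simp only [Function.comp_apply, Equiv.swap_apply_def]
    split_ifs with h1 h2
    · rw [h1, hw]
    · rw [h2, hw]
    · rfl
  refine Finset.sum_involution (fun σ _ => Equiv.swap i j * σ) ?_ ?_ ?_ ?_
  · intro σ _
    have h1 : w ∘ ⇑(Equiv.swap i j * σ) = w ∘ σ := by
      rw [Equiv.Perm.coe_mul, ← Function.comp_assoc, hws]
    rw [h1, sg_mul, sg_swap hij, ← add_smul]
    simp
  · intro σ _ _ h
    have h1 : Equiv.swap i j = 1 := mul_eq_right.mp h
    exact hij (Equiv.swap_eq_one_iff.mp h1)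
  · intro σ hσ
    exact mul_mem_colGrp (swap_mem_colGrp hc) hσ
  · intro σ _
    simp

/-- A function symmetric in two letters of a column is killed
(`Finset.sum_involution` with `σ ↦ σ * swap i j`). -/
theorem altw_eq_zero_fun {c : ι → ℕ} {i j : ι} (hij : i ≠ j) (hc : c i = c j) (w : ι → ℕ)
    {F : (ι → ℕ) → M} (hF : ∀ σ ∈ colGrp c, F (w ∘ σ ∘ Equiv.swap i j) = F (w ∘ σ)) :
    altw c w F = 0 := by
  unfold altw
  refine Finset.sum_involution (fun σ _ => σ * Equiv.swap i j) ?_ ?_ ?_ ?_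
  · intro σ hσ
    have h1 : F (w ∘ ⇑(σ * Equiv.swap i j)) = F (w ∘ σ) := by
      rw [Equiv.Perm.coe_mul]; exact hF σ hσ
    rw [h1, sg_mul, sg_swap hij, ← add_smul]
    simp
  · intro σ _ _ h
    have h1 : Equiv.swap i j = 1 := mul_eq_left.mp h
    exact hij (Equiv.swap_eq_one_iff.mp h1)
  · intro σ hσ
    exact mul_mem_colGrp hσ (swap_mem_colGrp hc)
  · intro σ _
    simp

/-- If all columns are singletons the group is trivial. -/
theorem altw_of_injective {c : ι → ℕ} (hc : Function.Injective c) (w : ι → ℕ) (F : (ι → ℕ) → M) :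
    altw c w F = F w := by
  have h1 : colGrp c = {1} := by
    ext σ
    rw [mem_colGrp, Finset.mem_singleton]
    constructor
    · intro h
      ext i
      exact hc (h i)
    · rintro rfl i
      rfl
  unfold altw
  rw [h1, Finset.sum_singleton, sg_one, one_smul]
  rfl

/-- The part of the sum over those `σ ∈ colGrp c` that map the second summand into itself is the
iterated antisymmetrisation (bijection `(σ₁, σ₂) ↦ Equiv.sumCongr σ₁ σ₂`,
`Equiv.Perm.sign_sumCongr`, `Equiv.Perm.mem_sumCongrHom_range_of_perm_mapsTo_inl` or directly). -/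
theorem sum_block (c w : ι ⊕ ι' → ℕ) (F : (ι ⊕ ι' → ℕ) → M) :
    ∑ σ ∈ (colGrp c).filter (fun σ => ∀ j : ι', (σ (Sum.inr j)).isRight = true), sg σ • F (w ∘ σ) =
      altw (c ∘ Sum.inl) (w ∘ Sum.inl) fun a =>
        altw (c ∘ Sum.inr) (w ∘ Sum.inr) fun b => F (Sum.elim a b) := by
  unfold altw
  simp only [Finset.smul_sum]
  rw [← Finset.sum_product']
  symm
  refine Finset.sum_bij (fun p _ => Equiv.sumCongr p.1 p.2) ?_ ?_ ?_ ?_
  · rintro ⟨σ1, σ2⟩ hp
    rw [Finset.mem_product, mem_colGrp, mem_colGrp] at hp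
    rw [Finset.mem_filter, mem_colGrp]
    refine ⟨?_, fun j => by simp⟩
    rintro (i | j)
    · simpa using hp.1 i
    · simpa using hp.2 j
  · rintro ⟨σ1, σ2⟩ _ ⟨τ1, τ2⟩ _ h
    have h1 : ∀ i, σ1 i = τ1 i := fun i => by
      have := congrArg (fun e : Equiv.Perm (ι ⊕ ι') => e (Sum.inl i)) h
      simpa using this
    have h2 : ∀ j, σ2 j = τ2 j := fun j => by
      have := congrArg (fun e : Equiv.Perm (ι ⊕ ι') => e (Sum.inr j)) h
      simpa using this
    exact Prod.ext (Equiv.ext h1) (Equiv.ext h2)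
  · intro σ hσ
    rw [Finset.mem_filter, mem_colGrp] at hσ
    have hr : Set.MapsTo σ (Set.range Sum.inr) (Set.range Sum.inr) := by
      rintro _ ⟨j, rfl⟩
      obtain ⟨k, hk⟩ := Sum.isRight_iff.mp (hσ.2 j)
      exact ⟨k, hk.symm⟩
    have hl := (Equiv.Perm.perm_mapsTo_inl_iff_mapsTo_inr σ).mpr hr
    obtain ⟨⟨σ1, σ2⟩, hp⟩ := Equiv.Perm.mem_sumCongrHom_range_of_perm_mapsTo_inl hl
    have hp' : Equiv.sumCongr σ1 σ2 = σ := hp
    refine ⟨(σ1, σ2), ?_, hp'⟩
    rw [Finset.mem_product, mem_colGrp, mem_colGrp]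
    refine ⟨fun i => ?_, fun j => ?_⟩
    · have := hσ.1 (Sum.inl i)
      rw [← hp'] at this
      simpa using this
    · have := hσ.1 (Sum.inr j)
      rw [← hp'] at this
      simpa using this
  · rintro ⟨σ1, σ2⟩ _
    have h1 : sg (Equiv.sumCongr σ1 σ2) = sg σ1 * sg σ2 := by
      unfold sg
      have := Equiv.Perm.sign_sumCongr σ1 σ2
      rw [← Units.val_mul, ← this]
    have h2 : w ∘ ⇑(Equiv.sumCongr σ1 σ2) =
        Sum.elim ((w ∘ Sum.inl) ∘ σ1) ((w ∘ Sum.inr) ∘ σ2) := by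
      funext k
      rcases k with i | j <;> simp
    rw [h1, h2, smul_smul]

/-- Disjoint columns: every `σ ∈ colGrp c` preserves the summands; use `sum_block`. -/
theorem altw_sumType (c w : ι ⊕ ι' → ℕ) (h : ∀ i j, c (Sum.inl i) ≠ c (Sum.inr j))
    (F : (ι ⊕ ι' → ℕ) → M) :
    altw c w F = altw (c ∘ Sum.inl) (w ∘ Sum.inl) fun a =>
        altw (c ∘ Sum.inr) (w ∘ Sum.inr) fun b => F (Sum.elim a b) := by
  rw [← sum_block c w F]
  unfold altw
  rw [Finset.filter_true_of_mem]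
  intro σ hσ j
  rw [mem_colGrp] at hσ
  have h1 := hσ (Sum.inr j)
  rcases hk : σ (Sum.inr j) with i | k
  · rw [hk] at h1
    exact absurd h1 (h i j)
  · rfl

/-- Threshold lemma: if `g < 0` on the second summand and `0 ≤ g` on the first (or the strictness
the other way round, apply it to a shifted `g`), then a permutation with
`∑_{j} g (σ (inr j)) ≤ ∑_j g (inr j)` maps the second summand to itself.  (Let `S = σ(ι')`, `T = inr(ι')`,
same cardinality; `∑_S g - ∑_T g = ∑_{S \ T} g - ∑_{T \ S} g > 0` unless `T \ S = ∅`.) -/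
theorem threshold (g : ι ⊕ ι' → ℤ) (h1 : ∀ i, 0 ≤ g (Sum.inl i)) (h2 : ∀ j, g (Sum.inr j) < 0)
    (σ : Equiv.Perm (ι ⊕ ι')) :
    ∑ j, g (Sum.inr j) ≤ ∑ j, g (σ (Sum.inr j)) ∧
      (∑ j, g (σ (Sum.inr j)) ≤ ∑ j, g (Sum.inr j) → ∀ j, (σ (Sum.inr j)).isRight = true) := by
  set h : ι ⊕ ι' → ℤ := fun x => min (g x) 0 with hh
  have hl : ∀ i, h (Sum.inl i) = 0 := fun i => min_eq_right (h1 i)
  have hr : ∀ j, h (Sum.inr j) = g (Sum.inr j) := fun j => min_eq_left (h2 j).le
  have e1 : ∑ x, h (σ x) = ∑ j, g (Sum.inr j) := by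
    rw [Equiv.sum_comp σ h, Fintype.sum_sum_type]
    simp [hl, hr]
  have e2 : ∑ x, h (σ x) = ∑ i, h (σ (Sum.inl i)) + ∑ j, h (σ (Sum.inr j)) :=
    Fintype.sum_sum_type _
  have e3 : ∑ j, h (σ (Sum.inr j)) ≤ ∑ j, g (σ (Sum.inr j)) :=
    Finset.sum_le_sum fun j _ => min_le_left _ _
  have e4 : ∀ i, h (σ (Sum.inl i)) ≤ 0 := fun i => min_le_right _ _
  have e5 : ∑ i, h (σ (Sum.inl i)) ≤ 0 := Finset.sum_nonpos fun i _ => e4 i
  refine ⟨by linarith, fun hle j => ?_⟩
  have e6 : ∑ i, h (σ (Sum.inl i)) = 0 := by linarith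
  have e7 : ∀ i, h (σ (Sum.inl i)) = 0 := fun i =>
    (Finset.sum_eq_zero_iff_of_nonpos fun i _ => e4 i).mp e6 i (Finset.mem_univ i)
  have hm : Set.MapsTo σ (Set.range Sum.inl) (Set.range Sum.inl) := by
    rintro _ ⟨i, rfl⟩
    rcases hk : σ (Sum.inl i) with k | k
    · exact ⟨k, rfl⟩
    · have := e7 i
      rw [hk, hr] at this
      exact absurd this (h2 k).ne
  obtain ⟨k, hk⟩ := (Equiv.Perm.perm_mapsTo_inl_iff_mapsTo_inr σ).mp hm ⟨j, rfl⟩
  rw [← hk]
  rfl

/-- A function which changes sign under transpositions inside columns (on a set `P` of words that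
is stable under the column group) transforms by the sign.  Induction on `σ.support.card`
(`Equiv.Perm.card_support_swap_mul`), writing `σ = (swap ..) * σ'` with `σ' ∈ colGrp c`. -/
theorem anti_of_swap {c : ι → ℕ} (P : (ι → ℕ) → Prop)
    (hP : ∀ w, P w → ∀ σ ∈ colGrp c, P (w ∘ σ)) (Φ : (ι → ℕ) → M)
    (hΦ : ∀ w, P w → ∀ i j, i ≠ j → c i = c j → Φ (w ∘ Equiv.swap i j) = -Φ w)
    (w : ι → ℕ) (hw : P w) (σ : Equiv.Perm ι) (hσ : σ ∈ colGrp c) :
    Φ (w ∘ σ) = sg σ • Φ w := by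
  induction hn : σ.support.card using Nat.strong_induction_on generalizing σ w with
  | _ n ih =>
    by_cases h1 : σ = 1
    · subst h1
      rw [sg_one, one_smul]
      rfl
    · obtain ⟨x, hx⟩ : ∃ x, σ x ≠ x := by
        by_contra hcon
        push Not at hcon
        exact h1 (Equiv.ext hcon)
      have hcx : c x = c (σ x) := ((mem_colGrp.mp hσ) x).symm
      have hs : Equiv.swap x (σ x) ∈ colGrp c := swap_mem_colGrp hcx
      have hσ' : Equiv.swap x (σ x) * σ ∈ colGrp c := mul_mem_colGrp hs hσ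
      have hlt := Equiv.Perm.card_support_swap_mul hx
      have key := ih _ (hn ▸ hlt) (w ∘ Equiv.swap x (σ x)) (hP w hw _ hs) _ hσ' rfl
      have e1 : (w ∘ Equiv.swap x (σ x)) ∘ ⇑(Equiv.swap x (σ x) * σ) = w ∘ σ := by
        funext k
        simp
      rw [e1, hΦ w hw x (σ x) hx.symm hcx, sg_mul, sg_swap hx.symm] at key
      rw [key]
      simp

/-- Two monomials agree iff the exponent words agree up to a permutation
(compare `Finsupp`s / multisets `univ.val.map f`; build `π` fibrewise with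
`Equiv.ofFiberEquiv` and `Fintype.equivOfCardEq`). -/
theorem prod_X_eq_iff {τ R : Type*} [CommSemiring R] [Nontrivial R] (f g : ι → τ) :
    (∏ i, MvPolynomial.X (f i) : MvPolynomial τ R) = ∏ i, MvPolynomial.X (g i) ↔
      ∃ π : Equiv.Perm ι, f = g ∘ π := by
  classical
  constructor
  · intro h
    have e : ∀ u : ι → τ, (∏ i, MvPolynomial.X (u i) : MvPolynomial τ R) =
        MvPolynomial.monomial (∑ i, Finsupp.single (u i) 1) 1 := fun u => by
      rw [MvPolynomial.monomial_sum_one]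
      rfl
    rw [e, e] at h
    have h' := MvPolynomial.monomial_left_injective (one_ne_zero (α := R)) h
    refine bs_exists_perm_of_card f g fun k => ?_
    have := congrArg (fun s : τ →₀ ℕ => s k) h'
    simp only [Finsupp.finset_sum_apply, Finsupp.single_apply] at this
    rw [Finset.card_filter, Finset.card_filter]
    exact this
  · rintro ⟨π, rfl⟩
    exact Equiv.prod_comp π fun i => (MvPolynomial.X (g i) : MvPolynomial τ R)

/-- Words with the same content differ by a permutation. -/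
theorem exists_perm_of_card {τ : Type*} [DecidableEq τ] (f : ι → τ) (g : ι' → τ)
    (h : ∀ k, (univ.filter fun i => f i = k).card = (univ.filter fun i => g i = k).card) :
    ∃ e : ι ≃ ι', f = g ∘ e := by
  exact bs_exists_perm_of_card f g h

end Crest.Agent.R195
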