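import Crest.Agent.R195.Fam1

/-!
# Row 195: strips and doubles
-/

set_option autoImplicit false

namespace Crest.Agent.R195

open Finset

theorem hs_diag {ι : Type} [Fintype ι] [DecidableEq ι] (c c' w : ι → ℕ) (hcc : colGrp c' = colGrp c)
    (hinj : ∀ i j, w i = w j → c i = c j → i = j) (Φ : (ι → ℕ) → (ι → ℕ) → ℂ) (v : ℂ)
    (hΦ : ∀ σ τ : Equiv.Perm ι, Φ (w ∘ σ) (w ∘ τ) = if w ∘ σ = w ∘ τ then v else 0) :
    altw c w (fun a => altw c' w (fun b => Φ a b)) = ((colGrp c).card : ℂ) * v := by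
  unfold altw
  rw [hcc]
  have : ∀ σ ∈ colGrp c, sg σ • ∑ τ ∈ colGrp c, sg τ • Φ (w ∘ σ) (w ∘ τ) = v := by
    intro σ hσ
    rw [Finset.sum_eq_single_of_mem σ hσ]
    · rw [hΦ, if_pos rfl, smul_smul, sg_mul_self, one_smul]
    · intro τ hτ hne
      rw [hΦ, if_neg, smul_zero]
      intro h
      apply hne
      ext i
      exact hinj _ _ (congrFun h i).symm ((mem_colGrp.1 hτ i).trans (mem_colGrp.1 hσ i).symm)
  rw [Finset.sum_congr rfl this, Finset.sum_const, nsmul_eq_mul]

theorem hs_card_ne {ι : Type} [Fintype ι] [DecidableEq ι] (c : ι → ℕ) : ((colGrp c).card : ℂ) ≠ 0 :=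
  Nat.cast_ne_zero.2 (Finset.card_ne_zero.2 ⟨1, one_mem_colGrp c⟩)

theorem hs_prod_ite {ι : Type} [Fintype ι] [DecidableEq ι] (a b : ι → ℕ) (v : ι → ℂ) :
    ∏ i, (if a i = b i then v i else 0) = if a = b then ∏ i, v i else 0 := by
  split_ifs with h
  · subst h
    simp
  · obtain ⟨i, hi⟩ := Function.ne_iff.1 h
    exact Finset.prod_eq_zero (mem_univ i) (if_neg hi)

theorem hs_fn_rep (h c a : ℕ) : fn (List.replicate c h) a = if a < c then h else 0 := by
  unfold fn
  split_ifs with ha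
  · simp [List.getD_eq_getElem?_getD, ha]
  · simp [List.getD_eq_getElem?_getD, ha]

theorem hs_part_rep (h c : ℕ) : IsPart (c * h) (fn (List.replicate c h)) := by
  refine isPart_of (N := c) (fun a b hab => ?_) (by simp [hs_fn_rep]) ?_
  · rw [hs_fn_rep, hs_fn_rep]
    split_ifs <;> omega
  · rw [Finset.sum_congr rfl fun a ha => by rw [hs_fn_rep, if_pos (mem_range.1 ha)]]
    simp

/-- All letters have colour `0` and `card ι = c * h`.  Take `t1` standard of shape `fn (replicate c h)` (`exists_tab`), `t2` with the same rows and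
columns `h - 1 - t1.c` (`exists_tab_of`; same column group), `z a b k = if a = b then x 0 k else 0`.  Then
`ev2 t1 t2 z c = |C| * ∏ x 0 (c i)` (`Tab.eq_of_comp_eq`, `sg_mul_self`) with `|C| ≠ 0`. -/
theorem has_strip (h c : ℕ) : Has (Piece.strip h c).A [c * h] := by
  intro ι _ _ col hcol x
  have h0 : ∀ i, col i = 0 := by
    intro i
    by_contra hi
    have h1 := hcol (col i)
    obtain ⟨k, hk⟩ := Nat.exists_eq_succ_of_ne_zero hi
    have h2 : fn [c * h] (col i) = 0 := by rw [hk]; simp [fn]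
    rw [h2, Finset.card_eq_zero] at h1
    have : i ∈ univ.filter fun j => col j = col i := by simp
    rw [h1] at this
    simp at this
  have hcard : Fintype.card ι = c * h := by
    have h1 := hcol 0
    simpa [h0, fn] using h1
  have hp : IsPart (Fintype.card ι) (fn (List.replicate c h)) := hcard ▸ hs_part_rep h c
  obtain ⟨t1, ht1⟩ := exists_tab hp
  have hlt : ∀ i, t1.c i < h ∧ fn (List.replicate c h) (t1.r i) = h := by
    intro i
    have := ht1 i
    rw [hs_fn_rep] at this ⊢
    split_ifs at this ⊢ <;> omega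
  obtain ⟨t2, hr2, hc2, ht2⟩ := exists_tab_of hp t1.r (fun i => h - 1 - t1.c i)
    (fun i j h1 h2 => t1.inj i j h1 (by have := hlt i; have := hlt j; omega))
    (fun i => by have := hlt i; omega)
  have hmem := ev2_mem (lo := h - 1) (U := h) t1 t2 ht1 ht2
    (fun i => by rw [hc2]; have := hlt i; dsimp only; omega) (fun a b k => if a = b then x 0 k else 0)
  have hG : colGrp t2.c = colGrp t1.c := by
    rw [hc2]
    exact colGrp_congr fun i j => by have := hlt i; have := hlt j; omega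
  have key : (fun cc : ι → ℕ => ∏ i, x (col i) (cc i)) = (((colGrp t1.c).card : ℂ))⁻¹ •
      evw t1.c t1.r t2.c t2.r (fun a b k => if a = b then x 0 k else 0) := by
    funext cc
    rw [Pi.smul_apply, evw, hr2, hs_diag t1.c t2.c t1.r hG t1.inj _ (∏ i, x 0 (cc i))
      fun σ τ => hs_prod_ite _ _ _, smul_eq_mul, inv_mul_cancel_left₀ (hs_card_ne _)]
    simp [h0]
  rw [key]
  exact Submodule.smul_mem _ _ hmem

/-- The product of the swaps selected by `s`. -/
def hs_perm {ι0 : Type} [Fintype ι0] [DecidableEq ι0] (s : ι0 → Bool) : Equiv.Perm (ι0 ⊕ ι0) :=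
  (Equiv.boolProdEquivSum ι0).permCongr
    (Equiv.prodCongrLeft fun j => if s j then Equiv.swap false true else (1 : Equiv.Perm Bool))

theorem hs_perm_inl {ι0 : Type} [Fintype ι0] [DecidableEq ι0] (s : ι0 → Bool) (j : ι0) :
    hs_perm s (Sum.inl j) = if s j then Sum.inr j else Sum.inl j := by
  cases h : s j <;> simp [hs_perm, h]

theorem hs_perm_inr {ι0 : Type} [Fintype ι0] [DecidableEq ι0] (s : ι0 → Bool) (j : ι0) :
    hs_perm s (Sum.inr j) = if s j then Sum.inl j else Sum.inr j := by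
  cases h : s j <;> simp [hs_perm, h]

theorem hs_perm_sg {ι0 : Type} [Fintype ι0] [DecidableEq ι0] (s : ι0 → Bool) :
    sg (hs_perm s) = ∏ j, (if s j then (-1 : ℤ) else 1) := by
  unfold sg hs_perm
  rw [Equiv.Perm.sign_permCongr, Equiv.Perm.sign_prodCongrLeft, Units.coe_prod]
  refine Finset.prod_congr rfl fun j _ => ?_
  cases s j <;> simp

/-- Columns of size two: the column group is `ι0 → Bool` (product of the swaps). -/
theorem altw_pairs {ι0 : Type} [Fintype ι0] [DecidableEq ι0] {M : Type*} [AddCommGroup M]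
    (f : ι0 → ℕ) (hf : Function.Injective f) (F : (ι0 ⊕ ι0 → ℕ) → M) :
    altw (Sum.elim f f) (Sum.elim (fun _ => 0) (fun _ => 1)) F =
      ∑ s : ι0 → Bool, (∏ j, (if s j then (-1 : ℤ) else 1)) •
        F (Sum.elim (fun j => if s j then 1 else 0) (fun j => if s j then 0 else 1)) := by
  symm
  unfold altw
  refine Finset.sum_nbij' hs_perm (fun σ j => (σ (Sum.inl j)).isRight) ?_ ?_ ?_ ?_ ?_
  · intro s _
    rw [mem_colGrp]
    rintro (j | j)
    · rw [hs_perm_inl]; split_ifs <;> rfl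
    · rw [hs_perm_inr]; split_ifs <;> rfl
  · intro _ _
    exact mem_univ _
  · intro s _
    funext j
    rw [hs_perm_inl]
    cases s j <;> rfl
  · intro σ hσ
    rw [mem_colGrp] at hσ
    have h1 : ∀ j, σ (Sum.inl j) = Sum.inl j ∨ σ (Sum.inl j) = Sum.inr j := by
      intro j
      have := hσ (Sum.inl j)
      rcases h : σ (Sum.inl j) with k | k <;> rw [h] at this
      · exact Or.inl (congrArg _ (hf this))
      · exact Or.inr (congrArg _ (hf this))
    have h2 : ∀ j, σ (Sum.inr j) = Sum.inl j ∨ σ (Sum.inr j) = Sum.inr j := by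
      intro j
      have := hσ (Sum.inr j)
      rcases h : σ (Sum.inr j) with k | k <;> rw [h] at this
      · exact Or.inl (congrArg _ (hf this))
      · exact Or.inr (congrArg _ (hf this))
    have h3 : ∀ j, σ (Sum.inl j) ≠ σ (Sum.inr j) := fun j h => by simpa using σ.injective h
    ext1 x
    rcases x with j | j
    · rw [hs_perm_inl]
      rcases h1 j with h | h <;> simp [h]
    · rw [hs_perm_inr]
      have := h3 j
      rcases h1 j with h | h <;> rcases h2 j with h' | h' <;> simp_all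
  · intro s _
    rw [hs_perm_sg]
    congr 2
    funext x
    rcases x with j | j
    · simp only [Function.comp_apply, hs_perm_inl, Sum.elim_inl]
      split_ifs <;> rfl
    · simp only [Function.comp_apply, hs_perm_inr, Sum.elim_inr]
      split_ifs <;> rfl

/-- `e : ι0 ≃ Fin q`, rows `0` on the left and `1` on the right copy, columns `e j` and `q - 1 - e j` (`exists_tab_of`), `z = zM Z`;
`altw_pairs` twice and `Finset.prod_univ_sum` (`Fintype.piFinset_univ`). -/
theorem dbl_mem {ι0 : Type} [Fintype ι0] [DecidableEq ι0] (q : ℕ) (hq : Fintype.card ι0 = q)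
    (Z : ℕ → Matrix (Fin 2) (Fin 2) ℂ) :
    (fun c : ι0 ⊕ ι0 → ℕ => ∏ j, Bf (Z (c (Sum.inl j))) (Z (c (Sum.inr j)))) ∈
      (Piece.dbl q).A (ι0 ⊕ ι0) := by
  let e : ι0 ≃ Fin q := Fintype.equivFinOfCardEq hq
  have hp : IsPart (Fintype.card (ι0 ⊕ ι0)) (fn [q, q]) := by
    have := hs_part_rep q 2
    rw [Fintype.card_sum, hq, ← two_mul]
    exact this
  have hf : Function.Injective fun j => (e j : ℕ) := fun i j h => e.injective (Fin.ext h)
  have hg : Function.Injective fun j => q - 1 - (e j : ℕ) := fun i j h => by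
    have := (e i).2
    have := (e j).2
    dsimp only at h
    exact hf (show (e i : ℕ) = e j by omega)
  have mk : ∀ f : ι0 → ℕ, Function.Injective f → (∀ j, f j < q) →
      ∃ t : Tab (ι0 ⊕ ι0) (fn [q, q]), t.r = Sum.elim (fun _ => 0) (fun _ => 1) ∧ t.c = Sum.elim f f ∧ t.Std := by
    intro f hf hlt
    refine exists_tab_of hp _ _ ?_ ?_
    · rintro (i | i) (j | j) h1 h2 <;> simp at h1 h2 ⊢ <;> exact hf h2
    · rintro (i | i) <;> simpa [fn] using hlt i
  obtain ⟨t1, hr1, hc1, ht1⟩ := mk _ hf fun j => (e j).2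
  obtain ⟨t2, hr2, hc2, ht2⟩ := mk _ hg fun j => by have := (e j).2; omega
  have hmem := ev2_mem (lo := q - 1) (U := q) t1 t2 ht1 ht2
    (by
      rw [hc1, hc2]
      rintro (j | j) <;> have := (e j).2 <;> simp only [Sum.elim_inl, Sum.elim_inr] <;> omega) (zM Z)
  change _ ∈ G (fn [q, q]) (q - 1) q (ι0 ⊕ ι0)
  convert hmem using 1
  funext c
  rw [evw, hr1, hc1, hr2, hc2, altw_pairs _ hf]
  simp only [altw_pairs _ hg, Fintype.prod_sum_type, Sum.elim_inl, Sum.elim_inr]
  have : ∀ j, Bf (Z (c (Sum.inl j))) (Z (c (Sum.inr j))) = ∑ u : Bool, ∑ v : Bool,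
      ((if u then (-1 : ℤ) else 1 : ℤ) : ℂ) * (((if v then (-1 : ℤ) else 1 : ℤ) : ℂ) *
        (zM Z (if u then 1 else 0) (if v then 1 else 0) (c (Sum.inl j)) *
          zM Z (if u then 0 else 1) (if v then 0 else 1) (c (Sum.inr j)))) := by
    intro j
    simp [Bf, zM, Fin.ofNat]
    ring
  simp only [this]
  rw [Fintype.prod_sum]
  refine Finset.sum_congr rfl fun s _ => ?_
  rw [Fintype.prod_sum, Finset.smul_sum]
  refine Finset.sum_congr rfl fun s' _ => ?_
  rw [Finset.prod_mul_distrib, Finset.prod_mul_distrib, Finset.prod_mul_distrib, zsmul_eq_mul, zsmul_eq_mul]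
  push_cast
  rfl

theorem Bf_quat (i j : ℕ) (hi : i < 4) (hj : j < 4) :
    Bf (quat i) (quat j) = if i = j then 2 else 0 := by
  interval_cases i <;> interval_cases j <;> simp [Bf, quat] <;> norm_num

/-- Horizontal dominoes.  By `altw_sumType` the sum is over pairs `(σ, σ')` in the common column group `C` of `c ∘ inl` and `c ∘ inr`
(`colGrp_congr`); the term is `sg σ sg σ' ∏ 2·[w (σ j) = w (σ' j)]`, nonzero only for `σ = σ'`; total `|C| 2^q`. -/
theorem dbl_eval {ι0 : Type} [Fintype ι0] [DecidableEq ι0] (c w : ι0 ⊕ ι0 → ℕ) (o : ℕ)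
    (hw : ∀ j, w (Sum.inr j) = w (Sum.inl j)) (hc : ∀ j, c (Sum.inr j) = c (Sum.inl j) + 1)
    (ho : ∀ j, c (Sum.inl j) % 2 = o % 2) (h4 : ∀ x, w x < 4)
    (hinj : ∀ x y, w x = w y → c x = c y → x = y) :
    altw c w (fun w' => ∏ j, Bf (quat (w' (Sum.inl j))) (quat (w' (Sum.inr j)))) ≠ 0 := by
  rw [altw_sumType c w (fun i j h => by
    have := ho i; have := ho j; have := hc j; omega)]
  have e1 : w ∘ Sum.inr = w ∘ Sum.inl := funext hw
  have hG : colGrp (c ∘ Sum.inr) = colGrp (c ∘ Sum.inl) :=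
    colGrp_congr fun i j => by simp only [Function.comp_apply, hc]; omega
  rw [e1, hs_diag (c ∘ Sum.inl) (c ∘ Sum.inr) (w ∘ Sum.inl) hG
    (fun i j h1 h2 => Sum.inl_injective (hinj _ _ h1 h2)) _ (∏ _j : ι0, (2 : ℂ))]
  · exact mul_ne_zero (hs_card_ne _) (by simp)
  · intro σ τ
    rw [← hs_prod_ite]
    refine Finset.prod_congr rfl fun j _ => ?_
    exact Bf_quat _ _ (h4 _) (h4 _)

end Crest.Agent.R195
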