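import Crest.Agent.R195.Gap2
import Crest.Agent.R195.HasS

/-!
# Row 195: Clifford evaluation of path functions
`X ε Yᵀ + Y ε Xᵀ = Bf X Y • ε` and `Xᵀ ε Y + Yᵀ ε X = Bf X Y • ε`.
-/

set_option autoImplicit false

namespace Crest.Agent.R195

open Finset

variable {ι : Type} [Fintype ι] [DecidableEq ι]

theorem cl_adj {Z : ℕ → Matrix (Fin 2) (Fin 2) ℂ} {i j : ℕ} (h : Bf (Z i) (Z j) = 0) (s : Bool)
    (y : List ℕ) : V Z s (i :: j :: y) = -V Z s (j :: i :: y) := by
  have h1 : Z i * eps * (Z j).transpose = -(Z j * eps * (Z i).transpose) ∧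
      (Z i).transpose * eps * Z j = -((Z j).transpose * eps * Z i) := by
    rw [Bf] at h
    constructor <;> ext a b <;> fin_cases a <;> fin_cases b <;>
      simp [eps, Matrix.mul_apply, Fin.sum_univ_two] <;>
      first | ring1 | linear_combination h | linear_combination -h
  cases s <;> simp only [V, ← mul_assoc, h1.1, h1.2, neg_mul]

theorem cl_cons {Z : ℕ → Matrix (Fin 2) (Fin 2) ℂ} {a b : List ℕ} (h : ∀ s, V Z s a = -V Z s b)
    (s : Bool) (k : ℕ) : V Z s (k :: a) = -V Z s (k :: b) := by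
  cases s <;> simp only [V, h, mul_neg]

/-- Adjacent distinct colours anticommute; move `i` to the right past `m` and `j` to the left (induction on `m`, `V_append`). -/
theorem V_swap (Z : ℕ → Matrix (Fin 2) (Fin 2) ℂ) (hZ : Orth Z) (s : Bool) (x m y : List ℕ)
    (i j : ℕ) (hi : i < 4) (hj : j < 4) (hij : i ≠ j) (hm : ∀ k ∈ m, k < 4 ∧ k ≠ i ∧ k ≠ j) :
    V Z s (x ++ j :: (m ++ i :: y)) = -V Z s (x ++ i :: (m ++ j :: y)) := by
  suffices h : ∀ s, V Z s (j :: (m ++ i :: y)) = -V Z s (i :: (m ++ j :: y)) by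
    rw [V_append, V_append, h, mul_neg]
  induction m with
  | nil => exact fun s => cl_adj (hZ j i hj hi hij.symm) s y
  | cons k m ih =>
    obtain ⟨h1, h2, h3⟩ := hm k List.mem_cons_self
    intro s
    rw [List.cons_append, List.cons_append, cl_adj (hZ j k hj h1 h3.symm),
      cl_cons (ih fun a ha => hm a (List.mem_cons_of_mem _ ha)), cl_adj (hZ k i h1 hi h2), neg_neg]

omit [Fintype ι] in
theorem cl_map (w : ι → ℕ) {i j : ι} {l : List ι} (hi : i ∉ l) (hj : j ∉ l) :
    l.map (w ∘ Equiv.swap i j) = l.map w :=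
  List.map_congr_left fun _ hk => congrArg w
    (Equiv.swap_apply_of_ne_of_ne (fun e => hi (e ▸ hk)) fun e => hj (e ▸ hk))

omit [Fintype ι] in
theorem cl_map_swap (Z : ℕ → Matrix (Fin 2) (Fin 2) ℂ) (hZ : Orth Z) (s : Bool) (c w : ι → ℕ)
    (x m y : List ι) (i j : ι) (hl : (x ++ i :: (m ++ j :: y)).Nodup)
    (hs : (x ++ i :: (m ++ j :: y)).Pairwise fun i j => c i ≤ c j) (h4 : ∀ i, w i < 4)
    (hinj : ∀ i j, w i = w j → c i = c j → i = j) (hc : c i = c j) :
    V Z s ((x ++ i :: (m ++ j :: y)).map (w ∘ Equiv.swap i j)) =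
      -V Z s ((x ++ i :: (m ++ j :: y)).map w) := by
  simp only [List.nodup_append, List.nodup_cons, List.mem_append, List.mem_cons, not_or] at hl
  simp only [List.pairwise_append, List.pairwise_cons, List.mem_append, List.mem_cons] at hs
  obtain ⟨-, ⟨⟨h1, h2, h3⟩, -, ⟨h5, -⟩, h6⟩, h7⟩ := hl
  have h8 : j ∉ m := fun h => h6 j h j (Or.inl rfl) rfl
  simp only [List.map_append, List.map_cons, Function.comp_apply, Equiv.swap_apply_left,
    Equiv.swap_apply_right, cl_map w h1 h8, cl_map w h3 h5,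
    cl_map w (fun h => h7 i h i (Or.inl rfl) rfl) fun h => h7 j h j (by simp) rfl]
  refine V_swap Z hZ s _ _ _ _ _ (h4 i) (h4 j) (fun e => h2 (hinj i j e hc)) fun k hk' => ?_
  obtain ⟨k, hk, rfl⟩ := List.mem_map.1 hk'
  have e : c k = c i := le_antisymm (hc ▸ hs.2.1.2.2.2 k hk j (Or.inl rfl)) (hs.2.1.1 k (Or.inl hk))
  exact ⟨h4 k, fun h => h1 (hinj k i h e ▸ hk), fun h => h8 (hinj k j h (e.trans hc) ▸ hk)⟩

/-- Write `l = x ++ i :: (m ++ j :: y)` (or with `i`, `j` exchanged); the letters of `m` lie in the same column. -/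
theorem V_map_swap (Z : ℕ → Matrix (Fin 2) (Fin 2) ℂ) (hZ : Orth Z) (s : Bool) (c w : ι → ℕ)
    (l : List ι) (hl : l.Nodup) (hs : l.Pairwise fun i j => c i ≤ c j) (h4 : ∀ i, w i < 4)
    (hinj : ∀ i j, w i = w j → c i = c j → i = j) (i j : ι) (hi : i ∈ l) (hj : j ∈ l)
    (hij : i ≠ j) (hc : c i = c j) :
    V Z s (l.map (w ∘ Equiv.swap i j)) = -V Z s (l.map w) := by
  obtain ⟨x, r, rfl⟩ := List.append_of_mem hi
  rcases List.mem_append.1 hj with h | h
  · obtain ⟨x, m, rfl⟩ := List.append_of_mem h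
    rw [List.append_assoc, List.cons_append] at *
    rw [Equiv.swap_comm]
    exact cl_map_swap Z hZ s c w x m r j i hl hs h4 hinj hc.symm
  · obtain ⟨m, y, rfl⟩ := List.append_of_mem ((List.mem_cons.1 h).resolve_left hij.symm)
    exact cl_map_swap Z hZ s c w x m y i j hl hs h4 hinj hc

theorem cl_alt (c w : ι → ℕ) (Φ : (ι → ℕ) → ℂ) (h4 : ∀ i, w i < 4)
    (hinj : ∀ i j, w i = w j → c i = c j → i = j)
    (hΦ : ∀ w : ι → ℕ, (∀ i, w i < 4) → (∀ i j, w i = w j → c i = c j → i = j) → ∀ i j, i ≠ j →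
      c i = c j → Φ (w ∘ Equiv.swap i j) = -Φ w) : altw c w Φ = ((colGrp c).card : ℂ) * Φ w := by
  rw [altw, ← nsmul_eq_mul, ← sum_const]
  refine sum_congr rfl fun σ hσ => ?_
  rw [anti_of_swap (fun w => (∀ i, w i < 4) ∧ ∀ i j, w i = w j → c i = c j → i = j)
    (fun w hw τ hτ => ⟨fun i => hw.1 _, fun i j e e' => τ.injective (hw.2 _ _ e
      (by rw [mem_colGrp.1 hτ, mem_colGrp.1 hτ, e']))⟩) Φ (fun w hw => hΦ w hw.1 hw.2) w
    ⟨h4, hinj⟩ σ hσ, smul_smul, sg_mul_self, one_smul]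

theorem cl_O {Z : ℕ → Matrix (Fin 2) (Fin 2) ℂ} {a b : List ℕ} (h : V Z false a = -V Z false b) :
    O Z false e0 e0 a = -O Z false e0 e0 b := by
  rw [O, O, h, neg_mul, Matrix.neg_mulVec, dotProduct_neg]

/-- `anti_of_swap`, `sg_mul_self`. -/
theorem cliff_alt (Z : ℕ → Matrix (Fin 2) (Fin 2) ℂ) (hZ : Orth Z) (c w : ι → ℕ) (l : List ι)
    (hl : Enum l) (hs : l.Pairwise fun i j => c i ≤ c j) (h4 : ∀ i, w i < 4)
    (hinj : ∀ i j, w i = w j → c i = c j → i = j) :
    altw c w (fun w' => O Z false e0 e0 (l.map w')) =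
      ((colGrp c).card : ℂ) * O Z false e0 e0 (l.map w) := by
  exact cl_alt c w _ h4 hinj fun w h4 hinj i j hij hc =>
    cl_O (V_map_swap Z hZ false c w l hl.1 hs h4 hinj i j (hl.2 i) (hl.2 j) hij hc)

/-- Two letters of one column lie both in `A` or both in `B`; the other factor does not change. -/
theorem cliff_alt2 (Z : ℕ → Matrix (Fin 2) (Fin 2) ℂ) (hZ : Orth Z) (c w : ι → ℕ) (A B : List ι)
    (hl : Enum (A ++ B)) (hA : A.Pairwise fun i j => c i ≤ c j)
    (hB : B.Pairwise fun i j => c i ≤ c j) (hAB : ∀ i ∈ A, ∀ j ∈ B, c i ≠ c j) (h4 : ∀ i, w i < 4)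
    (hinj : ∀ i j, w i = w j → c i = c j → i = j) :
    altw c w (fun w' => O Z false e0 e0 (A.map w') * O Z false e0 e0 (B.map w')) =
      ((colGrp c).card : ℂ) * (O Z false e0 e0 (A.map w) * O Z false e0 e0 (B.map w)) := by
  obtain ⟨nA, nB, hd⟩ := List.nodup_append.1 hl.1
  refine cl_alt c w _ h4 hinj fun w h4 hinj i j hij hc => ?_
  rcases List.mem_append.1 (hl.2 i) with hi | hi <;> rcases List.mem_append.1 (hl.2 j) with hj | hj
  · simp only [cl_O (V_map_swap Z hZ false c w A nA hA h4 hinj i j hi hj hij hc), neg_mul,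
      cl_map w (fun h => hd i hi i h rfl) fun h => hd j hj j h rfl]
  · exact absurd hc (hAB i hi j hj)
  · exact absurd hc.symm (hAB j hj i hi)
  · simp only [cl_O (V_map_swap Z hZ false c w B nB hB h4 hinj i j hi hj hij hc), mul_neg,
      cl_map w (fun h => hd i h i hi rfl) fun h => hd j h j hj rfl]

theorem cl_P (Z : ℕ → Matrix (Fin 2) (Fin 2) ℂ) (P : Matrix (Fin 2) (Fin 2) ℂ)
    (h1 : P * eps * P.transpose = eps) (h2 : P.transpose * eps * P = eps) (l : List ℕ) :
    V (fun c => Z c * P) false l * eps = V Z false l * eps * P ^ (l.length % 2) ∧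
      V (fun c => Z c * P) true l * eps =
        P.transpose * (V Z true l * eps) * P ^ ((l.length + 1) % 2) := by
  induction l with
  | nil => simp [V, h2]
  | cons c l ih =>
    simp only [V, List.length_cons, add_assoc, one_add_one_eq_two, Nat.add_mod_right,
      Matrix.transpose_mul, mul_assoc, ih.1, ih.2] at ih ⊢
    rw [← mul_assoc P, ← mul_assoc (P * eps), h1]
    exact ⟨rfl, trivial⟩

theorem cl_det (s : Bool) (l : List ℕ) (h : ∀ x ∈ l, x < 4) : (V quat s l * eps).det = 1 := by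
  have he : eps.det = 1 := by simp [eps]
  induction l generalizing s with
  | nil => simpa [V] using he
  | cons c l ih =>
    have hc : (quat c).det = 1 := by
      have := h c List.mem_cons_self
      interval_cases c <;> simp [quat]
    have := fun s => ih s fun x hx => h x (List.mem_cons_of_mem _ hx)
    cases s <;> simp only [V, mul_assoc] <;>
      rw [Matrix.det_mul, Matrix.det_mul, this, he] <;> simp [hc]

theorem cl_ne {M : Matrix (Fin 2) (Fin 2) ℂ} (h : M.det = 1) {t : ℂ} (ht : t ≠ -M 0 0 / M 0 1) :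
    M 0 0 + M 0 1 * t ≠ 0 := fun e => by
  by_cases h1 : M 0 1 = 0
  · rw [h1, zero_mul, add_zero] at e
    simp [Matrix.det_fin_two, e, h1] at h
  · exact ht (by field_simp; linear_combination e)

/-- Take `Z c = quat c * P` with `det P = 1`: `Bf (X P) (Y P) = det P * Bf X Y`, `P ε Pᵀ = det P • ε`, so for odd `l`
`V Z false l * eps = V quat false l * eps * P`.  The matrices `M_i = V quat false l_i * eps` are invertible (`det (quat c) = 1`), so their first rows are nonzero;
choose `v = (1, t)` (`t ∈ {0,1,2}`) with `(M_1 v) 0 ≠ 0`, `(M_2 v) 0 ≠ 0` and `P = !![1, 0; t, 1]`. -/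
theorem cliff_ne (l1 l2 : List ℕ) (h1 : l1.length % 2 = 1) (h2 : l2.length % 2 = 1)
    (h4 : ∀ x ∈ l1, x < 4) (h4' : ∀ x ∈ l2, x < 4) :
    ∃ Z, Orth Z ∧ O Z false e0 e0 l1 ≠ 0 ∧ O Z false e0 e0 l2 ≠ 0 := by
  obtain ⟨t, ht⟩ := Infinite.exists_notMem_finset
    ({-(V quat false l1 * eps) 0 0 / (V quat false l1 * eps) 0 1,
      -(V quat false l2 * eps) 0 0 / (V quat false l2 * eps) 0 1} : Finset ℂ)
  rw [mem_insert, mem_singleton, not_or] at ht
  have key : ∀ l : List ℕ, l.length % 2 = 1 → O (fun c => quat c * !![1, 0; t, 1]) false e0 e0 l =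
      (V quat false l * eps) 0 0 + (V quat false l * eps) 0 1 * t := fun l hl => by
    rw [O, (cl_P quat _ (by ext a b; fin_cases a <;> fin_cases b <;> simp [eps, Matrix.mul_apply])
      (by ext a b; fin_cases a <;> fin_cases b <;> simp [eps, Matrix.mul_apply]) l).1, hl, pow_one]
    generalize V quat false l * eps = M
    simp [e0, Matrix.mul_apply, Matrix.mulVec, dotProduct]
  refine ⟨fun c => quat c * !![1, 0; t, 1], fun i j hi hj hij => ?_,
    key l1 h1 ▸ cl_ne (cl_det _ _ h4) ht.1, key l2 h2 ▸ cl_ne (cl_det _ _ h4') ht.2⟩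
  have := Bf_quat i j hi hj
  rw [if_neg hij] at this
  simp only [Bf, Matrix.mul_apply, Fin.sum_univ_two] at this ⊢
  simp
  linear_combination this

end Crest.Agent.R195
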