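import Crest.Agent.R195.Rep1

/-!
# Row 195: classification of the irreducible representations of `S_n`
-/

set_option autoImplicit false

namespace Crest.Agent.R195

open Finset Crest.AlgebraR.Specht

theorem rep2_sum_card (n : ℕ) (s : Multiset ℕ) (hs : ∀ x ∈ s, x ≤ n) :
    ∑ a ∈ range n, Multiset.card (s.filter (a < ·)) = s.sum := by
  induction s using Multiset.induction_on with
  | empty => simp
  | cons x s ih =>
    have h1 : ∀ a, Multiset.card ((x ::ₘ s).filter (a < ·)) =
        (if a < x then 1 else 0) + Multiset.card (s.filter (a < ·)) := by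
      intro a
      rw [Multiset.filter_cons]
      split_ifs <;> simp [add_comm]
    simp only [h1, Finset.sum_add_distrib, Multiset.sum_cons]
    rw [ih fun y hy => hs y (Multiset.mem_cons_of_mem hy)]
    congr 1
    have hx := hs x (Multiset.mem_cons_self _ _)
    rw [← Finset.card_filter]
    have : (range n).filter (fun a => a < x) = range x := by
      ext a; simp only [mem_filter, mem_range]; omega
    rw [this, card_range]

theorem rep2_count (s : Multiset ℕ) (a : ℕ) :
    Multiset.card (s.filter (a < ·)) = s.count (a + 1) + Multiset.card (s.filter (a + 1 < ·)) := by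
  induction s using Multiset.induction_on with
  | empty => simp
  | cons x s ih =>
    rw [Multiset.filter_cons, Multiset.filter_cons, Multiset.count_cons, Multiset.card_add,
      Multiset.card_add, ih]
    split_ifs <;> simp <;> omega

theorem rep2_min_irred {G W : Type} [Group G] [AddCommGroup W] [Module ℂ W]
    [FiniteDimensional ℂ W] [Nontrivial W] (σ : Representation ℂ G W) :
    ∃ U : Subrepresentation σ, Representation.IsIrreducible U.toRepresentation := by
  classical
  have hex : ∃ m, ∃ U : Subrepresentation σ, U.toSubmodule ≠ ⊥ ∧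
      Module.finrank ℂ U.toSubmodule = m :=
    ⟨_, ⟨⊤, by simp⟩, top_ne_bot, rfl⟩
  obtain ⟨U, hU, hm⟩ := Nat.find_spec hex
  have hmin : ∀ V : Subrepresentation σ, V.toSubmodule ≠ ⊥ →
      Module.finrank ℂ U.toSubmodule ≤ Module.finrank ℂ V.toSubmodule := fun V hV =>
    hm ▸ Nat.find_min' hex ⟨V, hV, rfl⟩
  refine ⟨U, ?_⟩
  have hnt : Nontrivial U.toSubmodule := Submodule.nontrivial_iff_ne_bot.mpr hU
  have hN : Nontrivial (Subrepresentation U.toRepresentation) := by
    refine ⟨⊥, ⊤, fun h => ?_⟩
    have := congrArg Subrepresentation.toSubmodule h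
    exact (bot_ne_top : (⊥ : Submodule ℂ U.toSubmodule) ≠ ⊤) this
  refine { eq_bot_or_eq_top := fun V => ?_ }
  by_cases hV : V.toSubmodule = ⊥
  · exact Or.inl (Subrepresentation.toSubmodule_injective hV)
  · right
    apply Subrepresentation.toSubmodule_injective
    let V' : Subrepresentation σ := ⟨V.toSubmodule.map U.toSubmodule.subtype, by
      rintro g _ ⟨v, hv, rfl⟩
      exact ⟨U.toRepresentation g v, V.apply_mem_toSubmodule g hv, rfl⟩⟩
    have h1 : V'.toSubmodule ≠ ⊥ := by
      intro h
      apply hV
      have h' : V.toSubmodule.map U.toSubmodule.subtype = ⊥ := h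
      rw [Submodule.eq_bot_iff]
      intro v hv
      have : (v : W) ∈ V.toSubmodule.map U.toSubmodule.subtype := ⟨v, hv, rfl⟩
      rw [h', Submodule.mem_bot] at this
      exact Subtype.ext this
    have h2 := hmin V' h1
    have h3 : Module.finrank ℂ V'.toSubmodule = Module.finrank ℂ V.toSubmodule :=
      Submodule.finrank_map_subtype_eq _ _
    exact Submodule.eq_top_of_finrank_eq
      (le_antisymm (Submodule.finrank_le _) (h3 ▸ h2))

/-- An injective family of partitions indexed by `Nat.Partition n`
(e.g. `f p a = (p.parts.sort (· ≥ ·)).getD a 0`, or the conjugate version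
`f p a = card (p.parts.filter (a < ·))`). -/
theorem exists_part_family (n : ℕ) :
    ∃ f : Nat.Partition n → ℕ → ℕ, Function.Injective f ∧ ∀ p, IsPart n (f p) := by
  refine ⟨fun p a => Multiset.card (p.parts.filter (a < ·)), fun p q h => ?_, fun p => ?_⟩
  · apply Nat.Partition.ext
    ext x
    cases x with
    | zero =>
      rw [Multiset.count_eq_zero.mpr fun h => lt_irrefl _ (p.parts_pos h),
        Multiset.count_eq_zero.mpr fun h => lt_irrefl _ (q.parts_pos h)]
    | succ a =>
      have h1 := rep2_count p.parts a
      have h2 := rep2_count q.parts a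
      have h3 := congrFun h a
      have h4 := congrFun h (a + 1)
      simp only at h3 h4
      omega
  · have hle : ∀ x ∈ p.parts, x ≤ n := fun x hx =>
      p.parts_sum ▸ Multiset.single_le_sum (fun _ _ => Nat.zero_le _) x hx
    refine ⟨fun a b hab => Multiset.card_le_card
      (Multiset.monotone_filter_right _ fun x hx => lt_of_le_of_lt hab hx), ?_, ?_⟩
    · simp only [Multiset.card_eq_zero, Multiset.filter_eq_nil]
      intro x hx
      exact not_lt.mpr (hle x hx)
    · rw [rep2_sum_card n _ hle, p.parts_sum]

/-- Orthonormal class functions are at most `#Nat.Partition n` in number: a class function factors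
through `g ↦ g.partition` (`Equiv.Perm.partition_eq_of_isConj`, `Fintype.card_fin`), so the space of class
functions has dimension `≤ card (Nat.Partition n)`, and orthonormal families are linearly independent. -/
theorem card_le_of_orthonormal (n : ℕ) (I : Type) [Fintype I] [DecidableEq I]
    (χ : I → Equiv.Perm (Fin n) → ℂ) (hcl : ∀ i g h, χ i (h * g * h⁻¹) = χ i g)
    (horth : ∀ i j, (Nat.card (Equiv.Perm (Fin n)) : ℂ)⁻¹ * ∑ g, χ i g * χ j g⁻¹ =
      if i = j then 1 else 0) :
    Fintype.card I ≤ Fintype.card (Nat.Partition n) := by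
  classical
  have key : ∀ m, m = n → Fintype.card (Nat.Partition m) = Fintype.card (Nat.Partition n) := by
    rintro m rfl; rfl
  rw [← key _ (Fintype.card_fin n)]
  let ψ : I → Nat.Partition (Fintype.card (Fin n)) → ℂ := fun i p =>
    if h : ∃ g : Equiv.Perm (Fin n), g.partition = p then χ i h.choose else 0
  have hψ : ∀ i g, ψ i g.partition = χ i g := by
    intro i g
    have h : ∃ g' : Equiv.Perm (Fin n), g'.partition = g.partition := ⟨g, rfl⟩
    simp only [ψ, dif_pos h]
    obtain ⟨c, hc⟩ := isConj_iff.mp (Equiv.Perm.partition_eq_of_isConj.mpr h.choose_spec)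
    rw [← hcl i h.choose c, hc]
  have hli : LinearIndependent ℂ ψ := by
    rw [Fintype.linearIndependent_iff]
    intro c hc j
    have h1 : ∀ g, ∑ i, c i * χ i g = 0 := by
      intro g
      have := congrFun hc g.partition
      simpa [Finset.sum_apply, hψ] using this
    have h2 : ∑ i, c i * ((Nat.card (Equiv.Perm (Fin n)) : ℂ)⁻¹ * ∑ g, χ i g * χ j g⁻¹) = 0 := by
      have : ∑ i, c i * ((Nat.card (Equiv.Perm (Fin n)) : ℂ)⁻¹ * ∑ g, χ i g * χ j g⁻¹) =
          (Nat.card (Equiv.Perm (Fin n)) : ℂ)⁻¹ * ∑ g, (∑ i, c i * χ i g) * χ j g⁻¹ := by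
        simp only [Finset.mul_sum, Finset.sum_mul]
        rw [Finset.sum_comm]
        exact Finset.sum_congr rfl fun g _ => Finset.sum_congr rfl fun i _ => by ring
      rw [this]
      simp [h1]
    simp only [horth] at h2
    simpa using h2
  have := hli.fintype_card_le_finrank
  rwa [Module.finrank_fintype_fun_eq_card] at this

/-- If `σ` were isomorphic to no Specht module, the characters of `σ` and of the Specht modules
would be `#Nat.Partition n + 1` orthonormal class functions (`Representation.char_orthonormal`,
`spec_irred`, `spec_noniso`, index type `Option (Nat.Partition n)`). -/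
theorem classify (n : ℕ) (W : Type) [AddCommGroup W] [Module ℂ W] [FiniteDimensional ℂ W]
    (σ : Representation ℂ (Equiv.Perm (Fin n)) W) (hσ : σ.IsIrreducible) :
    ∃ κ, IsPart n κ ∧ Nonempty (Representation.Equiv σ (Spec n κ).toRepresentation) := by
  classical
  by_contra hne
  obtain ⟨f, hf, hp⟩ := exists_part_family n
  have hinv : Invertible (Nat.card (Equiv.Perm (Fin n)) : ℂ) :=
    invertibleOfNonzero (Nat.cast_ne_zero.mpr Nat.card_pos.ne')
  let χ : Option (Nat.Partition n) → Equiv.Perm (Fin n) → ℂ := fun i =>
    match i with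
    | none => σ.character
    | some p => Representation.character (V := (Spec n (f p)).toSubmodule)
        (Spec n (f p)).toRepresentation
  have h := card_le_of_orthonormal n (Option (Nat.Partition n)) χ ?_ ?_
  · simp at h
  · rintro (_ | p) g h
    · exact Representation.char_conj _ _ _
    · exact Representation.char_conj _ _ _
  · rintro (_ | p) (_ | q)
    · simp only [χ]
      rw [Representation.char_orthonormal, if_pos ⟨Representation.Equiv.refl _⟩, if_pos trivial]
    · have := spec_finite n (f q)
      have := spec_irred (hp q)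
      simp only [χ]
      rw [Representation.char_orthonormal, if_neg, if_neg (by simp)]
      rintro ⟨φ⟩
      exact hne ⟨f q, hp q, ⟨φ.symm⟩⟩
    · have := spec_finite n (f p)
      have := spec_irred (hp p)
      simp only [χ]
      rw [Representation.char_orthonormal, if_neg, if_neg (by simp)]
      rintro ⟨φ⟩
      exact hne ⟨f p, hp p, ⟨φ⟩⟩
    · have := spec_finite n (f p)
      have := spec_irred (hp p)
      have := spec_finite n (f q)
      have := spec_irred (hp q)
      simp only [χ]
      rw [Representation.char_orthonormal]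
      by_cases hpq : p = q
      · subst hpq
        rw [if_pos ⟨Representation.Equiv.refl _⟩, if_pos rfl]
      · rw [if_neg, if_neg (by simpa using hpq)]
        intro hφ
        exact hpq (hf (spec_noniso (hp q) (hp p) hφ)).symm

/-- Every nonzero finite-dimensional representation has a vector antisymmetric under a column group
whose row symmetrisation is nonzero.  Transport to `Fin n` (`Fintype.equivFin`, `Equiv.permCongrHom`),
take a minimal nonzero subrepresentation (irreducible), `classify` it, and take the image `y` of `pt t`: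
`g • pt t = sg g • pt t` for `g ∈ C_t` (`co_comp_col`), and the coefficient of `t.r` in `∑_{ρ ∈ R} ρ • pt t` is `|R| ≠ 0`. -/
theorem exists_young (ι : Type) [Fintype ι] [DecidableEq ι] (W : Type) [AddCommGroup W]
    [Module ℂ W] [FiniteDimensional ℂ W] [Nontrivial W]
    (σ : Representation ℂ (Equiv.Perm ι) W) :
    ∃ (κ : ℕ → ℕ) (t : Tab ι κ) (y : W), (∀ g ∈ colGrp t.c, σ g y = (sg g : ℂ) • y) ∧
      ∑ g ∈ colGrp t.r, σ g y ≠ 0 := by
  classical
  set n := Fintype.card ι with hn
  let e : ι ≃ Fin n := Fintype.equivFin ι
  let σ' : Representation ℂ (Equiv.Perm (Fin n)) W := σ.comp (e.symm.permCongrHom).toMonoidHom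
  have hσ' : ∀ g : Equiv.Perm ι, σ' (e.permCongr g) = σ g := by
    intro g
    change σ (e.symm.permCongr (e.permCongr g)) = σ g
    congr 1
    ext i
    simp
  obtain ⟨U, hU⟩ := rep2_min_irred σ'
  obtain ⟨κ, hκ, ⟨φ⟩⟩ := classify n U.toSubmodule U.toRepresentation hU
  obtain ⟨t0, -⟩ := exists_tab (ι := Fin n) (α := κ) (by simpa using hκ)
  obtain ⟨t, htr, htc⟩ := t0.exists_relabel e
  let x : (Spec n κ).toSubmodule := ⟨pt t0, pt_mem_spec t0⟩
  have hy : ∀ g : Equiv.Perm ι, σ g (φ.symm x : U.toSubmodule) =
      (φ.symm ((Spec n κ).toRepresentation (e.permCongr g) x) : U.toSubmodule) := by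
    intro g
    have := φ.symm.toIntertwiningMap.isIntertwining _ _ (e.permCongr g) x
    simp only [Representation.Equiv.coe_toIntertwiningMap] at this
    rw [this, ← hσ']
    rfl
  have hmem : ∀ (c : Fin n → ℕ) (g : Equiv.Perm ι), g ∈ colGrp (c ∘ e) →
      e.permCongr g ∈ colGrp c := by
    intro c g hg
    rw [mem_colGrp] at hg ⊢
    intro i
    have := hg (e.symm i)
    simpa using this
  refine ⟨κ, t, (φ.symm x : U.toSubmodule), fun g hg => ?_, fun h0 => ?_⟩
  · rw [hy]
    have h1 : (Spec n κ).toRepresentation (e.permCongr g) x = (sg g : ℂ) • x := by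
      apply Subtype.ext
      change rowWordRep n (e.permCongr g) (pt t0) = (sg g : ℂ) • pt t0
      ext w
      have h2 := rowWordRep_apply (e.permCongr g) (pt t0) w
      have h3 := pt_apply t0 w
      have h4 := pt_apply t0 (w ∘ e.permCongr g)
      have h5 := co_comp_col t0 w (hmem _ g (htc ▸ hg))
      have h6 : sg (e.permCongr g) = sg g := by simp [sg]
      rw [Finsupp.smul_apply, smul_eq_mul]
      refine h2.trans (h4.trans ?_)
      rw [h5, h6, Int.cast_mul]
      congr 1
      exact h3.symm
    rw [h1, map_smul]
    rfl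
  · simp only [hy] at h0
    rw [← Submodule.coe_sum, ← map_sum, Submodule.coe_eq_zero,
      EmbeddingLike.map_eq_zero_iff] at h0
    let w0 : RowWord n := t0.r
    have h1 := congrArg (fun z : (Spec n κ).toSubmodule => (z : RowWord n →₀ ℂ) w0) h0
    simp only [Submodule.coe_sum, Finsupp.finsetSum_apply, Submodule.coe_zero,
      Finsupp.zero_apply] at h1
    have h2 : ∀ g ∈ colGrp t.r,
        (((Spec n κ).toRepresentation (e.permCongr g) x : (Spec n κ).toSubmodule) :
          RowWord n →₀ ℂ) w0 = 1 := by
      intro g hg
      change rowWordRep n (e.permCongr g) (pt t0) w0 = 1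
      have h3 := rowWordRep_apply (e.permCongr g) (pt t0) t0.r
      have h4 : t0.r ∘ e.permCongr g = t0.r := funext (mem_colGrp.mp (hmem _ g (htr ▸ hg)))
      have h5 := co_comp t0 (one_mem_colGrp t0.c)
      rw [sg_one] at h5
      refine h3.trans ?_
      rw [h4]
      refine (pt_apply t0 t0.r).trans ?_
      have h6 : co t0 t0.r = 1 := h5
      rw [h6, Int.cast_one]
    rw [Finset.sum_congr rfl h2, Finset.sum_const, nsmul_eq_mul, mul_one, Nat.cast_eq_zero,
      Finset.card_eq_zero] at h1
    exact Finset.notMem_empty _ (h1 ▸ one_mem_colGrp t.r)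

end Crest.Agent.R195
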