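import Crest.Agent.R195.Defs2
import Crest.Agent.R195.Rep2

/-!
# Row 195: a family that sees all shapes with at most four rows contains all product functions
-/

set_option autoImplicit false

namespace Crest.Agent.R195

open Finset

/-- `exists_young` for a nonzero permutation-stable space of functions on words (use the representation
`g ↦ (y ↦ fun w => y (w ∘ g))` restricted to `W`). -/
theorem exists_young_fun (ι : Type) [Fintype ι] [DecidableEq ι] (X : Type) [Fintype X]
    (W : Submodule ℂ ((ι → X) → ℂ)) (hW : W ≠ ⊥)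
    (hp : ∀ (g : Equiv.Perm ι), ∀ y ∈ W, (fun w => y (w ∘ g)) ∈ W) :
    ∃ (κ : ℕ → ℕ) (t : Tab ι κ), ∃ y ∈ W,
      (∀ g ∈ colGrp t.c, ∀ w, y (w ∘ g) = (sg g : ℂ) * y w) ∧
      ∃ w, ∑ g ∈ colGrp t.r, y (w ∘ g) ≠ 0 := by
  let σ : Representation ℂ (Equiv.Perm ι) W :=
    { toFun := fun g => (LinearMap.funLeft ℂ ℂ fun w : ι → X => w ∘ g).restrict (hp g)
      map_one' := by ext y w; rfl
      map_mul' := fun g h => by ext y w; rfl }
  haveI : Nontrivial W := Submodule.nontrivial_iff_ne_bot.2 hW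
  obtain ⟨κ, t, y, h1, h2⟩ := exists_young ι W σ
  refine ⟨κ, t, y.1, y.2, fun g hg w => congrFun (congrArg Subtype.val (h1 g hg)) w, ?_⟩
  by_contra h
  push Not at h
  refine h2 (Subtype.ext (funext fun w => ?_))
  rw [Submodule.coe_sum, Finset.sum_apply]
  exact h w

open Classical in
theorem cov_orbit {ι Z : Type} [Fintype ι] [DecidableEq ι] (g : Equiv.Perm ι → Z)
    (hg : ∀ π π' τ, g π = g π' → g (π * τ) = g (π' * τ)) (S : Finset Z) (hS : ∀ π, g π ∈ S)
    (Φ : Z → ℂ) : ∑ π, Φ (g π) = ((univ.filter fun π => g π = g 1).card : ℂ) *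
      ∑ u ∈ S, if ∃ π, u = g π then Φ u else 0 := by
  rw [← Finset.sum_fiberwise_of_maps_to (s := univ) (t := S) (g := g) fun π _ => hS π,
    Finset.mul_sum]
  refine Finset.sum_congr rfl fun u _ => ?_
  rw [Finset.sum_congr rfl (g := fun _ => Φ u) fun π hπ => by rw [(mem_filter.1 hπ).2],
    Finset.sum_const, nsmul_eq_mul]
  split_ifs with h
  · obtain ⟨τ, rfl⟩ := h
    congr 2
    refine Finset.card_nbij' (fun π => π * τ⁻¹) (fun π => π * τ) (fun π hπ => ?_) (fun π hπ => ?_)
      (fun π _ => by simp) fun π _ => by simp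
    · have := hg _ _ τ⁻¹ (mem_filter.1 hπ).2
      simpa using this
    · have := hg _ _ τ (mem_filter.1 hπ).2
      simpa using this
  · rw [Finset.filter_eq_empty_iff.2 fun π _ hπ => h ⟨π, hπ.symm⟩]
    simp

open Classical in
theorem cov_coeff {ι τ : Type} [Fintype ι] [DecidableEq ι] (f g : ι → τ) :
    MvPolynomial.coeff (∑ i, Finsupp.single (g i) 1) (∏ i, MvPolynomial.X (f i) : MvPolynomial τ ℂ) =
      if ∃ π : Equiv.Perm ι, f = g ∘ π then 1 else 0 := by
  have e : ∀ u : ι → τ, (∏ i, MvPolynomial.X (u i) : MvPolynomial τ ℂ) =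
      MvPolynomial.monomial (∑ i, Finsupp.single (u i) 1) 1 := fun u => by
    rw [MvPolynomial.monomial_sum_one]
    rfl
  have h := prod_X_eq_iff (R := ℂ) f g
  rw [e, e, (MvPolynomial.monomial_left_injective one_ne_zero).eq_iff] at h
  rw [e, MvPolynomial.coeff_monomial]
  exact if_congr h rfl rfl

/-- Suppose `∑_w y w * sub4 x F (val ∘ w)`-type pairings all vanish:
`∑_{w} y w * ∑_{c ∈ 4^ι} (∏ i, x (c i) (w i)) * F c = 0` for all `x`.  View this as a polynomial identity in the variables `x (a, b)`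
(`MvPolynomial.funext`).  Let `w₀` have `∑_{g ∈ R} y (w₀ ∘ g) ≠ 0`.  Put `p c = ∑_w y w • ∏ i, X (c i, w i)`; `p (c ∘ g) = sg g • p c` for `g ∈ C`.
The part of the identity whose monomials have first coordinates of content `κ` reads `∑_{c of content κ} F c • p c = 0`;
`p c = co t c • p t.r` for such `c` (`p c = 0` if `c` is not injective on columns, else `Tab.word_eq`, `co_comp`), so `alt t F • p t.r = 0` (`alt_eq_sum_co`).
The coefficient of `∏ X (t.r i, w₀ i)` in `p t.r` is `∑ y w` over the `R`-orbit of `w₀` (`prod_X_eq_iff`), which is nonzero.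
(One can directly take this single coefficient in the full identity.) -/
theorem alt_eq_zero_of_pairing {ι : Type} [Fintype ι] [DecidableEq ι] {κ : ℕ → ℕ} (t : Tab ι κ)
    (h4 : ∀ i, t.r i < 4) (y : (ι → Fin 4) → ℂ)
    (hy : ∀ g ∈ colGrp t.c, ∀ w, y (w ∘ g) = (sg g : ℂ) * y w)
    (w₀ : ι → Fin 4) (hw : ∑ g ∈ colGrp t.r, y (w₀ ∘ g) ≠ 0) (F : (ι → ℕ) → ℂ)
    (h : ∀ x : ℕ → ℕ → ℂ, ∑ w : ι → Fin 4, y w * sub4 x F (fun i => (w i : ℕ)) = 0) :
    alt t F = 0 := by
  classical
  -- the polynomial identity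
  have hQ : (∑ p ∈ (univ : Finset (ι → Fin 4)) ×ˢ Fintype.piFinset (fun _ : ι => range 4),
      MvPolynomial.C (y p.1 * F p.2) * ∏ i, MvPolynomial.X (p.2 i, (p.1 i : ℕ)) :
        MvPolynomial (ℕ × ℕ) ℂ) = 0 := by
    refine MvPolynomial.funext fun x => ?_
    rw [map_zero, ← h fun a b => x (a, b), map_sum, Finset.sum_product]
    refine Finset.sum_congr rfl fun w _ => ?_
    rw [sub4, Finset.mul_sum]
    refine Finset.sum_congr rfl fun c _ => ?_
    simp only [map_mul, map_prod, MvPolynomial.eval_C, MvPolynomial.eval_X]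
    ring
  have h1 : ∑ π : Equiv.Perm ι, y (w₀ ∘ π) * F (t.r ∘ π) = 0 := by
    have e := cov_orbit (fun π : Equiv.Perm ι => (w₀ ∘ π, t.r ∘ π))
      (fun π π' τ hh => by
        obtain ⟨a, b⟩ := Prod.ext_iff.1 hh
        exact Prod.ext (congrArg (· ∘ τ) a) (congrArg (· ∘ τ) b))
      ((univ : Finset (ι → Fin 4)) ×ˢ Fintype.piFinset (fun _ : ι => range 4))
      (fun π => by simp [h4]) (fun p => y p.1 * F p.2)
    rw [e]
    refine mul_eq_zero_of_right _ ?_
    have e2 := congrArg (MvPolynomial.coeff (∑ i, Finsupp.single (t.r i, (w₀ i : ℕ)) 1)) hQ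
    rw [MvPolynomial.coeff_zero, MvPolynomial.coeff_sum] at e2
    refine Eq.trans (Finset.sum_congr rfl fun p _ => ?_) e2
    rw [MvPolynomial.coeff_C_mul, cov_coeff, mul_ite, mul_one, mul_zero]
    have hiff : (∃ π : Equiv.Perm ι, p = (w₀ ∘ π, t.r ∘ π)) ↔ ∃ π : Equiv.Perm ι,
        (fun i => (p.2 i, (p.1 i : ℕ))) = (fun i => (t.r i, (w₀ i : ℕ))) ∘ π := by
      refine exists_congr fun π => ⟨fun hh => ?_, fun hh => ?_⟩
      · rw [hh]; rfl
      · exact Prod.ext (funext fun i => Fin.ext (congrArg Prod.snd (congrFun hh i)))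
          (funext fun i => congrArg Prod.fst (congrFun hh i))
    by_cases hp : ∃ π : Equiv.Perm ι, p = (w₀ ∘ π, t.r ∘ π)
    · rw [if_pos hp, if_pos (hiff.1 hp)]
    · rw [if_neg hp, if_neg (mt hiff.2 hp)]
  have hn := neumann t (fun π => ∑ ρ ∈ colGrp t.r, y (w₀ ∘ ⇑(ρ * π)))
    (fun ρ hρ g => Finset.sum_nbij' (fun τ => τ * ρ) (fun τ => τ * ρ⁻¹)
      (fun τ hτ => mul_mem_colGrp hτ hρ) (fun τ hτ => mul_mem_colGrp hτ (inv_mem_colGrp hρ))
      (fun τ _ => by simp) (fun τ _ => by simp) fun τ _ => by rw [mul_assoc])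
    (fun σ hσ g => by
      rw [Finset.mul_sum]
      exact Finset.sum_congr rfl fun ρ _ => hy σ hσ (w₀ ∘ ⇑(ρ * g)))
  have h2 : ∑ π : Equiv.Perm ι, (∑ ρ ∈ colGrp t.r, y (w₀ ∘ ⇑(ρ * π))) * F (t.r ∘ π) = 0 := by
    simp only [Finset.sum_mul]
    rw [Finset.sum_comm]
    refine Finset.sum_eq_zero fun ρ hρ => ?_
    rw [← h1]
    refine Fintype.sum_equiv (Equiv.mulLeft ρ) _ _ fun π => ?_
    have : t.r ∘ ⇑(ρ * π) = t.r ∘ π := funext fun i => mem_colGrp.1 hρ (π i)
    rw [Equiv.coe_mulLeft, this]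
  simp only [hn, mul_one, mul_assoc] at h2
  rw [← Finset.mul_sum] at h2
  have h3 := (mul_eq_zero.1 h2).resolve_left hw
  rw [cov_orbit (fun π : Equiv.Perm ι => t.r ∘ π) (fun π π' τ hh => congrArg (· ∘ τ) hh)
    (univ.image fun π : Equiv.Perm ι => t.r ∘ π) (fun π => mem_image_of_mem _ (mem_univ π))
    (fun c => (co t c : ℂ) * F c)] at h3
  have h5 := (mul_eq_zero.1 h3).resolve_left
    (Nat.cast_ne_zero.2 (Finset.card_ne_zero.2 ⟨1, by simp⟩))
  rw [alt_eq_sum_co t (univ.image fun π : Equiv.Perm ι => t.r ∘ π)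
    (fun π _ => mem_image_of_mem _ (mem_univ π)), ← h5]
  refine Finset.sum_congr rfl fun c hc => ?_
  obtain ⟨π, -, rfl⟩ := mem_image.1 hc
  rw [if_pos ⟨π, rfl⟩, zsmul_eq_mul]

theorem cov_sum_fn (l : List ℕ) : ∑ k ∈ range l.length, fn l k = l.sum := by
  induction l with
  | nil => simp
  | cons a l ih =>
    rw [List.length_cons, Finset.sum_range_succ', List.sum_cons, ← ih, add_comm]
    rfl

/-- Let `A₄` be the image of `A ι` under restriction to words in `Fin 4`, `W` its annihilator for the pairing `∑_w y w * F w`.  If `W ≠ ⊥` take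
`κ, t, y` from `exists_young_fun` (`Relab` gives stability).  `κ 4 = 0`: otherwise some column has five letters, every word in `Fin 4` repeats a value on it,
and `y = 0`.  `Sees` gives `F` with `alt t' F ≠ 0`; transport to `ι` and `t` (`alt_conj`, `Relab`); `alt_eq_zero_of_pairing` is a contradiction.
So `A₄ = ⊤` (finite dimension: `Submodule.dualAnnihilator_eq_bot_iff`-type lemma, or `Submodule.exists_dual_map_eq_bot_of_lt_top`),
there is `F ∈ A ι` whose restriction is the indicator of `col` (all `col i < ν.length ≤ 4`), and `sub4 x F = fun c => ∏ i, x (col i) (c i)`. -/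
theorem cover (A : Fam) (hR : A.Relab) (hS : A.Sub) (n : ℕ) (h : Sees A n) (ν : List ℕ)
    (hν : ν.length ≤ 4) (hs : ν.sum = n) : Has A ν := by
  classical
  intro ι _ _ col hcol x
  have hlt : ∀ i, col i < ν.length := fun i => by
    by_contra hi
    have h1 := hcol (col i)
    rw [fn, List.getD_eq_default _ _ (not_lt.1 hi), Finset.card_eq_zero] at h1
    exact Finset.filter_eq_empty_iff.1 h1 (mem_univ i) rfl
  have hn : Fintype.card ι = n := by
    rw [← hs, ← cov_sum_fn, ← Finset.card_univ, Finset.card_eq_sum_card_fiberwise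
      (f := col) (t := range ν.length) fun i _ => mem_coe.2 (mem_range.2 (hlt i))]
    exact Finset.sum_congr rfl fun k _ => hcol k
  let res : ((ι → ℕ) → ℂ) →ₗ[ℂ] ((ι → Fin 4) → ℂ) :=
    LinearMap.funLeft ℂ ℂ fun (w : ι → Fin 4) i => (w i : ℕ)
  let W : Submodule ℂ ((ι → Fin 4) → ℂ) :=
    { carrier := {y | ∀ F ∈ A ι, ∑ w, y w * F (fun i => (w i : ℕ)) = 0}
      add_mem' := fun {a b} ha hb F hF => by
        simp only [Pi.add_apply, add_mul, Finset.sum_add_distrib, ha F hF, hb F hF, add_zero]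
      zero_mem' := fun F _ => by simp
      smul_mem' := fun c a ha F hF => by
        simp only [Pi.smul_apply, smul_eq_mul, mul_assoc, ← Finset.mul_sum, ha F hF, mul_zero] }
  have hW : W = ⊥ := by
    by_contra hW
    obtain ⟨κ, t, y, hy, h1, w₀, h2⟩ := exists_young_fun ι (Fin 4) W hW fun g y hy F hF => by
      rw [← hy _ (hR ι ι g⁻¹ F hF)]
      refine Fintype.sum_equiv (Equiv.arrowCongr g.symm (Equiv.refl (Fin 4))) _ _ fun w => ?_
      simp [Equiv.arrowCongr, Function.comp_def]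
    have h4 : ∀ i, t.r i < 4 := fun i => by
      by_contra hi
      have h3 : ∀ a : Fin 5, ∃ j, t.r j = a ∧ t.c j = t.c i := fun a => by
        rcases (show (a : ℕ) ≤ t.r i by omega).lt_or_eq with h | h
        · exact t.down i a h
        · exact ⟨i, h.symm, rfl⟩
      choose J hJ using h3
      refine h2 (Finset.sum_eq_zero fun g _ => ?_)
      generalize w₀ ∘ g = w
      obtain ⟨a, b, hab, e⟩ := Fintype.exists_ne_map_eq_of_card_lt (fun a => w (J a)) (by simp)
      have hne : J a ≠ J b := fun e => hab (Fin.ext (by rw [← (hJ a).1, ← (hJ b).1, e]))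
      have h5 := h1 _ (swap_mem_colGrp ((hJ a).2.trans (hJ b).2.symm)) w
      have h6 : w ∘ Equiv.swap (J a) (J b) = w := funext fun k => Equiv.apply_swap_eq_self e k
      rw [h6, sg_swap hne] at h5
      push_cast at h5
      linear_combination h5 / 2
    have hκ : κ 4 = 0 := by
      rw [← t.cnt 4, Finset.card_eq_zero]
      exact Finset.filter_eq_empty_iff.2 fun i _ => (h4 i).ne
    obtain ⟨ι', _, _, t', F', hF', h5⟩ := h κ (hn ▸ t.isPart) hκ
    obtain ⟨e, -, -, he⟩ := alt_conj t' t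
    rw [he] at h5
    exact h5 (alt_eq_zero_of_pairing t h4 y h1 w₀ h2 _ fun x =>
      hy _ (hS ι x _ (hR ι' ι e.symm F' hF')))
  have htop : (A ι).map res = ⊤ := by
    by_contra hne
    obtain ⟨f, hf0, hf⟩ := Submodule.exists_dual_map_eq_bot_of_lt_top (lt_top_iff_ne_top.2 hne)
      inferInstance
    have hy : (fun w => f fun j => if w = j then 1 else 0) ∈ W := fun F hF => by
      have h1 : f (res F) = 0 := by
        rw [← Submodule.mem_bot ℂ, ← hf]
        exact Submodule.mem_map_of_mem (Submodule.mem_map_of_mem hF)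
      rw [LinearMap.pi_apply_eq_sum_univ] at h1
      exact Eq.trans (Finset.sum_congr rfl fun w _ => mul_comm _ _) h1
    rw [hW, Submodule.mem_bot] at hy
    refine hf0 (LinearMap.ext fun G => ?_)
    rw [LinearMap.pi_apply_eq_sum_univ]
    exact Finset.sum_eq_zero fun w _ => by rw [congrFun hy w]; simp
  have hc4 : ∀ i, col i < 4 := fun i => (hlt i).trans_le hν
  obtain ⟨F, hF, hFe⟩ : (Pi.single (fun i => (⟨col i, hc4 i⟩ : Fin 4)) 1 : (ι → Fin 4) → ℂ) ∈
      (A ι).map res := htop ▸ Submodule.mem_top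
  convert hS ι x F hF using 1
  funext c
  rw [sub4, Finset.sum_eq_single_of_mem col (by simpa using hc4)]
  · have := congrFun hFe fun i => (⟨col i, hc4 i⟩ : Fin 4)
    rw [Pi.single_eq_same] at this
    rw [show F col = 1 from this, mul_one]
  · intro w hw hne
    have hw4 : ∀ i, w i < 4 := by simpa using hw
    have := congrFun hFe fun i => (⟨w i, hw4 i⟩ : Fin 4)
    rw [Pi.single_eq_of_ne fun e => hne (funext fun i => congrArg Fin.val (congrFun e i))] at this
    rw [show F w = 0 from this, mul_zero]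

end Crest.Agent.R195
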