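import Crest.Agent.R195.Tab1

/-!
# Row 195: the numerical criterion implies dominance inside the box

Let `P j = ∑_{a<j} lam a` (concave), `ℓ = lam' 0` (number of rows), `y = lam' 1` (number of rows `≥ 2`), `p` the number of positive parts of `μ`,
`S ≤ μ` with `j` elements.
* `ℓ ≤ l0`: for `j ≥ ℓ`, `P j = n ≥ ∑ S`.  For `j ≤ ℓ`, `ℓ * P j ≥ j * n` (concavity) and `l0 * ∑ S ≤ j * n`.
* `ℓ ≥ l0 + 1`.  First `ℓ ≤ p`: otherwise `w = 2H - 3 - p` bounds both `y ≤ 2H - 2 - ℓ` and `lam 1 ≤ 2H - 2 - lam 0 ≤ 2H - 2 - ℓ`, and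
  `n ≤ lam 0 + ℓ + y * lam 1 ≤ 4H - 4 + w²` (row `0`, column `0`, the rest), contradicting the last condition.
  - `j ≥ ℓ`: `P j = n`.  `y ≤ j ≤ ℓ`: `P j = n - (ℓ - j)` and `∑ S ≤ n - (p - j)` (the positive parts outside `S` are `≥ 1`).
  - `j = 1`: `den * x ≤ (den * x - num) + num ≤ den * (l0 + 1) ≤ den * lam 0`.  In general `den * ∑ S ≤ den * (l0+1) + (j-1) * num`.
  - `2 ≤ j ≤ y`: concavity gives `(y-1) (P j - lam 0) ≥ (j-1) (P y - lam 0)`, `P y = n - ℓ + y`, so
    `(y-1) P j ≥ (y-1) ℓ + (j-1)(n - 2ℓ + y)`; from `y ≤ H - 1`, `ℓ + y ≤ 2H - 2`, `n ≥ 4H - 7` one gets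
    `(H-2)(n - 2ℓ + y) ≥ (y-1)(n - H + 1)`, and `den (n - H + 1) ≥ num (H-2)`.
-/

set_option autoImplicit false

namespace Crest.Agent.R195

open Finset

/-- Averages of an antitone sequence decrease. -/
theorem avg_le {f : ℕ → ℕ} (hf : Antitone f) {j l : ℕ} (h : j ≤ l) :
    j * ∑ a ∈ range l, f a ≤ l * ∑ a ∈ range j, f a := by
  obtain ⟨d, rfl⟩ := Nat.exists_eq_add_of_le h
  have h1 : ∀ a, j * f (j + a) ≤ ∑ b ∈ range j, f b := fun a => by
    simpa using Finset.card_nsmul_le_sum (range j) f (f (j + a))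
      fun b hb => hf (by have := mem_range.1 hb; omega)
  have h2 : j * ∑ a ∈ range d, f (j + a) ≤ d * ∑ b ∈ range j, f b := by
    rw [Finset.mul_sum]
    simpa using Finset.sum_le_card_nsmul (range d) _ _ fun a _ => h1 a
  rw [Finset.sum_range_add, mul_add, add_mul]
  omega

theorem crit_const {f : ℕ → ℕ} {j l c : ℕ} (h : j ≤ l) (hf : ∀ a, j ≤ a → a < l → f a = c) :
    ∑ a ∈ range l, f a = ∑ a ∈ range j, f a + (l - j) * c := by
  obtain ⟨d, rfl⟩ := Nat.exists_eq_add_of_le h
  rw [Finset.sum_range_add, Nat.add_sub_cancel_left,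
    Finset.sum_congr rfl fun a ha => hf (j + a) (by omega) (by have := mem_range.1 ha; omega)]
  simp

theorem crit_countP (T : Multiset ℕ) : T.countP (fun x => 0 < x) ≤ T.sum := by
  induction T using Multiset.induction_on with
  | empty => simp
  | cons a T ih =>
    rw [Multiset.countP_cons, Multiset.sum_cons]
    split_ifs <;> omega

theorem crit_mul_le (S : Multiset ℕ) {l0 n : ℕ} (h : ∀ x ∈ S, x * l0 ≤ n) :
    S.sum * l0 ≤ Multiset.card S * n := by
  induction S using Multiset.induction_on with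
  | empty => simp
  | cons a S ih =>
    have h1 := h a (Multiset.mem_cons_self a S)
    have h2 := ih fun x hx => h x (Multiset.mem_cons_of_mem hx)
    rw [Multiset.sum_cons, Multiset.card_cons, add_mul, add_mul]
    omega

theorem crit_den_le (S : Multiset ℕ) (num den : ℕ) :
    den * S.sum ≤ (S.map fun x => den * x - num).sum + Multiset.card S * num := by
  induction S using Multiset.induction_on with
  | empty => simp
  | cons a S ih =>
    rw [Multiset.sum_cons, Multiset.card_cons, Multiset.map_cons, Multiset.sum_cons, mul_add,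
      add_mul]
    omega

theorem crit_arith {H n l k i m A B s num den : ℕ} (hH : 3 ≤ H) (hden : 0 < den)
    (h1 : num * (H - 2) + den * H ≤ den * (n + 1)) (h2 : 4 * H < n + 4) (hkl : k + 1 ≤ l)
    (h3 : l + (k + 1) + 2 ≤ 2 * H) (hik : i < k) (hm : l ≤ m) (hA : m + A + l = n + (k + 1))
    (hB : i * A ≤ k * B) (hs : den * s ≤ den * l + i * num) : s ≤ m + B := by
  obtain ⟨u, rfl⟩ : ∃ u, H = k + u + 2 := ⟨H - k - 2, by omega⟩
  rw [Nat.add_sub_cancel] at h1
  zify at *
  have hu : (0 : ℤ) ≤ u := by positivity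
  have hi : (0 : ℤ) ≤ i := by positivity
  have hk : (0 : ℤ) < k := by linarith
  have a1 : (k : ℤ) * (n + 1 - (k + u + 2)) ≤ (k + u) * (n + k + 1 - 2 * l) := by
    nlinarith [mul_nonneg hu (by linarith : (0 : ℤ) ≤ n - 4 * (k + u + 2) + 7),
      mul_nonneg (by linarith : (0 : ℤ) ≤ k + u) (by linarith : (0 : ℤ) ≤ 2 * (k + u + 2) - 3 - k - l)]
  have a2 : (k : ℤ) * num ≤ den * (n + k + 1 - 2 * l) := by
    refine le_of_mul_le_mul_left ?_ (by linarith : (0 : ℤ) < k + u)
    nlinarith [mul_le_mul_of_nonneg_left a1 hden.le, mul_le_mul_of_nonneg_left h1 hk.le]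
  have a3 : (k : ℤ) * l + i * (n + k + 1 - 2 * l) ≤ k * (m + B) := by
    have e : (A : ℤ) = n + (k + 1) - m - l := by linarith
    rw [e] at hB
    nlinarith [mul_nonneg (by linarith : (0 : ℤ) ≤ k - i) (by linarith : (0 : ℤ) ≤ m - l)]
  refine le_of_mul_le_mul_left (le_of_mul_le_mul_left ?_ hk) hden
  nlinarith [mul_le_mul_of_nonneg_left hs hk.le, mul_le_mul_of_nonneg_left a2 hi,
    mul_le_mul_of_nonneg_left a3 hden.le]

theorem crit_dom {H n l0 num den : ℕ} {μ : List ℕ} {lam lam' : ℕ → ℕ}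
    (hc : Crit H n μ l0 num den) (hs : μ.sum = n) (hl : IsPart n lam) (hcj : IsConj lam lam')
    (h1 : lam 0 + lam 1 + 2 ≤ 2 * H) (h2 : lam' 0 + lam' 1 + 2 ≤ 2 * H) (h3 : lam' 0 ≤ lam 0) :
    Dom lam μ := by
  obtain ⟨hH, hden, c1, c2, c3, c4⟩ := hc
  obtain ⟨ha, hn0, hn⟩ := hl
  intro S hS
  obtain ⟨T, hT⟩ := Multiset.le_iff_exists_add.1 hS
  have hsum : S.sum + T.sum = n := by rw [← Multiset.sum_add, ← hT, Multiset.sum_coe, hs]
  have z0 : ∀ a, lam' 0 ≤ a → lam a = 0 := fun a h => by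
    have := hcj a 0
    omega
  have z1 : ∀ a, lam' 1 ≤ a → a < lam' 0 → lam a = 1 := fun a h h' => by
    have := hcj a 0
    have := hcj a 1
    omega
  have hyl : lam' 1 ≤ lam' 0 := by
    have := hcj (lam' 0) 0
    have := hcj (lam' 0) 1
    omega
  have hln : lam' 0 ≤ n := by
    have := hcj n 0
    omega
  have P0 : ∑ a ∈ range (lam' 0), lam a = n := by
    have := crit_const (f := lam) (c := 0) hln fun a h _ => z0 a h
    omega
  have P1 : ∀ j, lam' 1 ≤ j → j ≤ lam' 0 → ∑ a ∈ range j, lam a + (lam' 0 - j) = n :=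
    fun j h h' => by
      have := crit_const (f := lam) (c := 1) h' fun a h1 h2 => z1 a (h.trans h1) h2
      omega
  rcases le_or_gt (lam' 0) (Multiset.card S) with hj | hj
  · have := crit_const (f := lam) (c := 0) hj fun a h _ => z0 a h
    omega
  rcases le_or_gt (lam' 0) l0 with h0 | h0
  · have a1 := avg_le ha hj.le
    have a2 := crit_mul_le S fun x hx => c2 x (Multiset.mem_coe.1 (Multiset.mem_of_le hS hx))
    rw [P0] at a1
    refine le_of_mul_le_mul_left ?_ (by omega : 0 < l0)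
    rw [mul_comm]
    exact a2.trans (a1.trans (Nat.mul_le_mul_right _ h0))
  have hp : lam' 0 ≤ μ.countP (fun x => 0 < x) := by
    by_contra hp
    have a1 := P1 _ le_rfl hyl
    have a2 : ∑ a ∈ range (lam' 1), lam a ≤ lam 0 + lam' 1 * lam 1 := by
      refine (Finset.sum_le_sum_of_subset (range_subset_range.2 (Nat.le_succ _))).trans ?_
      rw [Finset.sum_range_succ', add_comm]
      refine Nat.add_le_add_left ?_ _
      simpa using Finset.sum_le_card_nsmul (range (lam' 1)) (fun a => lam (a + 1)) (lam 1)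
        fun a _ => ha (by omega)
    have a3 : lam' 1 * lam 1 ≤ (2 * H - 3 - μ.countP (fun x => 0 < x)) ^ 2 := by
      rw [sq]
      exact Nat.mul_le_mul (by omega) (by omega)
    omega
  rcases le_or_gt (lam' 1) (Multiset.card S) with hy | hy
  · have a1 := P1 _ hy hj.le
    have a2 := crit_countP T
    have a3 : μ.countP (fun x => 0 < x) =
        S.countP (fun x => 0 < x) + T.countP (fun x => 0 < x) := by
      rw [← Multiset.countP_add, ← hT, Multiset.coe_countP]
    have a4 := Multiset.countP_le_card (fun x => 0 < x) S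
    omega
  rcases Nat.eq_zero_or_pos (Multiset.card S) with h | h
  · rw [Multiset.card_eq_zero.1 h]
    simp
  obtain ⟨i, hi⟩ : ∃ i, Multiset.card S = i + 1 := ⟨Multiset.card S - 1, by omega⟩
  obtain ⟨k, hk⟩ : ∃ k, lam' 1 = k + 1 := ⟨lam' 1 - 1, by omega⟩
  have a1 := P1 _ le_rfl hyl
  have a2 := crit_den_le S num den
  have a3 : (S.map fun x => den * x - num).sum ≤ (μ.map fun x => den * x - num).sum := by
    rw [← Multiset.sum_coe, ← Multiset.map_coe, hT, Multiset.map_add, Multiset.sum_add]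
    exact Nat.le_add_right _ _
  have a4 := avg_le (f := fun a => lam (a + 1)) (fun a b h => ha (by omega)) (by omega : i ≤ k)
  have a5 : den * (l0 + 1) ≤ den * lam' 0 := Nat.mul_le_mul_left _ h0
  rw [hi, add_mul] at a2
  rw [hk, Finset.sum_range_succ'] at a1
  rw [hi, Finset.sum_range_succ', add_comm]
  exact crit_arith (l := lam' 0) hH hden c1 (by omega) (by omega) (by omega) (by omega) h3
    (by omega) a4 (by omega)

end Crest.Agent.R195
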