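import Crest.Prelude.Def_SpechtModule

/-!
# Row 195 (Saxl conjecture S0297, tensor square conjecture S0298): definitions

`Pos α β γ` says that the Kronecker coefficient of the three shapes (given by their row length
functions) is positive, in the concrete form "a triple polytabloid polynomial is nonzero".
See `Crest/Agent/R195/Main.lean` for the plan.
-/

set_option autoImplicit false

namespace Crest.Agent.R195

open Finset

/-- A tableau of shape `α` (row lengths) on the letters `ι`, with free column labels: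
`r i` is the row of letter `i`, `c i` the label of its column. -/
structure Tab (ι : Type) [Fintype ι] (α : ℕ → ℕ) where
  r : ι → ℕ
  c : ι → ℕ
  inj : ∀ i j, r i = r j → c i = c j → i = j
  down : ∀ i a, a < r i → ∃ j, r j = a ∧ c j = c i
  cnt : ∀ a, (univ.filter fun i => r i = a).card = α a

/-- Standard column labels: `(r, c)` is a bijection onto the cells of the diagram. -/
def Tab.Std {ι : Type} [Fintype ι] {α : ℕ → ℕ} (t : Tab ι α) : Prop := ∀ i, t.c i < α (t.r i)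

/-- Permutations preserving the labelling `c`. -/
def colGrp {ι : Type} [Fintype ι] [DecidableEq ι] (c : ι → ℕ) : Finset (Equiv.Perm ι) :=
  univ.filter fun σ => ∀ i, c (σ i) = c i

/-- Integer sign. -/
def sg {ι : Type} [Fintype ι] [DecidableEq ι] (σ : Equiv.Perm ι) : ℤ :=
  ((Equiv.Perm.sign σ : ℤˣ) : ℤ)

/-- Antisymmetrisation of `F` at the word `w` over the stabiliser of `c`. -/
def altw {ι : Type} [Fintype ι] [DecidableEq ι] {M : Type*} [AddCommGroup M]
    (c w : ι → ℕ) (F : (ι → ℕ) → M) : M :=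
  ∑ σ ∈ colGrp c, sg σ • F (w ∘ σ)

/-- Pairing of `F` with the polytabloid of `t`. -/
def alt {ι : Type} [Fintype ι] [DecidableEq ι] {α : ℕ → ℕ} {M : Type*} [AddCommGroup M]
    (t : Tab ι α) (F : (ι → ℕ) → M) : M :=
  altw t.c t.r F

/-- Coefficient of the word `w` in the polytabloid of `t`. -/
def co {ι : Type} [Fintype ι] [DecidableEq ι] {α : ℕ → ℕ} (t : Tab ι α) (w : ι → ℕ) : ℤ :=
  alt t fun w' => if w' = w then (1 : ℤ) else 0

/-- The triple polytabloid polynomial. -/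
noncomputable def P3 {ι : Type} [Fintype ι] [DecidableEq ι] {α β γ : ℕ → ℕ}
    (t1 : Tab ι α) (t2 : Tab ι β) (t3 : Tab ι γ) : MvPolynomial (ℕ × ℕ × ℕ) ℂ :=
  alt t1 fun a => alt t2 fun b => alt t3 fun c => ∏ i, MvPolynomial.X (a i, b i, c i)

/-- Orbit sum of three polytabloid coefficients. -/
def tri {ι : Type} [Fintype ι] [DecidableEq ι] {α β γ : ℕ → ℕ}
    (t1 : Tab ι α) (t2 : Tab ι β) (t3 : Tab ι γ) (a b c : ι → ℕ) : ℤ :=
  ∑ g : Equiv.Perm ι, co t1 (a ∘ g) * co t2 (b ∘ g) * co t3 (c ∘ g)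

/-- Kronecker positivity. -/
def Pos (α β γ : ℕ → ℕ) : Prop :=
  ∃ (ι : Type) (_ : Fintype ι) (_ : DecidableEq ι) (t1 : Tab ι α) (t2 : Tab ι β) (t3 : Tab ι γ),
    P3 t1 t2 t3 ≠ 0

/-- `α` is (the row length function of) a partition of `n`. -/
def IsPart (n : ℕ) (α : ℕ → ℕ) : Prop :=
  Antitone α ∧ α n = 0 ∧ ∑ a ∈ range n, α a = n

/-- `α'` is the conjugate (transpose) of `α`. -/
def IsConj (α α' : ℕ → ℕ) : Prop := ∀ a b, b < α a ↔ a < α' b

/-- The tensor square of `α` contains every partition of `n`. -/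
def Complete (n : ℕ) (α : ℕ → ℕ) : Prop := ∀ lam, IsPart n lam → Pos α α lam

/-- A column of height `k`. -/
def ind (k : ℕ) : ℕ → ℕ := fun a => if a < k then 1 else 0

/-- `lam / nu` is a horizontal strip (interlacing). -/
def Inter (nu lam : ℕ → ℕ) : Prop := ∀ a, lam (a + 1) ≤ nu a ∧ nu a ≤ lam a

/-- Degree condition of the strip rule. -/
def StripOK (k : ℕ) (β1 β2 : ℕ → ℕ) : Prop :=
  ∀ s, s < k → s < ((range k).filter fun a => min (β1 a) (β2 (k - 1 - a)) ≤ s).card

/-- Row length function of a list. -/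
def fn (l : List ℕ) : ℕ → ℕ := fun a => l.getD a 0

/-- Dominance: any `j` parts of `μ` sum to at most the first `j` rows of `lam`. -/
def Dom (lam : ℕ → ℕ) (μ : List ℕ) : Prop :=
  ∀ S : Multiset ℕ, S ≤ (μ : Multiset ℕ) → S.sum ≤ ∑ a ∈ range (Multiset.card S), lam a

/-! ### Function classes for the `R+` rule -/

/-- Evaluation of a pair of polytabloids against letter weights `z` and the colour word `c`. -/
noncomputable def ev2 {ι : Type} [Fintype ι] [DecidableEq ι] {α β : ℕ → ℕ}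
    (t1 : Tab ι α) (t2 : Tab ι β) (z : ℕ → ℕ → ℕ → ℂ) (c : ι → ℕ) : ℂ :=
  alt t1 fun a => alt t2 fun b => ∏ i, z (a i) (b i) (c i)

/-- A family of spaces of functions on colour words, one for every finite set of letters. -/
def Fam : Type 1 :=
  (ι : Type) → [Fintype ι] → [DecidableEq ι] → Submodule ℂ ((ι → ℕ) → ℂ)

/-- Functions coming from two standard tableaux of shape `η` whose column positions have sum in
`[lo, U)`. -/
noncomputable def G (η : ℕ → ℕ) (lo U : ℕ) : Fam := fun ι _ _ =>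
  Submodule.span ℂ {F | ∃ (t1 t2 : Tab ι η) (z : ℕ → ℕ → ℕ → ℂ), t1.Std ∧ t2.Std ∧
    (∀ i, lo ≤ t1.c i + t2.c i ∧ t1.c i + t2.c i < U) ∧ F = ev2 t1 t2 z}

/-- Induction product of two families. -/
noncomputable def Fam.mul (A B : Fam) : Fam := fun ι _ _ =>
  Submodule.span ℂ {F | ∃ (ι1 ι2 : Type) (_ : Fintype ι1) (_ : DecidableEq ι1) (_ : Fintype ι2)
    (_ : DecidableEq ι2) (e : ι1 ⊕ ι2 ≃ ι) (F1 : (ι1 → ℕ) → ℂ) (F2 : (ι2 → ℕ) → ℂ),
    F1 ∈ A ι1 ∧ F2 ∈ B ι2 ∧ F = fun c => F1 (fun i => c (e (Sum.inl i))) * F2 (fun i => c (e (Sum.inr i)))}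

/-- Unit family. -/
noncomputable def Fam.one : Fam := fun ι _ _ => Submodule.span ℂ {_F | IsEmpty ι}

/-- Inclusion of families. -/
def Fam.Le (A B : Fam) : Prop := ∀ (ι : Type) [Fintype ι] [DecidableEq ι], A ι ≤ B ι

/-- Closure under relabelling of the letters. -/
def Fam.Relab (A : Fam) : Prop :=
  ∀ (ι ι' : Type) [Fintype ι] [DecidableEq ι] [Fintype ι'] [DecidableEq ι'] (e : ι ≃ ι')
    (F : (ι → ℕ) → ℂ), F ∈ A ι → (fun c : ι' → ℕ => F (fun i => c (e i))) ∈ A ι'

/-- Linear substitution of colours, from the four colours `0,1,2,3`. -/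
noncomputable def sub4 {ι : Type} [Fintype ι] [DecidableEq ι] (x : ℕ → ℕ → ℂ)
    (F : (ι → ℕ) → ℂ) : (ι → ℕ) → ℂ :=
  fun c => ∑ w ∈ Fintype.piFinset (fun _ : ι => range 4), (∏ i, x (w i) (c i)) * F w

/-- Closure under colour substitution. -/
def Fam.Sub (A : Fam) : Prop :=
  ∀ (ι : Type) [Fintype ι] [DecidableEq ι] (x : ℕ → ℕ → ℂ) (F : (ι → ℕ) → ℂ),
    F ∈ A ι → sub4 x F ∈ A ι

/-- The family contains all product functions for colourings with block sizes `μ`
(i.e. it sees every constituent of the permutation module `M^μ`). -/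
def Has (A : Fam) (μ : List ℕ) : Prop :=
  ∀ (ι : Type) [Fintype ι] [DecidableEq ι] (col : ι → ℕ),
    (∀ k, (univ.filter fun i => col i = k).card = fn μ k) →
    ∀ x : ℕ → ℕ → ℂ, (fun c : ι → ℕ => ∏ i, x (col i) (c i)) ∈ A ι

/-- Pieces: `c` rows of length `h`; rows `(h+1,h)`; rows `(h+2,h)`; rows `(h,h)`. -/
inductive Piece
  | strip (h c : ℕ)
  | band (h : ℕ)
  | gap (h : ℕ)
  | dbl (h : ℕ)
  deriving DecidableEq

def Piece.rows : Piece → List ℕ
  | .strip h c => List.replicate c h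
  | .band h => [h + 1, h]
  | .gap h => [h + 2, h]
  | .dbl h => [h, h]

/-- Length of the shortest row of the piece. -/
def Piece.h : Piece → ℕ
  | .strip h _ => h
  | .band h => h
  | .gap h => h
  | .dbl h => h

/-- Length of the longest row of the piece. -/
def Piece.hi : Piece → ℕ
  | .strip h _ => h
  | .band h => h + 1
  | .gap h => h + 2
  | .dbl h => h

/-- The family of a piece: antidiagonals `h - 1 ≤ a + b < hi`. -/
noncomputable def Piece.A (p : Piece) : Fam := G (fn p.rows) (p.h - 1) p.hi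

/-- Product family of a list of pieces. -/
noncomputable def PF : List Piece → Fam
  | [] => Fam.one
  | p :: ps => p.A.mul (PF ps)

/-- `Ch U η ps`: the rows `η` (all `≤ U`) are cut into the pieces `ps`, on separated antidiagonals. -/
inductive Ch : ℕ → List ℕ → List Piece → Prop
  | nil (U : ℕ) : Ch U [] []
  | cons (U : ℕ) (p : Piece) (η : List ℕ) (ps : List Piece) :
      p.hi ≤ U → 1 ≤ p.h → Ch (p.h - 1) η ps → Ch U (p.rows ++ η) (p :: ps)

/-- `Cl ps μ`: the pieces are grouped into clusters, with block sizes `μ`. -/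
inductive Cl : List Piece → List ℕ → Prop
  | nil : Cl [] []
  | strip (h c : ℕ) (ps : List Piece) (μ : List ℕ) : Cl ps μ → Cl (.strip h c :: ps) (c * h :: μ)
  | band (h : ℕ) (ν : List ℕ) (ps : List Piece) (μ : List ℕ) : 1 ≤ h → ν.length ≤ 4 →
      ν.sum = 2 * h + 1 → Cl ps μ → Cl (.band h :: ps) (ν ++ μ)
  | bandD (h q : ℕ) (ν : List ℕ) (ps : List Piece) (μ : List ℕ) : 1 ≤ h → ν.length ≤ 4 →
      ν.sum = 2 * h + 1 + 2 * q → Cl ps μ → Cl (.band h :: .dbl q :: ps) (ν ++ μ)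
  | gapD (h q : ℕ) (ν : List ℕ) (ps : List Piece) (μ : List ℕ) : 2 ≤ h → q % 2 = 1 → q ≤ h →
      ν.length ≤ 4 → ν.sum = 2 * h + 2 + 2 * q → Cl ps μ → Cl (.gap h :: .dbl q :: ps) (ν ++ μ)
  | perm (ps ps' : List Piece) (μ : List ℕ) : ps.Perm ps' → Cl ps μ → Cl ps' μ

/-! ### 2 × 2 matrix words -/

/-- The symplectic matrix. -/
def eps : Matrix (Fin 2) (Fin 2) ℂ := !![0, 1; -1, 0]

/-- `V Z false [c₀,c₁,c₂,…] = Z c₀ * ε * (Z c₁)ᵀ * ε * Z c₂ * ε ⋯`;
`V Z true` starts with a transposed matrix. -/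
noncomputable def V (Z : ℕ → Matrix (Fin 2) (Fin 2) ℂ) : Bool → List ℕ → Matrix (Fin 2) (Fin 2) ℂ
  | _, [] => 1
  | false, c :: l => Z c * eps * V Z true l
  | true, c :: l => (Z c).transpose * eps * V Z false l

/-- `uᵀ · V · ε · v`. -/
noncomputable def O (Z : ℕ → Matrix (Fin 2) (Fin 2) ℂ) (s : Bool) (u v : Fin 2 → ℂ) (l : List ℕ) : ℂ :=
  u ⬝ᵥ ((V Z s l * eps).mulVec v)

/-- Polarised determinant of two 2 × 2 matrices. -/
def Bf (X Y : Matrix (Fin 2) (Fin 2) ℂ) : ℂ :=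
  X 0 0 * Y 1 1 - X 0 1 * Y 1 0 - X 1 0 * Y 0 1 + X 1 1 * Y 0 0

/-- Quaternion units (colours `≥ 4` get `0`). -/
noncomputable def quat : ℕ → Matrix (Fin 2) (Fin 2) ℂ
  | 0 => !![1, 0; 0, 1]
  | 1 => !![Complex.I, 0; 0, -Complex.I]
  | 2 => !![0, 1; -1, 0]
  | 3 => !![0, Complex.I; Complex.I, 0]
  | _ => 0

/-! ### Representations -/

open Crest.AlgebraR.Specht in
/-- The polytabloid of `t` in the word module. -/
noncomputable def pt {n : ℕ} {α : ℕ → ℕ} (t : Tab (Fin n) α) : RowWord n →₀ ℂ :=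
  alt t fun w => Finsupp.single (α := RowWord n) w (1 : ℂ)

open Crest.AlgebraR.Specht in
/-- The Specht module of shape `α`. -/
noncomputable def Spec (n : ℕ) (α : ℕ → ℕ) : Subrepresentation (rowWordRep n) :=
  generate (rowWordRep n) (Set.range fun t : Tab (Fin n) α => pt t)

/-! ### The combinatorial layer -/

/-- `α` is `α₀` with a hook frame of arm `H` around it. -/
def Frame (H : ℕ) (α₀ α : ℕ → ℕ) : Prop :=
  α 0 = H ∧ α₀ 0 + 1 ≤ H ∧ ∀ a, α (a + 1) = α₀ a + ind (H - 1) a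

/-- First row and column removed: the shape `α` without its first column. -/
def dropCol (H : ℕ) (α₀ : ℕ → ℕ) : ℕ → ℕ
  | 0 => H - 1
  | a + 1 => α₀ a

/-- The numerical criterion (see `Crit.lean`). -/
def Crit (H n : ℕ) (μ : List ℕ) (l0 num den : ℕ) : Prop :=
  3 ≤ H ∧ 0 < den ∧ num * (H - 2) + den * H ≤ den * (n + 1) ∧ (∀ x ∈ μ, x * l0 ≤ n) ∧
    (μ.map fun x => den * x - num).sum + num ≤ den * (l0 + 1) ∧
    4 * H + (2 * H - 3 - μ.countP (fun x => 0 < x)) ^ 2 < n + 4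

/-- The near-staircase family: staircase of size `L`, the first `q1 ≤ q2` rows and columns
lengthened, centre cell removed (`e = 1`, `L` odd) or added (`e = 2`, `L` even). -/
def famF (L q1 q2 e : ℕ) : ℕ → ℕ := fun a =>
  if a < q1 then L + 2 - a
  else if a < q2 then L + 1 - a
  else if e = 1 ∧ 2 * a + 1 = L then a
  else if e = 2 ∧ 2 * a = L then a + 1
  else max (max (min q1 (L + 2 - a)) (min q2 (L + 1 - a))) (L - a)

/-- Size of `famF`. -/
def famN (L q1 q2 e : ℕ) : ℕ :=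
  L * (L + 1) / 2 + 2 * q1 + 2 * q2 + (if e = 2 then 1 else 0) - (if e = 1 then 1 else 0)

/-- First row of `famF`. -/
def famH (L q1 q2 : ℕ) : ℕ := L + (if 0 < q1 then 1 else 0) + (if 0 < q2 then 1 else 0)

/-- Admissible parameters. -/
def FamOK (L q1 q2 e : ℕ) : Prop :=
  2 * q2 + 6 ≤ L ∧ (e = 0 ∨ (e = 1 ∧ L % 2 = 1) ∨ (e = 2 ∧ L % 2 = 0)) ∧
    (q1 = 0 ∨ (q1 ≤ 4 ∧ q1 + 2 ≤ q2 ∧ L ≤ 2 * q2 + 7 ∧ 2 * q1 + 12 ≤ L))

instance (L q1 q2 e : ℕ) : Decidable (FamOK L q1 q2 e) := by unfold FamOK; infer_instance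

/-- The equation lemmas are generated here once and for all. -/
theorem eqns_defs : True := by
  have := @alt.eq_1.{0}
  have := @altw.congr_simp.{0}
  have := @co.congr_simp
  have := @fn.eq_1
  have := @ind.eq_1
  have := @famH.eq_1
  have := @sub4.eq_1
  have := @V.eq_def
  have := @V.eq_1
  have := @V.eq_2
  have := @V.eq_3
  have := @PF.eq_def
  have := @PF.eq_1
  have := @PF.eq_2
  trivial

end Crest.Agent.R195
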