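import Crest.Agent.R195.Defs

/-!
# Row 195: further definitions (strip operators, paths, list-level checkers)
-/

set_option autoImplicit false

namespace Crest.Agent.R195

open Finset

/-! ### Strip rule -/

/-- Variables: `inl (a,b,c)` are the `X_{abc}`, `inr c` the auxiliary `s_c`. -/
abbrev SV : Type := (ℕ × ℕ × ℕ) ⊕ ℕ

/-- The polarisation operator `E_{ab} = ∑_{c < N} X_{abc} ∂/∂s_c`. -/
noncomputable def Eop (N a b : ℕ) (Q : MvPolynomial SV ℂ) : MvPolynomial SV ℂ :=
  ∑ c ∈ range N, MvPolynomial.X (Sum.inl (a, b, c)) * MvPolynomial.pderiv (Sum.inr c) Q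

/-- Composition of the operators `E_{ab}` for `(a,b)` in a list. -/
noncomputable def EP (N : ℕ) (l : List (ℕ × ℕ)) (Q : MvPolynomial SV ℂ) : MvPolynomial SV ℂ :=
  l.foldr (fun p P => Eop N p.1 p.2 P) Q

/-! ### Paths -/

/-- `ev2` for bare labellings. -/
noncomputable def evw {ι : Type} [Fintype ι] [DecidableEq ι] (c1 r1 c2 r2 : ι → ℕ)
    (z : ℕ → ℕ → ℕ → ℂ) (c : ι → ℕ) : ℂ :=
  altw c1 r1 fun a => altw c2 r2 fun b => ∏ i, z (a i) (b i) (c i)

/-- Letter weights from 2 × 2 matrices. -/
noncomputable def zM (Z : ℕ → Matrix (Fin 2) (Fin 2) ℂ) : ℕ → ℕ → ℕ → ℂ :=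
  fun a b c => Z c (Fin.ofNat 2 a) (Fin.ofNat 2 b)

/-- First basis vector. -/
def e0 : Fin 2 → ℂ := ![1, 0]

/-- Rows along a path for the columns `{0}, {1,2}, {3,4}, …`. -/
def rA (k : ℕ) : ℕ := if k = 0 then 0 else (k + 1) % 2

/-- Rows along a path for the columns `{0,1}, {2,3}, …`. -/
def rB (k : ℕ) : ℕ := k % 2

/-- The first four matrices are pairwise orthogonal. -/
def Orth (Z : ℕ → Matrix (Fin 2) (Fin 2) ℂ) : Prop :=
  ∀ i j, i < 4 → j < 4 → i ≠ j → Bf (Z i) (Z j) = 0

/-- The list `l` enumerates the letters. -/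
def Enum {ι : Type} (l : List ι) : Prop := l.Nodup ∧ ∀ i, i ∈ l

/-- Every partition of `n` with at most four rows is seen by the family. -/
def Sees (A : Fam) (n : ℕ) : Prop :=
  ∀ κ, IsPart n κ → κ 4 = 0 → ∃ (ι : Type) (_ : Fintype ι) (_ : DecidableEq ι) (t : Tab ι κ)
    (F : (ι → ℕ) → ℂ), F ∈ A ι ∧ alt t F ≠ 0

/-! ### Chain specifications -/

/-- Balanced four parts. -/
def bal4 (N : ℕ) : List ℕ := [(N + 3) / 4, (N + 2) / 4, (N + 1) / 4, N / 4]

/-- `(0,h,c)` strip, `(1,h,q)` band carrying the double `q` (none if `q = 0`),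
`(2,h,q)` gap carrying the double `q`, `(3,h,_)` double. -/
abbrev Sp : Type := ℕ × ℕ × ℕ

def spRows (p : Sp) : List ℕ :=
  if p.1 = 0 then List.replicate p.2.2 p.2.1 else if p.1 = 1 then [p.2.1 + 1, p.2.1]
  else if p.1 = 2 then [p.2.1 + 2, p.2.1] else [p.2.1, p.2.1]

def spHi (p : Sp) : ℕ := if p.1 = 1 then p.2.1 + 1 else if p.1 = 2 then p.2.1 + 2 else p.2.1

def spMu (p : Sp) : List ℕ :=
  if p.1 = 0 then [p.2.2 * p.2.1] else if p.1 = 1 then bal4 (2 * p.2.1 + 1 + 2 * p.2.2)
  else if p.1 = 2 then bal4 (2 * p.2.1 + 2 + 2 * p.2.2) else []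

def spGapOK (p : Sp) : Bool :=
  if p.1 = 2 then decide (2 ≤ p.2.1) && decide (p.2.2 % 2 = 1) && decide (p.2.2 ≤ p.2.1) else true

def spExtra (p : Sp) : List ℕ := if (p.1 = 1 ∨ p.1 = 2) ∧ p.2.2 ≠ 0 then [p.2.2] else []

def spDbl (p : Sp) : List ℕ := if 3 ≤ p.1 then [p.2.1] else []

def spCh : ℕ → List Sp → Bool
  | _, [] => true
  | U, p :: ps => decide (spHi p ≤ U) && decide (1 ≤ p.2.1) && spCh (p.2.1 - 1) ps

def rowsOf (sp : List Sp) : List ℕ := sp.flatMap spRows

def muOf (sp : List Sp) : List ℕ := sp.flatMap spMu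

def spOK (U : ℕ) (sp : List Sp) : Bool :=
  spCh U sp && sp.all spGapOK && (sp.flatMap spExtra).isPerm (sp.flatMap spDbl)

/-- `m` bands covering `T, T-1, …, T-2m+1`. -/
def bandsS (T m : ℕ) : List Sp := (List.range m).map fun i => (1, T - 1 - 2 * i, 0)

/-- The run `T, …, T-len+1` cut into bands and possibly a last single row. -/
def runS (T len : ℕ) : List Sp :=
  bandsS T (len / 2) ++ if len % 2 = 1 then [(0, T + 1 - len, 1)] else []

/-- The run `T, …, T-len+1`, the value `T-len` is skipped; then a gap (odd `len`) or the next band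
carries the double `q`. -/
def segS (T len q : ℕ) : List Sp :=
  bandsS T (len / 2) ++ [if len % 2 = 1 then (2, T - len - 1, q) else (1, T - len - 2, q)]

/-- Top of what is left after `segS T len q`. -/
def segNext (T len : ℕ) : ℕ := if len % 2 = 1 then T - len - 2 else T - len - 3

/-- The canonical chain of the family `famF`. -/
def canonSp (L q1 q2 e : ℕ) : List Sp :=
  let T1 := if q1 = 0 then L + 1 else segNext (L + 2) q1
  let len1 := T1 + q2 - L - 1
  let T2 := if q2 = 0 then L else segNext T1 len1
  let d := if e = 1 then (L - 1) / 2 else L / 2 + 1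
  let u := if e = 1 then d + 2 else d + 1
  let w := if e = 1 then d - 1 else d - 2
  (if q1 = 0 then [] else segS (L + 2) q1 q1) ++
  (if q2 = 0 then [] else segS T1 len1 q2) ++
  (if e = 0 then runS T2 (T2 - q2)
    else runS T2 (T2 + 1 - u) ++ [(3, d, 0), (1, w - 1, d)] ++ runS (w - 2) (w - 2 - q2)) ++
  (if q2 = 0 then [] else (3, q2, 0) :: runS (q2 - 1) (q2 - 1 - q1)) ++
  (if q1 = 0 then [] else (3, q1, 0) :: runS (q1 - 1) (q1 - 1))

/-! ### List-level tests -/

/-- Prefix sums of `L` (plus the slack `s`) dominate those of `M`. -/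
def domB : List ℕ → List ℕ → ℕ → Bool
  | _, [], _ => true
  | [], m :: M, s => decide (m ≤ s) && domB [] M (s - m)
  | x :: L, m :: M, s => decide (m ≤ s + x) && domB L M (s + x - m)

def insD (x : ℕ) : List ℕ → List ℕ
  | [] => [x]
  | y :: l => if y ≤ x then x :: y :: l else y :: insD x l

/-- Insertion sort, decreasing. -/
def sortD : List ℕ → List ℕ
  | [] => []
  | x :: l => insD x (sortD l)

/-- Weakly decreasing with positive entries, all `≤ U`. -/
def partB : ℕ → List ℕ → Bool
  | _, [] => true
  | U, x :: l => decide (1 ≤ x) && decide (x ≤ U) && partB x l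

def isPartL (l : List ℕ) : Bool := partB (l.headD 0) l

def conjL (l : List ℕ) : List ℕ :=
  (List.range (l.headD 0)).map fun b => l.countP fun x => decide (b < x)

/-- Drop trailing zeros. -/
def dropZ : List ℕ → List ℕ
  | [] => []
  | x :: l =>
    match dropZ l with
    | [] => if x = 0 then [] else [x]
    | y :: l' => x :: y :: l'

/-- `a - p` entrywise (`a` keeps its length). -/
def subL : List ℕ → List ℕ → List ℕ
  | [], _ => []
  | a, [] => a
  | x :: a, y :: p => (x - y) :: subL a p

/-- `p ≤ a` entrywise. -/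
def leL : List ℕ → List ℕ → Bool
  | [], _ => true
  | y :: p, [] => decide (y = 0) && leL p []
  | y :: p, x :: a => decide (y ≤ x) && leL p a

def stripB (k : ℕ) (b1 b2 : List ℕ) : Bool :=
  let D := (List.range k).map fun a => min (fn b1 a) (fn b2 (k - 1 - a))
  (List.range k).all fun s => decide (s < D.countP fun x => decide (x ≤ s))

/-- `lam / nu` is a horizontal strip. -/
def interB (nu lam : List ℕ) : Bool := leL nu lam && leL lam.tail nu

def critB (H n : ℕ) (μ : List ℕ) (l0 num den : ℕ) : Bool :=
  decide (3 ≤ H) && decide (0 < den) && decide (num * (H - 2) + den * H ≤ den * (n + 1)) &&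
    μ.all (fun x => decide (x * l0 ≤ n)) &&
    decide ((μ.map fun x => den * x - num).sum + num ≤ den * (l0 + 1)) &&
    decide (4 * H + (2 * H - 3 - μ.countP (fun x => 0 < x)) ^ 2 < n + 4)

/-- The check of one member of the family in the finite zone. -/
def zoneOK (L q1 q2 e : ℕ) : Bool :=
  let sp := canonSp L q1 q2 e
  let H := famH L q1 q2
  let n := famN L q1 q2 e
  let μ := muOf sp
  spOK H sp && decide (rowsOf sp = (List.range H).map (famF L q1 q2 e)) &&
    critB H n μ (n / μ.foldr max 1) (n + 1 - H) (H - 2)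

/-! ### The enumerator -/

/-- Balanced list of length `r` and sum `N`. -/
def balL : ℕ → ℕ → List ℕ
  | 0, _ => []
  | r + 1, N => (N + r) / (r + 1) :: balL r (N - (N + r) / (r + 1))

def anyDom (Ms : List (List ℕ)) (L : List ℕ) : Bool := Ms.any fun M => domB L M 0

/-- Loop over `x, x+1, …, hi`; stops successfully at the first `x` with `stop x`. -/
def loop (step : ℕ → List ℕ → Option (List ℕ)) (stop : ℕ → Bool) (hi : ℕ) :
    ℕ → ℕ → List ℕ → Option (List ℕ)
  | 0, x, tk => if hi < x then some tk else none
  | f + 1, x, tk =>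
    if hi < x then some tk else if stop x then some tk else
      match step x tk with
      | none => none
      | some tk' => loop step stop hi f (x + 1) tk'

/-- Enumerates the lists `pre ++ suf ++ ones`, `suf` decreasing of length `left`, entries in `[1, mx]`,
sum `rem`, first entry `≥ lo`; `nx x` is the bound for the entry following `x`. -/
def en (Ms : List (List ℕ)) (leaf : List ℕ → List ℕ → Option (List ℕ)) (ones : List ℕ) :
    ℕ → List ℕ → ℕ → ℕ → ℕ → (ℕ → ℕ) → List ℕ → Option (List ℕ)
  | 0, pre, rem, _, _, _, tk =>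
    if rem = 0 then
      (if anyDom Ms (conjL (pre ++ ones)) then some tk else leaf (pre ++ ones) tk)
    else some tk
  | left + 1, pre, rem, lo, mx, nx, tk =>
    loop (fun x tk => en Ms leaf ones left (pre ++ [x]) (rem - x) 1 (nx x) id tk)
      (fun x => anyDom Ms (pre ++ x :: (balL left (rem - x) ++ ones)))
      (min mx (rem - left)) (mx + 1) (max lo ((rem + left) / (left + 1))) tk

/-- All partitions of `n` with `l` rows in the box. -/
def enRow (Ms : List (List ℕ)) (leaf : List ℕ → List ℕ → Option (List ℕ)) (n Bd l : ℕ)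
    (tk : List ℕ) : Option (List ℕ) :=
  let y := max 1 (min l (Bd - l))
  en Ms leaf (List.replicate (l - y) 1) y [] (n - (l - y)) l (min n Bd)
    (fun x => min x (Bd - x)) tk

/-- All partitions of `n > 0` in the box. -/
def enAll (Ms : List (List ℕ)) (leaf : List ℕ → List ℕ → Option (List ℕ)) (n Bd : ℕ)
    (tk : List ℕ) : Option (List ℕ) :=
  loop (enRow Ms leaf n Bd) (fun _ => false) (min n Bd) (min n Bd) 1 tk

/-! ### The derivation checker -/

/-- Read a length-prefixed list. -/
def rdL : List ℕ → List ℕ × List ℕ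
  | [] => ([], [])
  | k :: tk => (tk.take k, tk.drop k)

def toSp : List ℕ → List Sp
  | a :: b :: c :: l => (a, b, c) :: toSp l
  | _ => []

/-- Goal-directed check of `Pos (fn a) (fn b) (fn c)`; consumes tokens. -/
def der (cs : List (List ℕ)) (bs : List (List ℕ × List ℕ × List ℕ)) :
    ℕ → List ℕ → List ℕ → List ℕ → List ℕ → Option (List ℕ)
  | 0, _, _, _, _ => none
  | _, _, _, _, [] => none
  | f + 1, a, b, c, op :: tk =>
    if op = 0 then
      let x := rdL tk
      let sp := toSp x.1
      if spOK (a.headD 0) sp && decide (rowsOf sp = a) && decide (a = b) && isPartL c &&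
          decide (c.sum = a.sum) && domB c (sortD (muOf sp)) 0 then some x.2 else none
    else if op = 1 then
      let k := tk.headD 0
      let x := rdL tk.tail
      let col := List.replicate k 1
      let a' := dropZ (subL a col)
      let b' := dropZ (subL b col)
      if leL col a && leL col b && stripB k a' b' && interB x.1 c && isPartL c && isPartL x.1 &&
          decide (c.sum = x.1.sum + k) then der cs bs f a' b' x.1 x.2 else none
    else if op = 2 then
      let x := rdL tk
      let y := rdL x.2
      let z := rdL y.2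
      if leL x.1 a && leL y.1 b && leL z.1 c then
        match der cs bs f x.1 y.1 z.1 z.2 with
        | none => none
        | some tk' => der cs bs f (dropZ (subL a x.1)) (dropZ (subL b y.1)) (dropZ (subL c z.1)) tk'
      else none
    else if op = 3 then der cs bs f b a c tk
    else if op = 4 then der cs bs f a c b tk
    else if op = 5 then
      if isPartL a && isPartL b then der cs bs f (conjL a) (conjL b) c tk else none
    else if op = 6 then
      if decide (a = b) && cs.contains a && isPartL c && decide (c.sum = a.sum) then some tk else none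
    else if bs.contains (a, b, c) then some tk else none

/-- Decode a numeral into base-256 tokens; the leading digit `1` is a sentinel. -/
def decode : ℕ → ℕ → List ℕ
  | 0, _ => []
  | f + 1, x => if x ≤ 1 then [] else (x % 256) :: decode f (x / 256)

def tokens (xs : List ℕ) : List ℕ := xs.flatMap (decode 256)

/-- The inner shape. -/
def innerL (α : List ℕ) : List ℕ := dropZ (α.tail.map (· - 1))

/-- Check of one record: shape `α`, whether the inner shape is used, chains, certificate. -/
def recOK (cs : List (List ℕ)) (bs : List (List ℕ × List ℕ × List ℕ)) (α : List ℕ) (useIn : Bool)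
    (sps : List (List Sp)) (tk : List ℕ) : Bool :=
  let H := α.headD 0
  let α0 := innerL α
  isPartL α && decide (1 ≤ H) && decide (conjL α = α) &&
    sps.all (fun sp => spOK H sp && decide (rowsOf sp = α)) &&
    (!useIn || (cs.contains α0 && isPartL α0 && decide (conjL α0 = α0) &&
      decide (α0.headD 0 + 1 ≤ H) && stripB (H - 1) α0 α0 && stripB H ((H - 1) :: α0) ((H - 1) :: α0))) &&
    (enAll (sps.map fun sp => sortD (muOf sp)) (fun L tk => der cs bs 24 α α L tk) α.sum
      (if useIn then 2 * H - 2 else 2 * α.sum) tk).isSome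

/-- The equation lemmas are generated here once and for all. -/
theorem eqns_defs2 : True := by
  have := @EP.eq_1
  have := @anyDom.eq_1
  have := @bandsS.eq_1
  have := @conjL.eq_1
  have := @critB.eq_1
  have := @der.eq_def
  have := @der.eq_1
  have := @der.eq_2
  have := @der.eq_3
  have := @domB.eq_def
  have := @domB.eq_1
  have := @domB.eq_2
  have := @domB.eq_3
  have := @dropZ.eq_def
  have := @dropZ.eq_1
  have := @dropZ.eq_2
  have := @en.eq_def
  have := @en.eq_1
  have := @en.eq_2
  have := @evw.eq_1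
  have := @insD.eq_def
  have := @insD.eq_1
  have := @insD.eq_2
  have := @interB.eq_1
  have := @isPartL.eq_1
  have := @leL.eq_def
  have := @leL.eq_1
  have := @leL.eq_2
  have := @leL.eq_3
  have := @loop.eq_def
  have := @loop.eq_1
  have := @loop.eq_2
  have := @muOf.eq_1
  have := @partB.eq_def
  have := @partB.eq_1
  have := @partB.eq_2
  have := @recOK.eq_1
  have := @rowsOf.eq_1
  have := @spCh.eq_def
  have := @spCh.eq_1
  have := @spCh.eq_2
  have := @spDbl.eq_1
  have := @spExtra.eq_1
  have := @spGapOK.eq_1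
  have := @spHi.eq_1
  have := @spMu.eq_1
  have := @spRows.eq_1
  have := @stripB.eq_1
  have := @zM.eq_1
  have := @sortD.eq_def
  have := @subL.eq_def
  have := @balL.eq_def
  have := @decode.eq_def
  have := @toSp.eq_def
  trivial

end Crest.Agent.R195
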