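import Crest.Agent.R195.Defs2

/-!
# Row 195: the direct evaluator of a triple polytabloid polynomial
-/

set_option autoImplicit false

namespace Crest.Agent.R195

open Finset

/-- Pairwise sign factor. -/
def pf (c c' x y : ℕ) : ℤ := if c = c' then (if x < y then 1 else if y < x then -1 else 0) else 1

/-- Product of the pairwise sign factors of a word. -/
def sW {n : ℕ} (c w : Fin n → ℕ) : ℤ := ∏ i, ∏ j ∈ Iio i, pf (c j) (c i) (w j) (w i)

abbrev Tr : Type := ℕ × ℕ × ℕ

def pf3 (C C' x y : Tr) : ℤ :=
  pf C.1 C'.1 x.1 y.1 * pf C.2.1 C'.2.1 x.2.1 y.2.1 * pf C.2.2 C'.2.2 x.2.2 y.2.2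

/-- Product of the factors between a new letter (columns `C`, value `x`) and the earlier ones; early exit. -/
def sgnTo (C x : Tr) : List (Tr × Tr) → ℤ
  | [] => 1
  | d :: l => if pf3 d.1 C d.2 x = 0 then 0 else pf3 d.1 C d.2 x * sgnTo C x l

def ltTr (x H : Tr) : Bool := decide (x.1 < H.1) && decide (x.2.1 < H.2.1) && decide (x.2.2 < H.2.2)

/-- First list: remaining letters (columns, column heights); second list: assigned letters (columns, values). -/
def evB (z : List (Tr × ℤ)) : List (Tr × Tr) → List (Tr × Tr) → ℤ
  | [], _ => 1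
  | L :: rest, done =>
    (z.map fun p =>
      if ltTr p.1 L.2 then
        (if sgnTo L.1 p.1 done = 0 then 0
          else sgnTo L.1 p.1 done * p.2 * evB z rest ((L.1, p.1) :: done))
      else 0).sum

/-- The cells `(row, column)` fill the diagram of `α` bijectively. -/
def tabB (α : List ℕ) (cells : List (ℕ × ℕ)) : Bool :=
  isPartL α && decide (α.sum = cells.length) && decide cells.Nodup &&
    cells.all fun p => decide (p.2 < fn α p.1)

/-- `cells` lists for every letter its three rows and its three columns. -/
def baseOK (a b c : List ℕ) (cells : List (Tr × Tr)) (z : List (Tr × ℤ)) : Bool :=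
  tabB a (cells.map fun p => (p.1.1, p.2.1)) && tabB b (cells.map fun p => (p.1.2.1, p.2.2.1)) &&
    tabB c (cells.map fun p => (p.1.2.2, p.2.2.2)) &&
    decide (evB z (cells.map fun p => (p.2, (cells.countP (fun q => decide (q.2.1 = p.2.1)),
      cells.countP (fun q => decide (q.2.2.1 = p.2.2.1)),
      cells.countP (fun q => decide (q.2.2.2 = p.2.2.2))))) [] ≠ 0)

end Crest.Agent.R195
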