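import Crest.Agent.R195.Lists

/-!
# Row 195: soundness of the enumerator
-/

set_option autoImplicit false

namespace Crest.Agent.R195

theorem enum_sum_le (s : List ℕ) (x : ℕ) (h : ∀ y ∈ s, y ≤ x) : s.sum ≤ s.length * x := by
  induction s with
  | nil => simp
  | cons a s ih =>
    have h1 := h a (by simp)
    have h2 := ih fun y hy => h y (List.mem_cons_of_mem _ hy)
    simp only [List.sum_cons, List.length_cons]
    nlinarith

theorem enum_length_le_sum (s : List ℕ) (h : ∀ y ∈ s, 0 < y) : s.length ≤ s.sum := by
  induction s with
  | nil => simp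
  | cons a s ih =>
    have h1 := h a (by simp)
    have h2 := ih fun y hy => h y (List.mem_cons_of_mem _ hy)
    simp only [List.sum_cons, List.length_cons]
    omega

theorem enum_take_mono (pre ones A B : List ℕ) (hl : A.length = B.length)
    (h : ∀ j, (A.take j).sum ≤ (B.take j).sum) (j : ℕ) :
    ((pre ++ A ++ ones).take j).sum ≤ ((pre ++ B ++ ones).take j).sum := by
  simp only [List.take_append, List.sum_append, List.length_append, hl]
  have := h (j - pre.length)
  omega

theorem enum_drop_ones (L : List ℕ) (h1 : L.Pairwise fun x y => y ≤ x) (h2 : ∀ x ∈ L, 0 < x)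
    (y : ℕ) (hy : (L.countP fun x => decide (1 < x)) ≤ y) :
    L.drop y = List.replicate (L.length - y) 1 := by
  induction L generalizing y with
  | nil => simp
  | cons x L ih =>
    obtain _ | y := y
    · simp only [List.drop_zero, Nat.sub_zero]
      rw [List.eq_replicate_iff]
      refine ⟨rfl, fun b hb => ?_⟩
      have h3 := List.countP_eq_zero.mp (Nat.le_zero.mp hy) b hb
      have h4 := h2 b hb
      simp only [decide_eq_true_eq] at h3
      omega
    · rw [List.pairwise_cons] at h1
      simp only [List.drop_succ_cons, List.length_cons, Nat.add_sub_add_right]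
      refine ih h1.2 (fun z hz => h2 z (List.mem_cons_of_mem _ hz)) y ?_
      by_cases hx : 1 < x
      · rw [List.countP_cons_of_pos (by simpa using hx)] at hy
        omega
      · have : (L.countP fun x => decide (1 < x)) = 0 := by
          rw [List.countP_eq_zero]
          intro b hb
          have := h1.1 b hb
          simp only [decide_eq_true_eq]
          omega
        omega

theorem balL_length (r N : ℕ) : (balL r N).length = r := by
  induction r generalizing N with
  | zero => simp [balL]
  | succ r ih => simp [balL, ih]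

/-- The balanced list has the smallest prefix sums.  Induction on `r` (all `N`, `s`, `j`): let `b = (N + r)/(r+1)`, `s = x :: s'`.
One has `s'.sum ≤ N - b` (otherwise `x ≤ N - s'.sum ≤ b - 1`, so `s'.sum ≤ r x ≤ r (b-1)`, while `N ≥ (r+1)(b-1) + 1`), and `b ≤ N`;
apply the induction hypothesis to `N - b` and `s'`. -/
theorem balL_le (r N : ℕ) (s : List ℕ) (hs : s.Pairwise fun x y => y ≤ x) (hl : s.length = r)
    (hN : s.sum ≤ N) (j : ℕ) : ((balL r N).take j).sum ≤ (s.take j).sum + (N - s.sum) := by
  induction r generalizing N s j with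
  | zero => simp [balL]
  | succ r ih =>
    obtain _ | ⟨x, s'⟩ := s
    · simp at hl
    obtain _ | j := j
    · simp
    rw [List.pairwise_cons] at hs
    simp only [List.length_cons, Nat.add_right_cancel_iff] at hl
    simp only [List.sum_cons] at hN
    have hb1 : (N + r) / (r + 1) ≤ N := by
      rw [Nat.div_le_iff_le_mul_add_pred (Nat.succ_pos r)]
      rcases Nat.eq_zero_or_pos N with h | h
      · subst h; simp
      · simp only [Nat.succ_sub_one, Nat.succ_eq_add_one]
        nlinarith
    have hb2 : (r + 1) * ((N + r) / (r + 1)) ≤ N + r := Nat.mul_div_le _ _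
    have hsum : s'.sum ≤ r * x := by
      have := enum_sum_le s' x hs.1
      rwa [hl] at this
    have hb3 : s'.sum ≤ N - (N + r) / (r + 1) := by
      by_contra hc
      push Not at hc
      generalize (N + r) / (r + 1) = b at *
      have h4 : x + 1 ≤ b := by omega
      have h5 : N + 1 ≤ s'.sum + b := by omega
      nlinarith
    have := ih (N - (N + r) / (r + 1)) s' hs.2 hl hb3 j
    simp only [balL, List.take_succ_cons, List.sum_cons]
    omega

theorem anyDom_mono {Ms : List (List ℕ)} {L L' : List ℕ}
    (h : ∀ j, (L.take j).sum ≤ (L'.take j).sum) (hL : anyDom Ms L = true) :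
    anyDom Ms L' = true := by
  unfold anyDom at hL ⊢
  rw [List.any_eq_true] at hL ⊢
  obtain ⟨M, hM, hd⟩ := hL
  refine ⟨M, hM, ?_⟩
  rw [domB_iff] at hd ⊢
  intro j
  exact (hd j).trans (Nat.add_le_add_left (h j) 0)

theorem loop_sound {step : ℕ → List ℕ → Option (List ℕ)} {stop : ℕ → Bool} {hi : ℕ} (f x : ℕ)
    (tk : List ℕ) (h : (loop step stop hi f x tk).isSome = true) (x' : ℕ) (h1 : x ≤ x')
    (h2 : x' ≤ hi) :
    (∃ y, y ≤ x' ∧ stop y = true) ∨ ∃ tk', (step x' tk').isSome = true := by
  induction f generalizing x tk with
  | zero =>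
    unfold loop at h
    split_ifs at h with hh
    · omega
    · simp at h
  | succ f ih =>
    unfold loop at h
    split_ifs at h with hh hs
    · omega
    · exact Or.inl ⟨x, h1, hs⟩
    · rcases h1.eq_or_lt with he | hlt
      · subst he
        right
        refine ⟨tk, ?_⟩
        cases hst : step x tk with
        | none => rw [hst] at h; simp at h
        | some tk' => rfl
      · cases hst : step x tk with
        | none => rw [hst] at h; simp at h
        | some tk' =>
          rw [hst] at h
          exact ih (x + 1) tk' h hlt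

/-- Induction on `left`.  `R L` is "`anyDom Ms L` or `anyDom Ms (conjL L)` or the leaf test succeeds on `L`". -/
theorem en_sound (Ms : List (List ℕ)) (leaf : List ℕ → List ℕ → Option (List ℕ)) (ones : List ℕ)
    (left : ℕ) (pre : List ℕ) (rem lo mx : ℕ) (nx : ℕ → ℕ) (tk : List ℕ)
    (h : (en Ms leaf ones left pre rem lo mx nx tk).isSome = true) (suf : List ℕ)
    (hl : suf.length = left) (hs : suf.Pairwise fun x y => y ≤ x) (hp : ∀ x ∈ suf, 0 < x)
    (hsum : suf.sum = rem) (h0 : ∀ x ∈ suf.head?, lo ≤ x ∧ x ≤ mx)
    (h1 : ∀ y ∈ suf.tail.head?, y ≤ nx (suf.headD 0)) :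
    anyDom Ms (pre ++ suf ++ ones) = true ∨ anyDom Ms (conjL (pre ++ suf ++ ones)) = true ∨
      ∃ tk', (leaf (pre ++ suf ++ ones) tk').isSome = true := by
  induction left generalizing pre rem lo mx nx tk suf with
  | zero =>
    obtain rfl : suf = [] := List.length_eq_zero_iff.mp hl
    simp only [List.sum_nil] at hsum
    subst hsum
    simp only [List.append_nil]
    unfold en at h
    simp only [if_true] at h
    split_ifs at h with hh
    · exact Or.inr (Or.inl hh)
    · exact Or.inr (Or.inr ⟨tk, h⟩)
  | succ left ih =>
    obtain _ | ⟨x, s'⟩ := suf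
    · simp at hl
    rw [List.pairwise_cons] at hs
    simp only [List.length_cons, Nat.add_right_cancel_iff] at hl
    simp only [List.sum_cons] at hsum
    have hx0 := h0 x (by simp)
    have hsum1 : s'.sum ≤ left * x := by
      have := enum_sum_le s' x hs.1
      rwa [hl] at this
    have hsum2 : left ≤ s'.sum := by
      have := enum_length_le_sum s' fun z hz => hp z (List.mem_cons_of_mem _ hz)
      rwa [hl] at this
    have hst : max lo ((rem + left) / (left + 1)) ≤ x := by
      refine max_le hx0.1 ?_
      rw [Nat.div_le_iff_le_mul_add_pred (Nat.succ_pos left)]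
      simp only [Nat.succ_sub_one, Nat.succ_eq_add_one]
      nlinarith
    have hhi : x ≤ min mx (rem - left) := le_min hx0.2 (by omega)
    unfold en at h
    rcases loop_sound _ _ _ h x hst hhi with ⟨y, hy, hstop⟩ | ⟨tk', hstep⟩
    · left
      refine anyDom_mono ?_ hstop
      have e1 : pre ++ y :: (balL left (rem - y) ++ ones) =
          pre ++ (y :: balL left (rem - y)) ++ ones := by simp
      rw [e1]
      refine enum_take_mono pre ones _ _ (by simp [balL_length, hl]) ?_
      intro j
      obtain _ | j := j
      · simp
      have := balL_le left (rem - y) s' hs.2 hl (by omega) j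
      simp only [List.take_succ_cons, List.sum_cons]
      omega
    · have e1 : pre ++ x :: s' ++ ones = pre ++ [x] ++ s' ++ ones := by simp
      rw [e1]
      refine ih (pre ++ [x]) (rem - x) 1 (nx x) id tk' hstep s' hl hs.2
        (fun z hz => hp z (List.mem_cons_of_mem _ hz)) (by omega) ?_ ?_
      · intro z hz
        refine ⟨hp z (List.mem_cons_of_mem _ (List.mem_of_mem_head? hz)), ?_⟩
        simpa using h1 z (by simpa using hz)
      · intro z hz
        obtain _ | ⟨w, s''⟩ := s'
        · simp at hz
        · simp only [List.tail_cons] at hz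
          have := (List.pairwise_cons.mp hs.2).1 z (List.mem_of_mem_head? hz)
          simpa using this

/-- With `l = L.length`, `y = max 1 (min l (Bd - l))`: `L = L.take y ++ replicate (l - y) 1`. -/
theorem enAll_sound (Ms : List (List ℕ)) (leaf : List ℕ → List ℕ → Option (List ℕ)) (n Bd : ℕ)
    (tk : List ℕ) (h : (enAll Ms leaf n Bd tk).isSome = true) (hn : 0 < n) (L : List ℕ)
    (hL : isPartL L = true) (hs : L.sum = n) (h1 : fn L 0 + fn L 1 ≤ Bd)
    (h2 : L.length + (L.countP fun x => decide (1 < x)) ≤ Bd) (h3 : L.length ≤ fn L 0) :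
    anyDom Ms L = true ∨ anyDom Ms (conjL L) = true ∨ ∃ tk', (leaf L tk').isSome = true := by
  rw [isPartL_iff] at hL
  obtain ⟨hL1, hL2⟩ := hL
  have hl1 : 1 ≤ L.length := by
    obtain _ | ⟨x, L'⟩ := L
    · simp at hs; omega
    · simp
  have hl2 : L.length ≤ n := hs ▸ enum_length_le_sum L hL2
  unfold enAll at h
  rcases loop_sound _ _ _ h L.length hl1 (le_min hl2 (by omega)) with ⟨y, _, hstop⟩ | ⟨tk', hstep⟩
  · simp at hstop
  unfold enRow at hstep
  simp only at hstep
  generalize hy : max 1 (min L.length (Bd - L.length)) = y at hstep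
  have hy1 : 1 ≤ y := by omega
  have hy2 : y ≤ L.length := by omega
  have hd : L.drop y = List.replicate (L.length - y) 1 := by
    rcases hy2.eq_or_lt with he | hlt
    · rw [he]; simp
    · exact enum_drop_ones L hL1 hL2 y (by omega)
  have hLe : L = [] ++ L.take y ++ List.replicate (L.length - y) 1 := by
    rw [← hd]; simp
  have hsum : (L.take y).sum = n - (L.length - y) := by
    have := List.sum_take_add_sum_drop L y
    rw [hd] at this
    simp at this
    omega
  have key := en_sound Ms leaf _ y [] _ _ _ _ tk' hstep (L.take y) (by simp [hy2])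
    (hL1.sublist (List.take_sublist _ _)) (fun x hx => hL2 x (List.mem_of_mem_take hx)) hsum ?_ ?_
  · rw [← hLe] at key
    exact key
  · obtain _ | ⟨x, L'⟩ := L
    · simp at hl1
    obtain _ | y := y
    · omega
    intro z hz
    simp only [List.take_succ_cons, List.head?_cons, Option.mem_def, Option.some.injEq] at hz
    subst hz
    simp only [fn_cons_zero, List.sum_cons] at h1 h3 hs
    exact ⟨h3, le_min (by omega) (by omega)⟩
  · obtain _ | ⟨x, L'⟩ := L
    · simp at hl1
    obtain _ | y := y
    · omega
    intro z hz
    simp only [List.take_succ_cons, List.tail_cons, List.headD_cons] at hz ⊢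
    obtain _ | ⟨w, L''⟩ := L'
    · simp at hz
    obtain _ | y := y
    · simp at hz
    simp only [List.take_succ_cons, List.head?_cons, Option.mem_def, Option.some.injEq] at hz
    subst hz
    have h5 := (List.pairwise_cons.mp hL1).1 w (by simp)
    have h6 : fn (x :: w :: L'') 1 = w := by simp [fn]
    simp only [fn_cons_zero, h6] at h1
    exact le_min h5 (by omega)

end Crest.Agent.R195
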