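import Crest.Agent.R195.PosB

/-!
# Row 195: simultaneous transposition of two shapes

Let `t` be standard, `R = colGrp t.r` (row group), `C = colGrp t.c`, `G = Perm ι`,
`y g = co t (t.r ∘ g)`.  Then `y (ρ σ) = sg σ` for `ρ ∈ R, σ ∈ C`, `y = 0` elsewhere (`co_comp`,
`co_eq_zero`; `t.r ∘ g = t.r ∘ σ ↔ g σ⁻¹ ∈ R`), and for the transposed tableau `t'` (`t'.r = t.c`,
`t'.c = t.r`) one has `co t' (t'.r ∘ g) = sg g * y g⁻¹`.
In the group algebra `y = ρ κ` (`ρ = ∑_R`, `κ = ∑_C sg`), `g ↦ y g⁻¹` is `κ ρ`.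
-/

set_option autoImplicit false

namespace Crest.Agent.R195

open Finset

variable {ι : Type} [Fintype ι] [DecidableEq ι]

theorem tr_row {α : ℕ → ℕ} (t : Tab ι α) {ρ : Equiv.Perm ι} (hρ : ρ ∈ colGrp t.r)
    (g : Equiv.Perm ι) : co t (t.r ∘ ⇑(ρ * g)) = co t (t.r ∘ g) :=
  congrArg (co t) (funext fun i => mem_colGrp.1 hρ (g i))

theorem tr_col {α : ℕ → ℕ} (t : Tab ι α) {σ : Equiv.Perm ι} (hσ : σ ∈ colGrp t.c)
    (g : Equiv.Perm ι) : co t (t.r ∘ ⇑(g * σ)) = sg σ * co t (t.r ∘ g) := co_comp_col t (t.r ∘ g) hσ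

theorem tr_ne {α : ℕ → ℕ} (t : Tab ι α) {w : ι → ℕ} (h : co t w ≠ 0) :
    ∃ σ ∈ colGrp t.c, w = t.r ∘ σ := by
  by_contra h'
  exact h (co_eq_zero t fun σ hσ e => h' ⟨σ, hσ, e⟩)

theorem tr_ne' {α : ℕ → ℕ} (t : Tab ι α) {g : Equiv.Perm ι} (h : co t (t.r ∘ g) ≠ 0) :
    ∃ ρ ∈ colGrp t.r, ∃ σ ∈ colGrp t.c, g = ρ * σ := by
  obtain ⟨σ, hσ, e⟩ := tr_ne t h
  exact ⟨g * σ⁻¹, mem_colGrp.2 fun i => by simpa using congrFun e (σ⁻¹ i), σ, hσ, by simp⟩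

theorem tr_sum_left {c : ι → ℕ} {τ : Equiv.Perm ι} (hτ : τ ∈ colGrp c) (F : Equiv.Perm ι → ℤ) :
    ∑ σ ∈ colGrp c, F (τ * σ) = ∑ σ ∈ colGrp c, F σ :=
  sum_nbij' (τ * ·) (τ⁻¹ * ·) (fun _ h => mul_mem_colGrp hτ h)
    (fun _ h => mul_mem_colGrp (inv_mem_colGrp hτ) h) (by simp) (by simp) fun _ _ => rfl

theorem tr_sum_right {c : ι → ℕ} {τ : Equiv.Perm ι} (hτ : τ ∈ colGrp c) (F : Equiv.Perm ι → ℤ) :
    ∑ σ ∈ colGrp c, F (σ * τ) = ∑ σ ∈ colGrp c, F σ :=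
  sum_nbij' (· * τ) (· * τ⁻¹) (fun _ h => mul_mem_colGrp h hτ)
    (fun _ h => mul_mem_colGrp h (inv_mem_colGrp hτ)) (by simp) (by simp) fun _ _ => rfl

theorem tr_sum_inv (c : ι → ℕ) (F : Equiv.Perm ι → ℤ) :
    ∑ σ ∈ colGrp c, F σ⁻¹ = ∑ σ ∈ colGrp c, F σ :=
  sum_nbij' (·⁻¹) (·⁻¹) (fun _ h => inv_mem_colGrp h) (fun _ h => inv_mem_colGrp h) (by simp)
    (by simp) fun _ _ => rfl

theorem tr_sum_y {α : ℕ → ℕ} (t : Tab ι α) (φ : Equiv.Perm ι → ℤ)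
    (hφ : ∀ ρ ∈ colGrp t.r, ∀ g, φ (ρ * g) = φ g) :
    ∑ g : Equiv.Perm ι, co t (t.r ∘ g) * φ g =
      (colGrp t.r).card * ∑ σ ∈ colGrp t.c, sg σ * φ σ := by
  simp only [co, alt, altw, smul_eq_mul, sum_mul, mul_sum]
  rw [sum_comm]
  refine sum_congr rfl fun σ _ => ?_
  rw [← Equiv.sum_comp (Equiv.mulRight σ), ← nsmul_eq_mul, ← sum_const, colGrp, sum_filter]
  refine sum_congr rfl fun g _ => ?_
  by_cases h : ∀ i, t.r (g i) = t.r i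
  · rw [if_pos h, if_pos (show t.r ∘ σ = t.r ∘ ⇑(Equiv.mulRight σ g) from
      funext fun i => (h (σ i)).symm), mul_one]
    exact congrArg _ (hφ g (mem_colGrp.2 h) σ)
  · rw [if_neg h, if_neg fun e => h fun i => by simpa using (congrFun e (σ⁻¹ i)).symm, mul_zero,
      zero_mul]

theorem co_tr {α α' : ℕ → ℕ} (t : Tab ι α) (t' : Tab ι α') (hr : t'.r = t.c) (hc : t'.c = t.r)
    (g : Equiv.Perm ι) : co t' (t'.r ∘ g) = sg g * co t (t.r ∘ ⇑(g⁻¹)) := by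
  by_cases h : ∃ σ ∈ colGrp t.c, ∃ ρ ∈ colGrp t.r, g = σ * ρ
  · obtain ⟨σ, hσ, ρ, hρ, rfl⟩ := h
    rw [tr_row t' (hr ▸ hσ), co_comp t' (hc ▸ hρ), mul_inv_rev, tr_row t (inv_mem_colGrp hρ),
      co_comp t (inv_mem_colGrp hσ), sg_mul, sg_inv, mul_right_comm, sg_mul_self, one_mul]
  have h1 : co t' (t'.r ∘ g) = 0 := by_contra fun h1 => h (hr ▸ hc ▸ tr_ne' t' h1)
  have h2 : co t (t.r ∘ ⇑(g⁻¹)) = 0 := by_contra fun h2 => by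
    obtain ⟨ρ, hρ, σ, hσ, e⟩ := tr_ne' t h2
    exact h ⟨_, inv_mem_colGrp hσ, _, inv_mem_colGrp hρ, by rw [← mul_inv_rev, ← e, inv_inv]⟩
  rw [h1, h2, mul_zero]

/-- `ρ (κ ρ) κ = H ρ κ` with `H ≠ 0`.  Put `f g = ∑_{ρ ∈ R} ∑_{σ ∈ C} sg σ * y ((ρ * g * σ)⁻¹)`.
By `neumann`, `f g = f 1 * y g`.  To see `H = f 1 ≠ 0` put `B g = ∑_{ρ ∈ R} y (g * ρ)` (the element
`ρ κ ρ`): `B g⁻¹ = B g`, `B` is bi-invariant under `R`, `B 1 = ∑_ρ y ρ = |R| > 0`.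
Summing `f (g ρ')` over `ρ' ∈ R` at `g = 1` gives `H * |R| = ∑_{ρ'} f ρ'`, the coefficient of `1` in
`ρκρκρ = |R|⁻¹ B * B`, i.e. `|R| * (H * |R|) = ∑_g B g * B g⁻¹ = ∑_g (B g)^2 ≥ (B 1)^2 > 0`.
(One may also do this computation in `MonoidAlgebra ℤ G` or with real matrices.) -/
theorem young_sq {α : ℕ → ℕ} (t : Tab ι α) :
    ∃ H : ℤ, H ≠ 0 ∧ ∀ g : Equiv.Perm ι,
      ∑ ρ ∈ colGrp t.r, ∑ σ ∈ colGrp t.c, sg σ * co t (t.r ∘ ⇑((ρ * g * σ)⁻¹)) =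
        H * co t (t.r ∘ g) := by
  set f : Equiv.Perm ι → ℤ := fun g =>
    ∑ ρ ∈ colGrp t.r, ∑ σ ∈ colGrp t.c, sg σ * co t (t.r ∘ ⇑((ρ * g * σ)⁻¹)) with hf
  refine ⟨f 1, fun h0 => ?_, fun g => ?_⟩
  · set B : Equiv.Perm ι → ℤ := fun g => ∑ ρ ∈ colGrp t.r, co t (t.r ∘ ⇑(g * ρ)) with hB
    have h1 : ∑ σ ∈ colGrp t.c, sg σ * B σ = 0 := by
      rw [← h0, ← tr_sum_inv]
      simp only [hf, hB, mul_inv_rev, sg_inv, inv_one, one_mul]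
      rw [sum_comm]
      refine sum_congr rfl fun σ _ => ?_
      rw [← mul_sum, tr_sum_inv t.r fun ρ => co t (t.r ∘ ⇑(σ⁻¹ * ρ))]
    have h2 := tr_sum_y t B fun ρ hρ g => sum_congr rfl fun ρ' _ => by rw [mul_assoc, tr_row t hρ]
    have h3 : ∑ g, B g * B g = 0 := by
      conv_lhs => enter [2, g, 1]; rw [hB]
      simp only [sum_mul]
      rw [sum_comm]
      refine sum_eq_zero fun ρ hρ => ?_
      rw [h1, mul_zero, ← Equiv.sum_comp (Equiv.mulRight ρ)] at h2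
      rw [← h2]
      refine sum_congr rfl fun g _ => congrArg _ ?_
      simp only [hB, Equiv.coe_mulRight, mul_assoc]
      exact (tr_sum_left hρ fun ρ' => co t (t.r ∘ ⇑(g * ρ'))).symm
    have h4 := (sum_eq_zero_iff_of_nonneg fun g _ => mul_self_nonneg (B g)).1 h3 1 (mem_univ _)
    have h5 : B 1 = (colGrp t.r).card := by
      rw [card_eq_sum_ones, Nat.cast_sum]
      refine sum_congr rfl fun ρ hρ => ?_
      rw [one_mul, ← mul_one ρ, tr_row t hρ, co_comp t (one_mem_colGrp _), sg_one, Nat.cast_one]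
    rw [mul_self_eq_zero, h5, Nat.cast_eq_zero, card_eq_zero] at h4
    exact ne_empty_of_mem (one_mem_colGrp t.r) h4
  · have := neumann t (fun g => (f g : ℂ)) (fun ρ hρ g => congrArg _ ?_) (fun σ hσ g => ?_) g
    · exact_mod_cast this
    · simp only [hf, ← mul_assoc]
      exact tr_sum_right hρ fun ρ => ∑ σ ∈ colGrp t.c, sg σ * co t (t.r ∘ ⇑((ρ * g * σ)⁻¹))
    · rw [← Int.cast_mul]
      simp only [hf, mul_sum]
      refine congrArg _ (sum_congr rfl fun ρ _ => ?_)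
      rw [← tr_sum_left hσ fun τ => sg σ * (sg τ * co t (t.r ∘ ⇑((ρ * g * τ)⁻¹)))]
      refine sum_congr rfl fun τ _ => ?_
      rw [sg_mul, ← mul_assoc, ← mul_assoc, ← mul_assoc (sg σ), sg_mul_self, one_mul]
      simp only [mul_assoc]

/-- Key step.  If `a` is not of the form `t.r ∘ h` all `co t (a ∘ g)` vanish.  Otherwise by `young_sq` and
`co_tr` the function `g ↦ H * co t (t.r ∘ h ∘ g)` is a signed sum of the functions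
`g ↦ sg g * co t' (t'.r ∘ (ρ h g σ)) = sg g * co s ((t'.r ∘ ρ ∘ h) ∘ g)` where `s` is `t'` relabelled along `σ⁻¹`
(`s.r = t'.r ∘ σ⁻¹`, `s.c = t'.c ∘ σ⁻¹`, `co s (w ∘ σ⁻¹) = co t' w`). -/
theorem tr_key {α α' : ℕ → ℕ} (t : Tab ι α) (ht : t.Std) (hc : IsConj α α') (a : ι → ℕ)
    (φ : Equiv.Perm ι → ℤ) (h : ∑ g : Equiv.Perm ι, co t (a ∘ g) * φ g ≠ 0) :
    ∃ (s : Tab ι α') (a' : ι → ℕ), ∑ g : Equiv.Perm ι, sg g * co s (a' ∘ g) * φ g ≠ 0 := by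
  obtain ⟨g0, -, h0⟩ := exists_ne_zero_of_sum_ne_zero h
  obtain ⟨σ0, -, e⟩ := tr_ne t (left_ne_zero_of_mul h0)
  obtain ⟨k, rfl⟩ : ∃ k : Equiv.Perm ι, a = t.r ∘ k :=
    ⟨σ0 * g0⁻¹, funext fun i => by simpa using congrFun e (g0⁻¹ i)⟩
  obtain ⟨t', hr, hc', -⟩ := ht.exists_tr hc
  obtain ⟨H, hH, hy⟩ := young_sq t
  have h1 := mul_ne_zero hH h
  rw [mul_sum, sum_congr rfl fun g _ => by
    rw [← mul_assoc, show (t.r ∘ k) ∘ g = t.r ∘ ⇑(k * g) from rfl, ← hy, sum_mul], sum_comm] at h1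
  obtain ⟨ρ, -, h1⟩ := exists_ne_zero_of_sum_ne_zero h1
  simp only [sum_mul] at h1
  rw [sum_comm] at h1
  obtain ⟨σ, -, h1⟩ := exists_ne_zero_of_sum_ne_zero h1
  obtain ⟨s, hsr, hsc⟩ := t'.exists_relabel σ.symm
  have hs : ∀ w : ι → ℕ, co t' (w ∘ σ) = co s w := fun w => by
    rw [co, alt_relabel t' s σ.symm hsr hsc]
    simp only [Equiv.symm_symm, σ.surjective.right_cancellable]
    rfl
  refine ⟨s, t'.r ∘ ⇑(ρ * k), fun h2 => h1 ?_⟩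
  rw [← mul_zero (sg (ρ * k)), ← h2, mul_sum]
  refine sum_congr rfl fun g _ => ?_
  rw [← hs, show ((t'.r ∘ ⇑(ρ * k)) ∘ g) ∘ σ = t'.r ∘ ⇑(ρ * (k * g) * σ) from rfl, co_tr t t' hr hc']
  simp only [sg_mul]
  linear_combination (-(sg σ * co t (t.r ∘ ⇑(ρ * (k * g) * σ)⁻¹) * φ g)) *
    (sg g * sg g * (sg k * sg k) * sg_mul_self ρ + sg g * sg g * sg_mul_self k + sg_mul_self g)

/-- `Pos.fix`, `P3_ne_iff`, `tr_key` twice, `sg g * sg g = 1`. -/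
theorem Pos.tr {α β γ α' β' : ℕ → ℕ} (h : Pos α β γ) (ha : IsConj α α') (hb : IsConj β β') :
    Pos α' β' γ := by
  obtain ⟨ι, _, _, -, -, t3, -⟩ := id h
  obtain ⟨t1, t2, h1, h2, h3⟩ := h.fix t3
  obtain ⟨a, b, c, h4⟩ := (P3_ne_iff t1 t2 t3).1 h3
  obtain ⟨s1, a', h5⟩ := tr_key t1 h1 ha a (fun g => co t2 (b ∘ g) * co t3 (c ∘ g))
    (by simpa only [tri, mul_assoc] using h4)
  obtain ⟨s2, b', h6⟩ := tr_key t2 h2 hb b (fun g => sg g * co s1 (a' ∘ g) * co t3 (c ∘ g))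
    (by rwa [sum_congr rfl fun g _ => mul_left_comm _ _ _] at h5)
  refine ⟨ι, _, _, s1, s2, t3, (P3_ne_iff s1 s2 t3).2 ⟨a', b', c, fun h7 => h6 ?_⟩⟩
  rw [← h7, tri]
  refine sum_congr rfl fun g _ => ?_
  linear_combination (co s1 (a' ∘ g) * co s2 (b' ∘ g) * co t3 (c ∘ g)) * sg_mul_self g

end Crest.Agent.R195
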