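import Crest.Agent.R195.Strip4
import Crest.Agent.R195.Tr

/-!
# Row 195: adding a hook frame
-/

set_option autoImplicit false

namespace Crest.Agent.R195

open Finset

/-- Remove the bottom cell of each of the first `k` columns:
`nu a = lam a - (min k (lam a) - min k (lam (a+1)))`; the removed numbers telescope to `k`. -/
theorem exists_strip {n k : ℕ} {lam : ℕ → ℕ} (h : IsPart (n + k) lam) (hk : k ≤ lam 0) :
    ∃ nu, IsPart n nu ∧ Inter nu lam ∧ nu 0 = lam 0 - (k - lam 1) := by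
  have hm : ∀ a, lam (a + 1) ≤ lam a := fun a => h.1 (Nat.le_succ a)
  have hs : ∀ N, ∑ a ∈ range N, (lam a - (min k (lam a) - min k (lam (a + 1)))) + min k (lam 0) =
      ∑ a ∈ range N, lam a + min k (lam N) := fun N => by
    induction N with
    | zero => rfl
    | succ N ih =>
      have := hm N
      rw [sum_range_succ, sum_range_succ]
      omega
  refine ⟨fun a => lam a - (min k (lam a) - min k (lam (a + 1))),
    isPart_of (N := n + k) (antitone_nat_of_succ_le fun a => ?_) ?_ ?_, fun a => ?_, ?_⟩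
  · have := hm a
    have := hm (a + 1)
    omega
  · have := h.2.1
    omega
  · have := hs (n + k)
    rw [h.2.2, h.2.1] at this
    omega
  · have := hm a
    dsimp only
    omega
  · dsimp only
    rw [zero_add]
    omega

/-- With `m a = min (β a) (β (k-1-a)) ≤ min (k - a) (a + 1)` and `m 0 = m (k-1) = 0`: for `s ≥ 1` the indices `a < s` and `a = k - 1`
have `m a ≤ s` (these are `s + 1` indices as `s ≤ k - 1`), for `s = 0` take `a = 0`. -/
theorem stripOK_simple {k : ℕ} {β : ℕ → ℕ} (h0 : β (k - 1) = 0) (h : ∀ a, a < k → β a ≤ k - a) :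
    StripOK k β β := by
  intro s hs
  have h1 : (insert (k - 1) (range s)).card = s + 1 := by
    rw [card_insert_of_notMem (by rw [mem_range]; omega), card_range]
  refine (Nat.lt_succ_self s).trans_le (h1.ge.trans (card_le_card fun a ha => ?_))
  rw [mem_insert, mem_range] at ha
  rw [mem_filter, mem_range]
  rcases ha with rfl | ha
  · omega
  · have := h (k - 1 - a) (by omega)
    omega

/-- `swap23`, `tr`, `swap23`. -/
theorem Pos.conj_third {α lam lam' : ℕ → ℕ} (h : Pos α α lam) (hc : IsConj α α)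
    (hl : IsConj lam lam') : Pos α α lam' := by
  exact (h.swap23.tr hc hl).swap23

theorem frame_conj {H : ℕ} {α₀ α : ℕ → ℕ} (hc0 : IsConj α₀ α₀) (hf : Frame H α₀ α) :
    IsConj (α₀ + ind (H - 1)) (dropCol H α₀) ∧ dropCol H α₀ + ind H = α := by
  obtain ⟨h1, h2, h3⟩ := hf
  refine ⟨fun a b => ?_, funext fun a => ?_⟩
  · have h4 := hc0 a 0
    rcases b with _ | b
    · simp only [Pi.add_apply, ind, dropCol]
      split_ifs <;> omega
    · have h5 := hc0 a b
      simp only [Pi.add_apply, ind, dropCol]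
      split_ifs <;> omega
  · rcases a with _ | a
    · simp only [Pi.add_apply, ind, dropCol, h1]
      split_ifs <;> omega
    · simp only [Pi.add_apply, ind, dropCol, h3]
      split_ifs <;> omega

theorem fr_add_ind {n : ℕ} {β : ℕ → ℕ} (h : IsPart n β) (k : ℕ) : IsPart (n + k) (β + ind k) := by
  have hs : ∀ N, ∑ a ∈ range N, ind k a = min N k := fun N => by
    induction N with
    | zero => simp
    | succ N ih =>
      rw [sum_range_succ, ih, ind]
      split_ifs <;> omega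
  have h0 : β (n + k) = 0 := Nat.le_zero.1 (h.2.1 ▸ h.1 (Nat.le_add_right n k))
  refine ⟨fun a b hab => ?_, ?_, ?_⟩
  · have := h.1 hab
    simp only [Pi.add_apply, ind]
    split_ifs <;> omega
  · simp [ind, h0]
  · simp only [Pi.add_apply, sum_add_distrib, h.sum_eq h0, hs]
    omega

theorem frame_isPart {H n0 : ℕ} {α₀ α : ℕ → ℕ} (h0 : IsPart n0 α₀) (hc0 : IsConj α₀ α₀)
    (hf : Frame H α₀ α) : IsPart (n0 + 2 * H - 1) α := by
  have h := fr_add_ind ((fr_add_ind h0 (H - 1)).conj (frame_conj hc0 hf).1) H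
  have := hf.2.1
  rwa [(frame_conj hc0 hf).2, show n0 + (H - 1) + H = n0 + 2 * H - 1 by omega] at h

/-- `lam 0 ≥ H`; `exists_strip` with `k = H` gives `nu₁` with `nu₁ 0 ≥ H - 1`, again with `k = H - 1` gives `nu₀`.
`Pos α₀ α₀ nu₀`, `Pos.strip`, `Pos.tr` with `frame_conj`, `Pos.strip`. -/
theorem frame_plus {H n0 : ℕ} {α₀ α lam : ℕ → ℕ} (h0 : Complete n0 α₀) (hc0 : IsConj α₀ α₀)
    (hf : Frame H α₀ α) (hs1 : StripOK (H - 1) α₀ α₀)
    (hs2 : StripOK H (dropCol H α₀) (dropCol H α₀)) (hl : IsPart (n0 + 2 * H - 1) lam)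
    (h : 2 * H ≤ lam 0 + lam 1 + 1) : Pos α α lam := by
  have h1 := hf.2.1
  have h2 : lam 1 ≤ lam 0 := hl.1 zero_le_one
  rw [show n0 + 2 * H - 1 = n0 + (H - 1) + H by omega] at hl
  obtain ⟨nu1, p1, i1, e1⟩ := exists_strip hl (by omega)
  obtain ⟨nu0, p0, i0, -⟩ := exists_strip p1 (by omega)
  obtain ⟨f1, f2⟩ := frame_conj hc0 hf
  exact f2 ▸ (((h0 nu0 p0).strip hs1 i0 p0 p1).tr f1 f1).strip hs2 i1 p1 hl

/-- By `conj_third` one may assume `lam' 0 ≤ lam 0`. -/
theorem complete_of_le {n : ℕ} {α : ℕ → ℕ} (hc : IsConj α α)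
    (h : ∀ lam lam', IsPart n lam → IsConj lam lam' → lam' 0 ≤ lam 0 → Pos α α lam) :
    Complete n α := by
  intro lam hl
  obtain ⟨lam', hc'⟩ := hl.exists_conj
  rcases le_total (lam' 0) (lam 0) with h1 | h1
  · exact h lam lam' hl hc' h1
  · exact (h lam' lam (hl.conj hc') hc'.symm h1).conj_third hc hc'.symm

/-- Outside the box use `frame_plus` for `lam` or for `lam'` (and `conj_third`). -/
theorem complete_step {H n0 : ℕ} {α₀ α : ℕ → ℕ} (h0 : Complete n0 α₀) (hc0 : IsConj α₀ α₀)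
    (hc : IsConj α α) (hf : Frame H α₀ α) (hs1 : StripOK (H - 1) α₀ α₀)
    (hs2 : StripOK H (dropCol H α₀) (dropCol H α₀))
    (hbox : ∀ lam lam', IsPart (n0 + 2 * H - 1) lam → IsConj lam lam' →
      lam 0 + lam 1 + 2 ≤ 2 * H → lam' 0 + lam' 1 + 2 ≤ 2 * H → lam' 0 ≤ lam 0 → Pos α α lam) :
    Complete (n0 + 2 * H - 1) α := by
  refine complete_of_le hc fun lam lam' hl hc' hle => ?_
  by_cases h1 : 2 * H ≤ lam 0 + lam 1 + 1
  · exact frame_plus h0 hc0 hf hs1 hs2 hl h1
  by_cases h2 : 2 * H ≤ lam' 0 + lam' 1 + 1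
  · exact (frame_plus h0 hc0 hf hs1 hs2 (hl.conj hc') h2).conj_third hc hc'.symm
  exact hbox lam lam' hl hc' (by omega) (by omega) hle

end Crest.Agent.R195
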