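import Crest.Agent.R195.SpS
import Crest.Agent.R195.Frame
import Crest.Agent.R195.Enum

/-!
# Row 195: soundness of the derivation checker and of records
-/

set_option autoImplicit false

namespace Crest.Agent.R195

theorem der_ite {p : Prop} [Decidable p] {x : Option (List ℕ)}
    (h : (if p then x else none).isSome = true) : p ∧ x.isSome = true := by
  split_ifs at h with hp
  · exact ⟨hp, h⟩
  · simp at h

theorem der_split {p a : List ℕ} (h : leL p a = true) : fn p + fn (dropZ (subL a p)) = fn a := by
  funext i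
  have := leL_sound h i
  rw [Pi.add_apply, fn_dropZ, fn_subL]
  omega

theorem der_headD (l : List ℕ) : l.headD 0 = fn l 0 := by
  cases l <;> simp

theorem der_pos {l : List ℕ} (h : ∀ x ∈ l, 0 < x) {a : ℕ} (ha : a < l.length) : 0 < fn l a := by
  rw [fn, List.getD_eq_getElem _ _ ha]
  exact h _ (List.getElem_mem ha)

theorem der_fn_pred (l : List ℕ) (a : ℕ) : fn (l.map (· - 1)) a = fn l a - 1 := by
  induction l generalizing a with
  | nil => simp
  | cons x l ih => cases a <;> simp [ih]

theorem der_any {H : ℕ} {α : List ℕ} {sps : List (List Sp)}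
    (h : sps.all (fun sp => spOK H sp && decide (rowsOf sp = α)) = true) {L : List ℕ}
    (hL : IsPart α.sum (fn L)) (hd : anyDom (sps.map fun sp => sortD (muOf sp)) L = true) :
    Pos (fn α) (fn α) (fn L) := by
  simp only [anyDom, List.any_map, List.any_eq_true, Function.comp] at hd
  obtain ⟨sp, hsp, hd⟩ := hd
  have h1 := List.all_eq_true.1 h sp hsp
  simp only [Bool.and_eq_true, decide_eq_true_eq] at h1
  obtain ⟨h1, rfl⟩ := h1
  exact rp_sound h1 hL rfl (dom_of_domB hd)

/-- Induction on the fuel; one case per rule (`rp_sound`, `Pos.strip`, `Pos.add`, `swap12`, `swap23`, `Pos.tr`, …), using `Lists.lean`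
(`fn a = fn p + fn (dropZ (subL a p))` if `leL p a`). -/
theorem der_sound (cs : List (List ℕ)) (bs : List (List ℕ × List ℕ × List ℕ))
    (hcs : ∀ α ∈ cs, Complete α.sum (fn α))
    (hbs : ∀ x ∈ bs, Pos (fn x.1) (fn x.2.1) (fn x.2.2)) (f : ℕ) (a b c tk : List ℕ)
    (h : (der cs bs f a b c tk).isSome = true) : Pos (fn a) (fn b) (fn c) := by
  induction f generalizing a b c tk with
  | zero => simp [der] at h
  | succ f ih =>
    cases tk with
    | nil => simp [der] at h
    | cons op tk =>
      rw [der] at h
      dsimp only at h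
      by_cases h0 : op = 0
      · rw [if_pos h0] at h
        obtain ⟨c0, -⟩ := der_ite h
        simp only [Bool.and_eq_true, decide_eq_true_eq] at c0
        obtain ⟨⟨⟨⟨⟨a1, a2⟩, rfl⟩, a4⟩, a5⟩, a6⟩ := c0
        have := rp_sound a1 (isPartL_sound a4) (by rw [a2, a5]) (dom_of_domB a6)
        rwa [a2] at this
      rw [if_neg h0] at h
      by_cases h1 : op = 1
      · rw [if_pos h1] at h
        obtain ⟨c1, h⟩ := der_ite h
        simp only [Bool.and_eq_true, decide_eq_true_eq] at c1
        obtain ⟨⟨⟨⟨⟨⟨a1, a2⟩, a3⟩, a4⟩, a5⟩, a6⟩, a7⟩ := c1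
        have := (ih _ _ _ _ h).strip (stripB_sound a3) (interB_sound a4) (isPartL_sound a6)
          (a7 ▸ isPartL_sound a5)
        rwa [← fn_replicate_one, add_comm, der_split a1, add_comm, der_split a2] at this
      rw [if_neg h1] at h
      by_cases h2 : op = 2
      · rw [if_pos h2] at h
        obtain ⟨c2, h⟩ := der_ite h
        simp only [Bool.and_eq_true] at c2
        obtain ⟨⟨a1, a2⟩, a3⟩ := c2
        split at h
        · simp at h
        · rename_i tk' e
          have := (ih _ _ _ _ (by rw [e]; rfl)).add (ih _ _ _ _ h)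
          rwa [der_split a1, der_split a2, der_split a3] at this
      rw [if_neg h2] at h
      by_cases h3 : op = 3
      · rw [if_pos h3] at h
        exact (ih _ _ _ _ h).swap12
      rw [if_neg h3] at h
      by_cases h4 : op = 4
      · rw [if_pos h4] at h
        exact (ih _ _ _ _ h).swap23
      rw [if_neg h4] at h
      by_cases h5 : op = 5
      · rw [if_pos h5] at h
        obtain ⟨c5, h⟩ := der_ite h
        simp only [Bool.and_eq_true] at c5
        exact (ih _ _ _ _ h).tr (conjL_sound c5.1).symm (conjL_sound c5.2).symm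
      rw [if_neg h5] at h
      by_cases h6 : op = 6
      · rw [if_pos h6] at h
        obtain ⟨c6, -⟩ := der_ite h
        simp only [Bool.and_eq_true, decide_eq_true_eq, List.contains_iff_mem] at c6
        obtain ⟨⟨⟨rfl, a2⟩, a3⟩, a4⟩ := c6
        exact hcs a a2 _ (a4 ▸ isPartL_sound a3)
      rw [if_neg h6] at h
      exact hbs _ (List.contains_iff_mem.1 (der_ite h).1)

/-- Every `lam` in the box is `fn L` (`IsPart.exists_list`), `lam' = fn (conjL L)` (`IsConj.unique`); `enAll_sound` gives three cases: `rp_sound` with `dom_of_domB`,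
the same for `conjL L` followed by `Pos.conj_third`, `der_sound`.  If `useIn`: `complete_step` with `α₀ = fn (innerL α)`
(`α.length = H` because `conjL α = α`, all entries are positive, so `Frame H (fn (innerL α)) (fn α)`; `dropCol H (fn α0) = fn ((H-1) :: α0)`;
`α.sum = α0.sum + 2H - 1` by `frame_isPart`, `IsPart.unique`).  Otherwise `complete_of_le`. -/
theorem recOK_sound (cs : List (List ℕ)) (bs : List (List ℕ × List ℕ × List ℕ))
    (hcs : ∀ α ∈ cs, Complete α.sum (fn α))
    (hbs : ∀ x ∈ bs, Pos (fn x.1) (fn x.2.1) (fn x.2.2)) (α : List ℕ) (useIn : Bool)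
    (sps : List (List Sp)) (tk : List ℕ) (h : recOK cs bs α useIn sps tk = true) :
    Complete α.sum (fn α) := by
  simp only [recOK, Bool.and_eq_true, decide_eq_true_eq] at h
  obtain ⟨⟨⟨⟨⟨h1, h2⟩, h3⟩, h4⟩, h5⟩, h6⟩ := h
  have hc : IsConj (fn α) (fn α) := by
    have := conjL_sound h1
    rwa [h3] at this
  have hα := isPartL_sound h1
  have hn : 0 < α.sum := by
    cases α with
    | nil => simp at h2
    | cons x l => simp at h2 ⊢; omega
  have key : ∀ lam lam', IsPart α.sum lam → IsConj lam lam' →
      lam 0 + lam 1 ≤ (if useIn then 2 * α.headD 0 - 2 else 2 * α.sum) →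
      lam' 0 + lam' 1 ≤ (if useIn then 2 * α.headD 0 - 2 else 2 * α.sum) → lam' 0 ≤ lam 0 →
      Pos (fn α) (fn α) lam := by
    intro lam lam' a1 a2 a3 a4 a5
    obtain ⟨L, hL, rfl, hs⟩ := a1.exists_list
    obtain rfl := a2.unique (conjL_sound hL)
    rw [fn_conjL_zero hL] at a5
    rw [fn_conjL_zero hL, fn_conjL_one hL] at a4
    rcases enAll_sound _ _ _ _ _ h6 hn L hL hs a3 a4 a5 with b | b | ⟨tk', b⟩
    · exact der_any h4 a1 b
    · exact (der_any h4 (a1.conj a2) b).conj_third hc a2.symm
    · exact der_sound cs bs hcs hbs _ _ _ _ _ b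
  cases useIn with
  | false =>
    refine complete_of_le hc fun lam lam' a1 a2 a3 => key lam lam' a1 a2 ?_ ?_ a3
    all_goals
      have b : ∀ f : ℕ → ℕ, IsPart α.sum f → f 0 + f 1 ≤ 2 * α.sum := fun f hf => by
        have b1 : f 0 ≤ α.sum := by
          rw [← hf.2.2]
          exact Finset.single_le_sum (f := f) (fun _ _ => Nat.zero_le _) (Finset.mem_range.2 hn)
        have b2 := hf.1 (Nat.zero_le 1)
        omega
    · exact b _ a1
    · exact b _ (a1.conj a2)
  | true =>
    simp only [Bool.not_true, Bool.false_or, Bool.and_eq_true, decide_eq_true_eq,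
      List.contains_iff_mem] at h5
    obtain ⟨⟨⟨⟨⟨b1, b2⟩, b3⟩, b4⟩, b5⟩, b6⟩ := h5
    have hc0 : IsConj (fn (innerL α)) (fn (innerL α)) := by
      have := conjL_sound b2
      rwa [b3] at this
    have hlen : α.length = α.headD 0 := by rw [← fn_conjL_zero h1, h3, der_headD]
    have hf : Frame (α.headD 0) (fn (innerL α)) (fn α) := by
      refine ⟨(der_headD α).symm, by rwa [← der_headD], fun a => ?_⟩
      rw [innerL, fn_dropZ, der_fn_pred, fn_tail, ind]
      split_ifs with ha
      · have := der_pos ((isPartL_iff α).1 h1).2 (a := a + 1) (by omega)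
        omega
      · rw [fn_of_length_le (by omega)]
    have hd : dropCol (α.headD 0) (fn (innerL α)) = fn ((α.headD 0 - 1) :: innerL α) := by
      funext a
      cases a <;> simp [dropCol]
    have hs : α.sum = (innerL α).sum + 2 * α.headD 0 - 1 :=
      hα.unique (frame_isPart (isPartL_sound b2) hc0 hf)
    rw [hs]
    refine complete_step (hcs _ b1) hc0 hc hf (stripB_sound b5) (hd ▸ stripB_sound b6)
      fun lam lam' a1 a2 a3 a4 a5 => key lam lam' (hs ▸ a1) a2 ?_ ?_ a5
    · simp only [if_true]
      omega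
    · simp only [if_true]
      omega

end Crest.Agent.R195
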