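import Crest.Agent.R195.Fam1

/-!
# Row 195: top-justified sub-diagrams, dominoes
-/

set_option autoImplicit false

namespace Crest.Agent.R195

open Finset

theorem dom_sub4 {ι : Type} [Fintype ι] [DecidableEq ι] (T : ℂ) (F : (ι → ℕ) → ℂ) (c : ι → ℕ)
    (hc : ∀ i, c i < 4) :
    sub4 (fun w c => if w = c then T ^ c else 0) F c = T ^ (∑ i, c i) * F c := by
  unfold sub4
  rw [Finset.sum_eq_single c]
  · simp [Finset.prod_pow_eq_pow_sum]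
  · intro w _ hw
    obtain ⟨i, hi⟩ := Function.ne_iff.1 hw
    rw [Finset.prod_eq_zero (mem_univ i) (if_neg hi), zero_mul]
  · intro h
    exact absurd (Fintype.mem_piFinset.2 fun i => mem_range.2 (hc i)) h

theorem dom_sum_pres {ι1 ι2 : Type} [Fintype ι2] (r : ι1 ⊕ ι2 → ℕ) (σ : Equiv.Perm (ι1 ⊕ ι2))
    (h : ∀ j, (σ (Sum.inr j)).isRight = true) :
    ∑ j, r (σ (Sum.inr j)) = ∑ j, r (Sum.inr j) := by
  choose f hf using fun j => Sum.isRight_iff.1 (h j)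
  have hinj : Function.Injective f := fun j k hjk =>
    Sum.inr_injective (σ.injective (by rw [hf, hf, hjk]))
  simp only [hf]
  exact (Finite.injective_iff_bijective.1 hinj).sum_comp fun j => r (Sum.inr j)

/-- Consider `P(T) = ∑_σ sg σ F1(..) F2(..) T^{∑_j t.r (σ (inr j))} ∈ ℂ[T]`.  By `threshold` with `g x = t.r x - θ (t.c x)` the exponent equals
`e₀ = ∑_j t.r (inr j)` iff `σ` preserves the second summand, so by `sum_block` the coefficient of `T^e₀` is the product of the two nonzero numbers.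
Choose `T` with `P(T) ≠ 0`; `F2' = sub4 (fun w c => if w = c then T^c else 0) F2 ∈ B` satisfies `F2' c = T^{∑ c} F2 c` on words `< 4`; use `Fam.mul_mem`. -/
theorem top_split {ι1 ι2 : Type} [Fintype ι1] [DecidableEq ι1] [Fintype ι2] [DecidableEq ι2]
    (A B : Fam) (hB : B.Sub) {κ : ℕ → ℕ} (t : Tab (ι1 ⊕ ι2) κ) (h4 : ∀ x, t.r x < 4) (θ : ℕ → ℕ)
    (h2 : ∀ j, t.r (Sum.inr j) < θ (t.c (Sum.inr j)))
    (h1 : ∀ i, θ (t.c (Sum.inl i)) ≤ t.r (Sum.inl i))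
    (F1 : (ι1 → ℕ) → ℂ) (F2 : (ι2 → ℕ) → ℂ) (hF1 : F1 ∈ A ι1) (hF2 : F2 ∈ B ι2)
    (n1 : altw (t.c ∘ Sum.inl) (t.r ∘ Sum.inl) F1 ≠ 0)
    (n2 : altw (t.c ∘ Sum.inr) (t.r ∘ Sum.inr) F2 ≠ 0) :
    ∃ F ∈ (A.mul B) (ι1 ⊕ ι2), alt t F ≠ 0 := by
  set e : Equiv.Perm (ι1 ⊕ ι2) → ℕ := fun σ => ∑ j, t.r (σ (Sum.inr j)) with he
  set u : Equiv.Perm (ι1 ⊕ ι2) → ℂ :=
    fun σ => sg σ • (F1 ((t.r ∘ σ) ∘ Sum.inl) * F2 ((t.r ∘ σ) ∘ Sum.inr)) with hu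
  set P : Polynomial ℂ := ∑ σ ∈ colGrp t.c, Polynomial.monomial (e σ) (u σ) with hP
  have hfil : (colGrp t.c).filter (fun σ => e σ = e 1) =
      (colGrp t.c).filter (fun σ => ∀ j : ι2, (σ (Sum.inr j)).isRight = true) := by
    refine Finset.filter_congr fun σ hσ => ⟨fun h => ?_, fun h => dom_sum_pres t.r σ h⟩
    refine (threshold (fun x => (t.r x : ℤ) - θ (t.c x)) (fun i => ?_) (fun j => ?_) σ).2 ?_
    · have := h1 i; omega
    · have := h2 j; omega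
    · simp only [mem_colGrp.1 hσ, Finset.sum_sub_distrib]
      have h' : ((e σ : ℕ) : ℤ) = e 1 := by rw [h]
      simp only [he, Nat.cast_sum, Equiv.Perm.one_apply] at h'
      rw [h']
  have hco : P.coeff (e 1) = altw (t.c ∘ Sum.inl) (t.r ∘ Sum.inl) F1 *
      altw (t.c ∘ Sum.inr) (t.r ∘ Sum.inr) F2 := by
    rw [hP, Polynomial.finsetSum_coeff]
    simp only [Polynomial.coeff_monomial]
    rw [← Finset.sum_filter, hfil]
    refine (sum_block t.c t.r fun w => F1 (w ∘ Sum.inl) * F2 (w ∘ Sum.inr)).trans ?_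
    simp only [Sum.elim_comp_inl, Sum.elim_comp_inr, altw_mul_left, altw_mul_right]
  have hP0 : P ≠ 0 := fun h => mul_ne_zero n1 n2 (by rw [← hco, h, Polynomial.coeff_zero])
  obtain ⟨T, hT⟩ : ∃ T, P.eval T ≠ 0 := by
    by_contra hcon
    push Not at hcon
    exact hP0 (Polynomial.funext fun T => by rw [hcon, Polynomial.eval_zero])
  refine ⟨_, Fam.mul_mem hF1 (hB ι2 (fun w c => if w = c then T ^ c else 0) F2 hF2), ?_⟩
  convert hT using 1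
  rw [hP, Polynomial.eval_finsetSum]
  refine Finset.sum_congr rfl fun σ _ => ?_
  dsimp only
  rw [dom_sub4 T F2 ((t.r ∘ σ) ∘ Sum.inr) fun j => h4 _, Polynomial.eval_monomial, hu]
  simp only [zsmul_eq_mul, he, Function.comp_apply]
  ring

/-- Number of cells of column `j` not covered by dominoes. -/
def remCnt (κ : ℕ → ℕ) (o : ℕ) (a : ℕ → ℕ) (j : ℕ) : ℕ :=
  ((range 4).filter fun i => j < κ i ∧ ¬(o ≤ j ∧ j < o + 2 * a i)).card

/-- `a i` horizontal dominoes in row `i`, in the columns `[o, o + 2 a i)`.  `ι0 = {(i, p) | i < 4, p < a i}` (left cell `(i, o + 2p)`),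
`ι1` = the finset of the remaining cells, `θ j = #{i < 4 | o ≤ j < o + 2 a i}`; `exists_tab_of`. -/
theorem domino_tab (n : ℕ) (κ : ℕ → ℕ) (hκ : IsPart n κ) (h4 : κ 4 = 0) (o : ℕ) (a : ℕ → ℕ)
    (ha : Antitone a) (hfit : ∀ i, 0 < a i → o + 2 * a i ≤ κ i) :
    ∃ (ι1 ι0 : Type) (_ : Fintype ι1) (_ : DecidableEq ι1) (_ : Fintype ι0) (_ : DecidableEq ι0)
      (t : Tab (ι1 ⊕ (ι0 ⊕ ι0)) κ) (θ : ℕ → ℕ),
      Fintype.card ι0 = ∑ i ∈ range 4, a i ∧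
      (∀ j, t.r (Sum.inr (Sum.inr j)) = t.r (Sum.inr (Sum.inl j)) ∧
        t.c (Sum.inr (Sum.inr j)) = t.c (Sum.inr (Sum.inl j)) + 1 ∧
        t.c (Sum.inr (Sum.inl j)) % 2 = o % 2) ∧
      (∀ j, t.r (Sum.inr j) < θ (t.c (Sum.inr j))) ∧
      (∀ i, θ (t.c (Sum.inl i)) ≤ t.r (Sum.inl i)) ∧
      ∀ j0, (univ.filter fun i : ι1 => t.c (Sum.inl i) = j0).card = remCnt κ o a j0 := by
  classical
  let S0 : Finset (Σ _ : ℕ, ℕ) := (range 4).sigma fun i => range (a i)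
  let S1 : Finset (Σ _ : ℕ, ℕ) :=
    (range 4).sigma fun i => (range (κ i)).filter fun j => ¬(o ≤ j ∧ j < o + 2 * a i)
  have m0 : ∀ x : S0, x.1.1 < 4 ∧ x.1.2 < a x.1.1 := fun x =>
    ⟨mem_range.1 (mem_sigma.1 x.2).1, mem_range.1 (mem_sigma.1 x.2).2⟩
  have m1 : ∀ x : Σ _ : ℕ, ℕ, x ∈ S1 ↔
      x.1 < 4 ∧ x.2 < κ x.1 ∧ ¬(o ≤ x.2 ∧ x.2 < o + 2 * a x.1) := fun x => by
    simp only [S1, mem_sigma, mem_range, mem_filter]
  have c0 : Fintype.card S0 = ∑ i ∈ range 4, a i := by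
    rw [Fintype.card_coe, card_sigma]; simp only [card_range]
  have c1 : ∀ i, ((range (κ i)).filter fun j => ¬(o ≤ j ∧ j < o + 2 * a i)).card + (a i + a i) =
      κ i := fun i => by
    have e : (range (κ i)).filter (fun j => o ≤ j ∧ j < o + 2 * a i) = Ico o (o + 2 * a i) := by
      ext j
      have := hfit i
      simp only [mem_filter, mem_range, mem_Ico]
      omega
    have := card_filter_add_card_filter_not (s := range (κ i)) (fun j => o ≤ j ∧ j < o + 2 * a i)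
    rw [e, Nat.card_Ico, card_range] at this
    omega
  have hc : Fintype.card (S1 ⊕ (S0 ⊕ S0)) = n := by
    rw [Fintype.card_sum, Fintype.card_sum, c0, Fintype.card_coe, card_sigma, ← sum_add_distrib,
      ← sum_add_distrib, ← hκ.sum_eq h4]
    exact sum_congr rfl fun i _ => c1 i
  have ext2 : ∀ {S : Finset (Σ _ : ℕ, ℕ)} (x y : S), x.1.1 = y.1.1 → x.1.2 = y.1.2 → x = y :=
    fun x y h1 h2 => Subtype.ext (Sigma.ext h1 (heq_of_eq h2))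
  obtain ⟨t, hr, hc, -⟩ := exists_tab_of (ι := S1 ⊕ (S0 ⊕ S0)) (hc ▸ hκ)
    (Sum.elim (fun x => x.1.1) (Sum.elim (fun x => x.1.1) fun x => x.1.1))
    (Sum.elim (fun x => x.1.2) (Sum.elim (fun x => o + 2 * x.1.2) fun x => o + 2 * x.1.2 + 1))
    (by
      rintro (x | x | x) (y | y | y) h1 h2 <;> simp only [Sum.elim_inl, Sum.elim_inr] at h1 h2
      · rw [ext2 x y h1 h2]
      · have := (m1 _).1 x.2; have := m0 y; rw [h1] at *; omega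
      · have := (m1 _).1 x.2; have := m0 y; rw [h1] at *; omega
      · have := (m1 _).1 y.2; have := m0 x; rw [h1] at *; omega
      · rw [ext2 x y h1 (by omega)]
      · omega
      · have := (m1 _).1 y.2; have := m0 x; rw [h1] at *; omega
      · omega
      · rw [ext2 x y h1 (by omega)])
    (by
      rintro (x | x | x) <;> simp only [Sum.elim_inl, Sum.elim_inr]
      · exact ((m1 _).1 x.2).2.1
      · have := m0 x; have := hfit x.1.1; omega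
      · have := m0 x; have := hfit x.1.1; omega)
  have hne : ∀ j, ∃ i, ¬(o ≤ j ∧ j < o + 2 * a i) := fun j => ⟨4, by have := hfit 4; omega⟩
  have hθ : ∀ i j, o ≤ j ∧ j < o + 2 * a i → i < Nat.find (hne j) := fun i j hij => by
    rw [Nat.lt_find_iff]
    intro m hm
    have := ha hm
    omega
  refine ⟨S1, S0, inferInstance, inferInstance, inferInstance, inferInstance, t,
    fun j => Nat.find (hne j), c0, fun j => ?_, ?_, fun i => ?_, fun j0 => ?_⟩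
  · rw [hr, hc]
    simp only [Sum.elim_inl, Sum.elim_inr, true_and]
    omega
  · rw [hr, hc]
    rintro (x | x) <;> simp only [Sum.elim_inl, Sum.elim_inr] <;>
      exact hθ _ _ (by have := m0 x; omega)
  · rw [hr, hc]
    exact Nat.find_min' _ ((m1 _).1 i.2).2.2
  · rw [hc]
    refine Finset.card_bij (fun x _ => x.1.1) (fun x hx => ?_) (fun x hx y hy h => ?_) fun i hi => ?_
    · have h1 : x.1.2 = j0 := (mem_filter.1 hx).2
      rw [mem_filter, mem_range, ← h1]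
      exact (m1 _).1 x.2
    · exact ext2 x y h (((mem_filter.1 hx).2 : x.1.2 = j0).trans ((mem_filter.1 hy).2 : _ = j0).symm)
    · rw [mem_filter, mem_range] at hi
      exact ⟨⟨⟨i, j0⟩, (m1 _).2 hi⟩, mem_filter.2 ⟨mem_univ _, rfl⟩, rfl⟩

theorem dom_mk (κ : ℕ → ℕ) (o a0 a1 a2 a3 : ℕ) (h01 : a1 ≤ a0) (h12 : a2 ≤ a1) (h23 : a3 ≤ a2)
    (f0 : 0 < a0 → o + 2 * a0 ≤ κ 0) (f1 : 0 < a1 → o + 2 * a1 ≤ κ 1)
    (f2 : 0 < a2 → o + 2 * a2 ≤ κ 2) (f3 : 0 < a3 → o + 2 * a3 ≤ κ 3) :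
    ∃ a : ℕ → ℕ, Antitone a ∧ (∀ i, 0 < a i → o + 2 * a i ≤ κ i) ∧
      ∑ i ∈ range 4, a i = a0 + a1 + a2 + a3 ∧ ∀ j, remCnt κ o a j =
        (if j < κ 0 ∧ ¬(o ≤ j ∧ j < o + 2 * a0) then 1 else 0) +
        (if j < κ 1 ∧ ¬(o ≤ j ∧ j < o + 2 * a1) then 1 else 0) +
        (if j < κ 2 ∧ ¬(o ≤ j ∧ j < o + 2 * a2) then 1 else 0) +
        (if j < κ 3 ∧ ¬(o ≤ j ∧ j < o + 2 * a3) then 1 else 0) := by
  refine ⟨fn [a0, a1, a2, a3], antitone_nat_of_succ_le fun i => ?_, fun i => ?_, ?_, fun j => ?_⟩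
  · rcases i with _ | _ | _ | _ | i <;> simp [fn, *]
  · rcases i with _ | _ | _ | _ | i
    exacts [f0, f1, f2, f3, fun h => absurd h (by simp [fn])]
  · simp [fn, sum_range_succ]
  · rw [remCnt, card_filter]
    simp only [sum_range_succ, sum_range_zero, zero_add]
    rfl

theorem dom_part {n : ℕ} {κ : ℕ → ℕ} (hκ : IsPart n κ) (h4 : κ 4 = 0) :
    κ 1 ≤ κ 0 ∧ κ 2 ≤ κ 1 ∧ κ 3 ≤ κ 2 ∧ κ 0 + κ 1 + κ 2 + κ 3 = n := by
  refine ⟨hκ.1 (by omega), hκ.1 (by omega), hκ.1 (by omega), ?_⟩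
  rw [← hκ.sum_eq h4]
  simp [sum_range_succ]

/-- Greedy: `a i = min (κ i / 2) (q - a 0 - … - a (i-1))`, `a i = 0` for `i ≥ 4`; `omega`. -/
theorem band_arith (h q : ℕ) (hh : 1 ≤ h) (κ : ℕ → ℕ) (hκ : IsPart (2 * h + 1 + 2 * q) κ)
    (h4 : κ 4 = 0) :
    ∃ a : ℕ → ℕ, Antitone a ∧ (∀ i, 0 < a i → 0 + 2 * a i ≤ κ i) ∧ ∑ i ∈ range 4, a i = q := by
  obtain ⟨h1, h2, h3, hs⟩ := dom_part hκ h4
  obtain ⟨a0, e0⟩ : ∃ a0, a0 = min (κ 0 / 2) q := ⟨_, rfl⟩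
  obtain ⟨a1, e1⟩ : ∃ a1, a1 = min (κ 1 / 2) (q - a0) := ⟨_, rfl⟩
  obtain ⟨a2, e2⟩ : ∃ a2, a2 = min (κ 2 / 2) (q - a0 - a1) := ⟨_, rfl⟩
  obtain ⟨a, ha, hf, hsum, -⟩ := dom_mk κ 0 a0 a1 a2 (q - a0 - a1 - a2) (by omega) (by omega)
    (by omega) (by omega) (by omega) (by omega) (by omega)
  exact ⟨a, ha, hf, by omega⟩

/-- Let `a₀ = min (κ₀/2) q`, `a₁ = q - a₀` (`2 a₁ ≤ κ₁` since `κ₀ + κ₁ ≥ 2q + 1`; `a₀ > a₁` as `q` is odd), `a = (a₀,a₁,0,0)`, `o = 0`.  In each case two candidates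
have remainders differing by one in some column, so one of them is odd:
* `a₀ ≥ a₁ + 2`, `2(a₁+1) ≤ κ₁`: `b = (a₀-1, a₁+1, 0, 0)`, column `2a₀ - 1`;
* `a₀ ≥ a₁ + 2`, `κ₁ ≤ 2a₁ + 1`: counting forces `a₁ = 0`, `κ₁ ≤ 1`, and column `κ₀ - 1` has remainder `1`;
* `a₀ = a₁ + 1`, `a₁ ≥ 1`: then `κ₂ ≥ 2`, `b = (a₁, a₁, 1, 0)`, column `2a₀ - 1`;
* `q = 1`: if `κ₀ ≥ 3` compare `o = 0` and `o = 1` in column `0`; otherwise `κ = (2,2,2,2)`, column `0`. -/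
theorem gap_arith (h q : ℕ) (hh : 2 ≤ h) (hq : q % 2 = 1) (hqh : q ≤ h) (κ : ℕ → ℕ)
    (hκ : IsPart (2 * h + 2 + 2 * q) κ) (h4 : κ 4 = 0) :
    ∃ (o : ℕ) (a : ℕ → ℕ) (j0 : ℕ), Antitone a ∧ (∀ i, 0 < a i → o + 2 * a i ≤ κ i) ∧
      ∑ i ∈ range 4, a i = q ∧ remCnt κ o a j0 % 2 = 1 := by
  obtain ⟨h1, h2, h3, hs⟩ := dom_part hκ h4
  obtain ⟨a0, e0⟩ : ∃ a0, a0 = min (κ 0 / 2) q := ⟨_, rfl⟩
  obtain ⟨a1, e1⟩ : ∃ a1, a1 = q - a0 := ⟨_, rfl⟩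
  obtain ⟨a, ha, hf, hsum, hrem⟩ := dom_mk κ 0 a0 a1 0 0 (by omega) (by omega)
    (by omega) (by omega) (by omega) (by omega) (by omega)
  have key : ∀ (o b0 b1 b2 j : ℕ), b1 ≤ b0 → b2 ≤ b1 → (0 < b0 → o + 2 * b0 ≤ κ 0) →
      (0 < b1 → o + 2 * b1 ≤ κ 1) → (0 < b2 → o + 2 * b2 ≤ κ 2) → b0 + b1 + b2 = q →
      j < 2 * a0 → ¬(o ≤ j ∧ j < o + 2 * b0) → 2 * a1 ≤ j → ¬(o ≤ j ∧ j < o + 2 * b1) →
      ¬(o ≤ j ∧ j < o + 2 * b2) →
      ∃ (o : ℕ) (a : ℕ → ℕ) (j0 : ℕ), Antitone a ∧ (∀ i, 0 < a i → o + 2 * a i ≤ κ i) ∧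
        ∑ i ∈ range 4, a i = q ∧ remCnt κ o a j0 % 2 = 1 := by
    intro o b0 b1 b2 j g1 g2 g3 g4 g5 g6 g7 g8 g9 g10 g11
    obtain ⟨b, hb, hbf, hbsum, hbrem⟩ := dom_mk κ o b0 b1 b2 0 g1 g2 (by omega) g3 g4 g5 (by omega)
    by_cases hp : remCnt κ 0 a j % 2 = 1
    · exact ⟨0, a, j, ha, hf, by omega, hp⟩
    · refine ⟨o, b, j, hb, hbf, by omega, ?_⟩
      rw [hrem] at hp
      rw [hbrem]
      split_ifs at hp ⊢ <;> omega
  by_cases c1 : a1 + 2 ≤ a0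
  · by_cases c2 : 2 * (a1 + 1) ≤ κ 1
    · apply key 0 (a0 - 1) (a1 + 1) 0 (2 * a0 - 1) <;> omega
    · refine ⟨0, a, κ 0 - 1, ha, hf, by omega, ?_⟩
      rw [hrem]
      split_ifs <;> omega
  · by_cases c2 : 1 ≤ a1
    · apply key 0 a1 a1 1 (2 * a0 - 1) <;> omega
    · by_cases c3 : 3 ≤ κ 0
      · apply key 1 1 0 0 0 <;> omega
      · refine ⟨0, a, 0, ha, hf, by omega, ?_⟩
        rw [hrem]
        split_ifs <;> omega

end Crest.Agent.R195
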