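import Crest.Agent.R195.Tab1

/-!
# Row 195: James' lemmas and the coefficients `co`
-/

set_option autoImplicit false
set_option linter.unusedSectionVars false

namespace Crest.Agent.R195

open Finset

variable {ι ι' : Type} [Fintype ι] [DecidableEq ι] [Fintype ι'] [DecidableEq ι']
variable {M : Type*} [AddCommGroup M]

theorem tab2_card_lt (w : ι → ℕ) (α : ℕ → ℕ)
    (hcnt : ∀ a, (univ.filter fun i => w i = a).card = α a) (j : ℕ) :
    (univ.filter fun i => w i < j).card = ∑ a ∈ range j, α a := by
  rw [Finset.card_eq_sum_card_fiberwise (f := w) (t := range j)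
    (fun i hi => by simpa using hi)]
  refine Finset.sum_congr rfl fun a ha => ?_
  rw [← hcnt a, Finset.filter_filter]
  congr 1
  refine Finset.filter_congr fun i _ => ?_
  constructor
  · exact fun h => h.2
  · intro h
    exact ⟨h ▸ Finset.mem_range.1 ha, h⟩

theorem tab2_col_w (c w : ι → ℕ) (hw : ∀ i j, c i = c j → w i = w j → i = j) (x j : ℕ) :
    ((univ.filter fun i => w i < j).filter fun i => c i = x).card ≤
      min j (univ.filter fun i => c i = x).card := by
  refine le_min ?_ ?_
  · calc ((univ.filter fun i => w i < j).filter fun i => c i = x).card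
        ≤ (range j).card := by
          refine Finset.card_le_card_of_injOn w ?_ ?_
          · intro i hi
            simp only [Finset.coe_filter, Finset.mem_filter, Finset.mem_univ, true_and,
              Set.mem_ofPred_eq] at hi
            simpa using hi.1
          · intro i hi k hk hik
            simp only [Finset.coe_filter, Finset.mem_filter, Finset.mem_univ, true_and,
              Set.mem_ofPred_eq] at hi hk
            exact hw i k (hi.2.trans hk.2.symm) hik
      _ = j := Finset.card_range j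
  · refine Finset.card_le_card fun i hi => ?_
    simp only [Finset.mem_filter, Finset.mem_univ, true_and] at hi ⊢
    exact hi.2

theorem tab2_col_r {α : ℕ → ℕ} (t : Tab ι α) (i₀ : ι) (j : ℕ) :
    ((univ.filter fun i => t.r i < j).filter fun i => t.c i = t.c i₀).card =
      min j (univ.filter fun i => t.c i = t.c i₀).card := by
  rw [← Finset.card_range (min j _)]
  refine Finset.card_bij (fun i _ => t.r i) ?_ ?_ ?_
  · intro i hi
    simp only [Finset.mem_filter, Finset.mem_univ, true_and] at hi
    rw [Finset.mem_range, lt_min_iff]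
    exact ⟨hi.1, (t.r_lt_ht i₀ (t.r i)).1 ⟨i, hi.2, rfl⟩⟩
  · intro i hi k hk hik
    simp only [Finset.mem_filter, Finset.mem_univ, true_and] at hi hk
    exact t.inj i k hik (hi.2.trans hk.2.symm)
  · intro a ha
    rw [Finset.mem_range, lt_min_iff] at ha
    obtain ⟨k, hk1, hk2⟩ := (t.r_lt_ht i₀ a).2 ha.2
    refine ⟨k, ?_, hk2⟩
    simp only [Finset.mem_filter, Finset.mem_univ, true_and]
    exact ⟨hk2 ▸ ha.1, hk1⟩

theorem tab2_fib (c w : ι → ℕ) (j : ℕ) :
    (univ.filter fun i => w i < j).card =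
      ∑ x ∈ univ.image c, ((univ.filter fun i => w i < j).filter fun i => c i = x).card :=
  Finset.card_eq_sum_card_fiberwise (f := c) fun i _ => by simp

theorem tab2_col_le {α : ℕ → ℕ} (t : Tab ι α) (w : ι → ℕ)
    (hw : ∀ i j, t.c i = t.c j → w i = w j → i = j) (j : ℕ) :
    ∀ x ∈ univ.image t.c, ((univ.filter fun i => w i < j).filter fun i => t.c i = x).card ≤
      ((univ.filter fun i => t.r i < j).filter fun i => t.c i = x).card := by
  intro x hx
  obtain ⟨i₀, -, rfl⟩ := Finset.mem_image.1 hx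
  rw [tab2_col_r]
  exact tab2_col_w t.c w hw _ j

theorem tab2_succ (c w : ι → ℕ) (x a : ℕ) :
    ((univ.filter fun i => w i < a + 1).filter fun i => c i = x).card =
      ((univ.filter fun i => w i < a).filter fun i => c i = x).card +
        (univ.filter fun i => (c i, w i) = (x, a)).card := by
  rw [← Finset.card_union_of_disjoint]
  · congr 1
    ext i
    simp only [Finset.mem_filter, Finset.mem_univ, true_and, Finset.mem_union, Prod.mk.injEq]
    omega
  · rw [Finset.disjoint_left]
    intro i h1 h2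
    simp only [Finset.mem_filter, Finset.mem_univ, true_and, Prod.mk.injEq] at h1 h2
    omega

/-- Dominance of contents: a word that is injective on the columns of `t` has at most
`α 0 + … + α (j-1)` letters `< j`.  (In a column of height `ht` at most `min j ht` letters have
`w < j`, and exactly `min j ht` have `t.r < j`, `Tab.r_lt_ht`; sum over the columns,
`Finset.card_eq_sum_card_fiberwise`.) -/
theorem Tab.card_lt_le {α : ℕ → ℕ} (t : Tab ι α) (w : ι → ℕ)
    (hw : ∀ i j, t.c i = t.c j → w i = w j → i = j) (j : ℕ) :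
    (univ.filter fun i => w i < j).card ≤ ∑ a ∈ range j, α a := by
  rw [← tab2_card_lt t.r α t.cnt j, tab2_fib t.c w j, tab2_fib t.c t.r j]
  exact Finset.sum_le_sum (tab2_col_le t w hw j)

/-- James' lemma: a word of content `α`, injective on the columns of `t`, is in the column orbit
of `t.r`.  (Equality in `card_lt_le` for every `j` forces equality in every column, so in a column of
height `ht` all values of `w` are `< ht`; then `(c, w)` and `(c, r)` have the same content,
`exists_perm_of_card`.) -/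
theorem Tab.word_eq {α : ℕ → ℕ} (t : Tab ι α) (w : ι → ℕ)
    (hw : ∀ i j, t.c i = t.c j → w i = w j → i = j)
    (hcnt : ∀ a, (univ.filter fun i => w i = a).card = α a) :
    ∃ σ ∈ colGrp t.c, w = t.r ∘ σ := by
  have key : ∀ j x, ((univ.filter fun i => w i < j).filter fun i => t.c i = x).card =
      ((univ.filter fun i => t.r i < j).filter fun i => t.c i = x).card := by
    intro j x
    by_cases hx : x ∈ univ.image t.c
    · have h1 : ∑ x ∈ univ.image t.c,
          ((univ.filter fun i => w i < j).filter fun i => t.c i = x).card =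
          ∑ x ∈ univ.image t.c,
            ((univ.filter fun i => t.r i < j).filter fun i => t.c i = x).card := by
        rw [← tab2_fib, ← tab2_fib, tab2_card_lt w α hcnt, tab2_card_lt t.r α t.cnt]
      exact (Finset.sum_eq_sum_iff_of_le (tab2_col_le t w hw j)).1 h1 x hx
    · have h0 : ∀ s : Finset ι, (s.filter fun i => t.c i = x) = ∅ := by
        intro s
        refine Finset.filter_eq_empty_iff.2 fun i _ hi => hx ?_
        exact Finset.mem_image.2 ⟨i, Finset.mem_univ _, hi⟩
      rw [h0, h0]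
  obtain ⟨e, he⟩ := exists_perm_of_card (fun i => (t.c i, w i)) (fun i => (t.c i, t.r i)) (by
    rintro ⟨x, a⟩
    have h1 := tab2_succ t.c w x a
    have h2 := tab2_succ t.c t.r x a
    rw [key, key] at h1
    omega)
  refine ⟨e, mem_colGrp.2 fun i => ?_, ?_⟩
  · exact (congrArg Prod.fst (congrFun he i)).symm
  · funext i
    exact congrArg Prod.snd (congrFun he i)

/-- `σ ↦ t.r ∘ σ` is injective on the column group (`t.inj`). -/
theorem Tab.eq_of_comp_eq {α : ℕ → ℕ} (t : Tab ι α) {σ τ : Equiv.Perm ι} (hσ : σ ∈ colGrp t.c)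
    (hτ : τ ∈ colGrp t.c) (h : t.r ∘ σ = t.r ∘ τ) : σ = τ := by
  ext i
  rw [mem_colGrp] at hσ hτ
  exact t.inj _ _ (congrFun h i) ((hσ i).trans (hτ i).symm)

theorem co_comp {α : ℕ → ℕ} (t : Tab ι α) {σ : Equiv.Perm ι} (hσ : σ ∈ colGrp t.c) :
    co t (t.r ∘ σ) = sg σ := by
  unfold co alt altw
  rw [Finset.sum_eq_single σ]
  · simp
  · intro τ hτ hne
    dsimp only
    rw [if_neg, smul_zero]
    exact fun h => hne (t.eq_of_comp_eq hτ hσ h)
  · exact fun h => absurd hσ h

theorem co_eq_zero {α : ℕ → ℕ} (t : Tab ι α) {w : ι → ℕ}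
    (h : ∀ σ ∈ colGrp t.c, w ≠ t.r ∘ σ) : co t w = 0 := by
  unfold co alt altw
  refine Finset.sum_eq_zero fun σ hσ => ?_
  dsimp only
  rw [if_neg, smul_zero]
  exact fun h' => h σ hσ h'.symm

theorem co_comp_col {α : ℕ → ℕ} (t : Tab ι α) (w : ι → ℕ) {σ : Equiv.Perm ι}
    (hσ : σ ∈ colGrp t.c) : co t (w ∘ σ) = sg σ * co t w := by
  by_cases h : ∃ τ ∈ colGrp t.c, w = t.r ∘ τ
  · obtain ⟨τ, hτ, rfl⟩ := h
    have h1 : (t.r ∘ τ) ∘ σ = t.r ∘ (τ * σ : Equiv.Perm ι) := rfl
    rw [h1, co_comp t (mul_mem_colGrp hτ hσ), co_comp t hτ, sg_mul, mul_comm]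
  · push Not at h
    rw [co_eq_zero t h, mul_zero]
    refine co_eq_zero t fun τ hτ h' => h (τ * σ⁻¹) (mul_mem_colGrp hτ (inv_mem_colGrp hσ)) ?_
    funext i
    have := congrFun h' (σ⁻¹ i)
    simpa using this

/-- `alt` as a sum over any finite set of words containing the orbit. -/
theorem alt_eq_sum_co {α : ℕ → ℕ} (t : Tab ι α) (S : Finset (ι → ℕ))
    (hS : ∀ σ ∈ colGrp t.c, t.r ∘ σ ∈ S) (F : (ι → ℕ) → M) :
    alt t F = ∑ w ∈ S, co t w • F w := by
  unfold co alt altw
  simp only [Finset.sum_smul]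
  rw [Finset.sum_comm]
  refine Finset.sum_congr rfl fun σ hσ => ?_
  rw [Finset.sum_eq_single (t.r ∘ σ)]
  · simp
  · intro w _ hne
    rw [if_neg (Ne.symm hne)]
    simp
  · exact fun h => absurd (hS σ hσ) h

/-- For a word of content `α`, the antisymmetrisation at `w` is a multiple of `alt t`
(zero by `altw_eq_zero_word` if `w` is not injective on columns, else `word_eq`). -/
theorem altw_eq_co_smul {α : ℕ → ℕ} (t : Tab ι α) (w : ι → ℕ)
    (hcnt : ∀ a, (univ.filter fun i => w i = a).card = α a) (F : (ι → ℕ) → M) :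
    altw t.c w F = co t w • alt t F := by
  by_cases hw : ∀ i j, t.c i = t.c j → w i = w j → i = j
  · obtain ⟨σ, hσ, rfl⟩ := t.word_eq w hw hcnt
    rw [altw_comp_word hσ, co_comp t hσ]
    rfl
  · push Not at hw
    obtain ⟨i, j, hc, hwij, hij⟩ := hw
    rw [altw_eq_zero_word hij hc hwij, co_eq_zero t, zero_smul]
    rintro σ hσ rfl
    rw [mem_colGrp] at hσ
    exact hij (σ.injective (t.inj _ _ hwij ((hσ i).trans (hc.trans (hσ j).symm))))

/-- von Neumann's lemma: a function on the group, invariant on the left under the row group and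
antisymmetric on the right under the column group, is a multiple of `g ↦ co t (t.r ∘ g)`.
(If `t.r ∘ g` is not injective on columns, `t.r (g i) = t.r (g j)`, then
`g * swap i j = swap (g i) (g j) * g` gives `f g = - f g`; else `word_eq` gives `g = ρ * σ`.) -/
theorem neumann {α : ℕ → ℕ} (t : Tab ι α) (f : Equiv.Perm ι → ℂ)
    (hr : ∀ ρ ∈ colGrp t.r, ∀ g, f (ρ * g) = f g)
    (hc : ∀ σ ∈ colGrp t.c, ∀ g, f (g * σ) = (sg σ : ℂ) * f g) (g : Equiv.Perm ι) :
    f g = f 1 * (co t (t.r ∘ g) : ℂ) := by
  by_cases hw : ∀ i j, t.c i = t.c j → (t.r ∘ g) i = (t.r ∘ g) j → i = j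
  · have hcnt : ∀ a, (univ.filter fun i => (t.r ∘ g) i = a).card = α a := by
      intro a
      rw [← t.cnt a]
      refine Finset.card_bij (fun i _ => g i) ?_ ?_ ?_
      · intro i hi
        simpa using hi
      · intro i _ k _ hik
        exact g.injective hik
      · intro k hk
        refine ⟨g.symm k, ?_, by simp⟩
        simpa using hk
    obtain ⟨σ, hσ, hg⟩ := t.word_eq (t.r ∘ g) hw hcnt
    have hρ : g * σ⁻¹ ∈ colGrp t.r := by
      rw [mem_colGrp]
      intro i
      have := congrFun hg (σ⁻¹ i)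
      simpa using this
    have h1 : g = (g * σ⁻¹) * (1 * σ) := by simp
    rw [hg, co_comp t hσ]
    conv_lhs => rw [h1]
    rw [hr _ hρ, hc σ hσ, mul_comm]
  · push Not at hw
    obtain ⟨i, j, hcij, hwij, hij⟩ := hw
    have h0 : co t (t.r ∘ g) = 0 := by
      refine co_eq_zero t fun σ hσ h => ?_
      rw [mem_colGrp] at hσ
      rw [h] at hwij
      exact hij (σ.injective (t.inj _ _ hwij ((hσ i).trans (hcij.trans (hσ j).symm))))
    have h1 : g * Equiv.swap i j = Equiv.swap (g i) (g j) * g := Equiv.mul_swap_eq_swap_mul g i j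
    have h2 := hc _ (swap_mem_colGrp hcij) g
    rw [h1, hr _ (swap_mem_colGrp (c := t.r) hwij), sg_swap hij] at h2
    rw [h0]
    push_cast at h2 ⊢
    linear_combination (1 / 2 : ℂ) * h2

/-- `alt` only depends on the rows and on the partition into columns. -/
theorem alt_congr_tab {α β : ℕ → ℕ} (t : Tab ι α) (t' : Tab ι β) (hr : t'.r = t.r)
    (hc : ∀ i j, t'.c i = t'.c j ↔ t.c i = t.c j) (F : (ι → ℕ) → M) : alt t' F = alt t F := by
  unfold alt
  rw [hr, altw_colGrp (colGrp_congr hc)]

/-- Relabelling (`altw_relabel`). -/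
theorem alt_relabel {α : ℕ → ℕ} (t : Tab ι' α) (t' : Tab ι α) (e : ι ≃ ι') (hr : t'.r = t.r ∘ e)
    (hc : t'.c = t.c ∘ e) (F : (ι' → ℕ) → M) :
    alt t F = alt t' (fun x => F (x ∘ e.symm)) := by
  unfold alt
  rw [hr, hc, altw_relabel e]

/-- Any two tableaux of the same shape have the same `alt` up to relabelling
(`exists_std`, `std_conj`). -/
theorem alt_conj {α : ℕ → ℕ} (t : Tab ι' α) (t' : Tab ι α) :
    ∃ e : ι ≃ ι', t'.r = t.r ∘ e ∧ (∀ i j, t'.c i = t'.c j ↔ t.c (e i) = t.c (e j)) ∧
      ∀ (N : Type) [AddCommGroup N] (F : (ι' → ℕ) → N),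
        alt t F = alt t' (fun x => F (x ∘ e.symm)) := by
  obtain ⟨s, hs, hsr, hsc⟩ := t.exists_std
  obtain ⟨s', hs', hsr', hsc'⟩ := t'.exists_std
  obtain ⟨e, her, hec⟩ := std_conj s' s hs' hs
  refine ⟨e, ?_, ?_, ?_⟩
  · rw [← hsr', her, hsr]
  · intro i j
    rw [← hsc', ← hsc, hec]
    rfl
  · intro N _ F
    rw [← alt_congr_tab t s hsr hsc, alt_relabel s s' e her hec, alt_congr_tab t' s' hsr' hsc']

end Crest.Agent.R195
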