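import Crest.Agent.R195.Defs3
import Crest.Agent.R195.Tab2

/-!
# Row 195: `alt` as a sum over words with pairwise signs
-/

set_option autoImplicit false

namespace Crest.Agent.R195

open Finset

theorem sW_ne_iff {n : ℕ} (c w : Fin n → ℕ) :
    sW c w ≠ 0 ↔ ∀ i j, c i = c j → w i = w j → i = j := by
  have hpf : ∀ a b x y : ℕ, pf a b x y ≠ 0 ↔ ¬ (a = b ∧ x = y) := by
    intro a b x y
    unfold pf
    split_ifs <;> simp <;> omega
  simp only [sW, prod_ne_zero_iff, mem_univ, true_imp_iff, mem_Iio, hpf]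
  constructor
  · intro h i j hc hw
    rcases lt_trichotomy i j with hij | hij | hij
    · exact absurd ⟨hc, hw⟩ (h j i hij)
    · exact hij
    · exact absurd ⟨hc.symm, hw.symm⟩ (h i j hij)
  · intro h i j hij hh
    exact hij.ne (h j i hh.1 hh.2)

/-- sign factor between two different columns -/
def eps_e (a b : ℕ) : ℤ := if b < a then -1 else 1

/-- Take `K > w i` for all `i`, `v i = w i + K * c i` (in `ℤ`).  `sign (∏_{j<i} (v i - v j)) = sW c w * ε` with `ε = ∏_{j<i, c j ≠ c i} sign (c i - c j) = ±1`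
independent of `w`; `Matrix.det_vandermonde` and `Matrix.det_permute` give the antisymmetry of the product under `v ↦ v ∘ σ`. -/
theorem sW_comp {n : ℕ} (c w : Fin n → ℕ) {σ : Equiv.Perm (Fin n)} (hσ : σ ∈ colGrp c) :
    sW c (w ∘ σ) = sg σ * sW c w := by
  have hσ' := mem_colGrp.1 hσ
  have key := σ.prod_Iio_comp_eq_sign_mul_prod (R := ℤ)
    (f := fun i j => pf (c i) (c j) (w i) (w j) * eps_e (c i) (c j)) (by
      intro i j
      unfold pf eps_e
      split_ifs <;> omega)
  simp only [hσ', prod_mul_distrib] at key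
  have hE : (∏ j : Fin n, ∏ i ∈ Iio j, eps_e (c i) (c j)) ≠ 0 := by
    simp only [prod_ne_zero_iff]
    intro j _ i _
    unfold eps_e
    split_ifs <;> simp
  apply mul_right_cancel₀ hE
  rw [mul_assoc]
  exact key

/-- Words with `sW ≠ 0` in the box are column-injective with values below the column height, so they are the `t.r ∘ σ`
(`exists_perm_of_card` for `(c, w)` and `(c, r)`, `Tab.r_lt_ht`; `Tab.eq_of_comp_eq`). -/
theorem alt_eps {n : ℕ} {α : ℕ → ℕ} (t : Tab (Fin n) α) (ht : Fin n → ℕ)
    (hht : ∀ i, ht i = (univ.filter fun j => t.c j = t.c i).card) (F : (Fin n → ℕ) → ℂ) :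
    ∑ w ∈ Fintype.piFinset (fun i => range (ht i)), (sW t.c w : ℂ) * F w =
      (sW t.c t.r : ℂ) * alt t F := by
  have hr : ∀ i, t.r i < ht i := fun i => by
    rw [hht]; exact (t.r_lt_ht i _).1 ⟨i, rfl, rfl⟩
  have hsub : (colGrp t.c).image (fun σ : Equiv.Perm (Fin n) => t.r ∘ σ) ⊆
      Fintype.piFinset (fun i => range (ht i)) := by
    intro w hw
    obtain ⟨σ, hσ, rfl⟩ := mem_image.1 hw
    rw [Fintype.mem_piFinset]
    intro i
    have h1 := hr (σ i)
    rw [hht, mem_colGrp.1 hσ, ← hht] at h1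
    exact mem_range.2 h1
  rw [← sum_subset hsub, sum_image fun σ hσ τ hτ h => t.eq_of_comp_eq hσ hτ h]
  · unfold alt altw
    rw [mul_sum]
    refine sum_congr rfl fun σ hσ => ?_
    rw [sW_comp _ _ hσ, zsmul_eq_mul]
    push_cast
    ring
  · intro w hw hw'
    have h0 : sW t.c w = 0 := by
      by_contra h0
      rw [← Ne, sW_ne_iff] at h0
      rw [Fintype.mem_piFinset] at hw
      -- the map `i ↦ the cell of the column of i in row w i`
      have hex : ∀ i, ∃ j, t.c j = t.c i ∧ t.r j = w i := fun i =>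
        (t.r_lt_ht i _).2 (by rw [← hht]; exact mem_range.1 (hw i))
      choose f hf1 hf2 using hex
      have hinj : Function.Injective f := by
        intro i j hij
        refine h0 i j ?_ ?_
        · rw [← hf1 i, ← hf1 j, hij]
        · rw [← hf2 i, ← hf2 j, hij]
      refine hw' (mem_image.2 ⟨Equiv.ofBijective f hinj.bijective_of_finite,
        mem_colGrp.2 fun i => hf1 i, funext fun i => hf2 i⟩)
    rw [h0]
    simp

end Crest.Agent.R195
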