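import Crest.Agent.R195.Defs2
import Crest.Agent.R195.Tab2

/-!
# Row 195: algebra of families
All proofs: `Submodule.span_induction` / `Submodule.span_le`, bilinearity of the product.
-/

set_option autoImplicit false

namespace Crest.Agent.R195

open Finset

theorem f1_span {V W : Type*} [AddCommGroup V] [Module ℂ V] [AddCommGroup W] [Module ℂ W]
    (T : V → W) (hadd : ∀ x y, T (x + y) = T x + T y) (hsmul : ∀ (a : ℂ) x, T (a • x) = a • T x)
    {s : Set V} {S : Submodule ℂ W} (h : ∀ x ∈ s, T x ∈ S) {x : V} (hx : x ∈ Submodule.span ℂ s) :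
    T x ∈ S :=
  (Submodule.span_le.2 h : Submodule.span ℂ s ≤ S.comap (⟨⟨T, hadd⟩, hsmul⟩ : V →ₗ[ℂ] W)) hx

theorem f1_gen {A B : Fam} {ι ι1 ι2 : Type} [Fintype ι] [DecidableEq ι] [Fintype ι1]
    [DecidableEq ι1] [Fintype ι2] [DecidableEq ι2] (e : ι1 ⊕ ι2 ≃ ι) {F1 : (ι1 → ℕ) → ℂ}
    {F2 : (ι2 → ℕ) → ℂ} (h1 : F1 ∈ A ι1) (h2 : F2 ∈ B ι2) :
    (fun c : ι → ℕ => F1 (fun i => c (e (Sum.inl i))) * F2 (fun i => c (e (Sum.inr i)))) ∈
      (A.mul B) ι :=
  Submodule.subset_span ⟨ι1, ι2, _, _, _, _, e, F1, F2, h1, h2, rfl⟩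

theorem f1_sub4_add {ι : Type} [Fintype ι] [DecidableEq ι] (x : ℕ → ℕ → ℂ) (F F' : (ι → ℕ) → ℂ) :
    sub4 x (F + F') = sub4 x F + sub4 x F' := by
  funext c
  simp only [sub4, Pi.add_apply, mul_add, sum_add_distrib]

theorem f1_sub4_smul {ι : Type} [Fintype ι] [DecidableEq ι] (x : ℕ → ℕ → ℂ) (a : ℂ)
    (F : (ι → ℕ) → ℂ) : sub4 x (a • F) = a • sub4 x F := by
  funext c
  simp only [sub4, Pi.smul_apply, smul_eq_mul, mul_sum, mul_left_comm]

theorem f1_card {ι : Type} [Fintype ι] (p : ι → Prop) [DecidablePred p] (q : {i // p i} → Prop)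
    [DecidablePred q] (q' : ι → Prop) [DecidablePred q'] (h : ∀ i, q' i → p i)
    (h' : ∀ i : {i // p i}, q i ↔ q' i.1) : (univ.filter q).card = (univ.filter q').card :=
  card_bij (fun i _ => i.1) (fun i hi => by simpa [h'] using hi) (fun _ _ _ _ h => Subtype.ext h)
    fun j hj => ⟨⟨j, h j (mem_filter.1 hj).2⟩, by simpa [h'] using hj, rfl⟩

theorem Fam.Le.refl (A : Fam) : A.Le A := fun _ _ _ => le_rfl

theorem Fam.Le.trans {A B C : Fam} (h : A.Le B) (h' : B.Le C) : A.Le C :=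
  fun ι _ _ => (h ι).trans (h' ι)

theorem Fam.mul_mem {A B : Fam} {ι1 ι2 : Type} [Fintype ι1] [DecidableEq ι1] [Fintype ι2]
    [DecidableEq ι2] {F1 : (ι1 → ℕ) → ℂ} {F2 : (ι2 → ℕ) → ℂ} (h1 : F1 ∈ A ι1) (h2 : F2 ∈ B ι2) :
    (fun c : ι1 ⊕ ι2 → ℕ => F1 (c ∘ Sum.inl) * F2 (c ∘ Sum.inr)) ∈ (A.mul B) (ι1 ⊕ ι2) := by
  exact f1_gen (Equiv.refl _) h1 h2

theorem Fam.mul_mono {A A' B B' : Fam} (h : A.Le A') (h' : B.Le B') :
    (A.mul B).Le (A'.mul B') := by
  intro ι _ _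
  refine Submodule.span_le.2 ?_
  rintro _ ⟨ι1, ι2, _, _, _, _, e, F1, F2, h1, h2, rfl⟩
  exact f1_gen e (h ι1 h1) (h' ι2 h2)

theorem Fam.mul_comm_le (A B : Fam) : (A.mul B).Le (B.mul A) := by
  intro ι _ _
  refine Submodule.span_le.2 ?_
  rintro _ ⟨ι1, ι2, _, _, _, _, e, F1, F2, h1, h2, rfl⟩
  have := f1_gen ((Equiv.sumComm ι2 ι1).trans e) h2 h1
  exact (congrArg (· ∈ (B.mul A) ι) (funext fun c => mul_comm _ _)).mp this

theorem Fam.mul_assoc_le (A B C : Fam) : ((A.mul B).mul C).Le (A.mul (B.mul C)) := by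
  intro ι _ _
  refine Submodule.span_le.2 ?_
  rintro _ ⟨ι1, ι2, _, _, _, _, e, F12, F3, h12, h3, rfl⟩
  refine f1_span (S := (A.mul (B.mul C)) ι) (fun (F : (ι1 → ℕ) → ℂ) (c : ι → ℕ) =>
    F (fun i => c (e (Sum.inl i))) * F3 (fun i => c (e (Sum.inr i))))
    (fun F F' => funext fun c => add_mul _ _ _) (fun a F => funext fun c => mul_assoc _ _ _) ?_ h12
  rintro _ ⟨κ1, κ2, _, _, _, _, e', F1, F2, h1, h2, rfl⟩
  have := f1_gen ((Equiv.sumAssoc κ1 κ2 ι2).symm.trans ((e'.sumCongr (Equiv.refl ι2)).trans e)) h1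
    (Fam.mul_mem h2 h3)
  exact (congrArg (· ∈ (A.mul (B.mul C)) ι) (funext fun c => (mul_assoc _ _ _).symm)).mp this

/-- From `mul_comm_le`, `mul_assoc_le`, `mul_mono`. -/
theorem Fam.mul_left_comm_le (A B C : Fam) : (A.mul (B.mul C)).Le (B.mul (A.mul C)) := by
  refine (Fam.mul_comm_le _ _).trans ((Fam.mul_assoc_le B C A).trans ?_)
  exact Fam.mul_mono (Fam.Le.refl B) (Fam.mul_comm_le C A)

theorem Fam.mul_relab (A B : Fam) : (A.mul B).Relab := by
  intro ι ι' _ _ _ _ e F hF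
  refine f1_span (S := (A.mul B) ι') (fun (F : (ι → ℕ) → ℂ) (c : ι' → ℕ) => F fun i => c (e i))
    (fun _ _ => rfl) (fun _ _ => rfl) ?_ hF
  rintro _ ⟨ι1, ι2, _, _, _, _, e', F1, F2, h1, h2, rfl⟩
  exact f1_gen (e'.trans e) h1 h2

/-- `sub4 x (F1 ⊗ F2) = sub4 x F1 ⊗ sub4 x F2`: split the sum over words on `ι1 ⊕ ι2 ≃ ι`. -/
theorem Fam.mul_sub {A B : Fam} (hA : A.Sub) (hB : B.Sub) : (A.mul B).Sub := by
  intro ι _ _ x F hF
  refine f1_span (S := (A.mul B) ι) (sub4 x) (f1_sub4_add x) (f1_sub4_smul x) ?_ hF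
  rintro _ ⟨ι1, ι2, _, _, _, _, e, F1, F2, h1, h2, rfl⟩
  refine (congrArg (· ∈ (A.mul B) ι) (funext fun c => ?_)).mp
    (f1_gen e (hA ι1 x F1 h1) (hB ι2 x F2 h2))
  simp only [sub4]
  rw [sum_mul_sum, ← sum_product']
  symm
  refine sum_nbij' (fun w => (fun i => w (e (Sum.inl i)), fun i => w (e (Sum.inr i))))
    (fun p i => Sum.elim p.1 p.2 (e.symm i)) (fun w hw => ?_) (fun p hp => ?_) (fun w _ => ?_)
    (fun p _ => ?_) fun w _ => ?_
  · simp only [mem_product, Fintype.mem_piFinset] at hw ⊢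
    exact ⟨fun i => hw _, fun i => hw _⟩
  · simp only [mem_product, Fintype.mem_piFinset] at hp ⊢
    intro i
    rcases e.symm i with j | j
    exacts [hp.1 j, hp.2 j]
  · funext i
    obtain ⟨j | j, rfl⟩ := e.surjective i <;> simp
  · simp
  · rw [← e.prod_comp, Fintype.prod_sum_type]
    ring

/-- `Tab.exists_relabel`, `alt_relabel`. -/
theorem G_relab (η : ℕ → ℕ) (lo U : ℕ) : (G η lo U).Relab := by
  intro ι ι' _ _ _ _ e F hF
  refine f1_span (S := G η lo U ι') (fun (F : (ι → ℕ) → ℂ) (c : ι' → ℕ) => F fun i => c (e i))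
    (fun _ _ => rfl) (fun _ _ => rfl) ?_ hF
  rintro _ ⟨t1, t2, z, h1, h2, h, rfl⟩
  obtain ⟨s1, r1, c1⟩ := t1.exists_relabel e.symm
  obtain ⟨s2, r2, c2⟩ := t2.exists_relabel e.symm
  refine Submodule.subset_span ⟨s1, s2, z, fun i => ?_, fun i => ?_, fun i => ?_, funext fun c => ?_⟩
  · rw [r1, c1]
    exact h1 _
  · rw [r2, c2]
    exact h2 _
  · rw [c1, c2]
    exact h _
  · unfold ev2
    rw [alt_relabel t1 s1 e.symm r1 c1]
    congr 1
    funext a
    rw [alt_relabel t2 s2 e.symm r2 c2]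
    congr 1
    funext b
    exact e.prod_comp fun j => z (a j) (b j) (c j)

/-- `sub4 x (ev2 t1 t2 z) = ev2 t1 t2 z'` with `z' a b c = ∑ w < 4, x w c * z a b w`
(`Finset.prod_univ_sum`, `altw_sum`, `altw_mul_left`). -/
theorem G_sub (η : ℕ → ℕ) (lo U : ℕ) : (G η lo U).Sub := by
  intro ι _ _ x F hF
  refine f1_span (S := G η lo U ι) (sub4 x) (f1_sub4_add x) (f1_sub4_smul x) ?_ hF
  rintro _ ⟨t1, t2, z, h1, h2, h, rfl⟩
  refine Submodule.subset_span ⟨t1, t2, fun a b c => ∑ w ∈ range 4, x w c * z a b w, h1, h2, h,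
    funext fun c => ?_⟩
  simp only [sub4, ev2, alt, prod_univ_sum, altw_sum, prod_mul_distrib, altw_mul_left]

theorem G_mono (η : ℕ → ℕ) {lo U lo' U' : ℕ} (h : lo' ≤ lo) (h' : U ≤ U') :
    (G η lo U).Le (G η lo' U') := by
  intro ι _ _
  refine Submodule.span_mono ?_
  rintro _ ⟨t1, t2, z, h1, h2, h3, rfl⟩
  exact ⟨t1, t2, z, h1, h2, fun i => ⟨h.trans (h3 i).1, (h3 i).2.trans_le h'⟩, rfl⟩

theorem ev2_mem {ι : Type} [Fintype ι] [DecidableEq ι] {η : ℕ → ℕ} {lo U : ℕ} (t1 t2 : Tab ι η)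
    (h1 : t1.Std) (h2 : t2.Std) (h : ∀ i, lo ≤ t1.c i + t2.c i ∧ t1.c i + t2.c i < U)
    (z : ℕ → ℕ → ℕ → ℂ) : evw t1.c t1.r t2.c t2.r z ∈ G η lo U ι :=
  Submodule.subset_span ⟨t1, t2, z, h1, h2, h, rfl⟩

theorem PF_perm {ps ps' : List Piece} (h : ps.Perm ps') : (PF ps).Le (PF ps') := by
  induction h with
  | nil => exact Fam.Le.refl _
  | cons p _ ih => exact Fam.mul_mono (Fam.Le.refl _) ih
  | swap p q l => exact Fam.mul_left_comm_le _ _ _
  | trans _ _ ih ih' => exact ih.trans ih'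

theorem Has.mono {A B : Fam} {μ : List ℕ} (h : Has A μ) (hle : A.Le B) : Has B μ :=
  fun ι _ _ col hc x => hle ι (h ι col hc x)

theorem has_one : Has Fam.one [] := by
  intro ι _ _ col hc x
  refine Submodule.subset_span (show IsEmpty ι from ⟨fun i => ?_⟩)
  have := hc (col i)
  rw [fn, List.getD_nil, card_eq_zero] at this
  exact notMem_empty i (this ▸ mem_filter.2 ⟨mem_univ i, rfl⟩)

/-- Split the letters into `{i // col i < μ1.length}` and its complement (`Equiv.sumCompl`); on the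
complement use the colours `col i - μ1.length` and `x' k = x (k + μ1.length)`. -/
theorem has_mul {A B : Fam} {μ1 μ2 : List ℕ} (h1 : Has A μ1) (h2 : Has B μ2) :
    Has (A.mul B) (μ1 ++ μ2) := by
  intro ι _ _ col hc x
  have a1 := h1 {i // col i < μ1.length} (fun i => col i.1) (fun k => by
    by_cases hk : k < μ1.length
    · rw [f1_card _ _ (fun i => col i = k) (fun i hi => hi ▸ hk) fun _ => Iff.rfl, hc, fn, fn,
        List.getD_append _ _ _ _ hk]
    · rw [fn, List.getD_eq_default _ _ (not_lt.1 hk), card_eq_zero, filter_eq_empty_iff]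
      exact fun i _ hi => hk (hi ▸ i.2)) x
  have a2 := h2 {i // ¬col i < μ1.length} (fun i => col i.1 - μ1.length) (fun k => by
    rw [f1_card _ _ (fun i => col i = k + μ1.length) (fun i hi => by omega)
      fun i => by have := i.2; omega, hc, fn, fn, List.getD_append_right _ _ _ _ (by omega),
      Nat.add_sub_cancel]) fun k => x (k + μ1.length)
  refine (congrArg (· ∈ (A.mul B) ι) (funext fun c => ?_)).mp
    (f1_gen (Equiv.sumCompl fun i => col i < μ1.length) a1 a2)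
  rw [← Fintype.prod_subtype_mul_prod_subtype (fun i => col i < μ1.length)]
  congr 1
  exact prod_congr rfl fun i _ => by rw [Nat.sub_add_cancel (not_lt.1 i.2)]; rfl

end Crest.Agent.R195
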