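import Crest.Agent.R195.Tab1

/-!
# Row 195: the near-staircase family (unfold, `split_ifs`, `omega`)
For `famN` write `L = M + 2` and use `(M+2)(M+3)/2 = M(M+1)/2 + 2M + 3`.
-/

set_option autoImplicit false

namespace Crest.Agent.R195

/-- Closed description of the cells of `famF`. -/
theorem fk1_cell {L q1 q2 e : ℕ} (h : FamOK L q1 q2 e) (a b : ℕ) :
    b < famF L q1 q2 e a ↔
      ((a + b < L ∧ ¬(e = 1 ∧ 2 * a + 1 = L ∧ b = a)) ∨ (e = 2 ∧ 2 * a = L ∧ b = a) ∨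
        (a + b = L ∧ (a < q2 ∨ b < q2)) ∨ (a + b = L + 1 ∧ (a < q1 ∨ b < q1))) := by
  obtain ⟨h1, h2, h3⟩ := h
  unfold famF
  split_ifs with c1 c2 c3 c4
  · omega
  · omega
  · omega
  · omega
  · simp only [lt_max_iff, lt_min_iff]
    omega

theorem fam_conj {L q1 q2 e : ℕ} (h : FamOK L q1 q2 e) :
    IsConj (famF L q1 q2 e) (famF L q1 q2 e) := by
  intro a b
  rw [fk1_cell h, fk1_cell h]
  omega

theorem fam_zero {L q1 q2 e : ℕ} (h : FamOK L q1 q2 e) (a : ℕ) (ha : famH L q1 q2 ≤ a) :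
    famF L q1 q2 e a = 0 := by
  by_contra hc
  have := (fk1_cell h a 0).1 (Nat.pos_of_ne_zero hc)
  obtain ⟨h1, h2, h3⟩ := h
  unfold famH at ha
  split_ifs at ha <;> omega

theorem fam_inner_ok {L q1 q2 e : ℕ} (h : FamOK L q1 q2 e) (hL : 8 ≤ L) :
    FamOK (L - 2) (q1 - 1) (q2 - 1) e := by
  obtain ⟨h1, h2, h3⟩ := h
  refine ⟨?_, ?_, ?_⟩ <;> omega

theorem fk1_ext {x y : ℕ} (h : ∀ b, b < x ↔ b < y) : x = y := by
  have h1 := h x
  have h2 := h y
  omega

theorem fam_frame {L q1 q2 e : ℕ} (h : FamOK L q1 q2 e) (hL : 8 ≤ L) :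
    Frame (famH L q1 q2) (famF (L - 2) (q1 - 1) (q2 - 1) e) (famF L q1 q2 e) := by
  have hi := fam_inner_ok h hL
  refine ⟨?_, ?_, fun a => ?_⟩
  · refine fk1_ext fun b => ?_
    rw [fk1_cell h]
    obtain ⟨h1, h2, h3⟩ := h
    unfold famH
    split_ifs <;> omega
  · by_contra hc
    have hH : L ≤ famH L q1 q2 := by unfold famH; omega
    have := (fk1_cell hi 0 (famH L q1 q2 - 1)).1 (by omega)
    obtain ⟨h1, h2, h3⟩ := h
    unfold famH at this
    split_ifs at this <;> omega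
  · refine fk1_ext fun b => ?_
    rw [fk1_cell h]
    unfold ind
    by_cases c : a < famH L q1 q2 - 1
    · rw [if_pos c]
      rcases b with _ | b
      · refine iff_of_true ?_ (Nat.succ_pos _)
        obtain ⟨h1, h2, h3⟩ := h
        unfold famH at c
        split_ifs at c <;> omega
      · rw [Nat.add_lt_add_iff_right, fk1_cell hi]
        obtain ⟨h1, h2, h3⟩ := h
        clear c hi
        omega
    · rw [if_neg c]
      show _ ↔ b < famF (L - 2) (q1 - 1) (q2 - 1) e a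
      rw [fk1_cell hi]
      obtain ⟨h1, h2, h3⟩ := h
      unfold famH at c
      refine iff_of_false ?_ ?_ <;> split_ifs at c <;> omega

theorem fk1_tri (M : ℕ) : (M + 2) * (M + 2 + 1) / 2 = M * (M + 1) / 2 + 2 * M + 3 := by
  have : (M + 2) * (M + 2 + 1) = M * (M + 1) + 2 * (2 * M + 3) := by ring
  rw [this, Nat.add_mul_div_left _ _ (by norm_num : 0 < 2)]
  omega

theorem famN_rec {L q1 q2 e : ℕ} (h : FamOK L q1 q2 e) (hL : 8 ≤ L) :
    famN L q1 q2 e = famN (L - 2) (q1 - 1) (q2 - 1) e + 2 * famH L q1 q2 - 1 := by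
  obtain ⟨h1, h2, h3⟩ := h
  obtain ⟨M, rfl⟩ : ∃ M, L = M + 2 := ⟨L - 2, by omega⟩
  unfold famN famH
  rw [fk1_tri, Nat.add_sub_cancel]
  have hM : 1 ≤ M * (M + 1) / 2 := by
    rw [Nat.le_div_iff_mul_le (by norm_num)]
    nlinarith
  generalize M * (M + 1) / 2 = T at hM ⊢
  split_ifs <;> omega

theorem fam_inner_bound {L q1 q2 e : ℕ} (h : FamOK L q1 q2 e) (hL : 8 ≤ L) :
    famF (L - 2) (q1 - 1) (q2 - 1) e (famH L q1 q2 - 2) = 0 ∧
      ∀ a, famF (L - 2) (q1 - 1) (q2 - 1) e a ≤ famH L q1 q2 - 1 - a := by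
  have hi := fam_inner_ok h hL
  refine ⟨fam_zero hi _ ?_, fun a => ?_⟩
  · unfold famH
    split_ifs <;> omega
  · by_contra hc
    have := (fk1_cell hi a (famH L q1 q2 - 1 - a)).1 (by omega)
    obtain ⟨h1, h2, h3⟩ := h
    unfold famH at this
    split_ifs at this <;> omega

theorem fam_stair (m : ℕ) : famF m 0 0 0 = fun a => m - a := by
  funext a
  simp [famF]

theorem fk1_exists_tri (n : ℕ) : ∃ L o, n = L * (L + 1) / 2 + o ∧ o ≤ L := by
  induction n with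
  | zero => exact ⟨0, 0, by simp, le_rfl⟩
  | succ n ih =>
    obtain ⟨L, o, h1, h2⟩ := ih
    by_cases h : o < L
    · exact ⟨L, o + 1, by omega, h⟩
    · refine ⟨L + 1, 0, ?_, Nat.zero_le _⟩
      have : (L + 1) * (L + 1 + 1) = L * (L + 1) + 2 * (L + 1) := by ring
      rw [this, Nat.add_mul_div_left _ _ (by norm_num : 0 < 2)]
      omega

/-- Let `T L = L(L+1)/2 ≤ n < T (L+1)`, `L ≥ 20`, `o = n - T L ≤ L`.
`L` even: `o ≤ L - 5`: `(0, o/2, if o odd then 2 else 0)`; otherwise `q2 = (L-6)/2`, `o' = o + 6 - L ∈ [2,6]`, `q1 = o'/2`, `e = if o' odd then 2 else 0`.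
`L` odd: `o ≤ L - 7`: `(0, (o+1)/2, if o odd then 1 else 0)`; otherwise `q2 = (L-7)/2`, `o' = o + 7 - L ∈ [1,7]`, `q1 = (o'+1)/2`, `e = if o' odd then 1 else 0`. -/
theorem fam_repr (n : ℕ) (hn : 210 ≤ n) :
    ∃ L q1 q2 e, FamOK L q1 q2 e ∧ 20 ≤ L ∧ famN L q1 q2 e = n := by
  obtain ⟨L, o, h1, h2⟩ := fk1_exists_tri n
  have hL : 20 ≤ L := by
    by_contra hc
    have h3 : L ≤ 19 := by omega
    have h4 : L * (L + 1) ≤ 19 * 20 := Nat.mul_le_mul h3 (by omega)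
    omega
  have key : ∀ q1 q2 e, FamOK L q1 q2 e →
      2 * q1 + 2 * q2 + (if e = 2 then 1 else 0) = o + (if e = 1 then 1 else 0) →
      ∃ L q1 q2 e, FamOK L q1 q2 e ∧ 20 ≤ L ∧ famN L q1 q2 e = n := by
    intro q1 q2 e hok hs
    refine ⟨L, q1, q2, e, hok, hL, ?_⟩
    unfold famN
    generalize L * (L + 1) / 2 = T at h1 ⊢
    omega
  rcases Nat.mod_two_eq_zero_or_one L with hl | hl <;>
    rcases Nat.mod_two_eq_zero_or_one o with ho | ho
  · by_cases c : o + 5 ≤ L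
    · exact key 0 (o / 2) 0 ⟨by omega, by omega, by omega⟩ (by simp; omega)
    · exact key ((o + 6 - L) / 2) ((L - 6) / 2) 0 ⟨by omega, by omega, by omega⟩ (by simp; omega)
  · by_cases c : o + 5 ≤ L
    · exact key 0 (o / 2) 2 ⟨by omega, by omega, by omega⟩ (by simp; omega)
    · exact key ((o + 6 - L) / 2) ((L - 6) / 2) 2 ⟨by omega, by omega, by omega⟩ (by simp; omega)
  · by_cases c : o + 7 ≤ L
    · exact key 0 ((o + 1) / 2) 0 ⟨by omega, by omega, by omega⟩ (by simp; omega)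
    · exact key ((o + 7 - L + 1) / 2) ((L - 7) / 2) 0 ⟨by omega, by omega, by omega⟩
        (by simp; omega)
  · by_cases c : o + 7 ≤ L
    · exact key 0 ((o + 1) / 2) 1 ⟨by omega, by omega, by omega⟩ (by simp; omega)
    · exact key ((o + 7 - L + 1) / 2) ((L - 7) / 2) 1 ⟨by omega, by omega, by omega⟩
        (by simp; omega)

end Crest.Agent.R195
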