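import Crest.Agent.R195.Lists

/-!
# Row 195: the canonical chain is a valid chain with the right rows

`rowsOf`, `flatMap spExtra`, `flatMap spDbl`, `all spGapOK` are additive over `++`.  Useful lemmas:
* `rowsOf (bandsS T m) = (List.range (2m)).map (T - ·)` for `2m ≤ T`, `rowsOf (runS T len) = (List.range len).map (T - ·)` for `len ≤ T`;
  no extras and no doubles in `bandsS`, `runS`;
* `spCh U (bandsS T m ++ l) = spCh (T - 2m) l` if `T ≤ U`, `2m ≤ T` and `0 < m` (monotonicity of `spCh` in `U` handles `m = 0`); state it as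
  `T ≤ U → 2m ≤ T → spCh (T - 2m) l → spCh U (bandsS T m ++ l)`, same for `runS` with `T - len`;
* for the rows compare `fn` of both sides with `fn_append` and `omega`, or lengths and `List.ext_getElem`.
Cases: `q2 = 0`; `q1 = 0 < q2`; `0 < q1`; parities of `q1`, `q2`; `e ∈ {0,1,2}`.  It helps to treat the five blocks of `canonSp` separately: block 1 has rows
`L+2, …, L+3-q1` followed by `L+1-q1` (and `L-q1` if `q1` is even), etc.
-/

set_option autoImplicit false

namespace Crest.Agent.R195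

/-- Descending run `T, T-1, …` with `k` entries. -/
def k2dn (T k : ℕ) : List ℕ := (List.range k).map fun i => T - i

/-- `l` lists the values of `f` on `[a, b)`. -/
def k2Mt (f : ℕ → ℕ) (a : ℕ) (l : List ℕ) (b : ℕ) : Prop :=
  a + l.length = b ∧ l = (List.range' a l.length).map f

theorem k2Mt_nil (f : ℕ → ℕ) (a : ℕ) : k2Mt f a [] a := by simp [k2Mt]

theorem k2Mt_append {f : ℕ → ℕ} {a b c : ℕ} {l l' : List ℕ} (h : k2Mt f a l b)
    (h' : k2Mt f b l' c) : k2Mt f a (l ++ l') c := by
  obtain ⟨h1, h2⟩ := h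
  obtain ⟨h3, h4⟩ := h'
  refine ⟨by rw [List.length_append]; omega, ?_⟩
  rw [List.length_append, ← List.range'_append_1, List.map_append, h1, ← h2, ← h4]

theorem k2Mt_cons {f : ℕ → ℕ} {a c x : ℕ} {l : List ℕ} (hx : f a = x)
    (h : k2Mt f (a + 1) l c) : k2Mt f a (x :: l) c := by
  have h0 : k2Mt f a [x] (a + 1) := by simp [k2Mt, hx]
  exact k2Mt_append h0 h

theorem k2Mt_dn {f : ℕ → ℕ} {a b T k : ℕ} (hb : a + k = b) (hf : ∀ i, i < k → f (a + i) = T - i) :
    k2Mt f a (k2dn T k) b := by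
  refine ⟨by simp [k2dn, hb], ?_⟩
  apply List.ext_getElem
  · simp [k2dn]
  · intro i h1 h2
    have hi : i < k := by simpa [k2dn] using h1
    simp [k2dn, hf i hi]

theorem k2Mt_final {f : ℕ → ℕ} {H : ℕ} {l : List ℕ} (h : k2Mt f 0 l H) :
    l = (List.range H).map f := by
  obtain ⟨h1, h2⟩ := h
  rw [Nat.zero_add] at h1
  rw [h2, h1, List.range_eq_range']

theorem k2dn_succ (T k : ℕ) : k2dn T (k + 1) = k2dn T k ++ [T - k] := by
  simp [k2dn, List.range_succ]

theorem k2_rowsOf_append (l l' : List Sp) : rowsOf (l ++ l') = rowsOf l ++ rowsOf l' := by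
  simp [rowsOf]

theorem k2_rowsOf_cons (p : Sp) (l : List Sp) : rowsOf (p :: l) = spRows p ++ rowsOf l := by
  simp [rowsOf]

theorem k2_rowsOf_nil : rowsOf [] = [] := by simp [rowsOf]

theorem k2_bands_succ (T m : ℕ) : bandsS T (m + 1) = bandsS T m ++ [(1, T - 1 - 2 * m, 0)] := by
  simp [bandsS, List.range_succ]

theorem k2_rows_bands (T m : ℕ) (h : 2 * m ≤ T) : rowsOf (bandsS T m) = k2dn T (2 * m) := by
  induction m with
  | zero => simp [bandsS, rowsOf, k2dn]
  | succ m ih =>
    rw [k2_bands_succ, k2_rowsOf_append, ih (by omega), show 2 * (m + 1) = 2 * m + 1 + 1 by ring,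
      k2dn_succ, k2dn_succ]
    simp only [rowsOf, spRows, List.flatMap_cons, List.flatMap_nil, List.append_assoc]
    simp only [one_ne_zero, if_false, if_true, List.append_nil, List.cons_append, List.nil_append]
    rw [show T - 1 - 2 * m + 1 = T - 2 * m by omega, show T - 1 - 2 * m = T - (2 * m + 1) by omega]

theorem k2_rows_run (T len : ℕ) (h : len ≤ T) : rowsOf (runS T len) = k2dn T len := by
  unfold runS
  rw [k2_rowsOf_append, k2_rows_bands T _ (by omega)]
  split_ifs with h1
  · obtain ⟨k, rfl⟩ : ∃ k, len = 2 * k + 1 := ⟨len / 2, by omega⟩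
    rw [show (2 * k + 1) / 2 = k by omega, k2dn_succ]
    simp only [rowsOf, spRows, List.flatMap_cons, List.flatMap_nil]
    simp only [if_true, List.append_nil, List.replicate_one]
    rw [show T + 1 - (2 * k + 1) = T - 2 * k by omega]
  · rw [show 2 * (len / 2) = len by omega, k2_rowsOf_nil, List.append_nil]

theorem k2_rows_seg (T len q : ℕ) (h : len + 3 ≤ T) :
    rowsOf (segS T len q) = k2dn T len ++ k2dn (T - len - 1) (2 - len % 2) := by
  unfold segS
  rw [k2_rowsOf_append, k2_rows_bands T _ (by omega)]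
  split_ifs with h1
  · obtain ⟨k, rfl⟩ : ∃ k, len = 2 * k + 1 := ⟨len / 2, by omega⟩
    rw [show (2 * k + 1) / 2 = k by omega, k2dn_succ, h1]
    simp only [rowsOf, spRows, List.flatMap_cons, List.flatMap_nil, List.append_assoc]
    simp [k2dn]
    omega
  · rw [show 2 * (len / 2) = len by omega, show len % 2 = 0 by omega]
    simp only [rowsOf, spRows, List.flatMap_cons, List.flatMap_nil]
    simp [k2dn, List.range_succ]
    omega

theorem k2_segNext (T len : ℕ) : segNext T len = T - len - 1 - (2 - len % 2) := by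
  unfold segNext
  split_ifs <;> omega

theorem k2_spCh_mono {U U' : ℕ} (h : U ≤ U') {l : List Sp} (hl : spCh U l = true) :
    spCh U' l = true := by
  cases l with
  | nil => rfl
  | cons p ps =>
    simp only [spCh, Bool.and_eq_true, decide_eq_true_eq] at hl ⊢
    exact ⟨⟨hl.1.1.trans h, hl.1.2⟩, hl.2⟩

theorem k2_spCh_cons {U : ℕ} {p : Sp} {l : List Sp} (h1 : spHi p ≤ U) (h2 : 1 ≤ p.2.1)
    (hl : spCh (p.2.1 - 1) l = true) : spCh U (p :: l) = true := by
  simp only [spCh, Bool.and_eq_true, decide_eq_true_eq]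
  exact ⟨⟨h1, h2⟩, hl⟩

theorem k2_spCh_bands (T m : ℕ) (h : 2 * m ≤ T) {U : ℕ} (hU : T ≤ U) {l : List Sp}
    (hl : spCh (T - 2 * m) l = true) :
    spCh U (bandsS T m ++ l) = true := by
  induction m generalizing l with
  | zero => simpa [bandsS] using k2_spCh_mono (by omega) hl
  | succ m ih =>
    rw [k2_bands_succ, List.append_assoc]
    apply ih (by omega)
    apply k2_spCh_cons
    · simp [spHi]; omega
    · show 1 ≤ T - 1 - 2 * m
      omega
    · show spCh (T - 1 - 2 * m - 1) l = true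
      rwa [show T - 1 - 2 * m - 1 = T - 2 * (m + 1) by omega]

theorem k2_spCh_run (T len : ℕ) (h : len ≤ T) {U : ℕ} (hU : T ≤ U) {l : List Sp}
    (hl : spCh (T - len) l = true) : spCh U (runS T len ++ l) = true := by
  unfold runS
  rw [List.append_assoc]
  apply k2_spCh_bands T _ (by omega) hU
  split_ifs with h1
  · apply k2_spCh_cons
    · simp [spHi]; omega
    · show 1 ≤ T + 1 - len
      omega
    · show spCh (T + 1 - len - 1) l = true
      rwa [show T + 1 - len - 1 = T - len by omega]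
  · rw [show 2 * (len / 2) = len by omega]
    simpa using hl

theorem k2_spCh_seg (T len q : ℕ) (h : len + 3 ≤ T) {U : ℕ} (hU : T ≤ U) {l : List Sp}
    (hl : spCh (segNext T len) l = true) : spCh U (segS T len q ++ l) = true := by
  unfold segS
  unfold segNext at hl
  rw [List.append_assoc]
  apply k2_spCh_bands T _ (by omega) hU
  split_ifs at hl ⊢ with h1
  · apply k2_spCh_cons
    · simp [spHi]; omega
    · show 1 ≤ T - len - 1
      omega
    · show spCh (T - len - 1 - 1) l = true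
      rwa [show T - len - 1 - 1 = T - len - 2 by omega]
  · apply k2_spCh_cons
    · simp [spHi]; omega
    · show 1 ≤ T - len - 2
      omega
    · show spCh (T - len - 2 - 1) l = true
      rwa [show T - len - 2 - 1 = T - len - 3 by omega]

theorem k2_gap_bands (T m : ℕ) : (bandsS T m).all spGapOK = true := by
  simp [bandsS, spGapOK]

theorem k2_ex_bands (T m : ℕ) : (bandsS T m).flatMap spExtra = [] := by
  simp [bandsS, spExtra, List.flatMap_eq_nil_iff]

theorem k2_db_bands (T m : ℕ) : (bandsS T m).flatMap spDbl = [] := by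
  simp [bandsS, spDbl, List.flatMap_eq_nil_iff]

theorem k2_gap_run (T len : ℕ) : (runS T len).all spGapOK = true := by
  unfold runS
  rw [List.all_append, k2_gap_bands]
  split_ifs <;> simp [spGapOK]

theorem k2_ex_run (T len : ℕ) : (runS T len).flatMap spExtra = [] := by
  unfold runS
  rw [List.flatMap_append, k2_ex_bands]
  split_ifs <;> simp [spExtra]

theorem k2_db_run (T len : ℕ) : (runS T len).flatMap spDbl = [] := by
  unfold runS
  rw [List.flatMap_append, k2_db_bands]
  split_ifs <;> simp [spDbl]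

theorem k2_gap_seg (T len q : ℕ) (h : len % 2 = 1 → 2 ≤ T - len - 1 ∧ q % 2 = 1 ∧ q ≤ T - len - 1) :
    (segS T len q).all spGapOK = true := by
  unfold segS
  rw [List.all_append, k2_gap_bands]
  split_ifs with h1
  · obtain ⟨a, b, c⟩ := h h1
    simp [spGapOK, a, b, c]
  · simp [spGapOK]

theorem k2_ex_seg (T len q : ℕ) (hq : q ≠ 0) : (segS T len q).flatMap spExtra = [q] := by
  unfold segS
  rw [List.flatMap_append, k2_ex_bands]
  split_ifs <;> simp [spExtra, hq]

theorem k2_db_seg (T len q : ℕ) : (segS T len q).flatMap spDbl = [] := by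
  unfold segS
  rw [List.flatMap_append, k2_db_bands]
  split_ifs <;> simp [spDbl]

/-- The middle block. -/
def k2mid (L q2 e T2 : ℕ) : List Sp :=
  if e = 0 then runS T2 (T2 - q2)
  else runS T2 (T2 + 1 - (if e = 1 then (if e = 1 then (L - 1) / 2 else L / 2 + 1) + 2
      else (if e = 1 then (L - 1) / 2 else L / 2 + 1) + 1)) ++
    [(3, (if e = 1 then (L - 1) / 2 else L / 2 + 1), 0),
      (1, (if e = 1 then (if e = 1 then (L - 1) / 2 else L / 2 + 1) - 1
        else (if e = 1 then (L - 1) / 2 else L / 2 + 1) - 2) - 1,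
        (if e = 1 then (L - 1) / 2 else L / 2 + 1))] ++
    runS ((if e = 1 then (if e = 1 then (L - 1) / 2 else L / 2 + 1) - 1
        else (if e = 1 then (L - 1) / 2 else L / 2 + 1) - 2) - 2)
      ((if e = 1 then (if e = 1 then (L - 1) / 2 else L / 2 + 1) - 1
        else (if e = 1 then (L - 1) / 2 else L / 2 + 1) - 2) - 2 - q2)

theorem k2mid_zero (L q2 T2 : ℕ) : k2mid L q2 0 T2 = runS T2 (T2 - q2) := by simp [k2mid]

theorem k2mid_one (d q2 T2 : ℕ) : k2mid (2 * d + 1) q2 1 T2 =
    runS T2 (T2 + 1 - (d + 2)) ++ ((3, d, 0) :: (1, d - 1 - 1, d) ::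
      runS (d - 1 - 2) (d - 1 - 2 - q2)) := by
  have : (2 * d + 1 - 1) / 2 = d := by omega
  simp only [k2mid, this, one_ne_zero, if_false, if_true, List.append_assoc, List.cons_append,
    List.nil_append]

theorem k2mid_two (m q2 T2 : ℕ) : k2mid (2 * m) q2 2 T2 =
    runS T2 (T2 + 1 - (m + 2)) ++ ((3, m + 1, 0) :: (1, m - 1 - 1, m + 1) ::
      runS (m - 1 - 2) (m - 1 - 2 - q2)) := by
  have : 2 * m / 2 = m := by omega
  have h1 : m + 1 - 2 = m - 1 := by omega
  have h2 : (2 : ℕ) ≠ 0 := by decide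
  have h3 : (2 : ℕ) ≠ 1 := by decide
  simp only [k2mid, this, h1, h2, h3, if_false, List.append_assoc, List.cons_append,
    List.nil_append]

theorem k2_canon_eq (L q1 q2 e : ℕ) : canonSp L q1 q2 e =
    (if q1 = 0 then [] else segS (L + 2) q1 q1) ++
    ((if q2 = 0 then [] else segS (if q1 = 0 then L + 1 else segNext (L + 2) q1)
      ((if q1 = 0 then L + 1 else segNext (L + 2) q1) + q2 - L - 1) q2) ++
    (k2mid L q2 e (if q2 = 0 then L else segNext (if q1 = 0 then L + 1 else segNext (L + 2) q1)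
      ((if q1 = 0 then L + 1 else segNext (L + 2) q1) + q2 - L - 1)) ++
    ((if q2 = 0 then [] else (3, q2, 0) :: runS (q2 - 1) (q2 - 1 - q1)) ++
    (if q1 = 0 then [] else (3, q1, 0) :: runS (q1 - 1) (q1 - 1))))) := by
  simp only [canonSp, k2mid, List.append_assoc]

theorem k2mid_ch {L q1 q2 e T2 U : ℕ} (h : FamOK L q1 q2 e) (hT : L ≤ T2 + q2 + 2) (hU : T2 ≤ U)
    {l : List Sp} (hl : spCh q2 l = true) : spCh U (k2mid L q2 e T2 ++ l) = true := by
  obtain ⟨h1, h2, -⟩ := h
  rcases h2 with rfl | ⟨rfl, h2⟩ | ⟨rfl, h2⟩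
  · rw [k2mid_zero]
    apply k2_spCh_run _ _ (by omega) hU
    rwa [show T2 - (T2 - q2) = q2 by omega]
  · obtain ⟨d, rfl⟩ : ∃ d, L = 2 * d + 1 := ⟨L / 2, by omega⟩
    rw [k2mid_one, List.append_assoc]
    apply k2_spCh_run _ _ (by omega) hU
    apply k2_spCh_cons
    · simp [spHi]; omega
    · show 1 ≤ d
      omega
    apply k2_spCh_cons
    · simp [spHi]; omega
    · show 1 ≤ d - 1 - 1
      omega
    show spCh (d - 1 - 1 - 1) (runS _ _ ++ l) = true
    apply k2_spCh_run _ _ (by omega) (by omega)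
    rwa [show d - 1 - 2 - (d - 1 - 2 - q2) = q2 by omega]
  · obtain ⟨m, rfl⟩ : ∃ m, L = 2 * m := ⟨L / 2, by omega⟩
    rw [k2mid_two, List.append_assoc]
    apply k2_spCh_run _ _ (by omega) hU
    apply k2_spCh_cons
    · simp [spHi]; omega
    · show 1 ≤ m + 1
      omega
    apply k2_spCh_cons
    · simp [spHi]; omega
    · show 1 ≤ m - 1 - 1
      omega
    show spCh (m - 1 - 1 - 1) (runS _ _ ++ l) = true
    apply k2_spCh_run _ _ (by omega) (by omega)
    rwa [show m - 1 - 2 - (m - 1 - 2 - q2) = q2 by omega]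

theorem k2mid_gap {L q1 q2 e : ℕ} (T2 : ℕ) (h : FamOK L q1 q2 e) :
    (k2mid L q2 e T2).all spGapOK = true := by
  obtain ⟨h1, h2, -⟩ := h
  rcases h2 with rfl | ⟨rfl, h2⟩ | ⟨rfl, h2⟩
  · rw [k2mid_zero, k2_gap_run]
  · obtain ⟨d, rfl⟩ : ∃ d, L = 2 * d + 1 := ⟨L / 2, by omega⟩
    rw [k2mid_one, List.all_append, List.all_cons, List.all_cons, k2_gap_run, k2_gap_run]
    simp [spGapOK]
  · obtain ⟨m, rfl⟩ : ∃ m, L = 2 * m := ⟨L / 2, by omega⟩
    rw [k2mid_two, List.all_append, List.all_cons, List.all_cons, k2_gap_run, k2_gap_run]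
    simp [spGapOK]

theorem k2mid_ex {L q1 q2 e : ℕ} (T2 : ℕ) (h : FamOK L q1 q2 e) :
    (k2mid L q2 e T2).flatMap spExtra = (k2mid L q2 e T2).flatMap spDbl ∧
      ((k2mid L q2 e T2).flatMap spDbl).length ≤ 1 := by
  obtain ⟨h1, h2, -⟩ := h
  rcases h2 with rfl | ⟨rfl, h2⟩ | ⟨rfl, h2⟩
  · rw [k2mid_zero, k2_ex_run, k2_db_run]; simp
  · obtain ⟨d, rfl⟩ : ∃ d, L = 2 * d + 1 := ⟨L / 2, by omega⟩
    have hd : d ≠ 0 := by omega
    rw [k2mid_one]
    simp only [List.flatMap_append, List.flatMap_cons, k2_ex_run, k2_db_run]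
    simp [spExtra, spDbl, hd]
  · obtain ⟨m, rfl⟩ : ∃ m, L = 2 * m := ⟨L / 2, by omega⟩
    rw [k2mid_two]
    simp only [List.flatMap_append, List.flatMap_cons, k2_ex_run, k2_db_run]
    simp [spExtra, spDbl]

theorem k2_famF_mid {L q1 q2 e a : ℕ} (h12 : q1 ≤ q2) (ha : q2 ≤ a) (ha' : a + q2 ≤ L)
    (h1 : ¬(e = 1 ∧ 2 * a + 1 = L)) (h2 : ¬(e = 2 ∧ 2 * a = L)) : famF L q1 q2 e a = L - a := by
  unfold famF
  rw [if_neg (by omega), if_neg (by omega), if_neg h1, if_neg h2]
  omega

theorem k2mid_rows {L q1 q2 e T2 a : ℕ} (h : FamOK L q1 q2 e) (h12 : q1 ≤ q2) (ha : a + T2 = L)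
    (ha1 : q2 ≤ a) (ha2 : a ≤ q2 + 2) :
    k2Mt (famF L q1 q2 e) a (rowsOf (k2mid L q2 e T2)) (L - q2) := by
  obtain ⟨h1, h2, -⟩ := h
  rcases h2 with rfl | ⟨rfl, h2⟩ | ⟨rfl, h2⟩
  · rw [k2mid_zero, k2_rows_run _ _ (by omega)]
    apply k2Mt_dn (by omega)
    intro i hi
    rw [k2_famF_mid h12 (by omega) (by omega) (by omega) (by omega)]
    omega
  · obtain ⟨d, rfl⟩ : ∃ d, L = 2 * d + 1 := ⟨L / 2, by omega⟩
    rw [k2mid_one, k2_rowsOf_append, k2_rowsOf_cons, k2_rowsOf_cons, k2_rows_run _ _ (by omega),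
      k2_rows_run _ _ (by omega)]
    apply k2Mt_append (b := d)
    · apply k2Mt_dn (by omega)
      intro i hi
      rw [k2_famF_mid h12 (by omega) (by omega) (by omega) (by omega)]
      omega
    show k2Mt _ _ (d :: d :: (d - 1 - 1 + 1) :: (d - 1 - 1) :: _) _
    apply k2Mt_cons
    · unfold famF
      rw [if_neg (by omega), if_neg (by omega), if_pos ⟨rfl, rfl⟩]
    apply k2Mt_cons
    · rw [k2_famF_mid h12 (by omega) (by omega) (by omega) (by omega)]
      omega
    apply k2Mt_cons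
    · rw [k2_famF_mid h12 (by omega) (by omega) (by omega) (by omega)]
      omega
    apply k2Mt_cons
    · rw [k2_famF_mid h12 (by omega) (by omega) (by omega) (by omega)]
      omega
    apply k2Mt_dn (by omega)
    intro i hi
    rw [k2_famF_mid h12 (by omega) (by omega) (by omega) (by omega)]
    omega
  · obtain ⟨m, rfl⟩ : ∃ m, L = 2 * m := ⟨L / 2, by omega⟩
    rw [k2mid_two, k2_rowsOf_append, k2_rowsOf_cons, k2_rowsOf_cons, k2_rows_run _ _ (by omega),
      k2_rows_run _ _ (by omega)]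
    apply k2Mt_append (b := m - 1)
    · apply k2Mt_dn (by omega)
      intro i hi
      rw [k2_famF_mid h12 (by omega) (by omega) (by omega) (by omega)]
      omega
    show k2Mt _ _ ((m + 1) :: (m + 1) :: (m - 1 - 1 + 1) :: (m - 1 - 1) :: _) _
    apply k2Mt_cons
    · rw [k2_famF_mid h12 (by omega) (by omega) (by omega) (by omega)]
      omega
    apply k2Mt_cons
    · unfold famF
      rw [if_neg (by omega), if_neg (by omega), if_neg (by omega), if_pos ⟨rfl, by omega⟩]
      omega
    apply k2Mt_cons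
    · rw [k2_famF_mid h12 (by omega) (by omega) (by omega) (by omega)]
      omega
    apply k2Mt_cons
    · rw [k2_famF_mid h12 (by omega) (by omega) (by omega) (by omega)]
      omega
    apply k2Mt_dn (by omega)
    intro i hi
    rw [k2_famF_mid h12 (by omega) (by omega) (by omega) (by omega)]
    omega

theorem k2_famF_a {L q1 q2 e a : ℕ} (ha : a < q1) : famF L q1 q2 e a = L + 2 - a := by
  unfold famF
  rw [if_pos ha]

theorem k2_famF_b {L q1 q2 e a : ℕ} (ha : q1 ≤ a) (ha' : a < q2) :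
    famF L q1 q2 e a = L + 1 - a := by
  unfold famF
  rw [if_neg (by omega), if_pos ha']

theorem k2_famF_c {L q1 q2 e a : ℕ} (h12 : q1 ≤ q2) (hL : 2 * q2 + 6 ≤ L) (ha : L ≤ a + q2) :
    famF L q1 q2 e a = max (max (min q1 (L + 2 - a)) (min q2 (L + 1 - a))) (L - a) := by
  unfold famF
  rw [if_neg (by omega), if_neg (by omega), if_neg (by omega), if_neg (by omega)]

theorem canon_ok {L q1 q2 e : ℕ} (h : FamOK L q1 q2 e) (hL : 20 ≤ L) :
    spOK (famH L q1 q2) (canonSp L q1 q2 e) = true := by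
  have h' := h
  obtain ⟨h1, h2, h3⟩ := h'
  obtain ⟨hx, hlen⟩ := k2mid_ex (L := L) (q1 := q1) (q2 := q2) (e := e)
    (if q2 = 0 then L else segNext (if q1 = 0 then L + 1 else segNext (L + 2) q1)
      ((if q1 = 0 then L + 1 else segNext (L + 2) q1) + q2 - L - 1)) h
  unfold spOK
  rw [k2_canon_eq]
  simp only [Bool.and_eq_true, List.all_append, List.flatMap_append, List.isPerm_iff]
  rw [hx, k2mid_gap _ h]
  generalize List.flatMap spDbl (k2mid L q2 e _) = D
  by_cases hq2 : q2 = 0
  · have hq1 : q1 = 0 := by omega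
    subst hq2 hq1
    simp only [if_true, List.nil_append, List.all_nil, List.flatMap_nil, List.append_nil]
    refine ⟨⟨?_, by simp⟩, List.Perm.refl _⟩
    have := k2mid_ch (T2 := L) (U := famH L 0 0) (l := []) h (by omega) (by simp [famH]) rfl
    simpa using this
  by_cases hq1 : q1 = 0
  · subst hq1
    simp only [if_true, if_neg hq2, List.nil_append, List.all_nil, List.flatMap_nil,
      List.append_nil, List.all_cons, List.flatMap_cons, k2_gap_run, k2_ex_run, k2_db_run,
      k2_db_seg, k2_ex_seg _ _ _ hq2]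
    refine ⟨⟨?_, trivial, ?_, trivial, ?_⟩, ?_⟩
    · apply k2_spCh_seg _ _ _ (by omega) (by unfold famH; split_ifs <;> omega)
      apply k2mid_ch h (by rw [k2_segNext]; omega) le_rfl
      apply k2_spCh_cons
      · simp [spHi]
      · show 1 ≤ q2
        omega
      have := k2_spCh_run (q2 - 1) (q2 - 1 - 0) (by omega) (U := q2 - 1) le_rfl (l := []) rfl
      simpa using this
    · apply k2_gap_seg
      intro hh
      omega
    · simp [spGapOK]
    · simp only [spExtra, spDbl]
      simp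
      exact (List.perm_append_singleton _ _).symm
  have h4 : q1 ≤ 4 ∧ q1 + 2 ≤ q2 ∧ L ≤ 2 * q2 + 7 ∧ 2 * q1 + 12 ≤ L := h3.resolve_left hq1
  simp only [if_neg hq1, if_neg hq2, List.all_cons, List.flatMap_cons, k2_gap_run, k2_ex_run,
    k2_db_run, k2_db_seg, k2_ex_seg _ _ _ hq2, k2_ex_seg _ _ _ hq1]
  refine ⟨⟨?_, ?_, ?_, trivial, ?_, ?_⟩, ?_⟩
  · apply k2_spCh_seg _ _ _ (by omega) (by unfold famH; split_ifs <;> omega)
    apply k2_spCh_seg _ _ _ (by rw [k2_segNext]; omega) le_rfl
    apply k2mid_ch h (by rw [k2_segNext, k2_segNext]; omega) le_rfl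
    rw [List.cons_append]
    apply k2_spCh_cons
    · simp [spHi]
    · show 1 ≤ q2
      omega
    show spCh (q2 - 1) _ = true
    apply k2_spCh_run _ _ (by omega) le_rfl
    apply k2_spCh_cons
    · simp [spHi]; omega
    · show 1 ≤ q1
      omega
    have := k2_spCh_run (q1 - 1) (q1 - 1) (by omega) (U := q1 - 1) le_rfl (l := []) rfl
    simpa using this
  · apply k2_gap_seg
    intro hh
    omega
  · apply k2_gap_seg
    rw [k2_segNext]
    intro hh
    omega
  · simp [spGapOK]
  · simp [spGapOK]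
  · simp only [spExtra, spDbl]
    simp
    have e1 : (D ++ [q2, q1]).Perm ([q2, q1] ++ D) := List.perm_append_comm
    exact ((List.Perm.swap q2 q1 D).trans e1.symm)

theorem canon_rows {L q1 q2 e : ℕ} (h : FamOK L q1 q2 e) (hL : 20 ≤ L) :
    rowsOf (canonSp L q1 q2 e) = (List.range (famH L q1 q2)).map (famF L q1 q2 e) := by
  have h' := h
  obtain ⟨h1, h2, h3⟩ := h'
  have h12 : q1 ≤ q2 := by omega
  apply k2Mt_final
  rw [k2_canon_eq]
  simp only [k2_rowsOf_append]
  by_cases hq2 : q2 = 0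
  · have hq1 : q1 = 0 := by omega
    subst hq2 hq1
    simp only [if_true, k2_rowsOf_nil, List.nil_append, List.append_nil]
    have := k2mid_rows (T2 := L) (a := 0) h le_rfl (by omega) le_rfl (by omega)
    simpa [famH] using this
  have hblock4 : k2Mt (famF L q1 q2 e) (L - q2)
      (rowsOf ((3, q2, 0) :: runS (q2 - 1) (q2 - 1 - q1))) (L + 1 - q1) := by
    rw [k2_rowsOf_cons, k2_rows_run _ _ (by omega)]
    show k2Mt _ _ (q2 :: q2 :: _) _
    apply k2Mt_cons
    · rw [k2_famF_c h12 h1 (by omega)]; omega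
    apply k2Mt_cons
    · rw [k2_famF_c h12 h1 (by omega)]; omega
    apply k2Mt_dn (by omega)
    intro i hi
    rw [k2_famF_c h12 h1 (by omega)]; omega
  have hblock2 : ∀ a T1 : ℕ, a + T1 = L + 1 → q1 ≤ a → a ≤ q2 →
      k2Mt (famF L q1 q2 e) a (rowsOf (segS T1 (T1 + q2 - L - 1) q2) ++
        rowsOf (k2mid L q2 e (segNext T1 (T1 + q2 - L - 1)))) (L - q2) := by
    intro a T1 ha ha1 ha2
    rw [k2_rows_seg _ _ _ (by omega)]
    apply k2Mt_append (b := q2 + (2 - (T1 + q2 - L - 1) % 2))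
    · apply k2Mt_append (b := q2)
      · apply k2Mt_dn (by omega)
        intro i hi
        rw [k2_famF_b (by omega) (by omega)]
        omega
      · apply k2Mt_dn rfl
        intro i hi
        rw [k2_famF_mid h12 (by omega) (by omega) (by omega) (by omega)]
        omega
    · apply k2mid_rows h h12 (by rw [k2_segNext]; omega) (by omega) (by omega)
  by_cases hq1 : q1 = 0
  · subst hq1
    simp only [if_true, if_neg hq2, k2_rowsOf_nil, List.nil_append, List.append_nil]
    rw [← List.append_assoc]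
    have hH : famH L 0 q2 = L + 1 - 0 := by unfold famH; split_ifs <;> omega
    rw [hH]
    exact k2Mt_append (hblock2 0 (L + 1) (by omega) le_rfl (by omega)) hblock4
  have h4 : q1 ≤ 4 ∧ q1 + 2 ≤ q2 ∧ L ≤ 2 * q2 + 7 ∧ 2 * q1 + 12 ≤ L := h3.resolve_left hq1
  simp only [if_neg hq1, if_neg hq2]
  have hH : famH L q1 q2 = L + 2 := by unfold famH; split_ifs <;> omega
  rw [hH]
  apply k2Mt_append (b := q1 + (2 - q1 % 2))
  · rw [k2_rows_seg _ _ _ (by omega)]
    apply k2Mt_append (b := q1)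
    · apply k2Mt_dn (by omega)
      intro i hi
      rw [k2_famF_a (by omega)]
      omega
    · apply k2Mt_dn rfl
      intro i hi
      rw [k2_famF_b (by omega) (by omega)]
      omega
  rw [← List.append_assoc]
  apply k2Mt_append (hblock2 _ _ (by rw [k2_segNext]; omega) (by omega) (by omega))
  apply k2Mt_append hblock4
  rw [k2_rowsOf_cons, k2_rows_run _ _ (by omega)]
  show k2Mt _ _ (q1 :: q1 :: _) _
  apply k2Mt_cons
  · rw [k2_famF_c h12 h1 (by omega)]; omega
  apply k2Mt_cons
  · rw [k2_famF_c h12 h1 (by omega)]; omega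
  apply k2Mt_dn (by omega)
  intro i hi
  rw [k2_famF_c h12 h1 (by omega)]; omega

end Crest.Agent.R195
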