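import Crest.Agent.R195.Lists

/-!
# Row 195: the canonical chain satisfies the criterion for `L ≥ 64`

With `H = famH`, `μ = muOf (canonSp ..)` show three additive facts (over `++`):
* every part `x` of `μ` has `2x ≤ H + 4`;
* `cost μ = (μ.map fun x => 2 * x - (H - 2)).sum ≤ 58`: `cost (bal4 N) ≤ 12` for `N ≤ 2H`, `cost (muOf (bandsS T m)) ≤ 16` for `T ≤ H` and `= 0` for `T + 3 ≤ H`
  (only one block starts at `T = H`, all later ones have `T + 3 ≤ H`); the three hosts carrying a double have `N ≤ 2H`; the single row ending the upper middle run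
  costs `≤ 6`, all other single rows cost `0`; total `≤ 16 + 36 + 6`;
* `2H ≤ μ.countP (0 < ·) + 42`: `bal4 N` has four positive parts for `N ≥ 4`, so `countP (muOf (bandsS T m)) + 1 ≥ 4m` for `2m ≤ T`,
  `countP (muOf (runS T len)) + 2 ≥ 2 len`; add up the lengths of the runs (`omega`).
The remaining inequalities only involve `n = famN ≥ L(L+1)/2 - 1 + 2 q1 + 2 q2` (`nlinarith`; if `q1 > 0` then `L ≤ 2 q2 + 7`).
-/

set_option autoImplicit false

namespace Crest.Agent.R195

/-- largest part, cost and number of positive parts of a block -/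
def fk3_Bd (H : ℕ) (sp : List Sp) (c k : ℕ) : Prop :=
  (∀ x ∈ muOf sp, 2 * x ≤ H + 4) ∧ ((muOf sp).map fun x => 2 * x - (H - 2)).sum ≤ c ∧
    k ≤ (muOf sp).countP (fun x => 0 < x)

theorem fk3_nil (H : ℕ) : fk3_Bd H [] 0 0 := by simp [fk3_Bd, muOf]

theorem fk3_Bd.mono {H : ℕ} {sp : List Sp} {c k c' k' : ℕ} (h : fk3_Bd H sp c k) (hc : c ≤ c')
    (hk : k' ≤ k) : fk3_Bd H sp c' k' :=
  ⟨h.1, h.2.1.trans hc, hk.trans h.2.2⟩

theorem fk3_Bd.append {H : ℕ} {sp sp' : List Sp} {c k c' k' : ℕ} (h : fk3_Bd H sp c k)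
    (h' : fk3_Bd H sp' c' k') : fk3_Bd H (sp ++ sp') (c + c') (k + k') := by
  have e : muOf (sp ++ sp') = muOf sp ++ muOf sp' := List.flatMap_append
  unfold fk3_Bd
  rw [e]
  refine ⟨fun x hx => ?_, ?_, ?_⟩
  · rcases List.mem_append.1 hx with hx | hx
    · exact h.1 x hx
    · exact h'.1 x hx
  · rw [List.map_append, List.sum_append]
    exact Nat.add_le_add h.2.1 h'.2.1
  · rw [List.countP_append]
    exact Nat.add_le_add h.2.2 h'.2.2

theorem fk3_dbl (H d : ℕ) : fk3_Bd H [(3, d, 0)] 0 0 := by simp [fk3_Bd, muOf, spMu]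

theorem fk3_single {H x c : ℕ} (hc : c ≤ 6) (hH : 2 ≤ H) (hx : 2 * x ≤ H - 2 + c) :
    fk3_Bd H [(0, x, 1)] c 0 := by
  simp only [fk3_Bd, muOf, spMu, List.flatMap_cons, List.flatMap_nil, if_true, List.append_nil,
    one_mul, List.mem_singleton, forall_eq, List.map_cons, List.map_nil, List.sum_cons, List.sum_nil]
  omega

theorem fk3_bal {H N c k : ℕ} {sp : List Sp} (e : muOf sp = bal4 N) (hH : 2 ≤ H) (hN : N ≤ 2 * H)
    (hc : 2 * ((N + 3) / 4) ≤ H - 2 + c) (hk : k ≤ min 4 N) : fk3_Bd H sp (4 * c) k := by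
  unfold fk3_Bd
  rw [e]
  unfold bal4
  refine ⟨fun x hx => ?_, ?_, ?_⟩
  · simp only [List.mem_cons, List.not_mem_nil, or_false] at hx
    omega
  · simp only [List.map_cons, List.map_nil, List.sum_cons, List.sum_nil]
    omega
  · simp only [List.countP_cons, List.countP_nil, decide_eq_true_eq]
    split_ifs <;> omega

theorem fk3_mu1 (h q : ℕ) : muOf [(1, h, q)] = bal4 (2 * h + 1 + 2 * q) := by simp [muOf, spMu]

theorem fk3_mu2 (h q : ℕ) : muOf [(2, h, q)] = bal4 (2 * h + 2 + 2 * q) := by simp [muOf, spMu]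

theorem fk3_host1 {H h q : ℕ} (h1 : 2 * h + 1 + 2 * q ≤ 2 * H) (h2 : 4 ≤ 2 * h + 1 + 2 * q) :
    fk3_Bd H [(1, h, q)] 12 4 :=
  fk3_bal (c := 3) (fk3_mu1 h q) (by omega) h1 (by omega) (by omega)

theorem fk3_host2 {H h q : ℕ} (h1 : 2 * h + 2 + 2 * q ≤ 2 * H) (h2 : 4 ≤ 2 * h + 2 + 2 * q) :
    fk3_Bd H [(2, h, q)] 12 4 :=
  fk3_bal (c := 3) (fk3_mu2 h q) (by omega) h1 (by omega) (by omega)

theorem fk3_bands' {H T : ℕ} (hT : T ≤ H) (m : ℕ) (hm : 2 * m ≤ T) :
    fk3_Bd H (bandsS T m) (if T + 3 ≤ H then 0 else min (12 * m) 16)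
      (if 2 * m = T then 4 * m - 1 else 4 * m) := by
  induction m with
  | zero =>
    refine (fk3_nil H).mono (Nat.zero_le _) ?_
    split_ifs <;> omega
  | succ m ih =>
    have e : bandsS T (m + 1) = bandsS T m ++ [(1, T - 1 - 2 * m, 0)] := by
      simp [bandsS, List.range_succ]
    have h2 : fk3_Bd H [(1, T - 1 - 2 * m, 0)]
        (4 * (if T + 3 ≤ H then 0 else if m = 0 then 3 else if m = 1 then 1 else 0))
        (if 2 * (m + 1) = T then 3 else 4) :=
      fk3_bal (fk3_mu1 _ _) (by omega) (by omega) (by split_ifs <;> omega) (by split_ifs <;> omega)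
    rw [e]
    refine ((ih (by omega)).append h2).mono ?_ ?_
    · split_ifs <;> omega
    · split_ifs <;> omega

theorem fk3_bands {H T m c : ℕ} (hT : T ≤ H) (hm : 2 * m ≤ T) (hc : T + 3 ≤ H ∨ 16 ≤ c) :
    fk3_Bd H (bandsS T m) c (4 * m - 1) := by
  refine (fk3_bands' hT m hm).mono ?_ ?_
  · split_ifs <;> omega
  · split_ifs <;> omega

theorem fk3_run {H T len c c' : ℕ} (hH : 2 ≤ H) (hT : T ≤ H) (hl : len ≤ T) (hc : T + 3 ≤ H ∨ 16 ≤ c)
    (hc' : c' ≤ 6) (hx : len % 2 = 1 → 2 * (T + 1 - len) ≤ H - 2 + c') :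
    fk3_Bd H (runS T len) (c + c') (2 * len - 3) := by
  unfold runS
  have h1 := fk3_bands (m := len / 2) hT (by omega) hc
  split_ifs with h
  · exact (h1.append (fk3_single hc' hH (hx h))).mono le_rfl (by omega)
  · exact (h1.append (fk3_nil H)).mono (by omega) (by omega)

theorem fk3_seg {H T len q c : ℕ} (hT : T ≤ H) (hl : len + 4 ≤ T) (hc : T + 3 ≤ H ∨ 16 ≤ c)
    (hq : T + q ≤ H + len) : fk3_Bd H (segS T len q) (c + 12) (2 * (T - segNext T len) - 3) := by
  unfold segS segNext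
  have h1 := fk3_bands (m := len / 2) hT (by omega) hc
  split_ifs with h
  · exact (h1.append (fk3_host2 (by omega) (by omega))).mono le_rfl (by omega)
  · exact (h1.append (fk3_host1 (by omega) (by omega))).mono le_rfl (by omega)

theorem fk3_next {T len : ℕ} (hl : len + 4 ≤ T) :
    segNext T len + len + 2 ≤ T ∧ T ≤ segNext T len + len + 3 ∧
      (len % 2 = 1 → segNext T len + len + 2 = T) := by
  unfold segNext
  split_ifs <;> omega

theorem fk3_tail {H q p : ℕ} (hq : 2 * q + 6 ≤ H) (hp : 2 * p + 6 ≤ H) :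
    fk3_Bd H (if q = 0 then [] else (3, q, 0) :: runS (q - 1) (q - 1 - p)) 0 (2 * (q - p) - 5) := by
  split_ifs with h
  · exact (fk3_nil H).mono le_rfl (by omega)
  · exact ((fk3_dbl H q).append (fk3_run (T := q - 1) (len := q - 1 - p) (c := 0) (c' := 0)
      (by omega) (by omega) (by omega) (by omega) (by omega) (by omega))).mono le_rfl (by omega)

theorem fk3_mid {H L T q e c : ℕ} (hL : 64 ≤ L) (hH : L ≤ H) (hT : T ≤ H) (hc : T + 3 ≤ H ∨ 16 ≤ c)
    (hq : 2 * q + 6 ≤ L) (hTq : L ≤ T + q + 2)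
    (he : e = 0 ∨ (e = 1 ∧ L % 2 = 1) ∨ (e = 2 ∧ L % 2 = 0)) (d u w : ℕ)
    (hd : d = if e = 1 then (L - 1) / 2 else L / 2 + 1) (hu : u = if e = 1 then d + 2 else d + 1)
    (hw : w = if e = 1 then d - 1 else d - 2) :
    fk3_Bd H (if e = 0 then runS T (T - q)
      else runS T (T + 1 - u) ++ [(3, d, 0), (1, w - 1, d)] ++ runS (w - 2) (w - 2 - q))
      (c + 18) (2 * (T - q) - 12) := by
  by_cases h0 : e = 0
  · rw [if_pos h0]
    exact (fk3_run (c' := 0) (by omega) hT (by omega) hc (by omega) (by omega)).mono (by omega) (by omega)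
  · rw [if_neg h0]
    have hf : 2 * u ≤ L + 4 ∧ L + 3 ≤ 2 * u ∧ 2 * w + 2 * d ≤ 2 * L ∧ u = w + 3 ∧ d ≤ L := by
      split_ifs at hd hu hw <;> omega
    have h1 := fk3_run (H := H) (T := T) (len := T + 1 - u) (c' := 6) (by omega) hT (by omega) hc
      le_rfl (by omega)
    have h2 : fk3_Bd H [(3, d, 0), (1, w - 1, d)] (0 + 12) (0 + 4) :=
      (fk3_dbl H d).append (fk3_host1 (by omega) (by omega))
    have h3 := fk3_run (H := H) (T := w - 2) (len := w - 2 - q) (c := 0) (c' := 0) (by omega) (by omega)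
      (by omega) (by omega) (by omega) (by omega)
    exact ((h1.append h2).append h3).mono (by omega) (by omega)

theorem fk3_canon {L q1 q2 e : ℕ} (h : FamOK L q1 q2 e) (hL : 64 ≤ L) :
    fk3_Bd (famH L q1 q2) (canonSp L q1 q2 e) 58 (2 * famH L q1 q2 - 42) := by
  obtain ⟨a1, a2, a3⟩ := h
  unfold canonSp
  by_cases h2 : q2 = 0
  · have h1 : q1 = 0 := by omega
    subst h1 h2
    have hH : famH L 0 0 = L := by simp [famH]
    rw [hH]
    simp only [if_true, List.nil_append, List.append_nil]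
    exact (fk3_mid (c := 16) hL le_rfl le_rfl (by omega) a1 (by omega) a2 _ _ _ rfl rfl rfl).mono
      (by omega) (by omega)
  · by_cases h1 : q1 = 0
    · subst h1
      have hH : famH L 0 q2 = L + 1 := by simp [famH, Nat.pos_of_ne_zero h2]
      rw [hH]
      simp only [if_true, List.nil_append, List.append_nil]
      have n2 := fk3_next (T := L + 1) (len := L + 1 + q2 - L - 1) (by omega)
      have b2 := fk3_seg (H := L + 1) (T := L + 1) (len := L + 1 + q2 - L - 1) (q := q2) (c := 16)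
        le_rfl (by omega) (by omega) (by omega)
      have b3 := fk3_mid (H := L + 1) (T := segNext (L + 1) (L + 1 + q2 - L - 1)) (c := 0) hL
        (by omega) (by omega) (by omega) a1 (by omega) a2 _ _ _ rfl rfl rfl
      have b4 := fk3_tail (H := L + 1) (q := q2) (p := 0) (by omega) (by omega)
      simp only [if_neg h2] at b4 ⊢
      exact ((b2.append b3).append b4).mono (by omega) (by omega)
    · have hH : famH L q1 q2 = L + 2 := by
        simp [famH, Nat.pos_of_ne_zero h2, Nat.pos_of_ne_zero h1]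
      rw [hH]
      have n1 := fk3_next (T := L + 2) (len := q1) (by omega)
      have b1 := fk3_seg (H := L + 2) (T := L + 2) (len := q1) (q := q1) (c := 16)
        le_rfl (by omega) (by omega) (by omega)
      have b4 := fk3_tail (H := L + 2) (q := q2) (p := q1) (by omega) (by omega)
      have b5 := fk3_tail (H := L + 2) (q := q1) (p := 0) (by omega) (by omega)
      simp only [if_neg h2, if_neg h1, Nat.sub_zero] at b4 b5 ⊢
      generalize segNext (L + 2) q1 = T1 at *
      have n2 := fk3_next (T := T1) (len := T1 + q2 - L - 1) (by omega)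
      have b2 := fk3_seg (H := L + 2) (T := T1) (len := T1 + q2 - L - 1) (q := q2) (c := 0)
        (by omega) (by omega) (by omega) (by omega)
      have b3 := fk3_mid (H := L + 2) (T := segNext T1 (T1 + q2 - L - 1)) (c := 0) hL
        (by omega) (by omega) (by omega) a1 (by omega) a2 _ _ _ rfl rfl rfl
      exact ((((b1.append b2).append b3).append b4).append b5).mono (by omega) (by omega)

theorem canon_crit {L q1 q2 e : ℕ} (h : FamOK L q1 q2 e) (hL : 64 ≤ L) :
    Crit (famH L q1 q2) (famN L q1 q2 e) (muOf (canonSp L q1 q2 e))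
      (famH L q1 q2 - 5) (famH L q1 q2 - 2) 2 := by
  obtain ⟨h1, h2, h3⟩ := fk3_canon h hL
  obtain ⟨a1, a2, a3⟩ := h
  have hT : 2 * (L * (L + 1) / 2) = L * L + L := by
    have := Nat.two_mul_div_two_of_even (Nat.even_mul_succ_self L)
    rw [this]
    ring
  have hn : L * L + L + 4 * q1 + 4 * q2 ≤ 2 * famN L q1 q2 e + 2 := by
    unfold famN
    split_ifs <;> omega
  have hH : famH L q1 q2 = L ∨ famH L q1 q2 = L + 1 ∨
      (famH L q1 q2 = L + 2 ∧ 1 ≤ q1 ∧ L ≤ 2 * q2 + 7) := by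
    unfold famH
    split_ifs <;> omega
  have hLL : 64 * L ≤ L * L := Nat.mul_le_mul_right L hL
  generalize famN L q1 q2 e = n at *
  generalize famH L q1 q2 = H at *
  generalize muOf (canonSp L q1 q2 e) = μ at *
  have hsq : H * H ≤ 2 * n + H + 20 ∧ H * H + 2 ≤ 2 * n + 2 * H := by
    rcases hH with rfl | rfl | ⟨rfl, b1, b2⟩
    · omega
    · have : (L + 1) * (L + 1) = L * L + 2 * L + 1 := by ring
      omega
    · have : (L + 2) * (L + 2) = L * L + 4 * L + 4 := by ring
      omega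
  obtain ⟨K, rfl⟩ : ∃ K, H = K + 5 := ⟨H - 5, by omega⟩
  have e5 : K + 5 - 5 = K := by omega
  have e2 : K + 5 - 2 = K + 3 := by omega
  have hKK : (K + 5) * (K + 5) = K * K + 10 * K + 25 := by ring
  refine ⟨by omega, by omega, ?_, fun x hx => ?_, by omega, ?_⟩
  · rw [e2]
    have : (K + 3) * (K + 3) = K * K + 6 * K + 9 := by ring
    omega
  · rw [e5]
    have b1 : 2 * x * K ≤ (K + 5 + 4) * K := Nat.mul_le_mul_right K (h1 x hx)
    have b2 : (K + 5 + 4) * K = K * K + 9 * K := by ring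
    have b3 : 2 * x * K = 2 * (x * K) := by ring
    omega
  · have b1 : (2 * (K + 5) - 3 - μ.countP (fun x => 0 < x)) ^ 2 ≤ 39 ^ 2 :=
      Nat.pow_le_pow_left (by omega) 2
    omega

end Crest.Agent.R195
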