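import Crest.Agent.R195.Recs

/-!
# Row 195: versions of the checkers written with recursors (faster kernel evaluation)
-/

set_option autoImplicit false

namespace Crest.Agent.R195

/-- `if b then t else e`. -/
noncomputable def cR {α : Type} (b : Bool) (t e : α) : α := Bool.rec e t b

theorem cR_eq {α : Type} (b : Bool) (t e : α) : cR b t e = if b = true then t else e := by
  cases b <;> rfl

theorem ble_eq (a b : ℕ) : Nat.ble a b = decide (a ≤ b) := by
  by_cases h : a ≤ b
  · simp [h, Nat.ble_eq_true_of_le h]
  · cases h' : Nat.ble a b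
    · simp [h]
    · exact absurd (Nat.le_of_ble_eq_true h') h

theorem beq_eq' (a b : ℕ) : Nat.beq a b = decide (a = b) := by
  by_cases h : a = b
  · subst h; simp [Nat.beq_refl]
  · cases h' : Nat.beq a b
    · simp [h]
    · exact absurd (Nat.eq_of_beq_eq_true h') h

/-- Force a number. -/
noncomputable def fN {α : Type} (n : ℕ) (k : ℕ → α) : α :=
  Nat.rec (k 0) (fun m _ => k (Nat.succ m)) n

theorem fN_eq {α : Type} (n : ℕ) (k : ℕ → α) : fN n k = k n := by cases n <;> rfl

/-- Force a list of numbers. -/
noncomputable def fL {α : Type} (l : List ℕ) : (List ℕ → α) → α :=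
  List.rec (fun k => k []) (fun x _ ih k => fN x fun x' => ih fun t' => k (x' :: t')) l

theorem fL_eq {α : Type} (l : List ℕ) (k : List ℕ → α) : fL l k = k l := by
  induction l generalizing k with
  | nil => rfl
  | cons x t ih =>
    change fN x (fun x' => fL t fun t' => k (x' :: t')) = _
    simp only [fN_eq, ih]

/-- Force a list of lists. -/
noncomputable def fLL {α : Type} (l : List (List ℕ)) : (List (List ℕ) → α) → α :=
  List.rec (fun k => k []) (fun x _ ih k => fL x fun x' => ih fun t' => k (x' :: t')) l

theorem fLL_eq {α : Type} (l : List (List ℕ)) (k : List (List ℕ) → α) : fLL l k = k l := by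
  induction l generalizing k with
  | nil => rfl
  | cons x t ih =>
    change fL x (fun x' => fLL t fun t' => k (x' :: t')) = _
    simp only [fL_eq, ih]

noncomputable def domR (M : List ℕ) : List ℕ → ℕ → Bool :=
  List.rec (fun _ _ => true) (fun m _ ih L s =>
    List.rec (Bool.rec false (ih [] (Nat.sub s m)) (Nat.ble m s))
      (fun x L _ => Bool.rec false (ih L (Nat.sub (Nat.add s x) m)) (Nat.ble m (Nat.add s x))) L) M

theorem domR_eq (M L : List ℕ) (s : ℕ) : domR M L s = domB L M s := by
  induction M generalizing L s with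
  | nil => cases L <;> rfl
  | cons m M ih =>
    cases L with
    | nil =>
      change cR (Nat.ble m s) (domR M [] (s - m)) false = _
      simp [cR_eq, ble_eq, ih, domB]
    | cons x L =>
      change cR (Nat.ble m (s + x)) (domR M L (s + x - m)) false = _
      simp [cR_eq, ble_eq, ih, domB]

noncomputable def anyR (Ms : List (List ℕ)) (L : List ℕ) : Bool :=
  List.rec false (fun M _ ih => Bool.rec ih true (domR M L 0)) Ms

theorem anyR_eq (Ms : List (List ℕ)) (L : List ℕ) : anyR Ms L = anyDom Ms L := by
  induction Ms with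
  | nil => rfl
  | cons M Ms ih =>
    change cR (domR M L 0) true (anyR Ms L) = _
    rw [ih, domR_eq]
    simp only [anyDom, List.any_cons]
    cases domB L M 0 <;> rfl

noncomputable def appR (a b : List ℕ) : List ℕ := List.rec b (fun x _ ih => x :: ih) a

theorem appR_eq (a b : List ℕ) : appR a b = a ++ b := by
  induction a with
  | nil => rfl
  | cons x a ih => change x :: appR a b = _; rw [ih]; rfl

/-- `balL r N ++ tl`. -/
noncomputable def balR (tl : List ℕ) (r : ℕ) : ℕ → List ℕ :=
  Nat.rec (fun _ => tl) (fun r ih N => Nat.div (Nat.add N r) (Nat.succ r) ::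
    ih (Nat.sub N (Nat.div (Nat.add N r) (Nat.succ r)))) r

theorem balR_eq (tl : List ℕ) (r N : ℕ) : balR tl r N = balL r N ++ tl := by
  induction r generalizing N with
  | zero => rfl
  | succ r ih =>
    change (N + r) / (r + 1) :: balR tl r (N - (N + r) / (r + 1)) = _
    rw [ih]; rfl

/-- Number of entries `≥ b`. -/
noncomputable def cntR (b : ℕ) (l : List ℕ) : ℕ :=
  List.rec 0 (fun x _ ih => Bool.rec ih (Nat.succ ih) (Nat.ble b x)) l

theorem cntR_eq (b : ℕ) (l : List ℕ) : cntR b l = l.countP fun x => decide (b ≤ x) := by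
  induction l with
  | nil => rfl
  | cons x l ih =>
    change cR (Nat.ble b x) (cntR b l + 1) (cntR b l) = _
    rw [ih, cR_eq, ble_eq, List.countP_cons]
    split <;> simp_all

/-- Number of entries `≤ b`. -/
noncomputable def cntLe (b : ℕ) (l : List ℕ) : ℕ :=
  List.rec 0 (fun x _ ih => Bool.rec ih (Nat.succ ih) (Nat.ble x b)) l

theorem cntLe_eq (b : ℕ) (l : List ℕ) : cntLe b l = l.countP fun x => decide (x ≤ b) := by
  induction l with
  | nil => rfl
  | cons x l ih =>
    change cR (Nat.ble x b) (cntLe b l + 1) (cntLe b l) = _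
    rw [ih, cR_eq, ble_eq, List.countP_cons]
    split <;> simp_all

/-- `[f s, f (s+1), …]` with `k` entries. -/
noncomputable def tabR (f : ℕ → ℕ) (k : ℕ) : ℕ → List ℕ :=
  Nat.rec (fun _ => []) (fun _ ih s => f s :: ih (Nat.succ s)) k

theorem tabR_eq' (f : ℕ → ℕ) (k s : ℕ) : tabR f k s = (List.range' s k).map f := by
  induction k generalizing s with
  | zero => rfl
  | succ k ih => change f s :: tabR f k (s + 1) = _; rw [ih]; rfl

theorem tabR_eq (f : ℕ → ℕ) (k : ℕ) : tabR f k 0 = (List.range k).map f := by
  rw [tabR_eq', List.range_eq_range']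

noncomputable def hdR (l : List ℕ) : ℕ := List.rec 0 (fun x _ _ => x) l

theorem hdR_eq (l : List ℕ) : hdR l = l.headD 0 := by cases l <;> rfl

noncomputable def tlR (l : List ℕ) : List ℕ := List.rec [] (fun _ t _ => t) l

theorem tlR_eq (l : List ℕ) : tlR l = l.tail := by cases l <;> rfl

noncomputable def conjR (l : List ℕ) : List ℕ := tabR (fun b => cntR (Nat.succ b) l) (hdR l) 0

theorem conjR_eq (l : List ℕ) : conjR l = conjL l := by
  simp only [conjR, conjL, tabR_eq, cntR_eq, hdR_eq, Nat.succ_le_iff]

noncomputable def leR (p : List ℕ) : List ℕ → Bool :=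
  List.rec (fun _ => true) (fun y _ ih a =>
    List.rec (Bool.rec false (ih []) (Nat.beq y 0))
      (fun x a' _ => Bool.rec false (ih a') (Nat.ble y x)) a) p

theorem leR_eq (p a : List ℕ) : leR p a = leL p a := by
  induction p generalizing a with
  | nil => cases a <;> rfl
  | cons y p ih =>
    cases a with
    | nil =>
      change cR (Nat.beq y 0) (leR p []) false = _
      simp [cR_eq, beq_eq', ih, leL]
    | cons x a =>
      change cR (Nat.ble y x) (leR p a) false = _
      simp [cR_eq, ble_eq, ih, leL]

noncomputable def subR (a : List ℕ) : List ℕ → List ℕ :=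
  List.rec (fun _ => []) (fun x t ih p => List.rec (x :: t) (fun y p' _ => Nat.sub x y :: ih p') p) a

theorem subR_eq (a p : List ℕ) : subR a p = subL a p := by
  induction a generalizing p with
  | nil => cases p <;> rfl
  | cons x a ih =>
    cases p with
    | nil => rfl
    | cons y p => change (x - y) :: subR a p = _; rw [ih]; rfl

noncomputable def dropR (l : List ℕ) : List ℕ :=
  List.rec [] (fun x _ ih =>
    List.rec (Bool.rec [x] [] (Nat.beq x 0)) (fun y l' _ => x :: y :: l') ih) l

theorem dropR_eq (l : List ℕ) : dropR l = dropZ l := by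
  induction l with
  | nil => rfl
  | cons x l ih =>
    change List.rec (motive := fun _ => List ℕ) (cR (Nat.beq x 0) [] [x]) (fun y l' _ => x :: y :: l') (dropR l) = _
    rw [ih, dropZ]
    cases dropZ l with
    | nil => simp [cR_eq, beq_eq']
    | cons y l' => rfl

noncomputable def partR (l : List ℕ) : ℕ → Bool :=
  List.rec (fun _ => true)
    (fun x _ ih U => Bool.rec false (Bool.rec false (ih x) (Nat.ble x U)) (Nat.ble 1 x)) l

theorem partR_eq (l : List ℕ) (U : ℕ) : partR l U = partB U l := by
  induction l generalizing U with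
  | nil => rfl
  | cons x l ih =>
    change cR (Nat.ble 1 x) (cR (Nat.ble x U) (partR l x) false) false = _
    simp [cR_eq, ble_eq, ih, partB, Bool.and_assoc]

noncomputable def isPartR (l : List ℕ) : Bool := partR l (hdR l)

theorem isPartR_eq (l : List ℕ) : isPartR l = isPartL l := by
  simp only [isPartR, isPartL, partR_eq, hdR_eq]

noncomputable def sumR (l : List ℕ) : ℕ := List.rec 0 (fun x _ ih => Nat.add x ih) l

theorem sumR_eq (l : List ℕ) : sumR l = l.sum := by
  induction l with
  | nil => rfl
  | cons x l ih => change x + sumR l = _; rw [ih]; rfl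

noncomputable def eqR (a : List ℕ) : List ℕ → Bool :=
  List.rec (fun b => List.rec true (fun _ _ _ => false) b)
    (fun x _ ih b => List.rec false (fun y b' _ => Bool.rec false (ih b') (Nat.beq x y)) b) a

theorem eqR_eq (a b : List ℕ) : eqR a b = decide (a = b) := by
  induction a generalizing b with
  | nil => cases b <;> simp [eqR]
  | cons x a ih =>
    cases b with
    | nil => simp [eqR]
    | cons y b =>
      change cR (Nat.beq x y) (eqR a b) false = _
      simp [cR_eq, beq_eq', ih]

noncomputable def onesR (k : ℕ) : List ℕ := Nat.rec [] (fun _ ih => 1 :: ih) k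

theorem onesR_eq (k : ℕ) : onesR k = List.replicate k 1 := by
  induction k with
  | zero => rfl
  | succ k ih => change 1 :: onesR k = _; rw [ih]; rfl

noncomputable def nthR (l : List ℕ) : ℕ → ℕ :=
  List.rec (fun _ => 0) (fun x _ ih a => Nat.rec x (fun a' _ => ih a') a) l

theorem nthR_eq (l : List ℕ) (a : ℕ) : nthR l a = fn l a := by
  induction l generalizing a with
  | nil => simp [nthR, fn]
  | cons x l ih =>
    cases a with
    | zero => rfl
    | succ a => change nthR l a = _; rw [ih]; simp [fn]

noncomputable def minR (a b : ℕ) : ℕ := Bool.rec b a (Nat.ble a b)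

theorem minR_eq (a b : ℕ) : minR a b = min a b := by
  change cR (Nat.ble a b) a b = _
  simp [cR_eq, ble_eq, min_def]

noncomputable def maxR (a b : ℕ) : ℕ := Bool.rec a b (Nat.ble a b)

theorem maxR_eq (a b : ℕ) : maxR a b = max a b := by
  change cR (Nat.ble a b) b a = _
  simp [cR_eq, ble_eq, max_def]

noncomputable def allR (p : ℕ → Bool) (k : ℕ) : Bool :=
  Nat.rec true (fun m ih => Bool.rec false ih (p m)) k

theorem allR_eq (p : ℕ → Bool) (k : ℕ) : allR p k = (List.range k).all p := by
  induction k with
  | zero => rfl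
  | succ k ih =>
    change cR (p k) (allR p k) false = _
    rw [ih, List.range_succ, List.all_append]
    cases h : p k <;> simp [cR, h]

noncomputable def stripR (k : ℕ) (b1 b2 : List ℕ) : Bool :=
  fL (tabR (fun a => minR (nthR b1 a) (nthR b2 (Nat.sub (Nat.sub k 1) a))) k 0) fun D =>
    allR (fun s => Nat.ble (Nat.succ s) (cntLe s D)) k

theorem stripR_eq (k : ℕ) (b1 b2 : List ℕ) : stripR k b1 b2 = stripB k b1 b2 := by
  simp only [stripR, stripB, fL_eq, tabR_eq, minR_eq, nthR_eq, allR_eq, cntLe_eq, ble_eq,
    Nat.sub_eq, Nat.succ_le_iff]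

noncomputable def insR (x : ℕ) (l : List ℕ) : List ℕ :=
  List.rec [x] (fun y t ih => Bool.rec (y :: ih) (x :: y :: t) (Nat.ble y x)) l

theorem insR_eq (x : ℕ) (l : List ℕ) : insR x l = insD x l := by
  induction l with
  | nil => rfl
  | cons y l ih =>
    change cR (Nat.ble y x) (x :: y :: l) (y :: insR x l) = _
    simp [cR_eq, ble_eq, ih, insD]

noncomputable def sortR (l : List ℕ) : List ℕ := List.rec [] (fun x _ ih => insR x ih) l

theorem sortR_eq (l : List ℕ) : sortR l = sortD l := by
  induction l with
  | nil => rfl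
  | cons x l ih => change insR x (sortR l) = _; rw [ih, insR_eq]; rfl

noncomputable def splitR {α : Type} (j : ℕ) : List ℕ → (List ℕ → List ℕ → α) → α :=
  Nat.rec (fun tk k => k [] tk) (fun _ ih tk k =>
    List.rec (k [] []) (fun x t _ => ih t fun a r => k (x :: a) r) tk) j

theorem splitR_eq {α : Type} (j : ℕ) (tk : List ℕ) (k : List ℕ → List ℕ → α) :
    splitR j tk k = k (tk.take j) (tk.drop j) := by
  induction j generalizing tk k with
  | zero => rfl
  | succ j ih =>
    cases tk with
    | nil => rfl
    | cons x t => change splitR j t (fun a r => k (x :: a) r) = _; rw [ih]; rfl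

/-- Read a list. -/
noncomputable def rdR {α : Type} (tk : List ℕ) (k : List ℕ → List ℕ → α) : α :=
  List.rec (k [] []) (fun j t _ => splitR j t k) tk

theorem rdR_eq {α : Type} (tk : List ℕ) (k : List ℕ → List ℕ → α) :
    rdR tk k = k (rdL tk).1 (rdL tk).2 := by
  cases tk with
  | nil => rfl
  | cons j tk => change splitR j tk k = _; rw [splitR_eq]; rfl

noncomputable def andR (a b : Bool) : Bool := Bool.rec false b a

theorem andR_eq (a b : Bool) : andR a b = (a && b) := by cases a <;> rfl

noncomputable def bindR (o : Option (List ℕ)) (k : List ℕ → Option (List ℕ)) : Option (List ℕ) :=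
  Option.rec none k o

noncomputable def loopR (step : ℕ → List ℕ → Option (List ℕ)) (stop : ℕ → Bool) (hi f : ℕ) :
    ℕ → List ℕ → Option (List ℕ) :=
  Nat.rec (fun x tk => cR (Nat.ble x hi) none (some tk))
    (fun _ ih x tk => cR (Nat.ble x hi)
      (cR (stop x) (some tk) (bindR (step x tk) fun tk' => ih (Nat.succ x) tk')) (some tk)) f

theorem loopR_eq (step : ℕ → List ℕ → Option (List ℕ)) (stop : ℕ → Bool) (hi f x : ℕ)
    (tk : List ℕ) : loopR step stop hi f x tk = loop step stop hi f x tk := by
  induction f generalizing x tk with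
  | zero =>
    change cR (Nat.ble x hi) none (some tk) = _
    rw [cR_eq, ble_eq, loop]
    by_cases h : x ≤ hi
    · simp [h]
    · simp [h, not_le.1 h]
  | succ f ih =>
    change cR (Nat.ble x hi) (cR (stop x) (some tk)
      (bindR (step x tk) fun tk' => loopR step stop hi f (x + 1) tk')) (some tk) = _
    rw [cR_eq, cR_eq, ble_eq, loop]
    simp only [ih]
    by_cases h : x ≤ hi
    · simp only [h, decide_true, if_true, not_lt.2 h, if_false]
      cases step x tk <;> rfl
    · simp [h, not_le.1 h]

noncomputable def enR (Ms : List (List ℕ)) (leaf : List ℕ → List ℕ → Option (List ℕ))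
    (ones : List ℕ) (left : ℕ) : List ℕ → ℕ → ℕ → ℕ → (ℕ → ℕ) → List ℕ → Option (List ℕ) :=
  Nat.rec (fun pre rem _ _ _ tk => cR (Nat.beq rem 0)
      (fL (appR pre ones) fun L => fL (conjR L) fun C => cR (anyR Ms C) (some tk) (leaf L tk))
      (some tk))
    (fun left ih pre rem lo mx nx tk =>
      fN (minR mx (Nat.sub rem left)) fun hi =>
      fN (maxR lo (Nat.div (Nat.add rem left) (Nat.succ left))) fun x0 =>
      loopR (fun x tk => fL (appR pre [x]) fun pre' => fN (Nat.sub rem x) fun rem' =>
          fN (nx x) fun mx' => ih pre' rem' 1 mx' id tk)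
        (fun x => anyR Ms (appR pre (x :: balR ones left (Nat.sub rem x))))
        hi (Nat.succ mx) x0 tk) left

theorem enR_eq (Ms : List (List ℕ)) (leaf : List ℕ → List ℕ → Option (List ℕ)) (ones : List ℕ)
    (left : ℕ) (pre : List ℕ) (rem lo mx : ℕ) (nx : ℕ → ℕ) (tk : List ℕ) :
    enR Ms leaf ones left pre rem lo mx nx tk = en Ms leaf ones left pre rem lo mx nx tk := by
  induction left generalizing pre rem lo mx nx tk with
  | zero =>
    change cR (Nat.beq rem 0)
      (fL (appR pre ones) fun L => fL (conjR L) fun C => cR (anyR Ms C) (some tk) (leaf L tk))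
      (some tk) = _
    simp only [en, fL_eq, anyR_eq, cR_eq, beq_eq', appR_eq, conjR_eq, decide_eq_true_eq]
  | succ left ih =>
    change (fN (minR mx (rem - left)) fun hi =>
      fN (maxR lo ((rem + left) / (left + 1))) fun x0 =>
      loopR (fun x tk => fL (appR pre [x]) fun pre' => fN (rem - x) fun rem' =>
          fN (nx x) fun mx' => enR Ms leaf ones left pre' rem' 1 mx' id tk)
        (fun x => anyR Ms (appR pre (x :: balR ones left (rem - x))))
        hi (mx + 1) x0 tk) = _
    simp only [en, fN_eq, fL_eq, ih, anyR_eq, balR_eq, loopR_eq, appR_eq, minR_eq, maxR_eq]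

noncomputable def enRowR (Ms : List (List ℕ)) (leaf : List ℕ → List ℕ → Option (List ℕ))
    (n Bd l : ℕ) (tk : List ℕ) : Option (List ℕ) :=
  fN (max 1 (min l (Bd - l))) fun y => fL (onesR (l - y)) fun ones =>
    fN (n - (l - y)) fun rem => fN (min n Bd) fun mx =>
      enR Ms leaf ones y [] rem l mx (fun x => min x (Bd - x)) tk

theorem enRowR_eq (Ms : List (List ℕ)) (leaf : List ℕ → List ℕ → Option (List ℕ)) (n Bd l : ℕ)
    (tk : List ℕ) : enRowR Ms leaf n Bd l tk = enRow Ms leaf n Bd l tk := by
  simp only [enRowR, enRow, fN_eq, fL_eq, enR_eq, onesR_eq]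

/-- One step of the derivation checker. -/
noncomputable def derStep (cs : List (List ℕ)) (bs : List (List ℕ × List ℕ × List ℕ))
    (ih : List ℕ → List ℕ → List ℕ → List ℕ → Option (List ℕ)) (a b c : List ℕ) (op : ℕ)
    (tk : List ℕ) : Option (List ℕ) :=
  cR (Nat.beq op 3) (ih b a c tk) <| cR (Nat.beq op 4) (ih a c b tk) <|
  cR (Nat.beq op 5) (cR (andR (isPartR a) (isPartR b))
    (fL (conjR a) fun a' => fL (conjR b) fun b' => ih a' b' c tk) none) <|
  cR (Nat.beq op 1)
    (fN (hdR tk) fun k => rdR (tlR tk) fun x r => fL (onesR k) fun col =>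
      fL (dropR (subR a col)) fun a' => fL (dropR (subR b col)) fun b' =>
      cR (andR (andR (andR (andR (andR (andR (leR col a) (leR col b)) (stripR k a' b'))
          (andR (leR x c) (leR (tlR c) x))) (isPartR c)) (isPartR x))
          (Nat.beq (sumR c) (Nat.add (sumR x) k))) (ih a' b' x r) none) <|
  cR (Nat.beq op 0)
    (rdR tk fun x r => fL (muOf (toSp x)) fun μ => fL (sortR μ) fun M =>
      cR (andR (andR (andR (andR (andR (spOK (hdR a) (toSp x)) (eqR (rowsOf (toSp x)) a)) (eqR a b))
        (isPartR c)) (Nat.beq (sumR c) (sumR a))) (domR M c 0)) (some r) none) <|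
  cR (Nat.beq op 2)
    (rdR tk fun x r => rdR r fun y r' => rdR r' fun z r'' =>
      cR (andR (andR (leR x a) (leR y b)) (leR z c))
        (bindR (ih x y z r'') fun tk' => fL (dropR (subR a x)) fun a' =>
          fL (dropR (subR b y)) fun b' => fL (dropR (subR c z)) fun c' => ih a' b' c' tk') none) <|
  cR (Nat.beq op 6)
    (cR (andR (andR (andR (eqR a b) (cs.contains a)) (isPartR c)) (Nat.beq (sumR c) (sumR a)))
      (some tk) none) <|
  cR (bs.contains (a, b, c)) (some tk) none

noncomputable def derR (cs : List (List ℕ)) (bs : List (List ℕ × List ℕ × List ℕ)) (f : ℕ) :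
    List ℕ → List ℕ → List ℕ → List ℕ → Option (List ℕ) :=
  Nat.rec (fun _ _ _ _ => none)
    (fun _ ih a b c tk => List.rec none (fun op tk' _ => derStep cs bs ih a b c op tk') tk) f

theorem derR_eq (cs : List (List ℕ)) (bs : List (List ℕ × List ℕ × List ℕ)) (f : ℕ)
    (a b c tk : List ℕ) : derR cs bs f a b c tk = der cs bs f a b c tk := by
  induction f generalizing a b c tk with
  | zero => cases tk <;> rfl
  | succ f ih =>
    cases tk with
    | nil => rfl
    | cons op tk =>
      have hb : ∀ (o : Option (List ℕ)) (k : List ℕ → Option (List ℕ)),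
          bindR o k = match o with | none => none | some t => k t := fun o k => by cases o <;> rfl
      change derStep cs bs (derR cs bs f) a b c op tk = _
      simp only [derStep, der, fN_eq, fL_eq, rdR_eq, domR_eq, stripR_eq, ih, cR_eq, andR_eq, beq_eq',
        isPartR_eq, conjR_eq, hdR_eq, tlR_eq, onesR_eq, dropR_eq, subR_eq, leR_eq, sumR_eq, eqR_eq,
        sortR_eq, hb, decide_eq_true_eq, Nat.add_eq, interB]
      by_cases h0 : op = 0
      · subst h0; rfl
      by_cases h1 : op = 1
      · subst h1; rfl
      by_cases h2 : op = 2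
      · subst h2; rfl
      simp only [h0, h1, h2, if_false]

noncomputable def decodeR (tl : List ℕ) (f : ℕ) : ℕ → List ℕ :=
  Nat.rec (fun _ => tl) (fun _ ih x => cR (Nat.ble x 1) tl
    (fN (Nat.mod x 256) fun d => fN (Nat.div x 256) fun y => d :: ih y)) f

theorem decodeR_eq (tl : List ℕ) (f x : ℕ) : decodeR tl f x = decode f x ++ tl := by
  induction f generalizing x with
  | zero => rfl
  | succ f ih =>
    change cR (Nat.ble x 1) tl (fN (x % 256) fun d => fN (x / 256) fun y => d :: decodeR tl f y) = _
    simp only [decode, fN_eq, ih, cR_eq, ble_eq, decide_eq_true_eq]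
    split <;> simp

noncomputable def tokensR (xs : List ℕ) : List ℕ :=
  List.rec [] (fun x _ ih => decodeR ih 256 x) xs

theorem tokensR_eq (xs : List ℕ) : tokensR xs = tokens xs := by
  induction xs with
  | nil => rfl
  | cons x xs ih =>
    change decodeR (tokensR xs) 256 x = _
    simp [tokens, decodeR_eq, ih]

noncomputable def recF (r : Rec) : Bool :=
  fL r.1 fun α => fN (α.headD 0) fun H => fL (innerL α) fun α0 =>
  isPartR α && decide (1 ≤ H) && eqR (conjR α) α &&
    r.2.2.2.1.all (fun sp => spOK H sp && eqR (rowsOf sp) α) &&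
    (!r.2.2.1 || (r.2.1.contains α0 && isPartR α0 && eqR (conjR α0) α0 &&
      decide (α0.headD 0 + 1 ≤ H) && stripR (H - 1) α0 α0 && stripR H ((H - 1) :: α0) ((H - 1) :: α0))) &&
    fLL (r.2.2.2.1.map fun sp => fL (muOf sp) sortR) fun Ms => fN α.sum fun n =>
      fN (if r.2.2.1 then 2 * H - 2 else 2 * α.sum) fun Bd => fN (min n Bd) fun mx =>
      (loopR (enRowR Ms (derR r.2.1 bs0 24 α α) n Bd) (fun _ => false) mx mx 1
        (tokensR r.2.2.2.2)).isSome

theorem recF_eq (r : Rec) : recF r = rec1 r := by
  have h : ∀ Ms leaf n Bd, enRowR Ms leaf n Bd = enRow Ms leaf n Bd := fun Ms leaf n Bd =>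
    funext fun l => funext fun tk => enRowR_eq Ms leaf n Bd l tk
  have h' : ∀ a b, derR r.2.1 bs0 24 a b = fun L tk => der r.2.1 bs0 24 a b L tk := fun a b =>
    funext fun l => funext fun tk => derR_eq _ _ _ _ _ _ _
  simp only [recF, rec1, recOK, enAll, fLL_eq, fL_eq, fN_eq, loopR_eq, h, h', tokensR_eq,
    stripR_eq, isPartR_eq, eqR_eq, conjR_eq, sortR_eq]

end Crest.Agent.R195
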