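import Crest.Agent.R195.Tab2

/-!
# Row 195: Gale–Ryser and a Vandermonde non-vanishing
-/

set_option autoImplicit false

namespace Crest.Agent.R195

open Finset

variable {ι : Type} [Fintype ι] [DecidableEq ι]

omit [DecidableEq ι] in
/-- If colour `i` is more frequent than colour `j`, some column contains `i` but not `j`. -/
theorem gr_exists_col (c col : ι → ℕ) (hinj : ∀ x y, c x = c y → col x = col y → x = y) {i j : ℕ}
    (h : (univ.filter fun x => col x = j).card < (univ.filter fun x => col x = i).card) :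
    ∃ x, col x = i ∧ ∀ y, c y = c x → col y ≠ j := by
  by_contra hcon
  push Not at hcon
  have hd : ∀ x, ∃ y, col x = i → c y = c x ∧ col y = j := fun x => by
    by_cases hx : col x = i
    · obtain ⟨y, h1, h2⟩ := hcon x hx
      exact ⟨y, fun _ => ⟨h1, h2⟩⟩
    · exact ⟨x, fun h' => absurd h' hx⟩
  choose f hf using hd
  refine absurd h (not_lt.2 ?_)
  refine Finset.card_le_card_of_injOn f (fun x hx => ?_) (fun x hx y hy hxy => ?_)
  · have hx' : col x = i := by simpa using hx
    simpa using (hf x hx').2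
  · have hx' : col x = i := by simpa using hx
    have hy' : col y = i := by simpa using hy
    refine hinj x y ?_ (hx'.trans hy'.symm)
    rw [← (hf x hx').1, ← (hf y hy').1, hxy]

/-- One exchange step. -/
theorem gr_step (c col : ι → ℕ) (hinj : ∀ x y, c x = c y → col x = col y → x = y) (m : ℕ → ℕ)
    (hm : Antitone m) (B : ℕ) (hB : m B = 0) (hs : ∑ k ∈ range B, m k = Fintype.card ι)
    (hcB : ∀ x, col x < B)
    (hd : ∀ j, ∑ k ∈ range j, m k ≤ (univ.filter fun x => col x < j).card)
    (hne : ¬ ∀ k, (univ.filter fun x => col x = k).card = m k) :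
    ∃ col' : ι → ℕ, (∀ x y, c x = c y → col' x = col' y → x = y) ∧ (∀ x, col' x < B) ∧
      (∀ j, ∑ k ∈ range j, m k ≤ (univ.filter fun x => col' x < j).card) ∧
      ∑ x, (B - col' x) < ∑ x, (B - col x) := by
  classical
  obtain ⟨ν, hν⟩ : ∃ ν : ℕ → ℕ, ∀ k, (univ.filter fun x => col x = k).card = ν k := ⟨_, fun _ => rfl⟩
  have hP : ∀ j, (univ.filter fun x => col x < j).card = ∑ k ∈ range j, ν k :=
    tab2_card_lt col ν hν
  have hne' : ∃ k, ν k ≠ m k := by
    by_contra hcon
    push Not at hcon
    exact hne fun k => (hν k).trans (hcon k)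
  obtain ⟨i, hi, hmin⟩ : ∃ i, ν i ≠ m i ∧ ∀ k, k < i → ν k = m k :=
    ⟨Nat.find hne', Nat.find_spec hne', fun k hk => not_not.1 (Nat.find_min hne' hk)⟩
  have hPi : ∑ k ∈ range i, ν k = ∑ k ∈ range i, m k :=
    Finset.sum_congr rfl fun k hk => hmin k (mem_range.1 hk)
  have hi' : m i < ν i := by
    have h1 := hd (i + 1)
    rw [hP, Finset.sum_range_succ, Finset.sum_range_succ, hPi] at h1
    omega
  have hiB : i < B := by
    have h1 : 0 < (univ.filter fun x => col x = i).card := by rw [hν]; omega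
    obtain ⟨x, hx⟩ := Finset.card_pos.1 h1
    have hx' : col x = i := by simpa using hx
    rw [← hx']
    exact hcB x
  have htot : ∑ k ∈ range B, ν k = ∑ k ∈ range B, m k := by
    rw [← hP, hs, Finset.filter_true_of_mem fun x _ => hcB x, Finset.card_univ]
  have hex : ∃ j, i < j ∧ ν j < m j := by
    by_contra hcon
    push Not at hcon
    have h1 : ∑ k ∈ range B, m k < ∑ k ∈ range B, ν k := by
      refine Finset.sum_lt_sum (fun k _ => ?_) ⟨i, mem_range.2 hiB, hi'⟩
      rcases lt_trichotomy k i with h | h | h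
      · exact (hmin k h).ge
      · rw [h]; exact hi'.le
      · exact hcon k h
    omega
  obtain ⟨j, ⟨hij, hj⟩, hjmin⟩ : ∃ j, (i < j ∧ ν j < m j) ∧ ∀ k, k < j → ¬ (i < k ∧ ν k < m k) :=
    ⟨Nat.find hex, Nat.find_spec hex, fun k hk => Nat.find_min hex hk⟩
  have hjB : j < B := by
    by_contra hcon
    have := hm (not_lt.1 hcon)
    omega
  have hstrict : ∀ l, i < l → l ≤ j → ∑ k ∈ range l, m k < ∑ k ∈ range l, ν k := by
    intro l hl1 hl2
    refine Finset.sum_lt_sum (fun k hk => ?_) ⟨i, mem_range.2 hl1, hi'⟩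
    have hk' := mem_range.1 hk
    rcases lt_trichotomy k i with h | h | h
    · exact (hmin k h).ge
    · rw [h]; exact hi'.le
    · have := hjmin k (by omega)
      omega
  have hlt : (univ.filter fun x => col x = j).card < (univ.filter fun x => col x = i).card := by
    rw [hν, hν]
    have := hm hij.le
    omega
  obtain ⟨x0, hx0, hx0'⟩ := gr_exists_col c col hinj hlt
  refine ⟨Function.update col x0 j, ?_, ?_, ?_, ?_⟩
  · intro x y hc hxy
    by_cases hx : x = x0
    · by_cases hy : y = x0
      · rw [hx, hy]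
      · rw [hx, Function.update_self, Function.update_of_ne hy] at hxy
        exact absurd hxy.symm (hx0' y (by rw [← hc, hx]))
    · by_cases hy : y = x0
      · rw [hy, Function.update_self, Function.update_of_ne hx] at hxy
        exact absurd hxy (hx0' x (by rw [hc, hy]))
      · rw [Function.update_of_ne hx, Function.update_of_ne hy] at hxy
        exact hinj x y hc hxy
  · intro x
    by_cases hx : x = x0
    · rw [hx, Function.update_self]; exact hjB
    · rw [Function.update_of_ne hx]; exact hcB x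
  · intro l
    by_cases hl : i < l ∧ l ≤ j
    · have h1 := hstrict l hl.1 hl.2
      rw [← hP] at h1
      have h2 : (univ.filter fun x => col x < l).erase x0 ⊆
          univ.filter fun x => Function.update col x0 j x < l := by
        intro x hx
        rw [Finset.mem_erase, Finset.mem_filter] at hx
        rw [Finset.mem_filter, Function.update_of_ne hx.1]
        exact hx.2
      have h3 := Finset.card_le_card h2
      have h4 := Finset.pred_card_le_card_erase (s := univ.filter fun x => col x < l) (a := x0)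
      omega
    · refine (hd l).trans (Finset.card_le_card fun x hx => ?_)
      rw [Finset.mem_filter] at hx ⊢
      refine ⟨hx.1, ?_⟩
      by_cases hxx : x = x0
      · rw [hxx, Function.update_self]
        have h1 := hx.2
        rw [hxx, hx0] at h1
        omega
      · rw [Function.update_of_ne hxx]
        exact hx.2
  · refine Finset.sum_lt_sum (fun x _ => ?_) ⟨x0, mem_univ _, ?_⟩
    · by_cases hx : x = x0
      · rw [hx, Function.update_self, hx0]; omega
      · rw [Function.update_of_ne hx]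
    · rw [Function.update_self, hx0]; omega

theorem gr_ind (c : ι → ℕ) (m : ℕ → ℕ) (hm : Antitone m) (B : ℕ) (hB : m B = 0)
    (hs : ∑ k ∈ range B, m k = Fintype.card ι) (n : ℕ) :
    ∀ col : ι → ℕ, ∑ x, (B - col x) = n → (∀ x y, c x = c y → col x = col y → x = y) →
      (∀ x, col x < B) → (∀ j, ∑ k ∈ range j, m k ≤ (univ.filter fun x => col x < j).card) →
      ∃ col : ι → ℕ, (∀ k, (univ.filter fun i => col i = k).card = m k) ∧
        ∀ i j, c i = c j → col i = col j → i = j := by
  induction n using Nat.strong_induction_on with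
  | _ n ih =>
    intro col hn hinj hcB hd
    by_cases hne : ∀ k, (univ.filter fun x => col x = k).card = m k
    · exact ⟨col, hne, hinj⟩
    · obtain ⟨col', h1, h2, h3, h4⟩ := gr_step c col hinj m hm B hB hs hcB hd hne
      exact ih _ (hn ▸ h4) col' rfl h1 h2 h3

/-- Exchange proof for decreasing `μ` (`m` antitone).  Consider column-injective colourings `col` whose counts `ν k` satisfy
`∑_{k<j} m k ≤ ∑_{k<j} ν k` for all `j`; `col = t.r` is one.  If `ν ≠ m` let `i` be the first index with `ν i ≠ m i` (so `ν i > m i`) and `j > i` the first with `ν j < m j`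
(exists since the totals agree).  Then `ν i > m i ≥ m j > ν j`, so some column contains colour `i` but not colour `j`; recolour.
`∑_k (ν k - m k)` (truncated) drops by one. -/
theorem gale_ryser_sorted {lam : ℕ → ℕ} (t : Tab ι lam) (m : ℕ → ℕ) (hm : Antitone m) (N : ℕ)
    (hN : m N = 0) (hs : ∑ k ∈ range N, m k = Fintype.card ι)
    (hd : ∀ j, ∑ k ∈ range j, m k ≤ ∑ k ∈ range j, lam k) :
    ∃ col : ι → ℕ, (∀ k, (univ.filter fun i => col i = k).card = m k) ∧
      ∀ i j, t.c i = t.c j → col i = col j → i = j := by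
  have hle : N ≤ max N (univ.sup t.r + 1) := le_max_left _ _
  refine gr_ind t.c m hm (max N (univ.sup t.r + 1)) ?_ ?_ _ t.r rfl
    (fun x y h1 h2 => t.inj x y h2 h1) (fun x => ?_) (fun j => ?_)
  · have := hm hle
    omega
  · rw [tab1_sum hm hN hle, hs]
  · have h1 : t.r x ≤ univ.sup t.r := Finset.le_sup (mem_univ x)
    exact lt_of_lt_of_le (Nat.lt_succ_of_le h1) (le_max_right _ _)
  · rw [tab2_card_lt t.r lam t.cnt j]
    exact hd j

/-- Permuted lists have row length functions that differ by a permutation of the positions. -/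
theorem gr_perm {l l' : List ℕ} (h : l.Perm l') : ∃ e : ℕ ≃ ℕ, ∀ k, fn l k = fn l' (e k) := by
  induction h with
  | nil => exact ⟨Equiv.refl _, fun _ => rfl⟩
  | cons x _ ih =>
    obtain ⟨e, he⟩ := ih
    refine ⟨⟨fun k => Nat.casesOn k 0 fun k => e k + 1, fun k => Nat.casesOn k 0 fun k => e.symm k + 1,
      ?_, ?_⟩, ?_⟩
    · rintro (_ | k)
      · rfl
      · simp
    · rintro (_ | k)
      · rfl
      · simp
    · rintro (_ | k)
      · rfl
      · exact he k
  | swap x y l =>
    refine ⟨Equiv.swap 0 1, ?_⟩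
    rintro (_ | _ | k)
    · rfl
    · rfl
    · rw [Equiv.swap_apply_of_ne_of_ne (by omega) (by omega)]
      rfl
  | trans _ _ ih1 ih2 =>
    obtain ⟨e1, h1⟩ := ih1
    obtain ⟨e2, h2⟩ := ih2
    exact ⟨e1.trans e2, fun k => (h1 k).trans (h2 _)⟩

theorem gr_sum_take (l : List ℕ) (j : ℕ) : ∑ k ∈ range j, fn l k = (l.take j).sum := by
  induction l generalizing j with
  | nil => simp [fn]
  | cons x l ih =>
    cases j with
    | zero => simp
    | succ j =>
      rw [Finset.sum_range_succ', List.take_succ_cons, List.sum_cons, ← ih j, add_comm]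
      rfl

theorem gr_anti {l : List ℕ} (h : l.Pairwise (· ≥ ·)) : Antitone (fn l) := by
  intro a b hab
  unfold fn
  rcases lt_or_ge b l.length with hb | hb
  · have ha : a < l.length := lt_of_le_of_lt hab hb
    rw [List.getD_eq_getElem _ _ ha, List.getD_eq_getElem _ _ hb]
    rcases hab.lt_or_eq with h1 | h1
    · exact List.pairwise_iff_getElem.1 h a b ha hb h1
    · subst h1
      exact le_rfl
  · rw [List.getD_eq_default _ _ hb]
    exact Nat.zero_le _

/-- Sort `μ` by a permutation of its positions (`Tuple.sort`, or `List.Perm.exists_equiv`-style lemma, or induction on `List.Perm`) and rename the colours. -/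
theorem gale_ryser {lam : ℕ → ℕ} (t : Tab ι lam) (μ : List ℕ) (hs : μ.sum = Fintype.card ι)
    (hd : Dom lam μ) :
    ∃ col : ι → ℕ, (∀ k, (univ.filter fun i => col i = k).card = fn μ k) ∧
      ∀ i j, t.c i = t.c j → col i = col j → i = j := by
  obtain ⟨l, hp, hl⟩ : ∃ l : List ℕ, μ.Perm l ∧ l.Pairwise (· ≥ ·) :=
    ⟨μ.insertionSort (· ≥ ·), (List.perm_insertionSort _ μ).symm, List.pairwise_insertionSort _ μ⟩
  obtain ⟨e, he⟩ := gr_perm hp
  obtain ⟨col, h1, h2⟩ := gale_ryser_sorted t (fn l) (gr_anti hl) l.length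
    (List.getD_eq_default _ _ le_rfl) (by rw [gr_sum_take, List.take_length, ← hp.sum_eq, hs])
    (fun j => by
      have hS : ((l.take j : List ℕ) : Multiset ℕ) ≤ (μ : Multiset ℕ) := by
        rw [Multiset.coe_eq_coe.2 hp]
        exact Multiset.coe_le.2 (List.take_sublist j l).subperm
      have h3 := hd _ hS
      rw [Multiset.sum_coe, Multiset.coe_card, List.length_take] at h3
      rw [gr_sum_take]
      exact h3.trans (Finset.sum_le_sum_of_subset (range_subset_range.2 (min_le_left _ _))))
  refine ⟨fun i => e.symm (col i), fun k => ?_, fun i j hc hij => h2 i j hc (e.symm.injective hij)⟩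
  rw [he, ← h1]
  congr 1
  exact Finset.filter_congr fun i _ => Equiv.symm_apply_eq e

/-- A maximiser of the energy is monotone inside the columns. -/
theorem gr_mono {lam : ℕ → ℕ} (t : Tab ι lam) (col : ι → ℕ) {σ : Equiv.Perm ι}
    (hσ : σ ∈ colGrp t.c)
    (hmax : ∀ τ ∈ colGrp t.c, ∑ i, col i * t.r (τ i) ≤ ∑ i, col i * t.r (σ i)) {i j : ι}
    (hc : t.c i = t.c j) (hij : col i < col j) : t.r (σ i) < t.r (σ j) := by
  have hne : i ≠ j := fun h => by rw [h] at hij; exact lt_irrefl _ hij
  have hσ' := mem_colGrp.1 hσ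
  by_contra hcon
  have hr : t.r (σ j) < t.r (σ i) := by
    refine lt_of_le_of_ne (not_lt.1 hcon) fun h => hne ?_
    exact (σ.injective (t.inj _ _ h (by rw [hσ', hσ', hc]))).symm
  have h1 := hmax _ (mul_mem_colGrp hσ (swap_mem_colGrp hc))
  have hj : j ∈ univ.erase i := Finset.mem_erase.2 ⟨hne.symm, mem_univ _⟩
  rw [← Finset.add_sum_erase _ _ (mem_univ i), ← Finset.add_sum_erase _ _ hj,
    ← Finset.add_sum_erase _ (fun k => col k * t.r (σ k)) (mem_univ i),
    ← Finset.add_sum_erase _ (fun k => col k * t.r (σ k)) hj] at h1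
  have h2 : ∑ k ∈ (univ.erase i).erase j, col k * t.r ((σ * Equiv.swap i j) k) =
      ∑ k ∈ (univ.erase i).erase j, col k * t.r (σ k) := by
    refine Finset.sum_congr rfl fun k hk => ?_
    rw [Finset.mem_erase, Finset.mem_erase] at hk
    rw [Equiv.Perm.mul_apply, Equiv.swap_apply_of_ne_of_ne hk.2.1 hk.1]
  rw [h2, Equiv.Perm.mul_apply, Equiv.Perm.mul_apply, Equiv.swap_apply_left,
    Equiv.swap_apply_right] at h1
  nlinarith

/-- A maximiser of the energy is determined by the colouring. -/
theorem gr_rank {lam : ℕ → ℕ} (t : Tab ι lam) (col : ι → ℕ)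
    (h : ∀ i j, t.c i = t.c j → col i = col j → i = j) {σ : Equiv.Perm ι}
    (hσ : σ ∈ colGrp t.c)
    (hmax : ∀ τ ∈ colGrp t.c, ∑ i, col i * t.r (τ i) ≤ ∑ i, col i * t.r (σ i)) (i : ι) :
    t.r (σ i) = (univ.filter fun j => t.c j = t.c i ∧ col j < col i).card := by
  have hσ' := mem_colGrp.1 hσ
  rw [← Finset.card_range (t.r (σ i))]
  symm
  refine Finset.card_bij (fun j _ => t.r (σ j)) ?_ ?_ ?_
  · intro j hj
    rw [Finset.mem_filter] at hj
    exact mem_range.2 (gr_mono t col hσ hmax hj.2.1 hj.2.2)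
  · intro j hj k hk hjk
    rw [Finset.mem_filter] at hj hk
    exact σ.injective (t.inj _ _ hjk (by rw [hσ', hσ', hj.2.1, hk.2.1]))
  · intro a ha
    have ha' := mem_range.1 ha
    obtain ⟨j', h1, h2⟩ := t.down (σ i) a ha'
    obtain ⟨j, rfl⟩ := σ.surjective j'
    have hc : t.c j = t.c i := by rw [← hσ' j, h2, hσ']
    refine ⟨j, Finset.mem_filter.2 ⟨mem_univ _, hc, ?_⟩, h1⟩
    rcases lt_trichotomy (col j) (col i) with h3 | h3 | h3
    · exact h3
    · have h4 := h j i hc h3
      rw [h4] at h1
      omega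
    · have := gr_mono t col hσ hmax hc.symm h3
      omega

/-- `x k a = T^(k a)`: the polynomial `∑_σ sg σ T^{E σ}`, `E σ = ∑_i col i * t.r (σ i)`, is nonzero because `E` has a unique maximiser on `colGrp t.c`:
if `σ` is a maximiser then inside each column `col i < col j ↔ t.r (σ i) < t.r (σ j)` (otherwise `σ * swap i j` is better), hence
`t.r (σ i) = #{j in the column of i | col j < col i}` (`Tab.r_lt_ht`), which determines `σ` (`Tab.eq_of_comp_eq`). -/
theorem mono_ne {lam : ℕ → ℕ} (t : Tab ι lam) (col : ι → ℕ)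
    (h : ∀ i j, t.c i = t.c j → col i = col j → i = j) :
    ∃ x : ℕ → ℕ → ℂ, alt t (fun c => ∏ i, x (col i) (c i)) ≠ 0 := by
  obtain ⟨σ, hσ, hmax⟩ := Finset.exists_max_image (colGrp t.c)
    (fun τ : Equiv.Perm ι => ∑ i, col i * t.r (τ i)) ⟨1, one_mem_colGrp _⟩
  have huniq : ∀ τ ∈ colGrp t.c, ∑ i, col i * t.r (τ i) = ∑ i, col i * t.r (σ i) → τ = σ := by
    intro τ hτ he
    refine t.eq_of_comp_eq hτ hσ (funext fun i => ?_)
    have h1 := gr_rank t col h hσ hmax i
    have h2 := gr_rank t col h hτ (fun ρ hρ => he ▸ hmax ρ hρ) i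
    exact h2.trans h1.symm
  obtain ⟨p, hp⟩ : ∃ p : Polynomial ℂ,
      p = ∑ τ ∈ colGrp t.c, Polynomial.monomial (∑ i, col i * t.r (τ i)) ((sg τ : ℤ) : ℂ) := ⟨_, rfl⟩
  have hp0 : p ≠ 0 := by
    intro h0
    have h1 : p.coeff (∑ i, col i * t.r (σ i)) = ((sg σ : ℤ) : ℂ) := by
      rw [hp, Polynomial.finsetSum_coeff, Finset.sum_eq_single σ]
      · rw [Polynomial.coeff_monomial, if_pos rfl]
      · intro τ hτ hne
        rw [Polynomial.coeff_monomial, if_neg fun he => hne (huniq τ hτ he)]
      · intro hn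
        exact absurd hσ hn
    rw [h0, Polynomial.coeff_zero] at h1
    have h2 : sg σ = 0 := by exact_mod_cast h1.symm
    have h3 := sg_mul_self σ
    rw [h2] at h3
    exact absurd h3 (by norm_num)
  obtain ⟨T, hT⟩ : ∃ T : ℂ, p.eval T ≠ 0 := by
    by_contra hcon
    push Not at hcon
    exact hp0 (Polynomial.zero_of_eval_zero p hcon)
  refine ⟨fun k a => T ^ (k * a), ?_⟩
  have h4 : alt t (fun c => ∏ i, T ^ (col i * c i)) = p.eval T := by
    unfold alt altw
    rw [hp, Polynomial.eval_finsetSum]
    refine Finset.sum_congr rfl fun τ _ => ?_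
    rw [Polynomial.eval_monomial, ← Finset.prod_pow_eq_pow_sum, zsmul_eq_mul]
    rfl
  rw [h4]
  exact hT

end Crest.Agent.R195
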