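import Crest.Agent.R195.Path
import Crest.Agent.R195.Fam1

/-!
# Row 195: path functions of bands and gaps, I
-/

set_option autoImplicit false

namespace Crest.Agent.R195

open Finset

variable {ι : Type} [Fintype ι] [DecidableEq ι]

theorem g1_part {n x y : ℕ} (hxy : y ≤ x) (hn : n = x + y) : IsPart n (fn [x, y]) := by
  refine isPart_of (N := 2) ?_ rfl ?_
  · refine antitone_nat_of_succ_le fun a => ?_
    rcases a with _ | _ | a <;> simp [fn, hxy]
  · simp [Finset.sum_range_succ, fn, hn]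

theorem g1_two {κ : Type} [Fintype κ] [DecidableEq κ] {x y lo U : ℕ} (hxy : y ≤ x)
    (hn : Fintype.card κ = x + y) (r1 c1 r2 c2 : κ → ℕ)
    (i1 : ∀ i j, r1 i = r1 j → c1 i = c1 j → i = j)
    (b1 : ∀ i, (r1 i = 0 ∧ c1 i < x) ∨ (r1 i = 1 ∧ c1 i < y))
    (i2 : ∀ i j, r2 i = r2 j → c2 i = c2 j → i = j)
    (b2 : ∀ i, (r2 i = 0 ∧ c2 i < x) ∨ (r2 i = 1 ∧ c2 i < y))
    (hs : ∀ i, lo ≤ c1 i + c2 i ∧ c1 i + c2 i < U) (z : ℕ → ℕ → ℕ → ℂ) :
    evw c1 r1 c2 r2 z ∈ G (fn [x, y]) lo U κ := by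
  obtain ⟨t1, rfl, rfl, s1⟩ := exists_tab_of (g1_part hxy hn) r1 c1 i1 fun i => by
    rcases b1 i with ⟨h, h'⟩ | ⟨h, h'⟩ <;> simpa [h, fn] using h'
  obtain ⟨t2, rfl, rfl, s2⟩ := exists_tab_of (g1_part hxy hn) r2 c2 i2 fun i => by
    rcases b2 i with ⟨h, h'⟩ | ⟨h, h'⟩ <;> simpa [h, fn] using h'
  exact ev2_mem t1 t2 s1 s2 hs z

/-- two paths, everything given by functions on `ℕ` -/
theorem g1_sum {x y lo U : ℕ} (hxy : y ≤ x) (A B : List ι) (hl : Enum (A ++ B)) {p q : ℕ}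
    (hA : A.length = p) (hB : B.length = q) (hn : p + q = x + y)
    (r1 c1 r2 c2 r1' c1' r2' c2' : ℕ → ℕ)
    (i1 : ∀ i < p, ∀ j < p, r1 i = r1 j → c1 i = c1 j → i = j)
    (i1' : ∀ i < q, ∀ j < q, r1' i = r1' j → c1' i = c1' j → i = j)
    (d1 : ∀ i < p, ∀ j < q, c1 i ≠ c1' j)
    (b1 : ∀ i < p, (r1 i = 0 ∧ c1 i < x) ∨ (r1 i = 1 ∧ c1 i < y))
    (b1' : ∀ i < q, (r1' i = 0 ∧ c1' i < x) ∨ (r1' i = 1 ∧ c1' i < y))
    (i2 : ∀ i < p, ∀ j < p, r2 i = r2 j → c2 i = c2 j → i = j)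
    (i2' : ∀ i < q, ∀ j < q, r2' i = r2' j → c2' i = c2' j → i = j)
    (d2 : ∀ i < p, ∀ j < q, c2 i ≠ c2' j)
    (b2 : ∀ i < p, (r2 i = 0 ∧ c2 i < x) ∨ (r2 i = 1 ∧ c2 i < y))
    (b2' : ∀ i < q, (r2' i = 0 ∧ c2' i < x) ∨ (r2' i = 1 ∧ c2' i < y))
    (hs : ∀ i < p, lo ≤ c1 i + c2 i ∧ c1 i + c2 i < U)
    (hs' : ∀ i < q, lo ≤ c1' i + c2' i ∧ c1' i + c2' i < U) (z : ℕ → ℕ → ℕ → ℂ)
    (F1 F2 : List ℕ → ℂ)
    (e1 : ∀ c : Fin p → ℕ, evw (fun i : Fin p => c1 i) (fun i => r1 i) (fun i => c2 i)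
      (fun i => r2 i) z c = -F1 (List.ofFn c))
    (e2 : ∀ c : Fin q → ℕ, evw (fun i : Fin q => c1' i) (fun i => r1' i) (fun i => c2' i)
      (fun i => r2' i) z c = -F2 (List.ofFn c)) :
    (fun c : ι → ℕ => F1 (A.map c) * F2 (B.map c)) ∈ G (fn [x, y]) lo U ι := by
  subst hA hB
  obtain ⟨e, he⟩ := hl.exists_equiv2
  have hm := g1_two (κ := Fin A.length ⊕ Fin B.length) (lo := lo) (U := U) hxy (by simpa using hn)
    (Sum.elim (fun i => r1 i) (fun j => r1' j)) (Sum.elim (fun i => c1 i) (fun j => c1' j))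
    (Sum.elim (fun i => r2 i) (fun j => r2' j)) (Sum.elim (fun i => c2 i) (fun j => c2' j))
    ?_ ?_ ?_ ?_ ?_ z
  · have hr := G_relab _ _ _ _ _ e _ hm
    convert hr using 2 with c
    rw [evw_sumType (ι := Fin A.length) (ι' := Fin B.length) _ _ _ _ (fun i j => d1 i i.2 j j.2)
      (fun i j => d2 i i.2 j j.2)]
    have f1 := e1 fun i => c (e (Sum.inl i))
    have f2 := e2 fun i => c (e (Sum.inr i))
    rw [(he c).1] at f1
    rw [(he c).2] at f2
    rw [← neg_mul_neg, ← f1, ← f2]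
    rfl
  · rintro (i | i) (j | j) h h'
    · exact congrArg _ (Fin.ext (i1 i i.2 j j.2 h h'))
    · exact absurd h' (d1 i i.2 j j.2)
    · exact absurd h'.symm (d1 j j.2 i i.2)
    · exact congrArg _ (Fin.ext (i1' i i.2 j j.2 h h'))
  · rintro (i | i)
    · exact b1 i i.2
    · exact b1' i i.2
  · rintro (i | i) (j | j) h h'
    · exact congrArg _ (Fin.ext (i2 i i.2 j j.2 h h'))
    · exact absurd h' (d2 i i.2 j j.2)
    · exact absurd h'.symm (d2 j j.2 i i.2)
    · exact congrArg _ (Fin.ext (i2' i i.2 j j.2 h h'))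
  · rintro (i | i)
    · exact b2 i i.2
    · exact b2' i i.2
  · rintro (i | i)
    · exact hs i i.2
    · exact hs' i i.2

/-- On `Fin (2h+1)`: `t1 = (rA k, h - (k+1)/2)`, `t2 = (rB k, k/2)` (`exists_tab_of`, all checks by `omega`), `ev2_mem`, `path_eval`,
then `G_relab` along `Enum.exists_equiv`. -/
theorem band_mem (h : ℕ) (l : List ι) (hl : Enum l) (hlen : l.length = 2 * h + 1)
    (Z : ℕ → Matrix (Fin 2) (Fin 2) ℂ) :
    (fun c : ι → ℕ => O Z false e0 e0 (l.map c)) ∈ (Piece.band h).A ι := by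
  obtain ⟨e, he⟩ := hl.exists_equiv
  have hm := g1_two (κ := Fin l.length) (x := h + 1) (y := h) (lo := h - 1) (U := h + 1)
    (Nat.le_succ h) (by simp [hlen]; omega)
    (fun i => rA i) (fun i => h - (i.val + 1) / 2) (fun i => rB i) (fun i => i.val / 2)
    ?_ ?_ ?_ ?_ ?_ (zM Z)
  · have hr := Submodule.neg_mem _ (G_relab _ _ _ _ _ e _ hm)
    convert hr using 1
    · rfl
    funext c
    have hp := path_eval l.length (by omega) (fun i => h - (i.val + 1) / 2) (fun i => i.val / 2)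
      (fun i j => by have := i.2; have := j.2; omega) (fun i j => Iff.rfl) Z (fun i => c (e i))
    rw [he c] at hp
    simp only [Pi.neg_apply, hp, neg_neg]
  · intro i j
    have := i.2; have := j.2
    simp only [rA, Fin.ext_iff]
    split_ifs <;> omega
  · intro i
    have := i.2
    simp only [rA]
    split_ifs <;> omega
  · intro i j
    simp only [rB, Fin.ext_iff]
    omega
  · intro i
    have := i.2
    simp only [rB]
    omega
  · intro i
    have := i.2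
    omega

/-- On `Fin p₁ ⊕ Fin p₂`, rows `rA k` for `t1`, `rB k` for `t2` on both paths; columns on the first path `h + 1 - 2((k+1)/2)` and `2(k/2)`,
on the second path `h - 2((k+1)/2)` and `1 + 2(k/2)` (disjoint by parity).  `evw_sumType`, `path_eval` twice, `Enum.exists_equiv2`. -/
theorem gap1_mem (h : ℕ) (A B : List ι) (hl : Enum (A ++ B))
    (hA : A.length = 2 * ((h + 1) / 2) + 1) (hB : B.length = 2 * (h / 2) + 1)
    (Z : ℕ → Matrix (Fin 2) (Fin 2) ℂ) :
    (fun c : ι → ℕ => O Z false e0 e0 (A.map c) * O Z false e0 e0 (B.map c)) ∈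
      (Piece.gap h).A ι := by
  refine g1_sum (x := h + 2) (y := h) (lo := h - 1) (U := h + 2) (by omega) A B hl hA hB (by omega)
    rA (fun k => h + 1 - 2 * ((k + 1) / 2)) rB (fun k => 2 * (k / 2))
    rA (fun k => h - 2 * ((k + 1) / 2)) rB (fun k => 1 + 2 * (k / 2))
    ?_ ?_ ?_ ?_ ?_ ?_ ?_ ?_ ?_ ?_ ?_ ?_ (zM Z) (O Z false e0 e0) (O Z false e0 e0)
    (fun c => path_eval _ (by omega) _ _ (fun i j => by have := i.2; have := j.2; omega)
      (fun i j => by omega) Z c)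
    (fun c => path_eval _ (by omega) _ _ (fun i j => by have := i.2; have := j.2; omega)
      (fun i j => by omega) Z c)
  all_goals
    try simp only [rA, rB]
    intros
    first | omega | (split_ifs at * <;> omega)

/-- Short path (two letters): rows `rA k`, columns `h + 1 - k` for `t1`; rows `rB k`, column `0` for `t2`.
Long path (`2h` letters): for `t1` rows `rB k`, columns `f (k/2)` with `f p = if 2p < h then 2p else 2(h-1-p)+1`;
for `t2` rows `rA k`, columns `g ((k+1)/2)` with `g p = if 2p ≤ h then h+1-2p else 2p-h`.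
`evw_sumType`, `path_eval`, `path_eval'`. -/
theorem gap2_mem (h : ℕ) (hh : 1 ≤ h) (A D : List ι) (hl : Enum (A ++ D))
    (hA : A.length = 2) (hD : D.length = 2 * h) (Z : ℕ → Matrix (Fin 2) (Fin 2) ℂ) :
    (fun c : ι → ℕ => O Z false e0 e0 (A.map c) * O Z true e0 e0 (D.map c)) ∈
      (Piece.gap h).A ι := by
  refine g1_sum (x := h + 2) (y := h) (lo := h - 1) (U := h + 2) (by omega) A D hl hA hD (by omega)
    rA (fun k => h + 1 - k) rB (fun _ => 0)
    rB (fun k => if 2 * (k / 2) < h then 2 * (k / 2) else 2 * (h - 1 - k / 2) + 1)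
    rA (fun k => if 2 * ((k + 1) / 2) ≤ h then h + 1 - 2 * ((k + 1) / 2) else 2 * ((k + 1) / 2) - h)
    ?_ ?_ ?_ ?_ ?_ ?_ ?_ ?_ ?_ ?_ ?_ ?_ (zM Z) (O Z false e0 e0) (O Z true e0 e0)
    (fun c => path_eval _ (by omega) _ _ (fun i j => by have := i.2; have := j.2; omega)
      (fun i j => by have := i.2; have := j.2; omega) Z c)
    (fun c => path_eval' _ (by omega) _ _
      (fun i j => by have := i.2; have := j.2; split_ifs <;> omega)
      (fun i j => by have := i.2; have := j.2; split_ifs <;> omega) Z c)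
  all_goals
    try simp only [rA, rB]
    intros
    first | omega | (split_ifs at * <;> omega)

end Crest.Agent.R195
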