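import Crest.Agent.R195.Gap1

/-!
# Row 195: path functions of gaps, II (Plücker relation)
-/

set_option autoImplicit false

namespace Crest.Agent.R195

open Finset

/-- The matrix attached to a letter (transposed if `s`). -/
noncomputable def gap2_Zs (Z : ℕ → Matrix (Fin 2) (Fin 2) ℂ) (s : Bool) (c : ℕ) :
    Matrix (Fin 2) (Fin 2) ℂ := if s then (Z c).transpose else Z c

theorem gap2_V_nil (Z : ℕ → Matrix (Fin 2) (Fin 2) ℂ) (s : Bool) : V Z s [] = 1 := by
  cases s <;> rfl

theorem gap2_V_cons (Z : ℕ → Matrix (Fin 2) (Fin 2) ℂ) (s : Bool) (c : ℕ) (l : List ℕ) :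
    V Z s (c :: l) = gap2_Zs Z s c * eps * V Z (!s) l := by
  cases s <;> rfl

theorem gap2_Zs_transpose (Z : ℕ → Matrix (Fin 2) (Fin 2) ℂ) (s : Bool) (c : ℕ) :
    (gap2_Zs Z s c).transpose = gap2_Zs Z (!s) c := by
  cases s <;> simp [gap2_Zs]

theorem gap2_eps_mul : eps * eps = -1 := by
  ext i j
  fin_cases i <;> fin_cases j <;> simp [eps, Matrix.mul_apply, Fin.sum_univ_two]

theorem gap2_eps_transpose : eps.transpose = -eps := by
  ext i j
  fin_cases i <;> fin_cases j <;> simp [eps]

theorem gap2_xor_succ (s : Bool) (n : ℕ) :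
    xor s (decide ((n + 1) % 2 = 1)) = xor (!s) (decide (n % 2 = 1)) := by
  rcases Nat.mod_two_eq_zero_or_one n with h | h
  · have h' : (n + 1) % 2 = 1 := by omega
    cases s <;> simp [h, h']
  · have h' : (n + 1) % 2 = 0 := by omega
    cases s <;> simp [h, h']

theorem V_append (Z : ℕ → Matrix (Fin 2) (Fin 2) ℂ) (s : Bool) (l l' : List ℕ) :
    V Z s (l ++ l') = V Z s l * V Z (xor s (decide (l.length % 2 = 1))) l' := by
  induction l generalizing s with
  | nil => simp [gap2_V_nil]
  | cons c l ih =>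
    rw [List.cons_append, gap2_V_cons, gap2_V_cons, ih, List.length_cons, gap2_xor_succ]
    simp only [Matrix.mul_assoc]

theorem gap2_V_reverse (Z : ℕ → Matrix (Fin 2) (Fin 2) ℂ) (s : Bool) (l : List ℕ) :
    (V Z s l * eps).transpose =
      ((-1 : ℂ) ^ (l.length + 1)) • (V Z (xor s (decide (l.length % 2 = 1))) l.reverse * eps) := by
  induction l generalizing s with
  | nil => simp [gap2_V_nil, gap2_eps_transpose]
  | cons c l ih =>
    have hx : xor (xor (!s) (decide (l.length % 2 = 1))) (decide (l.length % 2 = 1)) = !s := by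
      cases s <;> cases decide (l.length % 2 = 1) <;> rfl
    rw [gap2_V_cons, Matrix.mul_assoc, Matrix.transpose_mul, ih, Matrix.transpose_mul,
      gap2_eps_transpose, gap2_Zs_transpose, List.reverse_cons, V_append, List.length_cons,
      gap2_xor_succ, List.length_reverse, hx, gap2_V_cons, gap2_V_nil]
    have e1 : ∀ P Q : Matrix (Fin 2) (Fin 2) ℂ, P * eps * (-eps * Q) = P * Q := by
      intro P Q
      rw [Matrix.mul_assoc, ← Matrix.mul_assoc eps, Matrix.mul_neg, gap2_eps_mul]
      simp
    have e2 : ∀ P Q : Matrix (Fin 2) (Fin 2) ℂ, P * (Q * eps * 1) * eps = -(P * Q) := by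
      intro P Q
      rw [Matrix.mul_one, Matrix.mul_assoc, Matrix.mul_assoc, gap2_eps_mul]
      simp
    rw [Matrix.smul_mul, e1, e2, pow_succ _ (l.length + 1)]
    simp

/-- For odd lists `V Z true l.reverse * eps = (V Z false l * eps)ᵀ` (`epsᵀ = -eps`, `eps * eps = -1`; induction two letters at a time). -/
theorem V_reverse (Z : ℕ → Matrix (Fin 2) (Fin 2) ℂ) (l : List ℕ) (hl : l.length % 2 = 1) :
    V Z true l.reverse * eps = (V Z false l * eps).transpose := by
  rw [gap2_V_reverse]
  have h1 : ((-1 : ℂ) ^ (l.length + 1)) = 1 := Even.neg_one_pow (Nat.even_iff.2 (by omega))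
  rw [h1, one_smul]
  simp [hl]

theorem gap2_O_e0 (Z : ℕ → Matrix (Fin 2) (Fin 2) ℂ) (s : Bool) (l : List ℕ) :
    O Z s e0 e0 l = (V Z s l * eps) 0 0 := by
  simp [O, e0, dotProduct, Matrix.mulVec, Fin.sum_univ_two]

/-- With `W l = -(V l * eps)`, `α = e0ᵀ W A`, `β = W B e0`, `δ = W D e0` this is
`(α ε β) δ₀ - (α ε δ) β₀ = -α₀ (β ε δ)`. -/
theorem plucker (Z : ℕ → Matrix (Fin 2) (Fin 2) ℂ) (A B D : List ℕ) (hA : A.length = 2)
    (hB : B.length % 2 = 1) (hD : D.length % 2 = 1) :
    O Z false e0 e0 (A ++ B) * O Z false e0 e0 D =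
      O Z false e0 e0 (A ++ D) * O Z false e0 e0 B -
        O Z false e0 e0 A * O Z true e0 e0 (B.reverse ++ D) := by
  have hr := V_reverse Z B hB
  have hr' : V Z true B.reverse = (V Z false B * eps).transpose * (-eps) := by
    rw [← hr, Matrix.mul_assoc, Matrix.mul_neg, gap2_eps_mul]
    simp
  have hxA : xor false (decide (A.length % 2 = 1)) = false := by simp [hA]
  have hxB : xor true (decide (B.reverse.length % 2 = 1)) = false := by simp [hB]
  simp only [gap2_O_e0]
  rw [V_append, V_append, V_append, hxA, hxB, hr', Matrix.mul_assoc, Matrix.mul_assoc,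
    Matrix.mul_assoc _ (V Z false D)]
  generalize V Z false B * eps = X
  generalize V Z false D * eps = Y
  generalize V Z false A = P
  simp [Matrix.mul_apply, Fin.sum_univ_two, eps]
  ring

theorem gap2_enum_perm {ι : Type} {l l' : List ι} (h : l.Perm l') (hl : Enum l) : Enum l' :=
  ⟨h.nodup_iff.1 hl.1, fun i => h.mem_iff.1 (hl.2 i)⟩

/-- The statement for all lists with first length `p`. -/
def gap2_M (ι : Type) [Fintype ι] [DecidableEq ι] (h : ℕ) (Z : ℕ → Matrix (Fin 2) (Fin 2) ℂ)
    (p : ℕ) : Prop :=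
  ∀ A B : List ι, Enum (A ++ B) → A.length = p → A.length + B.length = 2 * h + 2 →
    (fun c : ι → ℕ => O Z false e0 e0 (A.map c) * O Z false e0 e0 (B.map c)) ∈ (Piece.gap h).A ι

theorem gap2_plucker_fun {ι : Type} (Z : ℕ → Matrix (Fin 2) (Fin 2) ℂ) (A B D : List ι)
    (hA : A.length = 2) (hB : B.length % 2 = 1) (hD : D.length % 2 = 1) :
    (fun c : ι → ℕ => O Z false e0 e0 ((A ++ B).map c) * O Z false e0 e0 (D.map c)) =
      (fun c : ι → ℕ => O Z false e0 e0 (B.map c) * O Z false e0 e0 ((A ++ D).map c)) -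
        (fun c : ι → ℕ => O Z false e0 e0 (A.map c) * O Z true e0 e0 ((B.reverse ++ D).map c)) := by
  funext c
  simp only [Pi.sub_apply, List.map_append, List.map_reverse]
  rw [plucker Z (A.map c) (B.map c) (D.map c) (by simpa using hA) (by simpa using hB)
    (by simpa using hD)]
  ring

theorem gap2_step {ι : Type} [Fintype ι] [DecidableEq ι] (h : ℕ) (hh : 1 ≤ h)
    (Z : ℕ → Matrix (Fin 2) (Fin 2) ℂ) (p : ℕ) (hp : p % 2 = 1) (hp' : p + 1 ≤ 2 * h) :
    gap2_M ι h Z p ↔ gap2_M ι h Z (p + 2) := by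
  constructor
  · intro hM A' D hE hA' hlen
    obtain ⟨A, B, rfl, hA⟩ : ∃ A B : List ι, A' = A ++ B ∧ A.length = 2 :=
      ⟨A'.take 2, A'.drop 2, (List.take_append_drop 2 A').symm, by
        rw [List.length_take]; omega⟩
    rw [List.length_append] at hA' hlen
    rw [gap2_plucker_fun Z A B D hA (by omega) (by omega)]
    refine Submodule.sub_mem _ (hM B (A ++ D) (gap2_enum_perm ?_ hE) (by omega)
      (by rw [List.length_append]; omega))
      (gap2_mem h hh A (B.reverse ++ D) (gap2_enum_perm ?_ hE) hA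
        (by rw [List.length_append, List.length_reverse]; omega) Z)
    · rw [← List.append_assoc]
      exact List.Perm.append_right D List.perm_append_comm
    · rw [List.append_assoc]
      exact List.Perm.append_left A (List.Perm.append_right D (List.reverse_perm B).symm)
  · intro hM B D' hE hB hlen
    obtain ⟨A, D, rfl, hA⟩ : ∃ A D : List ι, D' = A ++ D ∧ A.length = 2 :=
      ⟨D'.take 2, D'.drop 2, (List.take_append_drop 2 D').symm, by
        rw [List.length_take]; omega⟩
    rw [List.length_append] at hlen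
    have key := gap2_plucker_fun Z A B D hA (by omega) (by omega)
    rw [eq_sub_iff_add_eq] at key
    rw [← key]
    have hE' : Enum (A ++ B ++ D) := by
      refine gap2_enum_perm ?_ hE
      rw [← List.append_assoc]
      exact List.Perm.append_right D List.perm_append_comm
    refine Submodule.add_mem _ (hM (A ++ B) D hE' (by rw [List.length_append]; omega)
      (by rw [List.length_append]; omega))
      (gap2_mem h hh A (B.reverse ++ D) (gap2_enum_perm ?_ hE') hA
        (by rw [List.length_append, List.length_reverse]; omega) Z)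
    rw [List.append_assoc]
    exact List.Perm.append_left A (List.Perm.append_right D (List.reverse_perm B).symm)

theorem gap2_M_iff {ι : Type} [Fintype ι] [DecidableEq ι] (h : ℕ) (hh : 1 ≤ h)
    (Z : ℕ → Matrix (Fin 2) (Fin 2) ℂ) (k : ℕ) (hk : k ≤ h) :
    gap2_M ι h Z 1 ↔ gap2_M ι h Z (2 * k + 1) := by
  induction k with
  | zero => rfl
  | succ k ih =>
    rw [ih (by omega), gap2_step h hh Z (2 * k + 1) (by omega) (by omega)]
    have : 2 * k + 1 + 2 = 2 * (k + 1) + 1 := by ring
    rw [this]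

/-- Let `M p` be the statement for all `A, B` with `A.length = p`.  `M p ↔ M (2h+2-p)` (swap), and `plucker` with `gap2_mem` gives
`M p ↔ M (p+2)` for odd `p ≤ 2h - 1`; `gap1_mem` gives one odd `p`. -/
theorem gap_mem {ι : Type} [Fintype ι] [DecidableEq ι] (h : ℕ) (hh : 1 ≤ h) (A B : List ι)
    (hl : Enum (A ++ B)) (hA : A.length % 2 = 1) (hlen : A.length + B.length = 2 * h + 2)
    (Z : ℕ → Matrix (Fin 2) (Fin 2) ℂ) :
    (fun c : ι → ℕ => O Z false e0 e0 (A.map c) * O Z false e0 e0 (B.map c)) ∈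
      (Piece.gap h).A ι := by
  have h0 : gap2_M ι h Z (2 * ((h + 1) / 2) + 1) := fun A B hE hA hlen =>
    gap1_mem h A B hE hA (by omega) Z
  have h1 : gap2_M ι h Z 1 := (gap2_M_iff h hh Z _ (by omega)).2 h0
  have h2 : gap2_M ι h Z (2 * (A.length / 2) + 1) := (gap2_M_iff h hh Z _ (by omega)).1 h1
  exact h2 A B hl (by omega) hlen

end Crest.Agent.R195
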