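import Crest.Agent.R195.Rep2
import Crest.Agent.R195.PosB

/-!
# Row 195: from `Pos` to intertwining maps
-/

set_option autoImplicit false

namespace Crest.Agent.R195

open Finset Crest.AlgebraR.Specht

/-- averaging a rank one map -/
theorem rep3_avg {G W V : Type} [Group G] [Fintype G] [AddCommGroup W] [Module ℂ W]
    [AddCommMonoid V] [Module ℂ V] (σ : Representation ℂ G W) (τ : Representation ℂ G V)
    (φ : Module.Dual ℂ W) (z : V) (v : W) (h : ∑ g, φ (σ g⁻¹ v) • τ g z ≠ 0) :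
    Nontrivial (Representation.IntertwiningMap σ τ) := by
  let Φ : W →ₗ[ℂ] V := ∑ g, LinearMap.smulRight (φ ∘ₗ σ g⁻¹) (τ g z)
  have hΦ : ∀ w, Φ w = ∑ g, φ (σ g⁻¹ w) • τ g z := fun w => by
    simp only [Φ, LinearMap.sum_apply, LinearMap.smulRight_apply, LinearMap.comp_apply]
  refine ⟨Φ.intertwiningMap_of_isIntertwiningMap σ τ fun k w => ?_, 0, fun e => h ?_⟩
  · rw [hΦ, hΦ, map_sum, ← Equiv.sum_comp (Equiv.mulLeft k)]
    refine Finset.sum_congr rfl fun g _ => ?_
    rw [Equiv.coe_mulLeft, map_smul, ← Module.End.mul_apply (σ _), ← map_mul, map_mul τ,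
      Module.End.mul_apply, mul_inv_rev, inv_mul_cancel_right]
  · rw [← hΦ]
    exact DFunLike.congr_fun e v

/-- Apply `exists_young` to the dual representation: there are `κ`, `t3 : Tab (Fin n) κ`, a functional `φ` with
`φ (σ g x) = sg g * φ x` for `g ∈ C`, and `x₀` with `φ x ≠ 0` for `x = ∑_{ρ ∈ R} σ ρ x₀` (which is `R`-invariant).
By `neumann`, `φ (σ g⁻¹ x) = φ x * co t3 (t3.r ∘ g)`.  By `Pos.fix`, `P3_ne_iff` there are `t1 t2 a b c` with
`tri t1 t2 t3 a b c ≠ 0`; then `c = t3.r ∘ h` for some `h` (else all terms vanish, `co_eq_zero`).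
Define the intertwiner `Φ v = ∑_g φ (σ g⁻¹ v) • (g • pt t1) ⊗ (g • pt t2)`.  The functional
"coefficient of `(a, b)`" on `U1 ⊗ U2` (`TensorProduct.lift`) takes at `Φ (σ h⁻¹ x)` the value
`∑_g φ (σ (h g)⁻¹ x) co t1 (a ∘ g) co t2 (b ∘ g) = φ x * tri ≠ 0` (`rowWordRep_apply`, `pt_apply`). -/
theorem link (n : ℕ) (W : Type) [AddCommGroup W] [Module ℂ W] [FiniteDimensional ℂ W]
    [Nontrivial W] (σ : Representation ℂ (Equiv.Perm (Fin n)) W) (α β : ℕ → ℕ)
    (h : ∀ κ, IsPart n κ → Pos α β κ) (U1 U2 : Subrepresentation (rowWordRep n))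
    (h1 : ∀ t : Tab (Fin n) α, pt t ∈ U1.toSubmodule)
    (h2 : ∀ t : Tab (Fin n) β, pt t ∈ U2.toSubmodule) :
    Nontrivial (Representation.IntertwiningMap σ
      (Representation.tprod U1.toRepresentation U2.toRepresentation)) := by
  obtain ⟨κ, t3, φ, hφ, hsum⟩ := exists_young (Fin n) (Module.Dual ℂ W) σ.dual
  have hφ' : ∀ g ∈ colGrp t3.c, ∀ v, φ (σ g⁻¹ v) = (sg g : ℂ) * φ v := fun g hg v =>
    DFunLike.congr_fun (hφ g hg) v
  obtain ⟨x₀, hx₀⟩ := DFunLike.ne_iff.1 hsum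
  obtain ⟨x, hx⟩ : ∃ x, x = ∑ g ∈ colGrp t3.r, σ g⁻¹ x₀ := ⟨_, rfl⟩
  have hx0 : φ x ≠ 0 := by
    rw [hx, map_sum]
    rw [LinearMap.sum_apply] at hx₀
    exact hx₀
  have hx1 : ∀ ρ ∈ colGrp t3.r, σ ρ⁻¹ x = x := fun ρ hρ => by
    rw [hx, map_sum]
    refine Finset.sum_nbij' (fun g => g * ρ) (fun g => g * ρ⁻¹) (fun g hg => mul_mem_colGrp hg hρ)
      (fun g hg => mul_mem_colGrp hg (inv_mem_colGrp hρ)) (fun g _ => mul_inv_cancel_right _ _)
      (fun g _ => inv_mul_cancel_right _ _) fun g _ => ?_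
    rw [mul_inv_rev, map_mul, Module.End.mul_apply]
  have hf : ∀ g, φ (σ g⁻¹ x) = φ x * (co t3 (t3.r ∘ g) : ℂ) := fun g => by
    have := neumann t3 (fun g => φ (σ g⁻¹ x))
      (fun ρ hρ g => by rw [mul_inv_rev, map_mul, Module.End.mul_apply, hx1 ρ hρ])
      (fun s hs g => by rw [mul_inv_rev, map_mul, Module.End.mul_apply, hφ' s hs]) g
    simpa using this
  have hκ : IsPart n κ := by simpa using t3.isPart
  obtain ⟨t1, t2, -, -, hP⟩ := (h κ hκ).fix t3
  obtain ⟨a, b, c, htri⟩ := (P3_ne_iff t1 t2 t3).1 hP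
  obtain ⟨k, hk⟩ : ∃ k : Equiv.Perm (Fin n), c = t3.r ∘ k := by
    obtain ⟨g, -, hg⟩ := Finset.exists_ne_zero_of_sum_ne_zero htri
    by_contra hc
    refine right_ne_zero_of_mul hg (co_eq_zero t3 fun s _ e => hc ⟨s * g⁻¹, funext fun i => ?_⟩)
    simpa using congrFun e (g⁻¹ i)
  let l : TensorProduct ℂ U1.toSubmodule U2.toSubmodule →ₗ[ℂ] ℂ := TensorProduct.lift
    ((LinearMap.mul ℂ ℂ).compl₁₂ (Finsupp.lapply (α := RowWord n) a ∘ₗ U1.toSubmodule.subtype)
      (Finsupp.lapply (α := RowWord n) b ∘ₗ U2.toSubmodule.subtype))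
  refine rep3_avg σ _ φ ((⟨pt t1, h1 t1⟩ : U1.toSubmodule) ⊗ₜ[ℂ] (⟨pt t2, h2 t2⟩ : U2.toSubmodule))
    (σ k⁻¹ x) fun e => ?_
  have e1 := congrArg l e
  have e2 : ∀ g : Equiv.Perm (Fin n), l (Representation.tprod U1.toRepresentation
      U2.toRepresentation g (⟨pt t1, h1 t1⟩ ⊗ₜ ⟨pt t2, h2 t2⟩)) =
      (co t1 (a ∘ g) : ℂ) * (co t2 (b ∘ g) : ℂ) := fun g => by
    rw [← pt_apply, ← pt_apply, ← rowWordRep_apply, ← rowWordRep_apply]
    rfl
  rw [map_sum, map_zero] at e1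
  refine mul_ne_zero hx0 (Int.cast_ne_zero.2 htri) (Eq.trans ?_ e1)
  rw [tri, Int.cast_sum, Finset.mul_sum]
  refine Finset.sum_congr rfl fun g _ => ?_
  rw [map_smul, e2, ← Module.End.mul_apply (σ _), ← map_mul, ← mul_inv_rev, hf, hk, smul_eq_mul]
  push_cast
  rw [Function.comp_assoc]
  ring

theorem nontrivial_of_irred {G W : Type} [Group G] [AddCommGroup W] [Module ℂ W]
    (σ : Representation ℂ G W) (hσ : σ.IsIrreducible) : Nontrivial W := by
  by_contra hW
  rw [not_nontrivial_iff_subsingleton] at hW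
  obtain ⟨a, b, hab⟩ := hσ.toNontrivial.exists_pair_ne
  exact hab (Subrepresentation.toSubmodule_injective (Subsingleton.elim _ _))

theorem rep3_sum (m : ℕ) : 2 * ∑ i ∈ range m, (m - i) = m * (m + 1) := by
  induction m with
  | zero => rfl
  | succ m ih =>
    rw [Finset.sum_range_succ']
    simp only [Nat.add_sub_add_right, Nat.sub_zero]
    linarith

/-- `2 * card = m (m+1)`. -/
theorem card_staircase (m : ℕ) : (staircaseShape m).card = m * (m + 1) / 2 := by
  rw [← rep3_sum, Nat.mul_div_cancel_left _ two_pos, staircaseShape, Finset.card_filter,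
    Finset.sum_product]
  refine Finset.sum_congr rfl fun i _ => ?_
  rw [← Finset.card_filter]
  have : (range m).filter (fun j => i + j < m) = range (m - i) := by
    ext j
    simp only [Finset.mem_filter, Finset.mem_range]
    omega
  simp only [this, Finset.card_range]

theorem rep3_poly {D : Finset (ℕ × ℕ)} {α : ℕ → ℕ} (s : Tab (Fin D.card) α) (T : D ≃ Fin D.card)
    (hr : ∀ i, (T.symm i).1.1 = s.r i) (hc : ∀ i, (T.symm i).1.2 = s.c i) :
    pt s = polytabloid T := by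
  have h1 : columnGroup T = colGrp s.c := by
    ext g
    simp only [columnGroup, Finset.mem_filter, Finset.mem_univ, true_and, mem_colGrp, hc]
  have h2 : rowWord T = s.r := funext hr
  rw [polytabloid, h1, h2, pt, alt, altw]
  refine Finset.sum_nbij' (fun g => g⁻¹) (fun g => g⁻¹) (fun g hg => inv_mem_colGrp hg)
    (fun g hg => inv_mem_colGrp hg) (fun g _ => inv_inv g) (fun g _ => inv_inv g) fun g _ => ?_
  rw [Int.cast_smul_eq_zsmul, Equiv.Perm.sign_inv]
  rfl

/-- Standardise `t` (`Tab.exists_std`, `alt_congr_tab`); `i ↦ (t.r i, t.c i)` is a bijection onto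
`staircaseShape m` (`Tab.Std.surj`); the Prelude polytabloid of the inverse bijection is `pt t`
(reindex `σ ↦ σ⁻¹`). -/
theorem pt_mem_staircase (m : ℕ) (t : Tab (Fin (staircaseShape m).card) (fun a => m - a)) :
    pt t ∈ (spechtSubrep (staircaseShape m)).toSubmodule := by
  obtain ⟨s, hs, hr, hc⟩ := t.exists_std
  have hm : ∀ p : ℕ × ℕ, p ∈ staircaseShape m ↔ p.2 < m - p.1 := fun p => by
    simp only [staircaseShape, Finset.mem_filter, Finset.mem_product, Finset.mem_range]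
    omega
  let e : Fin (staircaseShape m).card → staircaseShape m := fun i => ⟨(s.r i, s.c i), (hm _).2 (hs i)⟩
  have he : Function.Bijective e := ⟨fun i j h => s.inj i j (congrArg (·.1.1) h) (congrArg (·.1.2) h),
    fun p => by
      obtain ⟨i, h1, h2⟩ := hs.surj ((hm p.1).1 p.2)
      exact ⟨i, Subtype.ext (Prod.ext h1 h2)⟩⟩
  have h1 : pt t = polytabloid (Equiv.ofBijective e he).symm := by
    rw [← rep3_poly s _ (fun _ => rfl) fun _ => rfl, pt, pt, alt_congr_tab t s hr hc]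
  rw [h1]
  exact Submodule.mem_sInf.2 fun p hp => hp.1 ⟨_, rfl⟩

end Crest.Agent.R195
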