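import Crest.Agent.R195.Zone0

/-! # Row 195: finite zone, L = 38 … 48 -/

namespace Crest.Agent.R195

theorem zone_38 : zoneL 38 = true := by decide +kernel
theorem zone_39 : zoneL 39 = true := by decide +kernel
theorem zone_40 : zoneL 40 = true := by decide +kernel
theorem zone_41 : zoneL 41 = true := by decide +kernel
theorem zone_42 : zoneL 42 = true := by decide +kernel
theorem zone_43 : zoneL 43 = true := by decide +kernel
theorem zone_44 : zoneL 44 = true := by decide +kernel
theorem zone_45 : zoneL 45 = true := by decide +kernel
theorem zone_46 : zoneL 46 = true := by decide +kernel
theorem zone_47 : zoneL 47 = true := by decide +kernel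
theorem zone_48 : zoneL 48 = true := by decide +kernel

end Crest.Agent.R195
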