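import Crest.Agent.R195.Zone0

/-! # Row 195: finite zone, L = 49 … 56 -/

namespace Crest.Agent.R195

theorem zone_49 : zoneL 49 = true := by decide +kernel
theorem zone_50 : zoneL 50 = true := by decide +kernel
theorem zone_51 : zoneL 51 = true := by decide +kernel
theorem zone_52 : zoneL 52 = true := by decide +kernel
theorem zone_53 : zoneL 53 = true := by decide +kernel
theorem zone_54 : zoneL 54 = true := by decide +kernel
theorem zone_55 : zoneL 55 = true := by decide +kernel
theorem zone_56 : zoneL 56 = true := by decide +kernel

end Crest.Agent.R195
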