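import Crest.Agent.R195.Zone0

/-! # Row 195: finite zone, L = 57 … 63 -/

namespace Crest.Agent.R195

theorem zone_57 : zoneL 57 = true := by decide +kernel
theorem zone_58 : zoneL 58 = true := by decide +kernel
theorem zone_59 : zoneL 59 = true := by decide +kernel
theorem zone_60 : zoneL 60 = true := by decide +kernel
theorem zone_61 : zoneL 61 = true := by decide +kernel
theorem zone_62 : zoneL 62 = true := by decide +kernel
theorem zone_63 : zoneL 63 = true := by decide +kernel

end Crest.Agent.R195
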