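import Crest.Agent.R195.Zone1
import Crest.Agent.R195.Zone2
import Crest.Agent.R195.Zone3
import Crest.Agent.R195.Zone4

/-!
# Row 195: the finite zone `20 ≤ L < 64` of the family
-/

set_option autoImplicit false

namespace Crest.Agent.R195

theorem zone {L q1 q2 e : ℕ} (h : FamOK L q1 q2 e) (h1 : 20 ≤ L) (h2 : L < 64) :
    zoneC L q1 q2 e = true := by
  refine zoneL_sound ?_ h
  interval_cases L
  exacts [zone_20, zone_21, zone_22, zone_23, zone_24, zone_25, zone_26, zone_27, zone_28, zone_29, zone_30, zone_31, zone_32, zone_33, zone_34, zone_35, zone_36, zone_37, zone_38, zone_39, zone_40, zone_41, zone_42, zone_43, zone_44, zone_45, zone_46, zone_47, zone_48, zone_49, zone_50, zone_51, zone_52, zone_53, zone_54, zone_55, zone_56, zone_57, zone_58, zone_59, zone_60, zone_61, zone_62, zone_63]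

end Crest.Agent.R195
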