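import Crest.Agent.R195.Small
import Crest.Agent.R195.Zone
import Crest.Agent.R195.FamK2
import Crest.Agent.R195.FamK3
import Crest.Agent.R195.Crit
import Crest.Agent.R195.Rep3

/-!
# Row 195: Saxl's conjecture and the tensor square conjecture

`Pos α β γ` (a triple polytabloid polynomial is nonzero) is closed under sums, permutations of the slots,
transposition of two slots, the strip rule (`Pos.strip`), and holds for `(η, η, lam)` whenever `lam` dominates
the block sizes of a chain of pieces of `η` (`rplus`).  A self-conjugate shape `α` with first hook of arm `H`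
and complete inner shape contains all `lam` outside a box (`complete_step`); inside the box `rplus` applies by
`crit_dom` for the near-staircases `famF` with `L ≥ 20`; for `n < 210` certificates are checked (`Small.lean`).
-/

set_option autoImplicit false

namespace Crest.Agent.R195

theorem fam_crit {L q1 q2 e : ℕ} (h : FamOK L q1 q2 e) (hL : 20 ≤ L) :
    ∃ l0 num den, Crit (famH L q1 q2) (famN L q1 q2 e) (muOf (canonSp L q1 q2 e)) l0 num den := by
  by_cases h2 : L < 64
  · exact ⟨_, _, _, critB_sound (zone h hL h2)⟩
  · exact ⟨_, _, _, canon_crit h (by omega)⟩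

theorem fam_step {L q1 q2 e : ℕ} (h : FamOK L q1 q2 e) (hL : 20 ≤ L)
    (h0 : Complete (famN (L - 2) (q1 - 1) (q2 - 1) e) (famF (L - 2) (q1 - 1) (q2 - 1) e)) :
    Complete (famN L q1 q2 e) (famF L q1 q2 e) := by
  have h8 : 8 ≤ L := by omega
  have hi := fam_inner_ok h h8
  have hf := fam_frame h h8
  have hn := famN_rec h h8
  obtain ⟨hb0, hb⟩ := fam_inner_bound h h8
  have hH : 20 ≤ famH L q1 q2 := by unfold famH; omega
  have hpart : IsPart (famN L q1 q2 e) (famF L q1 q2 e) := by
    rw [hn]; exact frame_isPart h0.isPart (fam_conj hi) hf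
  have hrows : fn (rowsOf (canonSp L q1 q2 e)) = famF L q1 q2 e := by
    rw [canon_rows h hL]; exact fn_map_range _ _ (fam_zero h)
  have hsum : (rowsOf (canonSp L q1 q2 e)).sum = famN L q1 q2 e := by
    have h1 := sum_range_fn (rowsOf (canonSp L q1 q2 e)) (rowsOf (canonSp L q1 q2 e)).length
    rw [List.take_length, hrows] at h1
    rw [← h1]
    refine hpart.sum_eq ?_
    rw [← hrows]; exact fn_of_length_le le_rfl
  obtain ⟨l0, num, den, hc⟩ := fam_crit h hL
  rw [hn]
  refine complete_step h0 (fam_conj hi) (fam_conj h) hf ?_ ?_ ?_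
  · refine stripOK_simple ?_ (fun a _ => hb a)
    rw [show famH L q1 q2 - 1 - 1 = famH L q1 q2 - 2 by omega]; exact hb0
  · refine stripOK_simple ?_ ?_
    · rw [show famH L q1 q2 - 1 = (famH L q1 q2 - 2) + 1 by omega]; exact hb0
    · intro a _
      cases a with
      | zero => simp [dropCol]
      | succ a =>
        have := hb a
        simp only [dropCol]; omega
  · intro lam lam' hl hcj h1 h2 h3
    rw [← hn] at hl
    have hd := crit_dom hc ((spOK_sum (canon_ok h hL)).trans hsum) hl hcj h1 h2 h3
    have := rp_sound (canon_ok h hL) hl hsum hd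
    rwa [hrows] at this

theorem fam_complete (L : ℕ) (hL : 18 ≤ L) : ∀ q1 q2 e, FamOK L q1 q2 e →
    Complete (famN L q1 q2 e) (famF L q1 q2 e) := by
  induction L using Nat.strong_induction_on with
  | _ L ih =>
    intro q1 q2 e h
    by_cases h2 : L < 20
    · exact fam_base h hL h2
    · exact fam_step h (by omega) (ih (L - 2) (by omega) (by omega) _ _ _ (fam_inner_ok h (by omega)))

theorem stair_complete (m : ℕ) (hm : 1 ≤ m) : Complete (m * (m + 1) / 2) (fun a => m - a) := by
  by_cases h : m < 20
  · exact stair_base m hm h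
  · have := fam_complete m (by omega) 0 0 0 ⟨by omega, by simp, by simp⟩
    rw [fam_stair] at this
    simpa [famN] using this

theorem all_complete (n : ℕ) (h0 : 0 < n) (h2 : n ≠ 2) (h4 : n ≠ 4) (h9 : n ≠ 9) :
    ∃ α, Complete n α := by
  by_cases h : n < 210
  · exact small_complete n h h0 h2 h4 h9
  · obtain ⟨L, q1, q2, e, hok, hL, rfl⟩ := fam_repr n (by omega)
    exact ⟨_, fam_complete L (by omega) q1 q2 e hok⟩

end Crest.Agent.R195
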