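import Crest.Agent.R195.Fam1
import Crest.Agent.R195.PosB

/-!
# Row 195: stacking two diagrams on separated antidiagonals
-/

set_option autoImplicit false

namespace Crest.Agent.R195

open Finset

theorem mg_fn_lt (l1 l2 : List ℕ) {a : ℕ} (h : a < l1.length) : fn (l1 ++ l2) a = fn l1 a := by
  simp [fn, List.getD_eq_getElem?_getD, List.getElem?_append_left h]

theorem mg_fn_add (l1 l2 : List ℕ) (a : ℕ) : fn (l1 ++ l2) (l1.length + a) = fn l2 a := by
  simp [fn, List.getD_eq_getElem?_getD, List.getElem?_append_right]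

theorem mg_fn_ge (l : List ℕ) {a : ℕ} (h : l.length ≤ a) : fn l a = 0 := by
  simp [fn, List.getD_eq_getElem?_getD, List.getElem?_eq_none h]

theorem mg_fn_mem (l : List ℕ) {a : ℕ} (h : a < l.length) : fn l a ∈ l := by
  simp [fn, List.getD_eq_getElem?_getD, List.getElem?_eq_getElem h]

theorem mg_r_lt {ι : Type} [Fintype ι] {l : List ℕ} {t : Tab ι (fn l)} (ht : t.Std) (i : ι) :
    t.r i < l.length := by
  by_contra h
  have := ht i
  rw [mg_fn_ge l (not_lt.1 h)] at this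
  omega

/-- Stacking of standard tableaux: the rows of `t'` are shifted by `l1.length` (`exists_tab_of`; `fn (l1 ++ l2)` is antitone since
`fn l1`, `fn l2` are, by `Tab.isPart`). -/
theorem exists_tab_stack {ι1 ι2 : Type} [Fintype ι1] [DecidableEq ι1] [Fintype ι2] [DecidableEq ι2]
    (l1 l2 : List ℕ) (h12 : ∀ x ∈ l1, ∀ y ∈ l2, y ≤ x) (t : Tab ι1 (fn l1)) (t' : Tab ι2 (fn l2))
    (ht : t.Std) (ht' : t'.Std) :
    ∃ s : Tab (ι1 ⊕ ι2) (fn (l1 ++ l2)), s.Std ∧
      s.r = Sum.elim t.r (fun j => t'.r j + l1.length) ∧ s.c = Sum.elim t.c t'.c := by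
  have hp := t.isPart
  have hp' := t'.isPart
  have hq : IsPart (Fintype.card (ι1 ⊕ ι2)) (fn (l1 ++ l2)) := by
    refine isPart_of (N := l1.length + l2.length) (fun a b hab => ?_) ?_ ?_
    · by_cases hb : b < l1.length
      · rw [mg_fn_lt _ _ hb, mg_fn_lt _ _ (lt_of_le_of_lt hab hb)]
        exact hp.1 hab
      · obtain ⟨b', rfl⟩ := Nat.exists_eq_add_of_le (not_lt.1 hb)
        rw [mg_fn_add]
        by_cases ha : a < l1.length
        · rw [mg_fn_lt _ _ ha]
          by_cases hb' : b' < l2.length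
          · exact h12 _ (mg_fn_mem _ ha) _ (mg_fn_mem _ hb')
          · rw [mg_fn_ge _ (not_lt.1 hb')]
            exact Nat.zero_le _
        · obtain ⟨a', rfl⟩ := Nat.exists_eq_add_of_le (not_lt.1 ha)
          rw [mg_fn_add]
          exact hp'.1 (by omega)
    · rw [mg_fn_add, mg_fn_ge _ le_rfl]
    · rw [Finset.sum_range_add, Fintype.card_sum, ← hp.sum_eq (mg_fn_ge l1 le_rfl),
        ← hp'.sum_eq (mg_fn_ge l2 le_rfl)]
      congr 1
      · exact Finset.sum_congr rfl fun a ha => mg_fn_lt _ _ (mem_range.1 ha)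
      · exact Finset.sum_congr rfl fun a _ => mg_fn_add _ _ _
  obtain ⟨s, h1, h2, h3⟩ := exists_tab_of hq (Sum.elim t.r fun j => t'.r j + l1.length) (Sum.elim t.c t'.c)
    (by
      rintro (i | i) (j | j) h1 h2 <;> simp only [Sum.elim_inl, Sum.elim_inr] at h1 h2
      · rw [t.inj i j h1 h2]
      · have := mg_r_lt ht i; omega
      · have := mg_r_lt ht j; omega
      · rw [t'.inj i j (by omega) h2])
    (by
      rintro (i | i) <;> simp only [Sum.elim_inl, Sum.elim_inr]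
      · rw [mg_fn_lt _ _ (mg_r_lt ht i)]
        exact ht i
      · rw [add_comm, mg_fn_add]
        exact ht' i)
  exact ⟨s, h3, h1, h2⟩

/-- Block diagonal letter weights. -/
noncomputable def mg_Z (len : ℕ) (z z' : ℕ → ℕ → ℕ → ℂ) : ℕ → ℕ → ℕ → ℂ := fun a b c =>
  if a < len then (if b < len then z a b c else 0) else (if b < len then 0 else z' (a - len) (b - len) c)

theorem mg_blocks {ι1 ι2 : Type} [Fintype ι1] [DecidableEq ι1] [Fintype ι2] [DecidableEq ι2]
    (c1 c2 : ι1 ⊕ ι2 → ℕ) (m : ℕ) (h1 : ∀ i, m ≤ c1 (Sum.inl i) + c2 (Sum.inl i))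
    (h2 : ∀ j, c1 (Sum.inr j) + c2 (Sum.inr j) < m) {σ τ : Equiv.Perm (ι1 ⊕ ι2)} (hσ : σ ∈ colGrp c1)
    (hτ : τ ∈ colGrp c2) (h : ∀ x, (σ x).isRight = (τ x).isRight) :
    (∀ j, (σ (Sum.inr j)).isRight = true) ∧ ∀ j, (τ (Sum.inr j)).isRight = true := by
  have hρ : ∀ x, (τ (σ⁻¹ x)).isRight = x.isRight := fun x => by rw [← h]; simp
  have e2 : ∑ j, (c2 (σ⁻¹ (Sum.inr j)) : ℤ) = ∑ j, (c2 (Sum.inr j) : ℤ) := by
    have a1 : ∑ x, (if x.isRight then (c2 x : ℤ) else 0) = ∑ j, (c2 (Sum.inr j) : ℤ) := by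
      simp [Fintype.sum_sum_type]
    have a2 : ∑ x, (if ((τ * σ⁻¹) x).isRight then (c2 ((τ * σ⁻¹) x) : ℤ) else 0) =
        ∑ j, (c2 (σ⁻¹ (Sum.inr j)) : ℤ) := by
      simp only [Equiv.Perm.mul_apply, hρ, mem_colGrp.1 hτ]
      simp [Fintype.sum_sum_type]
    rw [← a1, ← a2]
    exact Equiv.sum_comp (τ * σ⁻¹) fun x => if x.isRight then (c2 x : ℤ) else 0
  have key := (threshold (fun x => (c1 x : ℤ) + c2 x - m) (fun i => by have := h1 i; omega)
    (fun j => by have := h2 j; omega) σ⁻¹).2 (by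
      simp only [Finset.sum_sub_distrib, Finset.sum_add_distrib, e2, mem_colGrp.1 (inv_mem_colGrp hσ)]
      exact le_rfl)
  have hm : Set.MapsTo (σ⁻¹ : Equiv.Perm (ι1 ⊕ ι2)) {x | x.isRight = true} {x | x.isRight = true} := by
    rintro (i | j) hx
    · simp at hx
    · exact key j
  have hm' := Equiv.Perm.perm_symm_mapsTo_of_mapsTo _ hm
  have : ∀ j, (σ (Sum.inr j)).isRight = true := fun j => hm' (show (Sum.inr j : ι1 ⊕ ι2).isRight = true from rfl)
  exact ⟨this, fun j => (h _).symm.trans (this j)⟩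

theorem mg_double {ι1 ι2 : Type} [Fintype ι1] [DecidableEq ι1] [Fintype ι2] [DecidableEq ι2]
    (c1 w1 c2 w2 : ι1 ⊕ ι2 → ℕ) (T : (ι1 ⊕ ι2 → ℕ) → (ι1 ⊕ ι2 → ℕ) → ℂ)
    (van : ∀ σ ∈ colGrp c1, ∀ τ ∈ colGrp c2, T (w1 ∘ σ) (w2 ∘ τ) ≠ 0 →
      (∀ j, (σ (Sum.inr j)).isRight = true) ∧ ∀ j, (τ (Sum.inr j)).isRight = true) :
    altw c1 w1 (fun a => altw c2 w2 fun b => T a b) =
      altw (c1 ∘ Sum.inl) (w1 ∘ Sum.inl) fun a => altw (c1 ∘ Sum.inr) (w1 ∘ Sum.inr) fun a' =>
        altw (c2 ∘ Sum.inl) (w2 ∘ Sum.inl) fun b => altw (c2 ∘ Sum.inr) (w2 ∘ Sum.inr) fun b' =>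
          T (Sum.elim a a') (Sum.elim b b') := by
  rw [← sum_block c1 w1 fun a => altw (c2 ∘ Sum.inl) (w2 ∘ Sum.inl) fun b =>
    altw (c2 ∘ Sum.inr) (w2 ∘ Sum.inr) fun b' => T a (Sum.elim b b'), Finset.sum_filter]
  refine Finset.sum_congr rfl fun σ hσ => ?_
  dsimp only
  rw [← sum_block c2 w2 (T (w1 ∘ σ))]
  split_ifs with hP
  · congr 1
    symm
    refine Finset.sum_filter_of_ne fun τ hτ hne => (van σ hσ τ hτ fun h0 => hne ?_).2
    rw [h0, smul_zero]
  · rw [altw, Finset.sum_eq_zero, smul_zero]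
    intro τ hτ
    by_contra hne
    refine hP (van σ hσ τ hτ fun h0 => hne ?_).1
    rw [h0, smul_zero]

theorem mg_core {ι1 ι2 : Type} [Fintype ι1] [DecidableEq ι1] [Fintype ι2] [DecidableEq ι2] (len m : ℕ)
    (c1 r1 c2 r2 : ι1 → ℕ) (c1' r1' c2' r2' : ι2 → ℕ) (hr1 : ∀ i, r1 i < len) (hr2 : ∀ i, r2 i < len)
    (h1 : ∀ i, m ≤ c1 i + c2 i) (h2 : ∀ j, c1' j + c2' j < m) (z z' : ℕ → ℕ → ℕ → ℂ) (c : ι1 ⊕ ι2 → ℕ) :
    evw (Sum.elim c1 c1') (Sum.elim r1 fun j => r1' j + len) (Sum.elim c2 c2') (Sum.elim r2 fun j => r2' j + len)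
      (mg_Z len z z') c = evw c1 r1 c2 r2 z (c ∘ Sum.inl) * evw c1' r1' c2' r2' z' (c ∘ Sum.inr) := by
  have van : ∀ σ ∈ colGrp (Sum.elim c1 c1'), ∀ τ ∈ colGrp (Sum.elim c2 c2'),
      ∏ i, mg_Z len z z' (((Sum.elim r1 fun j => r1' j + len) ∘ σ) i)
        (((Sum.elim r2 fun j => r2' j + len) ∘ τ) i) (c i) ≠ 0 →
      (∀ j, (σ (Sum.inr j)).isRight = true) ∧ ∀ j, (τ (Sum.inr j)).isRight = true := by
    intro σ hσ τ hτ hne
    refine mg_blocks _ _ m (by simpa using h1) (by simpa using h2) hσ hτ fun x => ?_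
    have := Finset.prod_ne_zero_iff.1 hne x (mem_univ x)
    simp only [Function.comp_apply] at this
    rcases hx : σ x with i | i <;> rcases hy : τ x with j | j <;> rw [hx, hy] at this
    · rfl
    · simp [mg_Z, hr1] at this
    · simp [mg_Z, hr2] at this
    · rfl
  unfold evw
  rw [mg_double _ _ _ _ (fun a b => ∏ i, mg_Z len z z' (a i) (b i) (c i)) van]
  simp only [Sum.elim_comp_inl, Sum.elim_comp_inr]
  rw [← altw_mul_right]
  refine altw_congr fun σ _ => ?_
  rw [← altw_mul_left]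
  refine Finset.sum_congr rfl fun σ' _ => ?_
  congr 1
  dsimp only
  rw [← altw_mul_right]
  refine altw_congr fun τ _ => ?_
  rw [← altw_mul_left]
  refine Finset.sum_congr rfl fun τ' _ => ?_
  congr 1
  simp [Fintype.prod_sum_type, mg_Z, hr1, hr2]

/-- For generators `ev2 t1 t2 z` on `ι1`, `ev2 t1' t2' z'` on `ι2` stack the tableaux to `s1, s2` and take the block diagonal
`Z a b c = z a b c` if `a, b < len`, `z' (a - len) (b - len) c` if `a, b ≥ len`, `0` otherwise (`len = l1.length`; rows of `t1, t2` are `< len`).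
A term `(σ, τ)` of `ev2 s1 s2 Z c` vanishes unless `σ i` and `τ i` lie in the same summand for all `i`.  In that case, with
`g = s1.c + s2.c - lo1`, the set `S = σ⁻¹(ι2) = τ⁻¹(ι2)` has `∑_S g = ∑_{ι2} g` (as `σ`, `τ` preserve `s1.c`, `s2.c`), so `threshold` (for `σ⁻¹`) gives
`S = ι2`, i.e. both `σ` and `τ` preserve the summands.  Now `sum_block` twice, `altw_comm`, `altw_mul_left/right` give the product.
Finish with `G_relab` and bilinearity. -/
theorem merge (l1 l2 : List ℕ) (lo1 U1 lo2 U2 lo U : ℕ) (h12 : ∀ x ∈ l1, ∀ y ∈ l2, y ≤ x)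
    (hsep : U2 ≤ lo1) (hlo : lo ≤ lo2) (hlo' : lo ≤ lo1) (hU : U1 ≤ U) (hU' : U2 ≤ U) :
    ((G (fn l1) lo1 U1).mul (G (fn l2) lo2 U2)).Le (G (fn (l1 ++ l2)) lo U) := by
  have gen : ∀ (ι1 ι2 : Type) [Fintype ι1] [DecidableEq ι1] [Fintype ι2] [DecidableEq ι2]
      (F1 : (ι1 → ℕ) → ℂ) (F2 : (ι2 → ℕ) → ℂ), F1 ∈ G (fn l1) lo1 U1 ι1 → F2 ∈ G (fn l2) lo2 U2 ι2 →
      (fun c : ι1 ⊕ ι2 → ℕ => F1 (c ∘ Sum.inl) * F2 (c ∘ Sum.inr)) ∈ G (fn (l1 ++ l2)) lo U (ι1 ⊕ ι2) := by
    intro ι1 ι2 _ _ _ _ F1 F2 hF1 hF2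
    induction hF1 using Submodule.span_induction with
    | zero => simp only [Pi.zero_apply, zero_mul]; exact Submodule.zero_mem _
    | add x y _ _ hx hy => simp only [Pi.add_apply, add_mul]; exact Submodule.add_mem _ hx hy
    | smul a x _ hx => simp only [Pi.smul_apply, smul_mul_assoc]; exact Submodule.smul_mem _ a hx
    | mem F1 hF1 =>
      induction hF2 using Submodule.span_induction with
      | zero => simp only [Pi.zero_apply, mul_zero]; exact Submodule.zero_mem _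
      | add x y _ _ hx hy => simp only [Pi.add_apply, mul_add]; exact Submodule.add_mem _ hx hy
      | smul a x _ hx => simp only [Pi.smul_apply, mul_smul_comm]; exact Submodule.smul_mem _ a hx
      | mem F2 hF2 =>
        obtain ⟨t1, t2, z, ht1, ht2, hb, rfl⟩ := hF1
        obtain ⟨t1', t2', z', ht1', ht2', hb', rfl⟩ := hF2
        obtain ⟨s1, hs1, hr1, hc1⟩ := exists_tab_stack l1 l2 h12 t1 t1' ht1 ht1'
        obtain ⟨s2, hs2, hr2, hc2⟩ := exists_tab_stack l1 l2 h12 t2 t2' ht2 ht2'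
        have hmem := ev2_mem (lo := lo) (U := U) s1 s2 hs1 hs2 (by
          rw [hc1, hc2]
          rintro (i | i) <;> simp only [Sum.elim_inl, Sum.elim_inr]
          · have := hb i; omega
          · have := hb' i; omega) (mg_Z l1.length z z')
        convert hmem using 1
        funext c
        rw [hr1, hc1, hr2, hc2, mg_core l1.length lo1 _ _ _ _ _ _ _ _ (mg_r_lt ht1) (mg_r_lt ht2)
          (fun i => (hb i).1) (fun j => (hb' j).2.trans_le hsep)]
        rfl
  intro ι _ _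
  refine Submodule.span_le.2 ?_
  rintro _ ⟨ι1, ι2, _, _, _, _, e, F1, F2, hF1, hF2, rfl⟩
  exact G_relab _ _ _ _ _ e _ (gen ι1 ι2 F1 F2 hF1 hF2)

theorem mg_rows (p : Piece) : p.h ≤ p.hi ∧ ∀ x ∈ p.rows, p.h ≤ x ∧ x ≤ p.hi := by
  cases p <;> simp [Piece.h, Piece.hi, Piece.rows]

theorem Ch.rows_le {U : ℕ} {η : List ℕ} {ps : List Piece} (h : Ch U η ps) : ∀ x ∈ η, x ≤ U := by
  induction h with
  | nil U => simp
  | cons U p η ps h1 h2 _ ih =>
    intro x hx
    rcases List.mem_append.1 hx with hx | hx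
    · exact ((mg_rows p).2 x hx).2.trans h1
    · have := ih x hx
      have := (mg_rows p).1
      omega

/-- Induction on the chain with `merge`; for `nil` use the empty tableaux (`ev2 = 1`). -/
theorem Ch.le {U : ℕ} {η : List ℕ} {ps : List Piece} (h : Ch U η ps) :
    (PF ps).Le (G (fn η) 0 U) := by
  induction h with
  | nil U =>
    intro ι _ _
    refine Submodule.span_le.2 fun F hF => ?_
    have hι : IsEmpty ι := hF
    have hp : IsPart (Fintype.card ι) (fn []) :=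
      isPart_of (N := 0) (fun a b _ => by simp [fn]) (by simp [fn]) (by simp)
    obtain ⟨t, ht⟩ := exists_tab hp
    have hmem := ev2_mem (lo := 0) (U := U) t t ht ht (fun i => hι.elim i) fun _ _ _ => 1
    have : F = F (fun _ => 0) • evw t.c t.r t.c t.r fun _ _ _ => 1 := by
      funext c
      have hi : Function.Injective t.c := fun i => hι.elim i
      rw [Pi.smul_apply, evw, altw_of_injective hi, altw_of_injective hi, Subsingleton.elim c fun _ => 0]
      simp
    rw [this]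
    exact Submodule.smul_mem _ _ hmem
  | cons U p η ps h1 h2 hch ih =>
    refine (Fam.mul_mono (Fam.Le.refl p.A) ih).trans ?_
    have := (mg_rows p).1
    refine merge p.rows η (p.h - 1) p.hi 0 (p.h - 1) 0 U (fun x hx y hy => ?_) le_rfl le_rfl (Nat.zero_le _) h1
      (by omega)
    have := ((mg_rows p).2 x hx).1
    have := hch.rows_le y hy
    omega

/-- `alt t` is linear, so it is nonzero on a generator; `altw_comm`, `pos_of_eval`. -/
theorem pos_of_G {ι : Type} [Fintype ι] [DecidableEq ι] {η lam : ℕ → ℕ} {lo U : ℕ}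
    (t : Tab ι lam) (F : (ι → ℕ) → ℂ) (hF : F ∈ G η lo U ι) (h : alt t F ≠ 0) : Pos η η lam := by
  by_contra hpos
  apply h
  clear h
  induction hF using Submodule.span_induction with
  | zero => exact altw_zero _ _
  | add x y _ _ hx hy =>
    have := altw_add t.c t.r x y
    unfold alt at hx hy
    rw [hx, hy, add_zero] at this
    exact this
  | smul a x _ hx =>
    have := altw_smul a t.c t.r x
    unfold alt at hx
    rw [hx, smul_zero] at this
    exact this
  | mem F hF =>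
    obtain ⟨t1, t2, z, -, -, -, rfl⟩ := hF
    by_contra hne
    refine hpos (pos_of_eval t1 t2 t z ?_)
    convert hne using 1
    unfold ev2 alt
    rw [altw_comm t.c t.r t1.c t1.r]
    refine altw_congr fun σ _ => ?_
    rw [altw_comm t.c t.r t2.c t2.r]

end Crest.Agent.R195
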