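import Crest.Agent.R195.Defs2
import Crest.Agent.R195.Basic

/-!
# Row 195: evaluation along a path (transfer matrices)
-/

set_option autoImplicit false

namespace Crest.Agent.R195

open Finset

variable {ι ι' : Type} [Fintype ι] [DecidableEq ι] [Fintype ι'] [DecidableEq ι']

/-- Disjoint columns in both labellings: `altw_sumType` twice, `altw_comm`, `Fintype.prod_sum_type`, `altw_mul_left/right`. -/
theorem evw_sumType (c1 r1 c2 r2 : ι ⊕ ι' → ℕ) (h1 : ∀ i j, c1 (Sum.inl i) ≠ c1 (Sum.inr j))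
    (h2 : ∀ i j, c2 (Sum.inl i) ≠ c2 (Sum.inr j)) (z : ℕ → ℕ → ℕ → ℂ) (c : ι ⊕ ι' → ℕ) :
    evw c1 r1 c2 r2 z c =
      evw (c1 ∘ Sum.inl) (r1 ∘ Sum.inl) (c2 ∘ Sum.inl) (r2 ∘ Sum.inl) z (c ∘ Sum.inl) *
        evw (c1 ∘ Sum.inr) (r1 ∘ Sum.inr) (c2 ∘ Sum.inr) (r2 ∘ Sum.inr) z (c ∘ Sum.inr) := by
  unfold evw
  rw [altw_sumType c1 r1 h1]
  simp only [altw_sumType c2 r2 h2, Fintype.prod_sum_type, Sum.elim_inl, Sum.elim_inr,
    altw_mul_left, altw_mul_right, Function.comp_apply]

/-- The first letter is alone in its column (`Equiv.Perm.decomposeFin`, or `altw_relabel` with `finSuccEquiv`/`Unit ⊕ Fin m` and `altw_sumType`). -/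
theorem altw_succ {M : Type*} [AddCommGroup M] {m : ℕ} (c w : Fin (m + 1) → ℕ)
    (h : ∀ j : Fin m, c j.succ ≠ c 0) (F : (Fin (m + 1) → ℕ) → M) :
    altw c w F = altw (c ∘ Fin.succ) (w ∘ Fin.succ) fun x => F (Fin.cons (w 0) x) := by
  unfold altw
  symm
  refine Finset.sum_bij (fun τ _ => Equiv.Perm.decomposeFin.symm (0, τ)) ?_ ?_ ?_ ?_
  · intro τ hτ
    rw [mem_colGrp] at hτ ⊢
    intro i
    refine Fin.cases ?_ (fun j => ?_) i
    · simp
    · simpa using hτ j
  · intro τ _ ρ _ he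
    simpa using he
  · intro σ hσ
    rw [mem_colGrp] at hσ
    obtain ⟨⟨p, τ⟩, rfl⟩ := Equiv.Perm.decomposeFin.symm.surjective σ
    have hp : p = 0 := by
      have h0 := hσ 0
      rw [Equiv.Perm.decomposeFin_symm_apply_zero] at h0
      rcases Fin.eq_zero_or_eq_succ p with h1 | ⟨j, rfl⟩
      · exact h1
      · exact absurd h0 (h j)
    subst hp
    refine ⟨τ, ?_, rfl⟩
    rw [mem_colGrp]
    intro j
    simpa using hσ j.succ
  · intro τ _
    have h1 : sg (Equiv.Perm.decomposeFin.symm (0, τ)) = sg τ := by simp [sg]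
    have h2 : w ∘ ⇑(Equiv.Perm.decomposeFin.symm (0, τ)) =
        Fin.cons (w 0) ((w ∘ Fin.succ) ∘ τ) := by
      funext i
      refine Fin.cases ?_ (fun j => ?_) i <;> simp
    rw [h1, h2]

/-- A column consisting of exactly two letters `i₀ ≠ i₁`; `c'` splits it: `colGrp c = colGrp c' ⊔ swap i₀ i₁ * colGrp c'`. -/
theorem altw_pair {M : Type*} [AddCommGroup M] (c c' w : ι → ℕ) (i₀ i₁ : ι) (hne : i₀ ≠ i₁)
    (hc : c i₀ = c i₁) (honly : ∀ j, c j = c i₀ → j = i₀ ∨ j = i₁)
    (hc' : ∀ j k, c' j = c' k ↔ (c j = c k ∧ (j = i₀ ↔ k = i₀))) (F : (ι → ℕ) → M) :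
    altw c w F = altw c' w F - altw c' (w ∘ Equiv.swap i₀ i₁) F := by
  have hmem : ∀ σ : Equiv.Perm ι, σ ∈ colGrp c' ↔ σ ∈ colGrp c ∧ σ i₀ = i₀ := by
    intro σ
    simp only [mem_colGrp, hc']
    constructor
    · intro h
      exact ⟨fun j => (h j).1, (h i₀).2.2 rfl⟩
    · rintro ⟨h, h0⟩ j
      refine ⟨h j, fun h1 => σ.injective (h1.trans h0.symm), fun h1 => h1 ▸ h0⟩
  unfold altw
  rw [← Finset.sum_filter_add_sum_filter_not (colGrp c) (fun σ => σ i₀ = i₀), sub_eq_add_neg,
    ← Finset.sum_neg_distrib]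
  congr 1
  · refine Finset.sum_congr ?_ fun _ _ => rfl
    ext σ
    rw [Finset.mem_filter, hmem]
  · symm
    refine Finset.sum_nbij' (fun τ => Equiv.swap i₀ i₁ * τ) (fun τ => Equiv.swap i₀ i₁ * τ)
      ?_ ?_ ?_ ?_ ?_
    · intro τ hτ
      rw [hmem] at hτ
      rw [Finset.mem_filter]
      refine ⟨mul_mem_colGrp (swap_mem_colGrp hc) hτ.1, ?_⟩
      simp [hτ.2, hne.symm]
    · intro σ hσ
      rw [Finset.mem_filter] at hσ
      rw [hmem]
      refine ⟨mul_mem_colGrp (swap_mem_colGrp hc) hσ.1, ?_⟩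
      rcases honly _ (mem_colGrp.1 hσ.1 i₀) with h1 | h1
      · exact absurd h1 hσ.2
      · simp [h1]
    · intro τ _; simp
    · intro τ _; simp
    · intro τ _
      rw [sg_mul, sg_swap hne, neg_one_mul, neg_smul]
      rfl

theorem V_transpose (Z : ℕ → Matrix (Fin 2) (Fin 2) ℂ) (s : Bool) (l : List ℕ) :
    V (fun c => (Z c).transpose) s l = V Z (!s) l := by
  induction l generalizing s with
  | nil => cases s <;> simp [V]
  | cons a l ih => cases s <;> simp [V, ih]

theorem pth_altw_sub {M : Type*} [AddCommGroup M] (c w : ι → ℕ) (F F' : (ι → ℕ) → M) :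
    altw c w (fun x => F x - F' x) = altw c w F - altw c w F' := by
  simp [altw, smul_sub, Finset.sum_sub_distrib]

theorem pth_swap (c1 r1 c2 r2 : ι → ℕ) (Z : ℕ → Matrix (Fin 2) (Fin 2) ℂ) (c : ι → ℕ) :
    evw c1 r1 c2 r2 (zM Z) c = evw c2 r2 c1 r1 (zM fun k => (Z k).transpose) c := by
  unfold evw
  rw [altw_comm]
  rfl

/-- rows along a path, with prescribed first row -/
def pthR (x k : ℕ) : ℕ := if k = 0 then x else (k + 1) % 2

theorem pth_main (m : ℕ) : ∀ (c1 c2 : Fin (m + 1) → ℕ),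
    (∀ i j, c1 i = c1 j ↔ (i.val + 1) / 2 = (j.val + 1) / 2) →
    (∀ i j, c2 i = c2 j ↔ i.val / 2 = j.val / 2) →
    ∀ (Z : ℕ → Matrix (Fin 2) (Fin 2) ℂ) (c : Fin (m + 1) → ℕ) (x : ℕ),
    evw c1 (fun i => pthR x i) c2 (fun i => rB i) (zM Z) c =
      -(V Z false (List.ofFn c) * eps) (Fin.ofNat 2 x) 0 := by
  induction m with
  | zero =>
    intro c1 c2 _ _ Z c x
    have : Subsingleton (Fin (0 + 1)) := inferInstanceAs (Subsingleton (Fin 1))
    unfold evw
    rw [altw_of_injective (Function.injective_of_subsingleton _),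
      altw_of_injective (Function.injective_of_subsingleton _)]
    simp [V, zM, pthR, rB, eps, Matrix.mul_apply, Fin.sum_univ_two]
  | succ m ih =>
    intro c1 c2 h1 h2 Z c x
    set c2' : Fin (m + 2) → ℕ := fun j => 2 * c2 j + if j = 0 then 1 else 0 with hc2'
    have hc' : ∀ j k, c2' j = c2' k ↔ (c2 j = c2 k ∧ (j = 0 ↔ k = 0)) := by
      intro j k
      simp only [hc2']
      by_cases hj : j = 0 <;> by_cases hk : k = 0 <;> simp [hj, hk] <;> omega
    have hs1 : ∀ j : Fin (m + 1), c1 j.succ ≠ c1 0 := by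
      intro j h
      rw [h1] at h
      simp only [Fin.val_succ, Fin.val_zero] at h
      omega
    have hs2 : ∀ j : Fin (m + 1), c2' j.succ ≠ c2' 0 := by
      intro j h
      rw [hc'] at h
      exact Fin.succ_ne_zero j (h.2.2 rfl)
    have hp : ∀ F : (Fin (m + 2) → ℕ) → ℂ, altw c2 (fun i => rB i) F =
        altw (c2' ∘ Fin.succ) (fun i => pthR 1 i) (fun b => F (Fin.cons 0 b)) -
          altw (c2' ∘ Fin.succ) (fun i => pthR 0 i) (fun b => F (Fin.cons 1 b)) := by
      intro F
      rw [altw_pair c2 c2' _ 0 1 (by simp) (by rw [h2]; simp) (fun j hj => by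
        rw [h2] at hj
        simp only [Fin.ext_iff, Fin.val_zero, Fin.val_one] at hj ⊢
        omega) hc', altw_succ _ _ hs2, altw_succ _ _ hs2]
      have e1 : (fun i : Fin (m + 2) => rB i) ∘ Fin.succ = fun i : Fin (m + 1) => pthR 1 i := by
        funext i
        simp only [Function.comp_apply, rB, pthR, Fin.val_succ]
        split_ifs with h <;> omega
      have e2 : ((fun i : Fin (m + 2) => rB i) ∘ Equiv.swap 0 1) ∘ Fin.succ =
          fun i : Fin (m + 1) => pthR 0 i := by
        funext i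
        refine Fin.cases ?_ (fun j => ?_) i
        · simp [rB, pthR]
        · simp only [Function.comp_apply]
          rw [Equiv.swap_apply_of_ne_of_ne (Fin.succ_ne_zero _) (by
            intro h
            have := congrArg Fin.val h
            simp at this)]
          simp [rB, pthR]
      have e3 : ((fun i : Fin (m + 2) => rB i) ∘ Equiv.swap 0 1) 0 = 1 := by simp [rB]
      rw [e1, e2, e3]
      rfl
    have e4 : (fun i : Fin (m + 2) => pthR x i) ∘ Fin.succ = fun i : Fin (m + 1) => rB i := by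
      funext i
      simp only [Function.comp_apply, rB, pthR, Fin.val_succ, Nat.succ_ne_zero, if_false]
      omega
    have k1 : ∀ i j : Fin (m + 1), (c2' ∘ Fin.succ) i = (c2' ∘ Fin.succ) j ↔
        (i.val + 1) / 2 = (j.val + 1) / 2 := by
      intro i j
      simp [hc', h2]
    have k2 : ∀ i j : Fin (m + 1), (c1 ∘ Fin.succ) i = (c1 ∘ Fin.succ) j ↔
        i.val / 2 = j.val / 2 := by
      intro i j
      simp only [Function.comp_apply, h1, Fin.val_succ]
      omega
    have A := fun y => ih _ _ k1 k2 (fun k => (Z k).transpose) (c ∘ Fin.succ) y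
    simp only [← pth_swap, V_transpose, Bool.not_false] at A
    have A1 := A 1
    have A0 := A 0
    unfold evw at A1 A0 ⊢
    rw [altw_succ _ _ hs1, e4]
    simp only [hp, Fin.prod_univ_succ (n := m + 1), Fin.cons_zero, Fin.cons_succ, altw_mul_left,
      pth_altw_sub]
    simp only [Function.comp_apply] at A1 A0
    have e5 : V Z false (List.ofFn c) * eps =
        Z (c 0) * eps * (V Z true (List.ofFn (c ∘ Fin.succ)) * eps) := by
      rw [List.ofFn_succ (f := c), V, Matrix.mul_assoc (Z (c 0) * eps)]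
      rfl
    rw [A1, A0, e5]
    generalize V Z true (List.ofFn (c ∘ Fin.succ)) * eps = T
    simp [zM, pthR, eps, Matrix.mul_apply, Fin.sum_univ_two]

/-- Path starting with a letter that is alone in its `c1`-column.  Generalise: let the row of the first letter in the first labelling be `x ∈ {0,1}`
(`fun i => if i = 0 then x else rA i`); the value is `-(V Z false l * eps) x 0`.  Induction on `m` for all `Z`, `x`, `c1`, `c2`, `c`: remove the first letter with
`altw_succ` (first labelling) and `altw_pair` + `altw_succ` (second labelling), exchange the two labellings (`altw_comm`, `Z ↦ Zᵀ`, `V_transpose`):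
`P(x; c₀ :: l) = Z c₀ x 0 * P'(1; l) - Z c₀ x 1 * P'(0; l)`. -/
theorem path_eval (m : ℕ) (hm : 0 < m) (c1 c2 : Fin m → ℕ)
    (h1 : ∀ i j, c1 i = c1 j ↔ (i.val + 1) / 2 = (j.val + 1) / 2)
    (h2 : ∀ i j, c2 i = c2 j ↔ i.val / 2 = j.val / 2)
    (Z : ℕ → Matrix (Fin 2) (Fin 2) ℂ) (c : Fin m → ℕ) :
    evw c1 (fun i => rA i) c2 (fun i => rB i) (zM Z) c = -O Z false e0 e0 (List.ofFn c) := by
  obtain ⟨m, rfl⟩ : ∃ k, m = k + 1 := ⟨m - 1, by omega⟩
  have h := pth_main m c1 c2 h1 h2 Z c 0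
  refine h.trans ?_
  simp [O, e0, dotProduct, Matrix.mulVec, Fin.sum_univ_two]

/-- The same with the two labellings exchanged. -/
theorem path_eval' (m : ℕ) (hm : 0 < m) (c1 c2 : Fin m → ℕ)
    (h1 : ∀ i j, c1 i = c1 j ↔ i.val / 2 = j.val / 2)
    (h2 : ∀ i j, c2 i = c2 j ↔ (i.val + 1) / 2 = (j.val + 1) / 2)
    (Z : ℕ → Matrix (Fin 2) (Fin 2) ℂ) (c : Fin m → ℕ) :
    evw c1 (fun i => rB i) c2 (fun i => rA i) (zM Z) c = -O Z true e0 e0 (List.ofFn c) := by
  rw [pth_swap, path_eval m hm c2 c1 h2 h1]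
  simp only [O, V_transpose, Bool.not_false]

/-- An enumeration as an equivalence (`List.Nodup.getEquivOfForallMemList`). -/
theorem Enum.exists_equiv {l : List ι} (h : Enum l) :
    ∃ e : Fin l.length ≃ ι, ∀ c : ι → ℕ, List.ofFn (fun i => c (e i)) = l.map c := by
  refine ⟨List.Nodup.getEquivOfForallMemList l h.1 h.2, fun c => ?_⟩
  refine List.ext_getElem (by simp) fun i h1 h2 => ?_
  simp

theorem Enum.exists_equiv2 {A B : List ι} (h : Enum (A ++ B)) :
    ∃ e : Fin A.length ⊕ Fin B.length ≃ ι, ∀ c : ι → ℕ,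
      List.ofFn (fun i => c (e (Sum.inl i))) = A.map c ∧
        List.ofFn (fun i => c (e (Sum.inr i))) = B.map c := by
  refine ⟨(finSumFinEquiv.trans (finCongr List.length_append.symm)).trans
    (List.Nodup.getEquivOfForallMemList _ h.1 h.2), fun c => ⟨?_, ?_⟩⟩
  · refine List.ext_getElem (by simp) fun i h1 h2 => ?_
    simp
  · refine List.ext_getElem (by simp) fun i h1 h2 => ?_
    simp

theorem Enum.length {l : List ι} (h : Enum l) : l.length = Fintype.card ι := by
  obtain ⟨e, -⟩ := h.exists_equiv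
  simpa using Fintype.card_congr e

/-- The elements of a finset, sorted by a key (`List.mergeSort`, or `List.insertionSort` for the total preorder). -/
theorem exists_sorted_list (S : Finset ι) (c : ι → ℕ) :
    ∃ l : List ι, l.Nodup ∧ (∀ i, i ∈ l ↔ i ∈ S) ∧ l.length = S.card ∧
      l.Pairwise fun i j => c i ≤ c j := by
  have hp := List.mergeSort_perm S.toList fun i j => decide (c i ≤ c j)
  refine ⟨S.toList.mergeSort fun i j => decide (c i ≤ c j), hp.nodup_iff.2 S.nodup_toList,
    fun i => by rw [hp.mem_iff, Finset.mem_toList], by rw [hp.length_eq, Finset.length_toList], ?_⟩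
  have := List.pairwise_mergeSort (le := fun i j => decide (c i ≤ c j))
    (fun a b d h1 h2 => by simp only [decide_eq_true_eq] at *; omega)
    (fun a b => by simp only [Bool.or_eq_true, decide_eq_true_eq]; omega) S.toList
  simpa using this

end Crest.Agent.R195
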