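import Crest.Agent.R195.Sees
import Crest.Agent.R195.Cover
import Crest.Agent.R195.Merge
import Crest.Agent.R195.GR

/-!
# Row 195: the rule `R+`
-/

set_option autoImplicit false

namespace Crest.Agent.R195

open Finset

theorem Cl.has {ps : List Piece} {μ : List ℕ} (h : Cl ps μ) : Has (PF ps) μ := by
  induction h with
  | nil => exact has_one
  | strip h c ps μ _ ih => exact has_mul (has_strip h c) ih
  | band h ν ps μ _ hl hs _ ih =>
    exact has_mul (cover _ (G_relab _ _ _) (G_sub _ _ _) _ (sees_band h) ν hl hs) ih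
  | bandD h q ν ps μ hh hl hs _ ih =>
    exact (has_mul (cover _ (Fam.mul_relab _ _) (Fam.mul_sub (G_sub _ _ _) (G_sub _ _ _)) _
      (sees_bandD h q hh) ν hl hs) ih).mono (Fam.mul_assoc_le _ _ _)
  | gapD h q ν ps μ hh hq hqh hl hs _ ih =>
    exact (has_mul (cover _ (Fam.mul_relab _ _) (Fam.mul_sub (G_sub _ _ _) (G_sub _ _ _)) _
      (sees_gapD h q hh hq hqh) ν hl hs) ih).mono (Fam.mul_assoc_le _ _ _)
  | perm ps ps' μ hp _ ih => exact ih.mono (PF_perm hp)

theorem rplus {U n : ℕ} {η μ : List ℕ} {ps : List Piece} {lam : ℕ → ℕ} (hch : Ch U η ps)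
    (hcl : Cl ps μ) (hl : IsPart n lam) (hs : μ.sum = n) (hd : Dom lam μ) :
    Pos (fn η) (fn η) lam := by
  obtain ⟨t, -⟩ := exists_tab (ι := Fin n) (α := lam) (by simpa using hl)
  obtain ⟨col, hc, hi⟩ := gale_ryser t μ (by simpa using hs) hd
  obtain ⟨x, hx⟩ := mono_ne t col hi
  exact pos_of_G t _ ((hcl.has.mono hch.le) (Fin n) col hc x) hx

end Crest.Agent.R195
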