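import Crest.Agent.R195.Defs2

/-!
# Row 195: format of the certificates for small `n`
-/

set_option autoImplicit false

namespace Crest.Agent.R195

/-- Shape, shapes used, whether the inner shape is used, chains, certificate. -/
abbrev Rec : Type := List ℕ × List (List ℕ) × Bool × List (List Sp) × List ℕ

/-- The two triples that are evaluated directly. -/
def bs0 : List (List ℕ × List ℕ × List ℕ) :=
  [([5, 3, 3, 1, 1], [5, 3, 3, 1, 1], [4, 4, 4, 1]), ([5, 3, 3, 1, 1], [5, 3, 3, 1, 1], [4, 4, 3, 2])]

def rec1 (r : Rec) : Bool := recOK r.2.1 bs0 r.1 r.2.2.1 r.2.2.2.1 (tokens r.2.2.2.2)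

end Crest.Agent.R195
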