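import Crest.Agent.R195.Tab2

/-!
# Row 195: Specht modules are irreducible and pairwise non-isomorphic (James)

Notation: `M = RowWord n →₀ ℂ`, `g • single w = single (w ∘ g⁻¹)`, `κ_t = ∑_{σ ∈ colGrp t.c} sg σ • σ`.
* `g • pt t = pt t'` for the relabelled tableau `t'.r = t.r ∘ g⁻¹`, `t'.c = t.c ∘ g⁻¹`, so `Spec n α` is
  the span of the `pt t` (`mem_spec_iff`); all `pt t` are conjugate under the group (`alt_conj`).
* `κ_t (single w) = altw t.c w single`; for `w` of content `α` it is `co t w • pt t`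
  (`altw_eq_co_smul`); so `κ_t x = ⟨x, pt t⟩ • pt t` on words of content `α`, with
  `⟨x, pt t⟩ = ∑_w x w * co t w`.
* Irreducible: let `0 ≠ U ≤ Spec`.  If `⟨x, pt t⟩ = 0` for all `x ∈ U` and all `t`, then for `0 ≠ x ∈ U`
  the conjugate-linear pairing `∑_w x w * conj (x w)` vanishes (write `x = ∑ c_t pt t`; the `pt t` have
  integer coefficients, so `conj x = ∑ conj c_t pt t`), contradiction.  So `κ_t x` is a nonzero multiple of
  `pt t` in `U`, and then all `pt t' ∈ U`.
* Non-isomorphic: if `φ : Spec α ≃ Spec β` then `κ_t (φ (pt t)) = φ (κ_t pt t) = |C_t| φ (pt t) ≠ 0`, so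
  `κ_t (single w) ≠ 0` for a word `w` of content `β`, `w` is injective on the columns of `t`
  (`altw_eq_zero_word`), so `∑_{a<j} β a ≤ ∑_{a<j} α a` (`Tab.card_lt_le`).  Symmetric, so `α = β`.
-/

set_option autoImplicit false

namespace Crest.Agent.R195

open Finset Crest.AlgebraR.Specht

theorem rep1_single {n : ℕ} (g : Equiv.Perm (Fin n)) (w : Fin n → ℕ) :
    rowWordRep n g (Finsupp.single (α := RowWord n) w (1 : ℂ)) =
      Finsupp.single (α := RowWord n) (w ∘ g.symm : Fin n → ℕ) (1 : ℂ) := by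
  exact Finsupp.mapDomain_single (f := fun v : RowWord n => g • v) (a := (w : RowWord n))
    (b := (1 : ℂ))

theorem pt_apply {n : ℕ} {α : ℕ → ℕ} (t : Tab (Fin n) α) (w : Fin n → ℕ) :
    (pt t) (w : RowWord n) = (co t w : ℂ) := by
  have h1 := map_altw (Finsupp.applyAddHom (ι := RowWord n) (M := ℂ) w) t.c t.r
    (fun v => Finsupp.single (α := RowWord n) v (1 : ℂ))
  have h2 := map_altw (Int.castAddHom ℂ) t.c t.r (fun v => if v = w then (1 : ℤ) else 0)
  have h3 : (pt t) (w : RowWord n) = _ := h1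
  have h4 : (co t w : ℂ) = _ := h2
  rw [h3, h4]
  apply altw_congr
  intro σ _
  show (Finsupp.single (α := RowWord n) (t.r ∘ σ) (1 : ℂ)) (w : RowWord n) =
    (((if t.r ∘ σ = w then (1 : ℤ) else 0) : ℤ) : ℂ)
  by_cases h : t.r ∘ σ = w
  · rw [if_pos h, h, Int.cast_one]
    exact Finsupp.single_eq_same
  · rw [if_neg h, Int.cast_zero]
    exact Finsupp.single_eq_of_ne (fun h' => h h'.symm)

theorem rowWordRep_apply {n : ℕ} (g : Equiv.Perm (Fin n)) (x : RowWord n →₀ ℂ) (w : Fin n → ℕ) :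
    (rowWordRep n g x) (w : RowWord n) = x ((w ∘ g : Fin n → ℕ) : RowWord n) := by
  have hinj : Function.Injective (fun v : RowWord n => g • v) := MulAction.injective g
  have h : (w : RowWord n) = g • (show RowWord n from w ∘ g) := by
    funext i
    show w i = w (g (g.symm i))
    rw [Equiv.apply_symm_apply]
  show Finsupp.mapDomain (fun v : RowWord n => g • v) x w = _
  conv_lhs => rw [h]
  exact Finsupp.mapDomain_apply hinj x _

theorem rep1_alt {n : ℕ} {α : ℕ → ℕ} (t : Tab (Fin n) α) (g : Equiv.Perm (Fin n)) :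
    rowWordRep n g (pt t) =
      alt t (fun x => Finsupp.single (α := RowWord n) (x ∘ g.symm : Fin n → ℕ) (1 : ℂ)) := by
  unfold pt alt
  rw [map_altw]
  exact altw_congr fun σ _ => rep1_single g _

theorem rowWordRep_pt {n : ℕ} {α : ℕ → ℕ} (t t' : Tab (Fin n) α) (g : Equiv.Perm (Fin n))
    (hr : t'.r = t.r ∘ g.symm) (hc : t'.c = t.c ∘ g.symm) : rowWordRep n g (pt t) = pt t' := by
  rw [rep1_alt]
  have hr' : t.r = t'.r ∘ g := by
    rw [hr]; funext i; simp
  have hc' : t.c = t'.c ∘ g := by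
    rw [hc]; funext i; simp
  exact (alt_relabel t' t g hr' hc'
    (fun v => Finsupp.single (α := RowWord n) v (1 : ℂ))).symm

/-- All polytabloids of one shape are conjugate. -/
theorem rep1_conj {n : ℕ} {α : ℕ → ℕ} (t t' : Tab (Fin n) α) :
    ∃ g : Equiv.Perm (Fin n), rowWordRep n g (pt t) = pt t' := by
  obtain ⟨e, -, -, h⟩ := alt_conj t' t
  refine ⟨e, ?_⟩
  rw [rep1_alt]
  exact (h (RowWord n →₀ ℂ) (fun v => Finsupp.single (α := RowWord n) v (1 : ℂ))).symm

theorem mem_spec_iff {n : ℕ} {α : ℕ → ℕ} (x : RowWord n →₀ ℂ) :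
    x ∈ (Spec n α).toSubmodule ↔
      x ∈ Submodule.span ℂ (Set.range fun t : Tab (Fin n) α => pt t) := by
  constructor
  · intro hx
    have hx' : x ∈ sInf {p : Submodule ℂ (RowWord n →₀ ℂ) |
        (Set.range fun t : Tab (Fin n) α => pt t) ⊆ p ∧
          ∀ g : Equiv.Perm (Fin n), ∀ v ∈ p, rowWordRep n g v ∈ p} := hx
    rw [Submodule.mem_sInf] at hx'
    refine hx' _ ⟨Submodule.subset_span, ?_⟩
    intro g v hv
    induction hv using Submodule.span_induction with
    | mem v hv =>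
      obtain ⟨t, rfl⟩ := hv
      obtain ⟨t', hr, hc⟩ := t.exists_relabel g.symm
      rw [rowWordRep_pt t t' g hr hc]
      exact Submodule.subset_span ⟨t', rfl⟩
    | zero => rw [map_zero]; exact Submodule.zero_mem _
    | add u v _ _ hu hv => rw [map_add]; exact Submodule.add_mem _ hu hv
    | smul a v _ hv => rw [map_smul]; exact Submodule.smul_mem _ _ hv
  · intro hx
    show x ∈ sInf {p : Submodule ℂ (RowWord n →₀ ℂ) |
        (Set.range fun t : Tab (Fin n) α => pt t) ⊆ p ∧
          ∀ g : Equiv.Perm (Fin n), ∀ v ∈ p, rowWordRep n g v ∈ p}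
    rw [Submodule.mem_sInf]
    intro p hp
    exact Submodule.span_le.2 hp.1 hx

theorem pt_mem_spec {n : ℕ} {α : ℕ → ℕ} (t : Tab (Fin n) α) : pt t ∈ (Spec n α).toSubmodule :=
  (mem_spec_iff _).2 (Submodule.subset_span ⟨t, rfl⟩)

/-- The `pt t` are supported on the finitely many words with values `< n`. -/
theorem spec_finite (n : ℕ) (α : ℕ → ℕ) : FiniteDimensional ℂ (Spec n α).toSubmodule := by
  have hfin : (Set.range fun t : Tab (Fin n) α => pt t).Finite := by
    by_cases h : Nonempty (Tab (Fin n) α)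
    · obtain ⟨t0⟩ := h
      refine (Set.finite_range fun g : Equiv.Perm (Fin n) => rowWordRep n g (pt t0)).subset ?_
      rintro _ ⟨t, rfl⟩
      exact rep1_conj t0 t
    · rw [not_nonempty_iff] at h
      rw [Set.range_eq_empty]
      exact Set.finite_empty
  have : (Spec n α).toSubmodule = Submodule.span ℂ (Set.range fun t : Tab (Fin n) α => pt t) :=
    Submodule.ext mem_spec_iff
  rw [this]
  exact FiniteDimensional.span_of_finite ℂ hfin

/-- The column antisymmetriser in a representation. -/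
noncomputable def rep1Kap {n : ℕ} {V : Type*} [AddCommGroup V] [Module ℂ V] (c : Fin n → ℕ)
    (ρ : Representation ℂ (Equiv.Perm (Fin n)) V) : V →ₗ[ℂ] V :=
  ∑ σ ∈ colGrp c, sg σ • ρ σ⁻¹

theorem rep1Kap_apply {n : ℕ} {V : Type*} [AddCommGroup V] [Module ℂ V] (c : Fin n → ℕ)
    (ρ : Representation ℂ (Equiv.Perm (Fin n)) V) (x : V) :
    rep1Kap c ρ x = ∑ σ ∈ colGrp c, sg σ • ρ σ⁻¹ x := by
  unfold rep1Kap
  rw [LinearMap.sum_apply]
  rfl

theorem rep1Kap_single {n : ℕ} (c w : Fin n → ℕ) :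
    rep1Kap c (rowWordRep n) (Finsupp.single (α := RowWord n) w (1 : ℂ)) =
      altw c w fun v => Finsupp.single (α := RowWord n) v (1 : ℂ) := by
  rw [rep1Kap_apply]
  unfold altw
  refine Finset.sum_congr rfl fun σ _ => ?_
  rw [rep1_single]
  rfl

theorem rep1Kap_mem {n : ℕ} {V : Type*} [AddCommGroup V] [Module ℂ V] (c : Fin n → ℕ)
    {ρ : Representation ℂ (Equiv.Perm (Fin n)) V} (U : Subrepresentation ρ) {x : V}
    (hx : x ∈ U.toSubmodule) : rep1Kap c ρ x ∈ U.toSubmodule := by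
  rw [rep1Kap_apply]
  exact Submodule.sum_mem _ fun σ _ => zsmul_mem (U.apply_mem_toSubmodule _ hx) _

theorem rep1Kap_map {n : ℕ} {V W : Type*} [AddCommGroup V] [Module ℂ V] [AddCommGroup W]
    [Module ℂ W] (c : Fin n → ℕ) {ρ : Representation ℂ (Equiv.Perm (Fin n)) V}
    {τ : Representation ℂ (Equiv.Perm (Fin n)) W} (f : V →ₗ[ℂ] W)
    (hf : ∀ g x, f (ρ g x) = τ g (f x)) (x : V) : f (rep1Kap c ρ x) = rep1Kap c τ (f x) := by
  rw [rep1Kap_apply, rep1Kap_apply, map_sum]
  refine Finset.sum_congr rfl fun σ _ => ?_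
  rw [map_zsmul, hf]

theorem rep1Kap_coe {n : ℕ} (c : Fin n → ℕ) (S : Subrepresentation (rowWordRep n))
    (x : S.toSubmodule) :
    ((rep1Kap c S.toRepresentation x : S.toSubmodule) : RowWord n →₀ ℂ) =
      rep1Kap c (rowWordRep n) x :=
  rep1Kap_map c (ρ := S.toRepresentation) (τ := rowWordRep n) S.toSubmodule.subtype
    (fun _ _ => rfl) x

/-- The span of the words of content `α`. -/
noncomputable def rep1Con (n : ℕ) (α : ℕ → ℕ) : Submodule ℂ (RowWord n →₀ ℂ) :=
  Submodule.span ℂ {x | ∃ w : Fin n → ℕ, (∀ a, (univ.filter fun i => w i = a).card = α a) ∧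
    x = Finsupp.single (α := RowWord n) w (1 : ℂ)}

theorem rep1_pt_mem_con {n : ℕ} {α : ℕ → ℕ} (t : Tab (Fin n) α) : pt t ∈ rep1Con n α := by
  unfold pt alt altw
  refine Submodule.sum_mem _ fun σ _ => zsmul_mem ?_ _
  unfold rep1Con
  refine Submodule.subset_span ?_
  refine ⟨t.r ∘ σ, ?_, rfl⟩
  intro a
  rw [← t.cnt a]
  refine Finset.card_bij (fun i _ => σ i) ?_ ?_ ?_
  · intro i hi
    simpa using hi
  · intro i _ j _ h
    exact σ.injective h
  · intro j hj
    refine ⟨σ.symm j, ?_, by simp⟩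
    simpa using hj

theorem rep1_spec_le_con {n : ℕ} {α : ℕ → ℕ} {x : RowWord n →₀ ℂ}
    (hx : x ∈ (Spec n α).toSubmodule) : x ∈ rep1Con n α := by
  rw [mem_spec_iff] at hx
  refine Submodule.span_le.2 ?_ hx
  rintro _ ⟨t, rfl⟩
  exact rep1_pt_mem_con t

/-- The bilinear pairing with the polytabloid of `t`. -/
noncomputable def rep1Ip {n : ℕ} {α : ℕ → ℕ} (t : Tab (Fin n) α) : (RowWord n →₀ ℂ) →ₗ[ℂ] ℂ :=
  Finsupp.linearCombination ℂ fun w : RowWord n => (co t w : ℂ)

theorem rep1Kap_con {n : ℕ} {α : ℕ → ℕ} (t : Tab (Fin n) α) {x : RowWord n →₀ ℂ}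
    (hx : x ∈ rep1Con n α) : rep1Kap t.c (rowWordRep n) x = rep1Ip t x • pt t := by
  induction hx using Submodule.span_induction with
  | mem v hv =>
    obtain ⟨w, hw, rfl⟩ := hv
    rw [rep1Kap_single, altw_eq_co_smul t w hw]
    have h1 : rep1Ip t (Finsupp.single (α := RowWord n) w (1 : ℂ)) = (co t w : ℂ) := by
      unfold rep1Ip
      exact (Finsupp.linearCombination_single ℂ (1 : ℂ) (w : RowWord n)).trans (one_smul _ _)
    rw [h1, Int.cast_smul_eq_zsmul]
    rfl
  | zero => simp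
  | add u v _ _ hu hv => rw [map_add, map_add, hu, hv, add_smul]
  | smul a v _ hv => rw [map_smul, map_smul, hv, smul_smul, smul_eq_mul]

/-- The Hermitian pairing. -/
noncomputable def rep1B {n : ℕ} (x y : RowWord n →₀ ℂ) : ℂ :=
  ∑ w ∈ x.support, x w * (starRingEnd ℂ) (y w)

theorem rep1B_pt {n : ℕ} {α : ℕ → ℕ} (t : Tab (Fin n) α) (x : RowWord n →₀ ℂ) :
    rep1B x (pt t) = rep1Ip t x := by
  unfold rep1B rep1Ip
  rw [Finsupp.linearCombination_apply, Finsupp.sum]
  refine Finset.sum_congr rfl fun w _ => ?_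
  have : (pt t) w = (co t w : ℂ) := pt_apply t w
  rw [this, map_intCast, smul_eq_mul]

theorem rep1B_self {n : ℕ} {x : RowWord n →₀ ℂ} (h : rep1B x x = 0) : x = 0 := by
  unfold rep1B at h
  simp only [Complex.mul_conj] at h
  rw [← Complex.ofReal_sum, Complex.ofReal_eq_zero,
    Finset.sum_eq_zero_iff_of_nonneg fun w _ => Complex.normSq_nonneg _] at h
  ext w
  by_cases hw : w ∈ x.support
  · exact Complex.normSq_eq_zero.1 (h w hw)
  · exact Finsupp.notMem_support_iff.1 hw

theorem rep1_exists_ip {n : ℕ} {α : ℕ → ℕ} {x : RowWord n →₀ ℂ}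
    (hx : x ∈ (Spec n α).toSubmodule) (h0 : x ≠ 0) : ∃ t : Tab (Fin n) α, rep1Ip t x ≠ 0 := by
  by_contra hcon
  push Not at hcon
  apply h0
  apply rep1B_self
  have key : ∀ y ∈ Submodule.span ℂ (Set.range fun t : Tab (Fin n) α => pt t), rep1B x y = 0 := by
    intro y hy
    induction hy using Submodule.span_induction with
    | mem v hv =>
      obtain ⟨t, rfl⟩ := hv
      rw [rep1B_pt, hcon]
    | zero => simp [rep1B]
    | add u v _ _ hu hv =>
      unfold rep1B at *
      simp only [Finsupp.add_apply, map_add, mul_add, Finset.sum_add_distrib, hu, hv, add_zero]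
    | smul a v _ hv =>
      unfold rep1B at *
      simp only [Finsupp.smul_apply, smul_eq_mul, map_mul]
      have : ∀ w, x w * ((starRingEnd ℂ) a * (starRingEnd ℂ) (v w)) =
          (starRingEnd ℂ) a * (x w * (starRingEnd ℂ) (v w)) := fun w => by ring
      simp only [this, ← Finset.mul_sum, hv, mul_zero]
  exact key x ((mem_spec_iff x).1 hx)

theorem rep1_pt_ne_zero {n : ℕ} {α : ℕ → ℕ} (t : Tab (Fin n) α) : pt t ≠ 0 := by
  intro h
  have h1 := pt_apply t (t.r ∘ (1 : Equiv.Perm (Fin n)))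
  rw [co_comp t (one_mem_colGrp _), sg_one, h, Int.cast_one] at h1
  exact zero_ne_one h1

theorem rep1_exists_tab {n : ℕ} {α : ℕ → ℕ} (hα : IsPart n α) : Nonempty (Tab (Fin n) α) := by
  have hα' : IsPart (Fintype.card (Fin n)) α := by rwa [Fintype.card_fin]
  obtain ⟨t, -⟩ := exists_tab hα'
  exact ⟨t⟩

theorem spec_irred {n : ℕ} {α : ℕ → ℕ} (hα : IsPart n α) :
    Representation.IsIrreducible (V := (Spec n α).toSubmodule) (Spec n α).toRepresentation := by
  obtain ⟨t0⟩ := rep1_exists_tab hα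
  have hnt : (⊥ : Subrepresentation (Spec n α).toRepresentation) ≠ ⊤ := by
    intro h
    have h1 : (⟨pt t0, pt_mem_spec t0⟩ : (Spec n α).toSubmodule) ∈
        (⊤ : Subrepresentation (Spec n α).toRepresentation).toSubmodule := Submodule.mem_top
    rw [← h] at h1
    have h2 : (⟨pt t0, pt_mem_spec t0⟩ : (Spec n α).toSubmodule) = 0 := (Submodule.mem_bot ℂ).1 h1
    exact rep1_pt_ne_zero t0 (congrArg Subtype.val h2)
  have : Nontrivial (Subrepresentation (Spec n α).toRepresentation) := ⟨⟨_, _, hnt⟩⟩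
  refine ⟨fun U => ?_⟩
  by_cases hU : U.toSubmodule = ⊥
  · left
    exact Subrepresentation.ext hU
  · right
    obtain ⟨x, hxU, hx0⟩ := Submodule.exists_mem_ne_zero_of_ne_bot hU
    have hx0' : (x : RowWord n →₀ ℂ) ≠ 0 := fun h => hx0 (Subtype.ext h)
    obtain ⟨t, ht⟩ := rep1_exists_ip x.2 hx0'
    have h1 := rep1Kap_mem (V := (Spec n α).toSubmodule) t.c U hxU
    have h2 : rep1Kap t.c (Spec n α).toRepresentation x =
        rep1Ip t x • (⟨pt t, pt_mem_spec t⟩ : (Spec n α).toSubmodule) := by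
      apply Subtype.ext
      rw [rep1Kap_coe, rep1Kap_con t (rep1_spec_le_con x.2)]
      rfl
    rw [h2] at h1
    have h3 : (⟨pt t, pt_mem_spec t⟩ : (Spec n α).toSubmodule) ∈ U.toSubmodule :=
      (Submodule.smul_mem_iff _ ht).1 h1
    have h4 : ∀ t' : Tab (Fin n) α,
        (⟨pt t', pt_mem_spec t'⟩ : (Spec n α).toSubmodule) ∈ U.toSubmodule := by
      intro t'
      obtain ⟨g, hg⟩ := rep1_conj t t'
      have h5 := U.apply_mem_toSubmodule g h3
      have h6 : (Spec n α).toRepresentation g ⟨pt t, pt_mem_spec t⟩ =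
          (⟨pt t', pt_mem_spec t'⟩ : (Spec n α).toSubmodule) := Subtype.ext hg
      rwa [h6] at h5
    apply Subrepresentation.ext
    show U.toSubmodule = ⊤
    rw [eq_top_iff]
    intro y _
    have h7 : Submodule.span ℂ (Set.range fun t : Tab (Fin n) α => pt t) ≤
        U.toSubmodule.map (Spec n α).toSubmodule.subtype := by
      rw [Submodule.span_le]
      rintro _ ⟨t', rfl⟩
      exact ⟨_, h4 t', rfl⟩
    obtain ⟨z, hz, hzy⟩ := h7 ((mem_spec_iff _).1 y.2)
    have : z = y := Subtype.ext hzy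
    rwa [this] at hz

theorem rep1_card_lt {n : ℕ} {β : ℕ → ℕ} (w : Fin n → ℕ)
    (hw : ∀ a, (univ.filter fun i => w i = a).card = β a) (j : ℕ) :
    (univ.filter fun i => w i < j).card = ∑ a ∈ range j, β a := by
  rw [Finset.card_eq_sum_card_fiberwise (f := w) (t := range j)
    (fun i hi => by simpa using hi)]
  refine Finset.sum_congr rfl fun a ha => ?_
  rw [← hw a, Finset.filter_filter]
  congr 1
  ext i
  have := Finset.mem_range.1 ha
  simp only [Finset.mem_filter, Finset.mem_univ, true_and]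
  omega

theorem rep1_dom {n : ℕ} {α β : ℕ → ℕ} (hα : IsPart n α)
    (φ : Representation.Equiv (Spec n α).toRepresentation (Spec n β).toRepresentation) (j : ℕ) :
    ∑ a ∈ range j, β a ≤ ∑ a ∈ range j, α a := by
  obtain ⟨t⟩ := rep1_exists_tab hα
  have hip : rep1Ip t (pt t) ≠ 0 := by
    intro h
    apply rep1_pt_ne_zero t
    apply rep1B_self
    rw [rep1B_pt, h]
  set x : (Spec n α).toSubmodule := ⟨pt t, pt_mem_spec t⟩ with hx
  have hx0 : x ≠ 0 := fun h => rep1_pt_ne_zero t (congrArg Subtype.val h)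
  have h2 : rep1Kap t.c (Spec n α).toRepresentation x = rep1Ip t (pt t) • x := by
    apply Subtype.ext
    rw [rep1Kap_coe, rep1Kap_con t (rep1_spec_le_con x.2)]
    rfl
  have h3 := rep1Kap_map (V := (Spec n α).toSubmodule) (W := (Spec n β).toSubmodule) t.c
    (ρ := (Spec n α).toRepresentation) (τ := (Spec n β).toRepresentation)
    φ.toLinearEquiv.toLinearMap
    (fun g v => LinearMap.congr_fun (φ.toIntertwiningMap.isIntertwining' g) v) x
  rw [h2, map_smul] at h3
  have hy0 : φ.toLinearEquiv.toLinearMap x ≠ 0 := fun h =>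
    hx0 (φ.toLinearEquiv.injective (h.trans (map_zero φ.toLinearEquiv).symm))
  set y := φ.toLinearEquiv.toLinearMap x with hy
  have h4 : rep1Kap t.c (rowWordRep n) (y : RowWord n →₀ ℂ) ≠ 0 := by
    rw [← rep1Kap_coe, ← h3]
    intro h
    have : rep1Ip t (pt t) • y = 0 := Subtype.ext h
    exact smul_ne_zero hip hy0 this
  have h5 : ∃ w : Fin n → ℕ, (∀ a, (univ.filter fun i => w i = a).card = β a) ∧
      (altw t.c w fun v => Finsupp.single (α := RowWord n) v (1 : ℂ)) ≠ 0 := by
    by_contra hcon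
    push Not at hcon
    apply h4
    have : rep1Con n β ≤ LinearMap.ker (rep1Kap t.c (rowWordRep n)) := by
      unfold rep1Con
      rw [Submodule.span_le]
      rintro _ ⟨w, hw, rfl⟩
      show rep1Kap t.c (rowWordRep n) _ = 0
      rw [rep1Kap_single]
      exact hcon w hw
    exact this (rep1_spec_le_con y.2)
  obtain ⟨w, hw, hne⟩ := h5
  rw [← rep1_card_lt w hw j]
  refine t.card_lt_le w (fun i k hc hwe => ?_) j
  by_contra hik
  exact hne (altw_eq_zero_word hik hc hwe _)

theorem spec_noniso {n : ℕ} {α β : ℕ → ℕ} (hα : IsPart n α) (hβ : IsPart n β)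
    (h : Nonempty (Representation.Equiv (Spec n α).toRepresentation (Spec n β).toRepresentation)) :
    α = β := by
  obtain ⟨φ⟩ := h
  have hs : ∀ j, ∑ a ∈ range j, α a = ∑ a ∈ range j, β a := fun j =>
    le_antisymm (rep1_dom hβ φ.symm j) (rep1_dom hα φ j)
  funext j
  have h1 := hs (j + 1)
  rw [Finset.sum_range_succ, Finset.sum_range_succ, hs j] at h1
  omega

end Crest.Agent.R195
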