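import Crest.Agent.R195.Cliff
import Crest.Agent.R195.Domino

/-!
# Row 195: clusters see all shapes with at most four rows
-/

set_option autoImplicit false

namespace Crest.Agent.R195

open Finset

theorem Tab.r_lt_four {ι : Type} [Fintype ι] [DecidableEq ι] {κ : ℕ → ℕ} (t : Tab ι κ)
    (h4 : κ 4 = 0) (i : ι) : t.r i < 4 := by
  by_contra hi
  obtain ⟨j, hj⟩ : ∃ j, t.r j = 4 := by
    by_cases h : t.r i = 4
    · exact ⟨i, h⟩
    · obtain ⟨j, hj, -⟩ := t.down i 4 (by omega)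
      exact ⟨j, hj⟩
  have := t.cnt 4
  rw [h4, card_eq_zero] at this
  exact absurd (mem_filter.2 ⟨mem_univ j, hj⟩) (by rw [this]; exact notMem_empty j)

theorem sees_card_ne {ι : Type} [Fintype ι] [DecidableEq ι] (c : ι → ℕ) :
    ((colGrp c).card : ℂ) ≠ 0 :=
  Nat.cast_ne_zero.2 (card_ne_zero.2 ⟨1, one_mem_colGrp c⟩)

theorem sees_band_fun {ι : Type} [Fintype ι] [DecidableEq ι] (h : ℕ) (c w : ι → ℕ)
    (hn : Fintype.card ι = 2 * h + 1) (h4 : ∀ i, w i < 4)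
    (hinj : ∀ i j, w i = w j → c i = c j → i = j) :
    ∃ F ∈ (Piece.band h).A ι, altw c w F ≠ 0 := by
  obtain ⟨l, hl, hmem, hlen, hs⟩ := exists_sorted_list (univ : Finset ι) c
  have hE : Enum l := ⟨hl, fun i => (hmem i).2 (mem_univ i)⟩
  rw [card_univ, hn] at hlen
  have hodd : (l.map w).length % 2 = 1 := by rw [List.length_map]; omega
  have hlt : ∀ x ∈ l.map w, x < 4 := fun x hx => by
    obtain ⟨i, -, rfl⟩ := List.mem_map.1 hx
    exact h4 i
  obtain ⟨Z, hZ, hne, -⟩ := cliff_ne _ _ hodd hodd hlt hlt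
  refine ⟨_, band_mem h l hE hlen Z, ?_⟩
  rw [cliff_alt Z hZ c w l hE hs h4 hinj]
  exact mul_ne_zero (sees_card_ne c) hne

theorem sees_gap_fun {ι : Type} [Fintype ι] [DecidableEq ι] (h : ℕ) (hh : 1 ≤ h) (c w : ι → ℕ)
    (hn : Fintype.card ι = 2 * h + 2) (h4 : ∀ i, w i < 4)
    (hinj : ∀ i j, w i = w j → c i = c j → i = j) (j0 : ℕ)
    (hj : (univ.filter fun i => c i = j0).card % 2 = 1) :
    ∃ F ∈ (Piece.gap h).A ι, altw c w F ≠ 0 := by
  obtain ⟨A, hA, hAm, hAl, hAs⟩ := exists_sorted_list (univ.filter fun i => c i = j0) c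
  obtain ⟨B, hB, hBm, hBl, hBs⟩ := exists_sorted_list (univ.filter fun i => ¬c i = j0) c
  simp only [mem_filter, mem_univ, true_and] at hAm hBm
  have hAB : ∀ i ∈ A, ∀ j ∈ B, c i ≠ c j := fun i hi j hj h =>
    (hBm j).1 hj (h.symm.trans ((hAm i).1 hi))
  have hE : Enum (A ++ B) := by
    refine ⟨List.nodup_append.2 ⟨hA, hB, fun i hi j hj h => hAB i hi j hj (by rw [h])⟩, fun i => ?_⟩
    rw [List.mem_append, hAm, hBm]
    exact em _
  have hlen : A.length + B.length = 2 * h + 2 := by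
    rw [hAl, hBl, card_filter_add_card_filter_not, card_univ, hn]
  have hlt : ∀ l : List ι, ∀ x ∈ l.map w, x < 4 := fun l x hx => by
    obtain ⟨i, -, rfl⟩ := List.mem_map.1 hx
    exact h4 i
  obtain ⟨Z, hZ, n1, n2⟩ := cliff_ne (A.map w) (B.map w) (by rw [List.length_map]; omega)
    (by rw [List.length_map]; omega) (hlt A) (hlt B)
  refine ⟨_, gap_mem h hh A B hE (by omega) hlen Z, ?_⟩
  rw [cliff_alt2 Z hZ c w A B hE hAs hBs hAB h4 hinj]
  exact mul_ne_zero (sees_card_ne c) (mul_ne_zero n1 n2)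

theorem sees_dom (A : Fam) (m q : ℕ) (κ : ℕ → ℕ) (hκ : IsPart (m + 2 * q) κ) (h4 : κ 4 = 0)
    (o : ℕ) (a : ℕ → ℕ) (ha : Antitone a) (hfit : ∀ i, 0 < a i → o + 2 * a i ≤ κ i)
    (hq : ∑ i ∈ range 4, a i = q)
    (hA : ∀ (ι : Type) [Fintype ι] [DecidableEq ι] (c w : ι → ℕ), Fintype.card ι = m →
      (∀ i, w i < 4) → (∀ i j, w i = w j → c i = c j → i = j) →
      (∀ j0, (univ.filter fun i => c i = j0).card = remCnt κ o a j0) →
      ∃ F ∈ A ι, altw c w F ≠ 0) :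
    ∃ (ι : Type) (_ : Fintype ι) (_ : DecidableEq ι) (t : Tab ι κ) (F : (ι → ℕ) → ℂ),
      F ∈ (A.mul (Piece.dbl q).A) ι ∧ alt t F ≠ 0 := by
  obtain ⟨ι1, ι0, _, _, _, _, t, θ, hc0, hd, h2, h1, hrem⟩ := domino_tab _ κ hκ h4 o a ha hfit
  have hlt := t.r_lt_four h4
  have hn := t.isPart.unique hκ
  rw [Fintype.card_sum, Fintype.card_sum, hc0, hq] at hn
  obtain ⟨F1, hF1, n1⟩ := hA ι1 (t.c ∘ Sum.inl) (t.r ∘ Sum.inl) (by omega) (fun i => hlt _)
    (fun i j e1 e2 => Sum.inl_injective (t.inj _ _ e1 e2)) hrem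
  obtain ⟨F, hF, hne⟩ := top_split A (Piece.dbl q).A (G_sub _ _ _) t hlt θ h2 h1 F1 _ hF1
    (dbl_mem q (hc0.trans hq) quat) n1
    (dbl_eval (t.c ∘ Sum.inr) (t.r ∘ Sum.inr) o (fun j => (hd j).1) (fun j => (hd j).2.1)
      (fun j => (hd j).2.2) (fun x => hlt _) fun i j e1 e2 => Sum.inr_injective (t.inj _ _ e1 e2))
  exact ⟨_, _, _, t, F, hF, hne⟩

/-- Any tableau `t` on `Fin (2h+1)`, `l` = letters sorted by column (`exists_sorted_list`), `Z` from `cliff_ne (l.map t.r) (l.map t.r)`,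
`band_mem`, `cliff_alt`. -/
theorem sees_band (h : ℕ) : Sees (Piece.band h).A (2 * h + 1) := by
  intro κ hκ h4
  obtain ⟨t, -⟩ := exists_tab (ι := Fin (2 * h + 1)) (α := κ) (by rwa [Fintype.card_fin])
  obtain ⟨F, hF, hne⟩ := sees_band_fun h t.c t.r (Fintype.card_fin _) (t.r_lt_four h4) t.inj
  exact ⟨_, _, _, t, F, hF, hne⟩

/-- `band_arith`, `domino_tab` (`card ι1 = 2h+1` by `Tab.isPart`, `IsPart.unique`), `top_split` with `band_mem`/`cliff_alt` and `dbl_mem`/`dbl_eval`. -/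
theorem sees_bandD (h q : ℕ) (hh : 1 ≤ h) :
    Sees ((Piece.band h).A.mul (Piece.dbl q).A) (2 * h + 1 + 2 * q) := by
  intro κ hκ h4
  obtain ⟨a, ha, hfit, hq⟩ := band_arith h q hh κ hκ h4
  exact sees_dom _ _ q κ hκ h4 0 a ha hfit hq fun ι _ _ c w hn hw hinj _ =>
    sees_band_fun h c w hn hw hinj

/-- `gap_arith`, `domino_tab`; `A` = the letters of `ι1` in column `j0` (odd number), `B` = the others sorted by column (odd number);
`gap_mem`, `cliff_ne`, `cliff_alt2`, `top_split`. -/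
theorem sees_gapD (h q : ℕ) (hh : 2 ≤ h) (hq : q % 2 = 1) (hqh : q ≤ h) :
    Sees ((Piece.gap h).A.mul (Piece.dbl q).A) (2 * h + 2 + 2 * q) := by
  intro κ hκ h4
  obtain ⟨o, a, j0, ha, hfit, hs, hj⟩ := gap_arith h q hh hq hqh κ hκ h4
  exact sees_dom _ _ q κ hκ h4 o a ha hfit hs fun ι _ _ c w hn hw hinj hrem =>
    sees_gap_fun h (by omega) c w hn hw hinj j0 (by rw [hrem, hj])

end Crest.Agent.R195
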