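import Crest.Agent.R195.Data0
import Crest.Agent.R195.Data1
import Crest.Agent.R195.Data2
import Crest.Agent.R195.Data3
import Crest.Agent.R195.Data4
import Crest.Agent.R195.Data5
import Crest.Agent.R195.Data6
import Crest.Agent.R195.Data7
import Crest.Agent.R195.Data8
import Crest.Agent.R195.Data9
import Crest.Agent.R195.Data10
import Crest.Agent.R195.Data11
import Crest.Agent.R195.Der
import Crest.Agent.R195.Base
import Crest.Agent.R195.FamK1

/-!
# Row 195: complete shapes for `n < 210`
-/

set_option autoImplicit false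

namespace Crest.Agent.R195

theorem base1 : baseOK [5, 3, 3, 1, 1] [5, 3, 3, 1, 1] [4, 4, 4, 1]
    [((0,0,1),(0,3,2)),((2,0,0),(0,4,0)),((1,1,2),(0,1,2)),((3,2,0),(0,2,1)),((2,0,0),(1,1,2)),((0,2,1),(1,1,0)),((1,1,2),(1,0,0)),((0,1,3),(2,2,0)),((4,4,0),(0,0,3)),((0,0,1),(3,2,3)),((2,2,2),(2,0,3)),((1,3,1),(2,0,1)),((0,0,2),(4,0,1))]
    [((0,0,1),1),((0,0,2),1),((0,1,3),1),((0,2,1),1),((1,1,2),1),((1,3,1),1),((2,0,0),1),((2,2,2),1),((3,2,0),1),((4,4,0),1)] = true := by
  decide +kernel

theorem base2 : baseOK [5, 3, 3, 1, 1] [5, 3, 3, 1, 1] [4, 4, 3, 2]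
    [((0,0,1),(4,4,1)),((0,1,0),(3,1,1)),((1,2,3),(0,2,1)),((4,1,2),(0,0,1)),((2,0,2),(0,3,0)),((0,0,1),(0,1,0)),((0,1,0),(2,2,0)),((1,2,3),(2,1,0)),((2,0,1),(2,0,3)),((3,3,1),(0,0,2)),((2,0,2),(1,2,2)),((1,2,0),(1,0,2)),((0,4,0),(1,0,3))]
    [((0,0,1),1),((0,1,0),1),((0,4,0),1),((1,2,0),1),((1,2,3),1),((2,0,1),1),((2,0,2),1),((3,3,1),1),((4,1,2),1)] = true := by
  decide +kernel

theorem bs0_pos : ∀ x ∈ bs0, Pos (fn x.1) (fn x.2.1) (fn x.2.2) := by
  intro x hx
  simp only [bs0, List.mem_cons, List.not_mem_nil, or_false] at hx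
  rcases hx with rfl | rfl
  · exact base_sound base1
  · exact base_sound base2

theorem complete_nil : Complete ([] : List ℕ).sum (fn []) := by
  intro lam hl
  refine rp_sound (U := 0) (sp := []) rfl hl rfl ?_
  intro S hS
  have : S = 0 := by simpa [muOf] using hS
  simp [this]

/-- The shapes used by a record occur earlier. -/
def ordOK : List (List ℕ) → List Rec → Bool
  | _, [] => true
  | cs, r :: rs => r.2.1.all cs.contains && ordOK (r.1 :: cs) rs

theorem recs_sound (rs : List Rec) (h : rs.all rec1 = true) (cs : List (List ℕ))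
    (hcs : ∀ α ∈ cs, Complete α.sum (fn α)) (ho : ordOK cs rs = true) :
    ∀ r ∈ rs, Complete r.1.sum (fn r.1) := by
  induction rs generalizing cs with
  | nil => simp
  | cons r rs ih =>
    simp only [List.all_cons, Bool.and_eq_true] at h
    simp only [ordOK, Bool.and_eq_true, List.all_eq_true, List.contains_iff_mem] at ho
    have hr : Complete r.1.sum (fn r.1) :=
      recOK_sound r.2.1 bs0 (fun α hα => hcs α (ho.1 α hα)) bs0_pos _ _ _ _ h.1
    intro r' hr'
    rcases List.mem_cons.1 hr' with rfl | hr'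
    · exact hr
    · refine ih h.2 (r.1 :: cs) ?_ ho.2 r' hr'
      intro α hα
      rcases List.mem_cons.1 hα with rfl | hα
      · exact hr
      · exact hcs α hα

def allData : List Rec := data0 ++ data1 ++ data2 ++ data3 ++ data4 ++ data5 ++ data6 ++ data7 ++ data8 ++ data9 ++ data10 ++ data11

theorem allData_ok : allData.all rec1 = true := by
  rw [← show recF = rec1 from funext recF_eq]
  simp only [allData, List.all_append, data0_ok, data1_ok, data2_ok, data3_ok, data4_ok, data5_ok, data6_ok, data7_ok, data8_ok, data9_ok, data10_ok, data11_ok, Bool.and_self]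

theorem allData_ord : ordOK [[]] allData = true := by decide +kernel

def shapes : List (List ℕ) := allData.map (·.1)

theorem shapes_complete : ∀ α ∈ shapes, Complete α.sum (fn α) := by
  intro α hα
  obtain ⟨r, hr, rfl⟩ := List.mem_map.1 hα
  refine recs_sound allData allData_ok [[]] ?_ allData_ord r hr
  intro α hα
  rw [List.mem_singleton.1 hα]
  exact complete_nil

theorem small_cover : (List.range 210).all (fun n => decide (n = 0 ∨ n = 2 ∨ n = 4 ∨ n = 9) ||
    (shapes.map List.sum).contains n) = true := by decide +kernel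

theorem small_complete (n : ℕ) (hn : n < 210) (h0 : 0 < n) (h2 : n ≠ 2) (h4 : n ≠ 4) (h9 : n ≠ 9) :
    ∃ α, Complete n α := by
  have := List.all_eq_true.1 small_cover n (List.mem_range.2 hn)
  simp only [Bool.or_eq_true, decide_eq_true_eq, List.contains_iff_mem, List.mem_map] at this
  rcases this with h | ⟨α, hα, rfl⟩
  · omega
  · exact ⟨_, shapes_complete α hα⟩

theorem fam_cover : (List.range 2).all (fun i => (List.range 5).all fun q1 => (List.range 8).all fun q2 =>
    (List.range 3).all fun e => !decide (FamOK (i + 18) q1 q2 e) ||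
      (shapes.contains ((List.range (famH (i + 18) q1 q2)).map (famF (i + 18) q1 q2 e)) &&
        decide (((List.range (famH (i + 18) q1 q2)).map (famF (i + 18) q1 q2 e)).sum =
          famN (i + 18) q1 q2 e))) = true := by decide +kernel

theorem fam_base {L q1 q2 e : ℕ} (h : FamOK L q1 q2 e) (h1 : 18 ≤ L) (h2 : L < 20) :
    Complete (famN L q1 q2 e) (famF L q1 q2 e) := by
  have := fam_cover
  simp only [List.all_eq_true, List.mem_range, Bool.or_eq_true, Bool.not_eq_true',
    decide_eq_false_iff_not, Bool.and_eq_true, List.contains_iff_mem, decide_eq_true_eq] at this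
  have h' := h
  obtain ⟨ha, hb, hc⟩ := h'
  have := this (L - 18) (by omega) q1 (by omega) q2 (by omega) e (by omega)
  rw [show L - 18 + 18 = L by omega] at this
  obtain ⟨hm, hs⟩ := this.resolve_left (fun hn => hn h)
  have := shapes_complete _ hm
  rwa [hs, fn_map_range _ _ (fam_zero h)] at this

theorem stair_cover : (List.range 20).all (fun m => decide (m = 0) ||
    (shapes.contains ((List.range m).map fun a => m - a) &&
      decide (((List.range m).map fun a => m - a).sum = m * (m + 1) / 2))) = true := by decide +kernel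

theorem stair_base (m : ℕ) (h1 : 1 ≤ m) (h2 : m < 20) :
    Complete (m * (m + 1) / 2) (fun a => m - a) := by
  have := List.all_eq_true.1 stair_cover m (List.mem_range.2 h2)
  simp only [Bool.or_eq_true, decide_eq_true_eq, Bool.and_eq_true, List.contains_iff_mem] at this
  obtain ⟨hm, hs⟩ := this.resolve_left (by omega)
  have := shapes_complete _ hm
  rwa [hs, fn_map_range _ _ (fun a ha => by omega)] at this

end Crest.Agent.R195
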