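import Crest.Agent.R195.RPlus
import Crest.Agent.R195.Lists

/-!
# Row 195: soundness of chain specifications
-/

set_option autoImplicit false

namespace Crest.Agent.R195

open Finset

def toPiece (p : Sp) : Piece :=
  if p.1 = 0 then .strip p.2.1 p.2.2 else if p.1 = 1 then .band p.2.1
  else if p.1 = 2 then .gap p.2.1 else .dbl p.2.1

theorem bal4_sum (N : ℕ) : (bal4 N).sum = N := by
  simp only [bal4, List.sum_cons, List.sum_nil]; omega

theorem sps_piece (p : Sp) :
    (toPiece p).rows = spRows p ∧ (toPiece p).h = p.2.1 ∧ (toPiece p).hi = spHi p := by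
  rcases p with ⟨_ | _ | _ | a, h, q⟩ <;> simp [toPiece, spRows, spHi, Piece.rows, Piece.h, Piece.hi]

theorem spCh_sound {U : ℕ} {sp : List Sp} (h : spCh U sp = true) :
    Ch U (rowsOf sp) (sp.map toPiece) ∧ ∀ p ∈ sp, 1 ≤ p.2.1 := by
  induction sp generalizing U with
  | nil => exact ⟨Ch.nil U, by simp⟩
  | cons p sp ih =>
    simp only [spCh, Bool.and_eq_true, decide_eq_true_eq] at h
    obtain ⟨⟨h1, h2⟩, h3⟩ := h
    obtain ⟨e1, e2, e3⟩ := sps_piece p
    refine ⟨?_, List.forall_mem_cons.2 ⟨h2, (ih h3).2⟩⟩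
    rw [rowsOf, List.flatMap_cons, List.map_cons, ← e1]
    exact Ch.cons U _ _ _ (e3 ▸ h1) (e2 ▸ h2) (e2 ▸ (ih h3).1)

/-- The pieces grouped into clusters. -/
def spsCl (p : Sp) : List Piece := if 3 ≤ p.1 then [] else toPiece p :: (spExtra p).map .dbl

theorem sps_cl (sp : List Sp) (h1 : ∀ p ∈ sp, 1 ≤ p.2.1) (h2 : ∀ p ∈ sp, spGapOK p = true) :
    Cl (sp.flatMap spsCl) (muOf sp) := by
  induction sp with
  | nil => exact Cl.nil
  | cons p sp ih =>
    rw [List.forall_mem_cons] at h1 h2
    have ih := ih h1.2 h2.2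
    obtain ⟨h1, -⟩ := h1
    obtain ⟨h2, -⟩ := h2
    rw [muOf, List.flatMap_cons, List.flatMap_cons]
    rcases p with ⟨_ | _ | _ | a, h, q⟩
    · simpa [spsCl, toPiece, spExtra, spMu, muOf] using Cl.strip h q _ _ ih
    · rcases eq_or_ne q 0 with rfl | hq
      · simpa [spsCl, toPiece, spExtra, spMu, muOf] using
          Cl.band h (bal4 (2 * h + 1)) _ _ h1 (by simp [bal4]) (bal4_sum _) ih
      · simpa [spsCl, toPiece, spExtra, spMu, muOf, hq] using
          Cl.bandD h q (bal4 (2 * h + 1 + 2 * q)) _ _ h1 (by simp [bal4]) (bal4_sum _) ih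
    · simp only [spGapOK, zero_add, Nat.reduceAdd, if_true, Bool.and_eq_true,
        decide_eq_true_eq] at h2
      have hq : q ≠ 0 := by omega
      simpa [spsCl, toPiece, spExtra, spMu, muOf, hq] using
        Cl.gapD h q (bal4 (2 * h + 2 + 2 * q)) _ _ h2.1.1 h2.1.2 h2.2 (by simp [bal4]) (bal4_sum _) ih
    · simpa [spsCl, spMu, muOf] using ih

theorem sps_perm (sp : List Sp) :
    (sp.flatMap spsCl ++ (sp.flatMap spDbl).map Piece.dbl).Perm
      (sp.map toPiece ++ (sp.flatMap spExtra).map Piece.dbl) := by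
  induction sp with
  | nil => simp
  | cons p sp ih =>
    have h : (spsCl p ++ (spDbl p).map Piece.dbl).Perm (toPiece p :: (spExtra p).map Piece.dbl) := by
      rcases p with ⟨_ | _ | _ | a, h, q⟩ <;> simp [spsCl, toPiece, spExtra, spDbl]
    rw [List.perm_iff_count] at ih h ⊢
    intro x
    have h1 := ih x
    have h2 := h x
    simp only [List.flatMap_cons, List.map_cons, List.map_append, List.count_append,
      List.count_cons] at h1 h2 ⊢
    omega

/-- Let `cl sp = sp.flatMap fun p => if 3 ≤ p.1 then [] else toPiece p :: (spExtra p).map .dbl`.  By induction `Cl (cl sp) (muOf sp)`, and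
`cl sp ++ (sp.flatMap spDbl).map .dbl ~ sp.map toPiece ++ (sp.flatMap spExtra).map .dbl` (induction), so `cl sp ~ sp.map toPiece`
(`List.isPerm_iff`, `List.perm_append_right_iff`). -/
theorem spOK_sound {U : ℕ} {sp : List Sp} (h : spOK U sp = true) :
    Ch U (rowsOf sp) (sp.map toPiece) ∧ Cl (sp.map toPiece) (muOf sp) := by
  simp only [spOK, Bool.and_eq_true, List.all_eq_true, List.isPerm_iff] at h
  obtain ⟨⟨h1, h2⟩, h3⟩ := h
  refine ⟨(spCh_sound h1).1, Cl.perm _ _ _ ?_ (sps_cl sp (spCh_sound h1).2 h2)⟩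
  exact (List.perm_append_right_iff _).1 ((sps_perm sp).trans ((h3.map _).append_left _))

/-- `(muOf sp).sum + 2 * (sp.flatMap spDbl).sum = (rowsOf sp).sum + 2 * (sp.flatMap spExtra).sum`. -/
theorem spOK_sum {U : ℕ} {sp : List Sp} (h : spOK U sp = true) :
    (muOf sp).sum = (rowsOf sp).sum := by
  simp only [spOK, Bool.and_eq_true, List.all_eq_true, List.isPerm_iff] at h
  have h1 := h.2.sum_eq
  have h2 : ∀ sp : List Sp, (muOf sp).sum + 2 * (sp.flatMap spDbl).sum =
      (rowsOf sp).sum + 2 * (sp.flatMap spExtra).sum := fun sp => by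
    induction sp with
    | nil => rfl
    | cons p sp ih =>
      have h3 : (spMu p).sum + 2 * (spDbl p).sum = (spRows p).sum + 2 * (spExtra p).sum := by
        rcases p with ⟨_ | _ | _ | a, h, q⟩
        · simp [spMu, spDbl, spRows, spExtra]
        · rcases eq_or_ne q 0 with rfl | hq <;> simp [spMu, spDbl, spRows, spExtra, bal4_sum, *] <;> omega
        · rcases eq_or_ne q 0 with rfl | hq <;> simp [spMu, spDbl, spRows, spExtra, bal4_sum, *] <;> omega
        · simp [spMu, spDbl, spRows, spExtra]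
          omega
      simp only [muOf, rowsOf, List.flatMap_cons, List.sum_append] at ih ⊢
      omega
  have := h2 sp
  omega

theorem rp_sound {U n : ℕ} {sp : List Sp} {lam : ℕ → ℕ} (h : spOK U sp = true) (hl : IsPart n lam)
    (hs : (rowsOf sp).sum = n) (hd : Dom lam (muOf sp)) :
    Pos (fn (rowsOf sp)) (fn (rowsOf sp)) lam :=
  rplus (spOK_sound h).1 (spOK_sound h).2 hl ((spOK_sum h).trans hs) hd

end Crest.Agent.R195
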