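import Crest.Agent.R195.Defs2
import Crest.Agent.R195.Basic

/-!
# Row 195: the `sl₂` injectivity lemma and the operators `Eop`
-/

set_option autoImplicit false

namespace Crest.Agent.R195

open Finset MvPolynomial

/-- `∑_{c < N} X (u c) ∂/∂(v c)` -/
noncomputable def s1D {τ : Type} (N : ℕ) (u v : ℕ → τ) :
    Derivation ℂ (MvPolynomial τ ℂ) (MvPolynomial τ ℂ) :=
  ∑ c ∈ range N, (X (u c) : MvPolynomial τ ℂ) • pderiv (v c)

theorem s1D_apply {τ : Type} (N : ℕ) (u v : ℕ → τ) (Q : MvPolynomial τ ℂ) :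
    s1D N u v Q = ∑ c ∈ range N, X (u c) * pderiv (v c) Q := by
  unfold s1D
  induction N with
  | zero => simp
  | succ N ih => rw [sum_range_succ, sum_range_succ, Derivation.add_apply, ih]; rfl

theorem s1D_ne {τ : Type} {N : ℕ} (u : ℕ → τ) {v : ℕ → τ} {i : τ} (h : ∀ c < N, i ≠ v c) :
    s1D N u v (X i) = 0 := by
  rw [s1D_apply]
  exact sum_eq_zero fun c hc => by rw [pderiv_X_of_ne (h c (mem_range.1 hc)), mul_zero]

theorem s1D_self {τ : Type} {N : ℕ} (u : ℕ → τ) {v : ℕ → τ} (hv : Function.Injective v) {c : ℕ}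
    (hc : c < N) : s1D N u v (X (v c)) = X (u c) := by
  rw [s1D_apply, sum_eq_single_of_mem c (mem_range.2 hc), pderiv_X_self, mul_one]
  exact fun b _ hb => by rw [pderiv_X_of_ne (hv.ne hb.symm), mul_zero]

theorem s1D_coeff {τ : Type} (N : ℕ) (u : ℕ → τ) (Q : MvPolynomial τ ℂ) (m : τ →₀ ℕ) :
    coeff m (s1D N u u Q) = ((∑ c ∈ range N, m (u c) : ℕ) : ℂ) * coeff m Q := by
  classical
  rw [s1D_apply, coeff_sum, Nat.cast_sum, sum_mul]
  refine sum_congr rfl fun c _ => ?_
  induction Q using MvPolynomial.induction_on' with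
  | monomial d a =>
    rw [X_mul_pderiv_monomial, coeff_smul, coeff_monomial]
    split_ifs with h <;> simp [h]
  | add p q hp hq => rw [map_add, mul_add, coeff_add, coeff_add, hp, hq, mul_add]

/-- a derivation with `F (F (X i)) = 0` is locally nilpotent -/
theorem s1_nil {τ : Type} (F : Derivation ℂ (MvPolynomial τ ℂ) (MvPolynomial τ ℂ))
    (h : ∀ i, F (F (X i)) = 0) (Q : MvPolynomial τ ℂ) : ∃ n, F^[n] Q = 0 := by
  have z : ∀ n, F^[n] 0 = 0 := fun n => Function.iterate_fixed (map_zero F) n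
  have ad : ∀ n P Q, F^[n] (P + Q) = F^[n] P + F^[n] Q := fun n => by
    induction n with
    | zero => exact fun _ _ => rfl
    | succ n ih => exact fun P Q => by simp only [Function.iterate_succ_apply, map_add, ih]
  have h1 : ∀ y, F y = 0 → ∀ n P, F^[n] P = 0 → F^[n] (y * P) = 0 := fun y hy n => by
    induction n with
    | zero => exact fun P hP => by rw [show P = 0 from hP, mul_zero, z]
    | succ n ih =>
      intro P hP
      rw [Function.iterate_succ_apply, Derivation.leibniz, hy, smul_zero, add_zero]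
      exact ih _ hP
  have h2 : ∀ i n P, F^[n] P = 0 → F^[n + 1] (P * X i) = 0 := fun i n => by
    induction n with
    | zero => exact fun P hP => by rw [show P = 0 from hP, zero_mul, z]
    | succ n ih =>
      intro P hP
      rw [Function.iterate_succ_apply, Derivation.leibniz, ad, smul_eq_mul, smul_eq_mul, mul_comm P,
        h1 _ (h i) _ _ hP, mul_comm, ih _ hP, add_zero]
  induction Q using MvPolynomial.induction_on with
  | C a => exact ⟨1, derivation_C F a⟩
  | add p q hp hq =>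
    obtain ⟨n, hn⟩ := hp
    obtain ⟨m, hm⟩ := hq
    refine ⟨n + m, ?_⟩
    rw [ad, Function.iterate_add_apply _ n m q, hm, add_comm n, Function.iterate_add_apply, hn, z, z,
      add_zero]
  | mul_X p i hp => exact hp.elim fun n hn => ⟨n + 1, h2 i n p hn⟩

/-- a highest weight vector of negative weight on which `F` is nilpotent vanishes -/
theorem s1_hw {A : Type} [CommRing A] [Algebra ℂ A] {E F H : Derivation ℂ A A} (h1 : ⁅E, F⁆ = H)
    (h2 : ⁅F, H⁆ = F + F) {v : A} (hE : E v = 0) {k : ℕ} (hH : H v = (-(k + 1) : ℂ) • v) {n : ℕ}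
    (hn : F^[n] v = 0) : v = 0 := by
  have e1 : ∀ w, E (F w) = F (E w) + H w := fun w => by
    rw [← h1, Derivation.commutator_apply, add_sub_cancel]
  have e2 : ∀ w, H (F w) = F (H w) - (F w + F w) := fun w => by
    rw [← Derivation.add_apply, ← h2, Derivation.commutator_apply, sub_sub_cancel]
  have k1 : ∀ m : ℕ, H (F^[m] v) = (-(k + 1 + 2 * m) : ℂ) • F^[m] v := fun m => by
    induction m with
    | zero => simpa using hH
    | succ m ih =>
      rw [Function.iterate_succ_apply', e2, ih, Derivation.map_smul]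
      push_cast
      module
  have k2 : ∀ m : ℕ, E (F^[m + 1] v) = (-((m + 1) * (k + 1 + m)) : ℂ) • F^[m] v := fun m => by
    induction m with
    | zero => simpa [e1, hE] using hH
    | succ m ih =>
      rw [Function.iterate_succ_apply', e1, ih, k1, Derivation.map_smul,
        Function.iterate_succ_apply']
      push_cast
      module
  induction n with
  | zero => exact hn
  | succ n ih =>
    have := k2 n
    rw [hn, map_zero, eq_comm, smul_eq_zero, neg_eq_zero] at this
    exact ih (this.resolve_left (by norm_cast; positivity))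

/-- `E = ∑ ℓ_c ∂/∂s_c` is injective on polynomials of `s`-degree `j` and `ℓ`-degree `< j`.
Let `F = ∑ s_c ∂/∂ℓ_c`; `E F - F E` multiplies a monomial by `deg_ℓ - deg_s` (Euler:
`X x * pderiv x (monomial d a) = d x • monomial d a`).  Let `Q₀ ≠ 0` be the part of `Q` of some fixed `ℓ`-degree `d < j`
(`weightedHomogeneousComponent`, or `Finsupp.filter`); `E` raises the `ℓ`-degree by one, so `E Q = 0` gives `E Q₀ = 0`.
`F^m Q₀` has bidegree `(d - m, j + m)`, `F^(d+1) Q₀ = 0`, and by induction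
`E F^(m+1) Q₀ = (m+1) (d - j - m) F^m Q₀` with `d - j - m < 0`; so `F^(m+1) Q₀ = 0 → F^m Q₀ = 0`, whence `Q₀ = 0`. -/
theorem sl2_inj {τ : Type} [DecidableEq τ] (N : ℕ) (l s : ℕ → τ) (hl : Function.Injective l)
    (hs : Function.Injective s) (hls : ∀ a b, l a ≠ s b) (j : ℕ) (Q : MvPolynomial τ ℂ)
    (hQ : Q ≠ 0) (h1 : ∀ d ∈ Q.support, ∑ c ∈ range N, d (s c) = j)
    (h2 : ∀ d ∈ Q.support, ∑ c ∈ range N, d (l c) < j) :
    ∑ c ∈ range N, X (l c) * pderiv (s c) Q ≠ 0 := by
  have r1 : ∀ u c, s1D N u l (X (s c)) = 0 := fun u c => s1D_ne u fun a _ => (hls a c).symm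
  have r2 : ∀ u c, s1D N u s (X (l c)) = 0 := fun u c => s1D_ne u fun a _ => hls c a
  have rel : ∀ i, ⁅s1D N l s, s1D N s l⁆ (X i) = (s1D N l l - s1D N s s) (X i) ∧
      ⁅s1D N s l, s1D N l l - s1D N s s⁆ (X i) = (s1D N s l + s1D N s l) (X i) ∧
      ⁅s1D N l l - s1D N s s, s1D N l s⁆ (X i) = (s1D N l s + s1D N l s) (X i) ∧
      s1D N s l (s1D N s l (X i)) = 0 := fun i => by
    simp only [Derivation.commutator_apply, Derivation.sub_apply, Derivation.add_apply, map_sub]
    by_cases h : ∃ c < N, i = l c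
    · obtain ⟨c, hc, rfl⟩ := h
      simp [r1, r2, s1D_self _ hl hc, s1D_self _ hs hc]
    by_cases h' : ∃ c < N, i = s c
    · obtain ⟨c, hc, rfl⟩ := h'
      simp [r1, r2, s1D_self _ hl hc, s1D_self _ hs hc]
    push Not at h h'
    simp [s1D_ne _ h, s1D_ne _ h']
  have key : ∀ k ≤ j, ∀ Q : MvPolynomial τ ℂ, (∀ d ∈ Q.support, ∑ c ∈ range N, d (s c) = j) →
      (∀ d ∈ Q.support, ∑ c ∈ range N, d (l c) < k) → s1D N l s Q = 0 → Q = 0 := fun k => by
    induction k with
    | zero => exact fun _ Q _ h _ => support_eq_empty.1 (eq_empty_of_forall_notMem fun d hd =>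
        absurd (h d hd) (Nat.not_lt_zero _))
    | succ k ih =>
      intro hk Q g1 g2 hE
      obtain ⟨m, rfl⟩ : ∃ m, j = k + 1 + m := ⟨j - (k + 1), by omega⟩
      have hc : ∀ d ∈ ((s1D N l l - s1D N s s) Q - (-(m + 1) : ℂ) • Q).support,
          d ∈ Q.support ∧ ∑ c ∈ range N, d (l c) ≠ k := fun d hd => by
        rw [mem_support_iff, coeff_sub, Derivation.sub_apply, coeff_sub, s1D_coeff, s1D_coeff,
          coeff_smul, smul_eq_mul, ← sub_mul, ← sub_mul, mul_ne_zero_iff, ← mem_support_iff] at hd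
        refine ⟨hd.2, fun e => hd.1 ?_⟩
        rw [e, g1 d hd.2]
        push_cast
        ring
      have h3 := congrArg (· Q) (derivation_ext fun i => (rel i).2.2.1)
      simp only [Derivation.commutator_apply, Derivation.add_apply, hE, map_zero, zero_sub, add_zero,
        neg_eq_zero] at h3
      have h4 := ih (by omega) _ (fun d hd => g1 d (hc d hd).1)
        (fun d hd => lt_of_le_of_ne (Nat.lt_succ_iff.1 (g2 d (hc d hd).1)) (hc d hd).2)
        (by rw [map_sub, h3, Derivation.map_smul, hE, smul_zero, sub_zero])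
      obtain ⟨n, hn⟩ := s1_nil _ (fun i => (rel i).2.2.2) Q
      exact s1_hw (derivation_ext fun i => (rel i).1) (derivation_ext fun i => (rel i).2.1) hE
        (sub_eq_zero.1 h4) hn
  exact fun h => hQ (key j le_rfl Q h1 h2 ((s1D_apply N l s Q).trans h))

theorem s1_Eop (N a b : ℕ) (Q : MvPolynomial SV ℂ) :
    Eop N a b Q = s1D N (fun c => Sum.inl (a, b, c)) Sum.inr Q := (s1D_apply N _ _ Q).symm

theorem Eop_add (N a b : ℕ) (P Q : MvPolynomial SV ℂ) :
    Eop N a b (P + Q) = Eop N a b P + Eop N a b Q := by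
  simp only [s1_Eop, map_add]

theorem Eop_zero (N a b : ℕ) : Eop N a b 0 = 0 := by
  simp only [s1_Eop, map_zero]

/-- The monomials of `Eop Q`. -/
theorem Eop_support (N a b : ℕ) (Q : MvPolynomial SV ℂ) (d : SV →₀ ℕ)
    (hd : d ∈ (Eop N a b Q).support) :
    ∃ d' ∈ Q.support, ∃ c < N,
      d + Finsupp.single (Sum.inr c) 1 = d' + Finsupp.single (Sum.inl (a, b, c)) 1 := by
  rw [mem_support_iff, Eop, coeff_sum] at hd
  obtain ⟨c, hc, h⟩ := exists_ne_zero_of_sum_ne_zero hd
  rw [coeff_X_mul'] at h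
  split_ifs at h with h1
  · rw [coeff_pderiv] at h
    refine ⟨_, mem_support_iff.2 (left_ne_zero_of_mul h), c, mem_range.1 hc, ?_⟩
    rw [add_right_comm, tsub_add_cancel_of_le (Finsupp.single_le_iff.2
      (Nat.pos_of_ne_zero (Finsupp.mem_support_iff.1 h1)))]
  · exact absurd rfl h

/-- The operators commute (`pderiv (inr c)` kills `X (inl _)`, partial derivatives commute). -/
theorem Eop_comm (N a b a' b' : ℕ) (Q : MvPolynomial SV ℂ) :
    Eop N a b (Eop N a' b' Q) = Eop N a' b' (Eop N a b Q) := by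
  have z : ∀ (u : ℕ → SV) (x y : ℕ) (i : SV), s1D N u Sum.inr
      (s1D N (fun c => Sum.inl (x, y, c)) Sum.inr (X i)) = 0 := fun u x y i => by
    by_cases h : ∃ c < N, i = Sum.inr c
    · obtain ⟨c, hc, rfl⟩ := h
      rw [s1D_self _ Sum.inr_injective hc, s1D_ne _ fun _ _ => Sum.inl_ne_inr]
    · push Not at h
      rw [s1D_ne _ h, map_zero]
  have : ⁅s1D N (fun c => (Sum.inl (a, b, c) : SV)) Sum.inr,
      s1D N (fun c => (Sum.inl (a', b', c) : SV)) Sum.inr⁆ = 0 :=
    derivation_ext fun i => by rw [Derivation.commutator_apply, z, z, sub_zero, Derivation.zero_apply]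
  simp only [s1_Eop]
  rw [← sub_eq_zero, ← Derivation.commutator_apply, this, Derivation.zero_apply]

theorem EP_perm (N : ℕ) {l l' : List (ℕ × ℕ)} (h : l.Perm l') (Q : MvPolynomial SV ℂ) :
    EP N l Q = EP N l' Q := by
  induction h with
  | nil => rfl
  | cons x _ ih => exact congrArg (Eop N x.1 x.2) ih
  | swap x y l => exact Eop_comm N _ _ _ _ _
  | trans _ _ h1 h2 => exact h1.trans h2

/-- `EP N l` is additive. -/
theorem exists_EP_hom (N : ℕ) (l : List (ℕ × ℕ)) :
    ∃ f : MvPolynomial SV ℂ →+ MvPolynomial SV ℂ, ∀ Q, f Q = EP N l Q := by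
  induction l with
  | nil => exact ⟨AddMonoidHom.id _, fun _ => rfl⟩
  | cons x l ih =>
    obtain ⟨f, hf⟩ := ih
    exact ⟨(AddMonoidHom.mk' (Eop N x.1 x.2) (Eop_add N x.1 x.2)).comp f,
      fun Q => congrArg (Eop N x.1 x.2) (hf Q)⟩

end Crest.Agent.R195
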