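import Crest.Agent.R195.Strip1

/-!
# Row 195: the determinant of polarisation operators is injective
-/

set_option autoImplicit false

namespace Crest.Agent.R195

open Finset MvPolynomial

/-- Peeling.  Induction on the length `j` of `S`.  Let `a₀ ∈ S` maximise `m`; the condition at `s = j - 1`
gives `m a₀ < j`.  Move `a₀` to the end of the list (`EP_perm`), i.e. apply `Eop a₀ (k-1-a₀)` first; the result is nonzero by
`sl2_inj`, has `s`-degree `j - 1` and unchanged degrees in the variables of the other `a` (`Eop_support`); the counting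
condition passes to `S.erase a₀`. -/
theorem peel (N k : ℕ) (m : ℕ → ℕ) (S : List ℕ) (hS : S.Nodup)
    (hm : ∀ s, s < S.length → s < S.countP fun a => decide (m a ≤ s))
    (Q : MvPolynomial SV ℂ) (hQ : Q ≠ 0)
    (hs : ∀ d ∈ Q.support, ∑ c ∈ range N, d (Sum.inr c) = S.length)
    (hd : ∀ d ∈ Q.support, ∀ a ∈ S, ∑ c ∈ range N, d (Sum.inl (a, k - 1 - a, c)) ≤ m a) :
    EP N (S.map fun a => (a, k - 1 - a)) Q ≠ 0 := by
  induction h : S.length generalizing S Q with
  | zero =>
    rw [List.length_eq_zero_iff.1 h]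
    exact hQ
  | succ j ih =>
    obtain ⟨a₀, ha₀, hmax⟩ := S.toFinset.exists_max_image m
      (by rw [List.toFinset_nonempty_iff]; rintro rfl; simp at h)
    simp only [List.mem_toFinset] at ha₀ hmax
    have hall : m a₀ ≤ j := by
      have h1 := hm j (by omega)
      have h2 := List.countP_le_length (p := fun a => decide (m a ≤ j)) (l := S)
      have h3 := List.countP_eq_length.1 (show S.countP (fun a => decide (m a ≤ j)) = S.length by omega)
      simpa using h3 a₀ ha₀
    have hp : S.Perm (S.erase a₀ ++ [a₀]) :=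
      (List.perm_cons_erase ha₀).trans (List.perm_append_singleton _ _).symm
    have hlen : (S.erase a₀).length = j := by
      rw [List.length_erase_of_mem ha₀, h]
      rfl
    rw [EP_perm N (hp.map _), List.map_append, EP, List.foldr_append]
    refine ih (S.erase a₀) (hS.erase _) (fun s hs' => ?_) (Eop N a₀ (k - 1 - a₀) Q) ?_ (fun d hd' => ?_)
      (fun d hd' a ha => ?_) hlen
    · by_cases h1 : m a₀ ≤ s
      · rwa [List.countP_eq_length.2 fun a ha => by simpa using (hmax a (List.mem_of_mem_erase ha)).trans h1]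
      · have h2 := hm s (by omega)
        rw [hp.countP_eq, List.countP_append] at h2
        simpa [h1] using h2
    · refine sl2_inj N (fun c => Sum.inl (a₀, k - 1 - a₀, c)) Sum.inr (fun c c' e => by simpa using e)
        Sum.inr_injective (fun _ _ => Sum.inl_ne_inr) (j + 1) Q hQ (fun d hd' => (hs d hd').trans h)
        fun d hd' => ?_
      have := hd d hd' a₀ ha₀
      omega
    · obtain ⟨d', h1, c, hc, e⟩ := Eop_support _ _ _ _ _ hd'
      have h2 : ∀ c', d (Sum.inr c') + (if c = c' then 1 else 0) = d' (Sum.inr c') := fun c' => by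
        simpa [Finsupp.single_apply] using DFunLike.congr_fun e (Sum.inr c')
      have h3 := hs d' h1
      rw [← Finset.sum_congr rfl fun c' _ => h2 c', Finset.sum_add_distrib, Finset.sum_ite_eq,
        if_pos (Finset.mem_range.2 hc)] at h3
      omega
    · obtain ⟨d', h1, c, hc, e⟩ := Eop_support _ _ _ _ _ hd'
      have hne : a₀ ≠ a := ((hS.mem_erase_iff.1 ha).1).symm
      have h2 : ∀ c', d (Sum.inl (a, k - 1 - a, c')) = d' (Sum.inl (a, k - 1 - a, c')) := fun c' => by
        simpa [Finsupp.single_apply, hne] using DFunLike.congr_fun e (Sum.inl (a, k - 1 - a, c'))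
      simp only [h2]
      exact hd d' h1 a (List.mem_of_mem_erase ha)

/-- the weight of a pair -/
def st2_w (k : ℕ) (p : ℕ × ℕ) : ℕ := if p.1 + p.2 + 1 = k then 0 else 1

/-- the weight of a variable -/
def st2_wt (k : ℕ) : SV → ℕ := Sum.elim (fun p => st2_w k (p.1, p.2.1)) fun _ => 0

theorem st2_supp (N k : ℕ) (l : List (ℕ × ℕ)) (Q : MvPolynomial SV ℂ) (d : SV →₀ ℕ)
    (hd : d ∈ (EP N l Q).support) : ∃ d' ∈ Q.support,
      Finsupp.weight (st2_wt k) d = Finsupp.weight (st2_wt k) d' + (l.map (st2_w k)).sum := by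
  induction l generalizing d with
  | nil => exact ⟨d, hd, by simp⟩
  | cons p l ih =>
    obtain ⟨d1, h1, c, -, e⟩ := Eop_support N p.1 p.2 (EP N l Q) d hd
    obtain ⟨d2, h2, e'⟩ := ih d1 h1
    have h3 := congrArg (Finsupp.weight (st2_wt k)) e
    simp only [map_add, Finsupp.weight_single, st2_wt, Sum.elim_inl, Sum.elim_inr, smul_eq_mul, one_mul,
      mul_zero, add_zero, Prod.mk.eta] at h3
    refine ⟨d2, h2, ?_⟩
    rw [List.map_cons, List.sum_cons]
    unfold st2_wt at e' ⊢
    omega

/-- Give `X_{abc}` the weight `0` if `a + b + 1 = k`, and `1` otherwise, `s_c` the weight `0`.  `Eop a b` raises the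
weight of every monomial by the weight of `(a,b)` (`Eop_support`).  Write `Q = Q₀ + Q₁` with `Q₀ ≠ 0` the part of minimal weight `m₀`
and all monomials of `Q₁` of weight `> m₀`.  All monomials of `EP (π) Q₁`, and of `EP (π) Q₀` for `π ≠ Fin.revPerm`, have weight `> m₀`;
`EP (rev) Q₀` is nonzero (`peel` with `S = List.range k`) of weight `m₀`. -/
theorem strip_core (N k : ℕ) (m : ℕ → ℕ)
    (hm : ∀ s, s < k → s < ((range k).filter fun a => m a ≤ s).card)
    (Q : MvPolynomial SV ℂ) (hQ : Q ≠ 0)
    (hs : ∀ d ∈ Q.support, ∑ c ∈ range N, d (Sum.inr c) = k)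
    (hd : ∀ d ∈ Q.support, ∀ a, a < k → ∑ c ∈ range N, d (Sum.inl (a, k - 1 - a, c)) ≤ m a) :
    ∑ π : Equiv.Perm (Fin k),
      sg π • EP N (List.ofFn fun a : Fin k => ((a : ℕ), ((π a : Fin k) : ℕ))) Q ≠ 0 := by
  obtain ⟨d₀, hd₀, hmin⟩ := Q.support.exists_min_image (Finsupp.weight (st2_wt k)) (support_nonempty.2 hQ)
  set m₀ := Finsupp.weight (st2_wt k) d₀ with hm₀
  set Q₀ := weightedHomogeneousComponent (st2_wt k) m₀ Q with hQ₀
  have h0 : ∀ d ∈ Q₀.support, d ∈ Q.support ∧ Finsupp.weight (st2_wt k) d = m₀ := by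
    intro d h
    rw [mem_support_iff, hQ₀, coeff_weightedHomogeneousComponent] at h
    split_ifs at h with h1
    · exact ⟨mem_support_iff.2 h, h1⟩
    · exact (h rfl).elim
  have h1 : ∀ d ∈ (Q - Q₀).support, m₀ < Finsupp.weight (st2_wt k) d := by
    intro d h
    rw [mem_support_iff, coeff_sub, hQ₀, coeff_weightedHomogeneousComponent] at h
    split_ifs at h with h1
    · exact (h (sub_self _)).elim
    · rw [sub_zero] at h
      exact lt_of_le_of_ne (hmin d (mem_support_iff.2 h)) (Ne.symm h1)
  have h2 : Q₀ ≠ 0 := by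
    intro h
    have h3 := coeff_weightedHomogeneousComponent (w := st2_wt k) m₀ Q d₀
    rw [← hQ₀, h, if_pos rfl, coeff_zero] at h3
    exact mem_support_iff.1 hd₀ h3.symm
  have hrev : (List.ofFn fun a : Fin k => ((a : ℕ), ((Fin.revPerm a : Fin k) : ℕ))) =
      (List.range k).map fun a => (a, k - 1 - a) := by
    refine List.ext_getElem (by simp) fun i _ _ => ?_
    simp only [List.getElem_ofFn, Fin.revPerm_apply, Fin.val_rev, List.getElem_map, List.getElem_range]
    congr 1
    omega
  have h3 := peel N k m (List.range k) List.nodup_range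
    (fun s h => by
      rw [List.length_range] at h
      have := hm s h
      rwa [← Nat.count_eq_card_filter_range] at this)
    Q₀ h2 (fun d h => by rw [List.length_range]; exact hs d (h0 d h).1)
    (fun d h a ha => hd d (h0 d h).1 a (List.mem_range.1 ha))
  obtain ⟨d, hdR⟩ := support_nonempty.2 h3
  have hw : Finsupp.weight (st2_wt k) d = m₀ := by
    obtain ⟨d', h4, h5⟩ := st2_supp N k _ _ _ hdR
    rw [h5, (h0 d' h4).2, List.sum_eq_zero, add_zero]
    intro x hx
    simp only [List.map_map, List.mem_map, List.mem_range] at hx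
    obtain ⟨a, ha, rfl⟩ := hx
    exact if_pos (by dsimp only; omega)
  have hsplit : ∀ l, coeff d (EP N l Q) = coeff d (EP N l Q₀) := by
    intro l
    obtain ⟨f, hf⟩ := exists_EP_hom N l
    have h4 : coeff d (EP N l (Q - Q₀)) = 0 := by
      by_contra h5
      obtain ⟨d', h6, h7⟩ := st2_supp N k _ _ _ (mem_support_iff.2 h5)
      have := h1 d' h6
      omega
    rwa [← hf, map_sub, hf, hf, coeff_sub, sub_eq_zero] at h4
  intro h
  have h4 := congrArg (coeffAddMonoidHom d) h
  rw [map_sum, map_zero, Finset.sum_eq_single Fin.revPerm] at h4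
  · rw [map_zsmul, coeffAddMonoidHom_apply, hsplit, hrev, smul_eq_zero] at h4
    rcases h4 with h4 | h4
    · have := sg_mul_self (Fin.revPerm : Equiv.Perm (Fin k))
      rw [h4] at this
      simp at this
    · exact mem_support_iff.1 hdR h4
  · intro π _ hπ
    rw [map_zsmul, coeffAddMonoidHom_apply, hsplit]
    suffices h5 : coeff d (EP N (List.ofFn fun a : Fin k => ((a : ℕ), ((π a : Fin k) : ℕ))) Q₀) = 0 by
      rw [h5, smul_zero]
    by_contra h5
    obtain ⟨d', h6, h7⟩ := st2_supp N k _ _ _ (mem_support_iff.2 h5)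
    rw [hw, (h0 d' h6).2, left_eq_add, List.sum_eq_zero_iff] at h7
    refine hπ (Equiv.ext fun a => Fin.ext ?_)
    have h8 := h7 _ (List.mem_map_of_mem (List.mem_ofFn.2 ⟨a, rfl⟩))
    rw [st2_w] at h8
    split_ifs at h8 with h9
    rw [Fin.revPerm_apply, Fin.val_rev]
    dsimp only at h9
    omega
  · intro h5
    exact (h5 (Finset.mem_univ _)).elim

end Crest.Agent.R195
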