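import Crest.Agent.R195.Strip1
import Crest.Agent.R195.Tab2

/-!
# Row 195: polarising a monomial; the tableau with a horizontal strip added
-/

set_option autoImplicit false

namespace Crest.Agent.R195

open Finset MvPolynomial

theorem st3_head (N : ℕ) (x : ℕ × ℕ) (l : List (ℕ × ℕ)) (Q : MvPolynomial SV ℂ) :
    EP N (x :: l) Q = EP N l (Eop N x.1 x.2 Q) := by
  rw [← EP_perm N (List.perm_append_singleton x l)]
  unfold EP
  rw [List.foldr_append]
  rfl

theorem st3_pderiv_prod {κ : Type} [DecidableEq κ] (x : SV) (s : Finset κ) (f : κ → MvPolynomial SV ℂ) :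
    pderiv x (∏ j ∈ s, f j) = ∑ j ∈ s, (∏ j' ∈ s.erase j, f j') * pderiv x (f j) := by
  induction s using Finset.induction_on with
  | empty => simp
  | insert a s ha ih =>
    rw [Finset.prod_insert ha, pderiv_mul, ih, Finset.sum_insert ha, Finset.erase_insert ha,
      Finset.mul_sum, mul_comm]
    congr 1
    refine Finset.sum_congr rfl fun j hj => ?_
    have hne : a ≠ j := fun h => ha (h ▸ hj)
    rw [Finset.erase_insert_of_ne hne, Finset.prod_insert (fun h => ha (Finset.mem_of_mem_erase h)),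
      mul_assoc]

theorem st3_leibniz (N a b : ℕ) {κ : Type} [Fintype κ] [DecidableEq κ] (c : κ → ℕ) (hc : ∀ j, c j < N)
    (P : MvPolynomial SV ℂ) (hP : ∀ x, pderiv (Sum.inr x) P = 0) :
    Eop N a b (P * ∏ j, X (Sum.inr (c j))) =
      ∑ j, (P * X (Sum.inl (a, b, c j))) * ∏ j' ∈ univ.erase j, X (Sum.inr (c j')) := by
  unfold Eop
  simp only [pderiv_mul, hP, zero_mul, zero_add, st3_pderiv_prod, Finset.mul_sum]
  rw [Finset.sum_comm]
  refine Finset.sum_congr rfl fun j _ => ?_
  rw [Finset.sum_eq_single (c j)]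
  · rw [pderiv_X_self]
    ring
  · intro y _ hy
    rw [pderiv_X_of_ne (by simpa using hy.symm)]
    simp
  · intro h
    exact absurd (Finset.mem_range.2 (hc j)) h

theorem st3_perm_succ {R : Type*} [CommSemiring R] {k : ℕ} (M : Fin (k + 1) → Fin (k + 1) → R) :
    ∑ τ : Equiv.Perm (Fin (k + 1)), ∏ a, M a (τ a) =
      ∑ j, M 0 j * ∑ τ : Equiv.Perm (Fin k), ∏ a : Fin k, M a.succ (Equiv.swap 0 j (τ a).succ) := by
  rw [← Equiv.sum_comp Equiv.Perm.decomposeFin.symm, Fintype.sum_prod_type]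
  refine Finset.sum_congr rfl fun j _ => ?_
  rw [Finset.mul_sum]
  refine Finset.sum_congr rfl fun τ _ => ?_
  rw [Fin.prod_univ_succ, Equiv.Perm.decomposeFin_symm_apply_zero]
  simp only [Equiv.Perm.decomposeFin_symm_apply_succ]

/-- `Eop a b (P * ∏_j s_{c j}) = ∑_j (P * X_{a,b,c j}) * ∏_{j' ≠ j} s_{c j'}` (Leibniz); induction on `k`
(generalising `P`, `p`, `c`; note `EP (x :: l) Q = Eop x (EP l Q)` and use `EP_perm`/`exists_EP_hom` to apply
the head first), with `Equiv.Perm.decomposeFin` or `Fin.succAbove` bookkeeping.  It may be easier to prove first the version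
for an arbitrary finite index type / finset of letters and sums over bijections. -/
theorem EP_prod (N k : ℕ) (p : Fin k → ℕ × ℕ) (c : Fin k → ℕ) (hc : ∀ j, c j < N)
    (P : MvPolynomial SV ℂ) (hP : ∀ x, pderiv (Sum.inr x) P = 0) :
    EP N (List.ofFn p) (P * ∏ j, X (Sum.inr (c j))) =
      P * ∑ τ : Equiv.Perm (Fin k), ∏ a, X (Sum.inl ((p a).1, (p a).2, c (τ a))) := by
  induction k generalizing P with
  | zero => simp [EP]
  | succ k ih =>
    rw [List.ofFn_succ, st3_head, st3_leibniz N _ _ c hc P hP]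
    obtain ⟨f, hf⟩ := exists_EP_hom N (List.ofFn fun i : Fin k => p i.succ)
    rw [← hf, map_sum, st3_perm_succ
      (fun a j => (X (Sum.inl ((p a).1, (p a).2, c j)) : MvPolynomial SV ℂ)), Finset.mul_sum]
    refine Finset.sum_congr rfl fun j _ => ?_
    have e : ∏ j' ∈ univ.erase j, (X (Sum.inr (c j')) : MvPolynomial SV ℂ) =
        ∏ a : Fin k, X (Sum.inr (c (Equiv.swap 0 j a.succ))) := by
      have h1 := Finset.mul_prod_erase univ
        (fun j' => (X (Sum.inr (c j')) : MvPolynomial SV ℂ)) (Finset.mem_univ j)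
      rw [← Equiv.prod_comp (Equiv.swap 0 j)
        (fun j' => (X (Sum.inr (c j')) : MvPolynomial SV ℂ)), Fin.prod_univ_succ,
        Equiv.swap_apply_left] at h1
      exact mul_left_cancel₀ (X_ne_zero _) h1
    rw [hf, e, ih (fun i => p i.succ) (fun a => c (Equiv.swap 0 j a.succ)) (fun a => hc _), mul_assoc]
    intro x
    rw [pderiv_mul, hP, pderiv_X_of_ne (by simp)]
    simp

/-- Reindex `(σ, σ') ↦ (τ, π) = (σ⁻¹, σ' * σ⁻¹)`. -/
theorem EP_col (N k : ℕ) (c : Fin k → ℕ) (hc : ∀ j, c j < N)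
    (P : MvPolynomial SV ℂ) (hP : ∀ x, pderiv (Sum.inr x) P = 0) :
    ∑ π : Equiv.Perm (Fin k),
      sg π • EP N (List.ofFn fun a : Fin k => ((a : ℕ), ((π a : Fin k) : ℕ)))
        (P * ∏ j, X (Sum.inr (c j))) =
      P * altw (fun _ : Fin k => 0) (fun j => (j : ℕ)) fun a =>
        altw (fun _ : Fin k => 0) (fun j => (j : ℕ)) fun b => ∏ j, X (Sum.inl (a j, b j, c j)) := by
  have hu : colGrp (fun _ : Fin k => 0) = univ := by
    ext σ
    simp [mem_colGrp]
  simp only [EP_prod N k _ c hc P hP]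
  unfold altw
  rw [hu, ← Equiv.sum_comp (Equiv.inv (Equiv.Perm (Fin k)))
    (fun σ : Equiv.Perm (Fin k) => sg σ • ∑ σ' : Equiv.Perm (Fin k), sg σ' •
      ∏ j, (X (Sum.inl (((fun j : Fin k => (j : ℕ)) ∘ σ) j, ((fun j : Fin k => (j : ℕ)) ∘ σ') j, c j)) :
        MvPolynomial SV ℂ))]
  simp only [← mul_smul_comm, ← Finset.mul_sum]
  congr 1
  simp only [Finset.smul_sum]
  rw [Finset.sum_comm]
  refine Finset.sum_congr rfl fun τ _ => ?_
  refine Finset.sum_nbij' (fun π => π * τ⁻¹) (fun σ => σ * τ) (by simp) (by simp) (by simp) (by simp) ?_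
  intro π _
  simp only [Equiv.inv_apply, Function.comp_apply]
  rw [smul_smul, sg_mul, sg_inv, mul_comm (sg π), ← mul_assoc, sg_mul_self, one_mul]
  congr 1
  rw [← Equiv.prod_comp τ (fun j => (X (Sum.inl (((τ⁻¹ j : Fin k) : ℕ), (((π * τ⁻¹) j : Fin k) : ℕ), c j)) :
    MvPolynomial SV ℂ))]
  simp

/-- The one-column tableau. -/
theorem exists_col_tab (k : ℕ) :
    ∃ t : Tab (Fin k) (ind k), (t.r = fun j : Fin k => (j : ℕ)) ∧ t.c = fun _ => 0 := by
  have hp : IsPart (Fintype.card (Fin k)) (ind k) := by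
    rw [Fintype.card_fin]
    refine ⟨fun a b hab => ?_, by simp [ind], ?_⟩
    · unfold ind
      split_ifs <;> omega
    · rw [Finset.sum_congr rfl (g := fun _ => 1) fun a ha => by
        simp [ind, Finset.mem_range.1 ha]]
      simp
  obtain ⟨t, h1, h2, -⟩ := exists_tab_of hp (fun j : Fin k => (j : ℕ)) (fun _ => 0)
    (fun i j h _ => Fin.ext h) (fun i => by simp [ind])
  exact ⟨t, h1, h2⟩

/-- Put the `k` new letters into the cells `(a,b)`, `nu a ≤ b < lam a` (`exists_tab_of`).  Below such a cell there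
is no cell since `lam (a+1) ≤ nu a ≤ b`. -/
theorem exists_strip_tab {ι : Type} [Fintype ι] [DecidableEq ι] {nu lam : ℕ → ℕ} (k : ℕ)
    (t : Tab ι nu) (ht : t.Std) (hi : Inter nu lam) (hl : IsPart (Fintype.card ι + k) lam) :
    ∃ s : Tab (ι ⊕ Fin k) lam, s.r ∘ Sum.inl = t.r ∧ s.c ∘ Sum.inl = t.c ∧
      ∀ j x, s.c x = s.c (Sum.inr j) → s.r x ≤ s.r (Sum.inr j) := by
  have hn := t.isPart
  set n := Fintype.card ι with hndef
  let S : Finset (Σ _ : ℕ, ℕ) := (range (n + k)).sigma fun a => Ico (nu a) (lam a)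
  have h0 : nu (n + k) = 0 := by
    have := (hi (n + k)).2
    have := hl.2.1
    omega
  have hS : Fintype.card (Fin k) = Fintype.card S := by
    rw [Fintype.card_coe, card_sigma, Fintype.card_fin]
    simp only [Nat.card_Ico]
    rw [Finset.sum_tsub_distrib _ fun a _ => (hi a).2, hl.2.2, hn.sum_eq h0]
    omega
  let e : Fin k ≃ S := Fintype.equivOfCardEq hS
  have he : ∀ j, nu (e j).1.1 ≤ (e j).1.2 ∧ (e j).1.2 < lam (e j).1.1 := fun j => by
    have := (e j).2
    rw [Finset.mem_sigma, Finset.mem_Ico] at this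
    exact this.2
  have hl' : IsPart (Fintype.card (ι ⊕ Fin k)) lam := by
    rwa [Fintype.card_sum, Fintype.card_fin]
  obtain ⟨s, h1, h2, h3⟩ := exists_tab_of hl' (Sum.elim t.r fun j => (e j).1.1)
    (Sum.elim t.c fun j => (e j).1.2) (by
      rintro (i | i) (j | j) hr hc
      · rw [t.inj i j hr hc]
      · simp only [Sum.elim_inl, Sum.elim_inr] at hr hc
        have := ht i
        have := (he j).1
        rw [← hr, ← hc] at this
        omega
      · simp only [Sum.elim_inl, Sum.elim_inr] at hr hc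
        have := ht j
        have := (he i).1
        rw [hr, hc] at this
        omega
      · simp only [Sum.elim_inr] at hr hc
        have : e i = e j := Subtype.ext (Sigma.ext hr (heq_of_eq hc))
        rw [e.injective this]) (by
      rintro (i | j)
      · exact lt_of_lt_of_le (ht i) (hi _).2
      · exact (he j).2)
  refine ⟨s, by rw [h1]; rfl, by rw [h2]; rfl, fun j x hx => ?_⟩
  by_contra hlt
  have a1 := h3 x
  have a2 : lam (s.r x) ≤ lam (s.r (Sum.inr j) + 1) := hl.1 (by omega)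
  have a3 := (hi (s.r (Sum.inr j))).1
  have a4 : nu (s.r (Sum.inr j)) ≤ s.c (Sum.inr j) := by
    rw [h1, h2]
    exact (he j).1
  omega

end Crest.Agent.R195
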