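import Crest.Agent.R195.Strip2
import Crest.Agent.R195.Strip3
import Crest.Agent.R195.PosB

/-!
# Row 195: the strip rule
-/

set_option autoImplicit false

namespace Crest.Agent.R195

open Finset MvPolynomial

variable {ι : Type} [Fintype ι] [DecidableEq ι]

/-- The auxiliary polynomial. -/
noncomputable def stripQ {k : ℕ} {β1 β2 lam : ℕ → ℕ} (t1 : Tab ι β1) (t2 : Tab ι β2)
    (s : Tab (ι ⊕ Fin k) lam) : MvPolynomial SV ℂ :=
  alt t1 fun a => alt t2 fun b => alt s fun c =>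
    (∏ i, X (Sum.inl (a i, b i, c (Sum.inl i)))) * ∏ j, X (Sum.inr (c (Sum.inr j)))

theorem st4_top {k : ℕ} {lam : ℕ → ℕ} (s : Tab (ι ⊕ Fin k) lam)
    (hb : ∀ j x, s.c x = s.c (Sum.inr j) → s.r x ≤ s.r (Sum.inr j)) {M : Type} [AddCommGroup M]
    (G : (ι → ℕ) → M) :
    (altw s.c s.r fun c => if ∑ j, s.r (Sum.inr j) = ∑ j, c (Sum.inr j) then G (c ∘ Sum.inl) else 0) =
      altw (s.c ∘ Sum.inl) (s.r ∘ Sum.inl) G := by
  have hinj : Function.Injective (s.c ∘ Sum.inr) := fun j j' h =>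
    Sum.inr_injective (s.inj _ _ (le_antisymm (hb _ _ h) (hb _ _ h.symm)) h)
  have h1 := sum_block s.c s.r fun c => G (c ∘ Sum.inl)
  simp only [Sum.elim_comp_inl, altw_of_injective hinj] at h1
  rw [Finset.sum_filter] at h1
  rw [← h1]
  refine Finset.sum_congr rfl fun σ hσ => ?_
  rw [mem_colGrp] at hσ
  rw [smul_ite, smul_zero]
  suffices e : ∑ j, s.r (Sum.inr j) = ∑ j, (s.r ∘ σ) (Sum.inr j) ↔
      ∀ j, (σ (Sum.inr j)).isRight = true by
    simp only [e]
    congr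
  refine ⟨fun h j => ?_, fun h => Finset.sum_congr rfl fun j _ => ?_⟩
  · have h2 := (Finset.sum_eq_sum_iff_of_le fun j _ => hb j _ (hσ (Sum.inr j))).1 h.symm j (mem_univ j)
    rw [s.inj _ _ h2 (hσ _)]
    rfl
  · obtain ⟨j', hj'⟩ := Sum.isRight_iff.1 (h j)
    have h2 := hσ (Sum.inr j)
    rw [hj'] at h2
    rw [Function.comp_apply, hj', hinj h2]

/-- Map to `(MvPolynomial (ℕ × ℕ × ℕ) ℂ)[T]` by `X_{abc} ↦ C X_{abc}`, `s_c ↦ T^c` and take the coefficient of
`T^e`, `e = ∑_j s.r (inr j)`.  For `σ ∈ colGrp s.c` one has `s.r (σ (inr j)) ≤ s.r (inr j)`, so the exponent is `e` iff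
`σ (inr j) = inr j` for all `j` (`s.inj`) iff `σ` maps the new letters to new letters (they lie in distinct columns).
By `sum_block` and `altw_of_injective` the coefficient is `P3 t1 t2 t3`. -/
theorem stripQ_ne {k : ℕ} {β1 β2 nu lam : ℕ → ℕ} (t1 : Tab ι β1) (t2 : Tab ι β2) (t3 : Tab ι nu)
    (s : Tab (ι ⊕ Fin k) lam) (hr : s.r ∘ Sum.inl = t3.r) (hc : s.c ∘ Sum.inl = t3.c)
    (hb : ∀ j x, s.c x = s.c (Sum.inr j) → s.r x ≤ s.r (Sum.inr j)) (h : P3 t1 t2 t3 ≠ 0) :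
    stripQ t1 t2 s ≠ 0 := by
  intro h0
  apply h
  let φ : MvPolynomial SV ℂ →ₐ[ℂ] Polynomial (MvPolynomial (ℕ × ℕ × ℕ) ℂ) :=
    aeval (Sum.elim (fun p => Polynomial.C (X p)) fun c => Polynomial.X ^ c)
  have h1 := congrArg (fun Q => Polynomial.lcoeff _ (∑ j, s.r (Sum.inr j)) (φ Q)) h0
  simp only [stripQ, alt, map_altw, map_zero] at h1
  rw [← h1]
  unfold P3 alt
  refine congrArg _ (funext fun a => congrArg _ (funext fun b => ?_))
  rw [← hr, ← hc, ← st4_top s hb]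
  refine congrArg _ (funext fun c => ?_)
  simp only [φ, map_mul, map_prod, aeval_X, Sum.elim_inl, Sum.elim_inr, Finset.prod_pow_eq_pow_sum]
  rw [← map_prod, Polynomial.lcoeff_apply, Polynomial.coeff_C_mul_X_pow]
  rfl

theorem st4_mon {τ ι' : Type} [Fintype ι'] [DecidableEq ι'] (f : ι → τ) (g : ι' → τ) {d : τ →₀ ℕ}
    (hd : d ∈ ((∏ i, X (f i)) * ∏ j, X (g j) : MvPolynomial τ ℂ).support) :
    ∑ i, Finsupp.single (f i) 1 + ∑ j, Finsupp.single (g j) 1 = d := by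
  classical
  rw [pb_prod_X, pb_prod_X, monomial_mul, mem_support_iff, coeff_monomial] at hd
  exact (ite_ne_right_iff.1 hd).1

theorem st4_supp {τ : Type} {c w : ι → ℕ} {F : (ι → ℕ) → MvPolynomial τ ℂ} {d : τ →₀ ℕ}
    (hd : d ∈ (altw c w F).support) : ∃ σ ∈ colGrp c, d ∈ (F (w ∘ σ)).support := by
  by_contra hn
  push Not at hn
  refine mem_support_iff.1 hd ?_
  have h := map_altw (coeffAddMonoidHom d) c w F
  simp only [coeffAddMonoidHom_apply] at h
  rw [h, altw_congr (F' := fun _ => 0) fun σ hσ => notMem_support_iff.1 (hn σ hσ), altw_zero]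

/-- Every monomial of `stripQ` is the monomial of one of the terms.  Its `s`-degree is `k`; its degree in the variables
`X_{a₀ b₀ ·}` is at most the number of letters with `a i = a₀`, which is `β1 a₀` (`t1.cnt`), and similarly `β2 b₀`. -/
theorem stripQ_support {k : ℕ} {β1 β2 lam : ℕ → ℕ} (t1 : Tab ι β1) (t2 : Tab ι β2)
    (s : Tab (ι ⊕ Fin k) lam) (N : ℕ) (hN : ∀ x, s.r x < N) (d : SV →₀ ℕ)
    (hd : d ∈ (stripQ t1 t2 s).support) :
    ∑ c ∈ range N, d (Sum.inr c) = k ∧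
      ∀ a b, ∑ c ∈ range N, d (Sum.inl (a, b, c)) ≤ min (β1 a) (β2 b) := by
  unfold stripQ alt at hd
  obtain ⟨σ1, -, hd⟩ := st4_supp hd
  obtain ⟨σ2, -, hd⟩ := st4_supp hd
  obtain ⟨σ, -, hd⟩ := st4_supp hd
  rw [← st4_mon _ _ hd]
  simp only [Finsupp.add_apply, Finsupp.finsetSum_apply, Finsupp.single_apply, reduceCtorEq,
    if_false, sum_const_zero, zero_add, add_zero, Sum.inr.injEq, Sum.inl.injEq, Function.comp_apply]
  refine ⟨?_, fun a b => ?_⟩
  · rw [Finset.sum_comm]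
    simp [hN]
  · rw [Finset.sum_comm]
    have key : ∀ {β : ℕ → ℕ} (t : Tab ι β) (τ : Equiv.Perm ι) (a : ℕ),
        β a = ∑ i, if t.r (τ i) = a then 1 else 0 := fun t τ a => by
      rw [← t.cnt, card_filter]
      exact (Equiv.sum_comp τ fun i => if t.r i = a then 1 else 0).symm
    refine le_min ?_ ?_
    · rw [key t1 σ1]
      refine Finset.sum_le_sum fun i _ => ?_
      by_cases h1 : t1.r (σ1 i) = a <;> by_cases h2 : t2.r (σ2 i) = b <;> simp [h1, h2, hN]
    · rw [key t2 σ2]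
      refine Finset.sum_le_sum fun i _ => ?_
      by_cases h1 : t1.r (σ1 i) = a <;> by_cases h2 : t2.r (σ2 i) = b <;> simp [h1, h2, hN]

theorem st4_add {ι' : Type} [Fintype ι'] [DecidableEq ι'] {α α' : ℕ → ℕ} (t : Tab ι α)
    (t' : Tab ι' α') (s : Tab (ι ⊕ ι') (α + α')) (hr : s.r = Sum.elim t.r t'.r)
    (hc : s.c = Sum.elim (fun i => 2 * t.c i) (fun j => 2 * t'.c j + 1))
    {M : Type} [AddCommGroup M] (F : (ι ⊕ ι' → ℕ) → M) :
    alt s F = alt t fun a => alt t' fun b => F (Sum.elim a b) := by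
  unfold alt
  rw [altw_sumType _ _ (fun i j => by rw [hc]; simp only [Sum.elim_inl, Sum.elim_inr]; omega), hr, hc]
  simp only [Sum.elim_comp_inl, Sum.elim_comp_inr]
  rw [altw_colGrp (c' := t.c) (colGrp_congr fun i j => by omega)]
  refine congrArg _ (funext fun a => ?_)
  rw [altw_colGrp (c' := t'.c) (colGrp_congr fun i j => by omega)]

/-- The strip rule.  Take `t3` standard on `Fin n`, `t1 t2` from `Pos.fix`, `s` from `exists_strip_tab`, and `t1' t2'` = `t1, t2` with a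
new column (`exists_tab_add`, `exists_col_tab`).  By `strip_core`, `∑_π sg π • EP π (stripQ) ≠ 0`; by `exists_EP_hom`, `map_altw`, `altw_sum`,
`EP_col`, `altw_sumType`, `altw_comm` this is `alt t1' fun a => alt t2' fun b => alt s fun c => ∏ X (inl (a i, b i, c i))`;
conclude with `pos_of_aeval`. -/
theorem Pos.strip {β1 β2 nu lam : ℕ → ℕ} {n k : ℕ} (h : Pos β1 β2 nu) (hk : StripOK k β1 β2)
    (hi : Inter nu lam) (hn : IsPart n nu) (hl : IsPart (n + k) lam) :
    Pos (β1 + ind k) (β2 + ind k) lam := by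
  obtain ⟨t3, ht3⟩ := exists_tab (ι := Fin n) (α := nu) (by rwa [Fintype.card_fin])
  obtain ⟨t1, t2, -, -, hP⟩ := h.fix t3
  obtain ⟨s, hr, hc, hb⟩ := exists_strip_tab k t3 ht3 hi (by rwa [Fintype.card_fin])
  obtain ⟨u, ur, uc⟩ := exists_col_tab k
  obtain ⟨s1, r1, c1⟩ := exists_tab_add t1 u
  obtain ⟨s2, r2, c2⟩ := exists_tab_add t2 u
  have hN : ∀ x, s.r x < univ.sup s.r + 1 := fun x =>
    Nat.lt_succ_of_le (Finset.le_sup (f := s.r) (mem_univ x))
  generalize univ.sup s.r + 1 = N at hN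
  have h1 := strip_core N k (fun a => min (β1 a) (β2 (k - 1 - a))) hk (stripQ t1 t2 s)
    (stripQ_ne t1 t2 t3 s hr hc hb hP) (fun d hd => (stripQ_support t1 t2 s N hN d hd).1)
    fun d hd a _ => (stripQ_support t1 t2 s N hN d hd).2 a _
  choose f hf using exists_EP_hom N
  let Ψ : MvPolynomial SV ℂ →+ MvPolynomial SV ℂ := ∑ π : Equiv.Perm (Fin k),
    sg π • f (List.ofFn fun a : Fin k => ((a : ℕ), ((π a : Fin k) : ℕ)))
  have hΨ : ∀ Q, Ψ Q = ∑ π : Equiv.Perm (Fin k),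
      sg π • EP N (List.ofFn fun a : Fin k => ((a : ℕ), ((π a : Fin k) : ℕ))) Q := fun Q => by
    simp only [Ψ, AddMonoidHom.finsetSum_apply, AddMonoidHom.smul_apply, hf]
  rw [← hΨ] at h1
  refine pos_of_aeval s1 s2 s (fun p => (X (Sum.inl p) : MvPolynomial SV ℂ)) fun h0 => h1 ?_
  rw [← h0, st4_add t1 u s1 r1 c1]
  simp only [st4_add t2 u s2 r2 c2]
  simp only [stripQ, alt, map_altw, ur, uc]
  refine congrArg _ (funext fun a => ?_)
  rw [altw_comm (fun _ : Fin k => 0) _ t2.c]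
  refine congrArg _ (funext fun b => ?_)
  simp only [altw_comm (fun _ : Fin k => 0) _ s.c]
  refine altw_congr fun σ _ => ?_
  rw [hΨ, EP_col N k (fun j => (s.r ∘ σ) (Sum.inr j)) (fun j => hN _) _ fun x => ?_]
  · simp only [← altw_mul_left, Fintype.prod_sum_type, Sum.elim_inl, Sum.elim_inr,
      Function.comp_apply]
  · refine Finset.prod_induction _ (fun P => pderiv (Sum.inr x) P = 0) (fun P Q hP hQ => ?_)
      (pderiv_one) fun i _ => pderiv_X_of_ne (by simp)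
    rw [Derivation.leibniz, hP, hQ, smul_zero, smul_zero, add_zero]

end Crest.Agent.R195
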