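import Crest.Agent.R195.Fast

/-!
# Row 195: the test for the finite zone `20 ≤ L < 64` of the family
-/

set_option autoImplicit false

namespace Crest.Agent.R195

/-- Only the numerical criterion is evaluated. -/
def zoneC (L q1 q2 e : ℕ) : Bool :=
  critB (famH L q1 q2) (famN L q1 q2 e) (muOf (canonSp L q1 q2 e))
    (famN L q1 q2 e / (muOf (canonSp L q1 q2 e)).foldr max 1)
    (famN L q1 q2 e + 1 - famH L q1 q2) (famH L q1 q2 - 2)

noncomputable def mxR (l : List ℕ) : ℕ := List.rec 1 (fun x _ ih => fN ih fun m => maxR x m) l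

theorem mxR_eq (l : List ℕ) : mxR l = l.foldr max 1 := by
  induction l with
  | nil => rfl
  | cons x l ih => change fN (mxR l) (fun m => maxR x m) = _; rw [fN_eq, ih, maxR_eq]; rfl

noncomputable def mulLeR (a n : ℕ) (l : List ℕ) : Bool :=
  List.rec true (fun x _ ih => Bool.rec false ih (Nat.ble (Nat.mul x a) n)) l

theorem mulLeR_eq (a n : ℕ) (l : List ℕ) : mulLeR a n l = l.all fun x => decide (x * a ≤ n) := by
  induction l with
  | nil => rfl
  | cons x l ih =>
    change cR (Nat.ble (x * a) n) (mulLeR a n l) false = _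
    simp [cR_eq, ble_eq, ih]

noncomputable def costR (den num : ℕ) (l : List ℕ) : ℕ :=
  List.rec 0 (fun x _ ih => Nat.add (Nat.sub (Nat.mul den x) num) ih) l

theorem costR_eq (den num : ℕ) (l : List ℕ) :
    costR den num l = (l.map fun x => den * x - num).sum := by
  induction l with
  | nil => rfl
  | cons x l ih => change den * x - num + costR den num l = _; rw [ih]; rfl

noncomputable def muR (sp : List Sp) : List ℕ := List.rec [] (fun p _ ih => appR (spMu p) ih) sp

theorem muR_eq (sp : List Sp) : muR sp = muOf sp := by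
  induction sp with
  | nil => rfl
  | cons p sp ih => change appR (spMu p) (muR sp) = _; rw [ih, appR_eq]; simp [muOf]

noncomputable def zoneF (L q1 q2 e : ℕ) : Bool :=
  fN (famH L q1 q2) fun H => fN (famN L q1 q2 e) fun n => fL (muR (canonSp L q1 q2 e)) fun μ =>
  fN (n / mxR μ) fun l0 => fN (n + 1 - H) fun num => fN (H - 2) fun den =>
  decide (3 ≤ H) && decide (0 < den) && decide (num * (H - 2) + den * H ≤ den * (n + 1)) &&
    mulLeR l0 n μ && decide (costR den num μ + num ≤ den * (l0 + 1)) &&
    decide (4 * H + (2 * H - 3 - cntR 1 μ) ^ 2 < n + 4)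

theorem zoneF_eq (L q1 q2 e : ℕ) : zoneF L q1 q2 e = zoneC L q1 q2 e := by
  simp only [zoneF, zoneC, critB, fN_eq, fL_eq, muR_eq, mxR_eq, mulLeR_eq, costR_eq, cntR_eq,
    Nat.one_le_iff_ne_zero, Nat.pos_iff_ne_zero]

noncomputable def zoneL (L : ℕ) : Bool :=
  fN (if L % 2 = 1 then 1 else 2) fun e => fN ((L - 6) / 2) fun Q =>
    allR (fun q2 => zoneF L 0 q2 0 && zoneF L 0 q2 e) (Q + 1) &&
    allR (fun q1 => zoneF L (q1 + 1) Q 0 && zoneF L (q1 + 1) Q e) 4

theorem zoneL_sound {L q1 q2 e : ℕ} (hz : zoneL L = true) (h : FamOK L q1 q2 e) :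
    zoneC L q1 q2 e = true := by
  simp only [zoneL, fN_eq, allR_eq, zoneF_eq, Bool.and_eq_true, List.all_eq_true,
    List.mem_range] at hz
  obtain ⟨ha, hb, hc⟩ := h
  have he : e = 0 ∨ e = if L % 2 = 1 then 1 else 2 := by
    rcases hb with hb | hb | hb
    · exact Or.inl hb
    · right; rw [if_pos hb.2]; exact hb.1
    · right; rw [if_neg (by omega)]; exact hb.1
  rcases hc with rfl | hc
  · have := hz.1 q2 (by omega)
    rcases he with rfl | rfl
    · exact this.1
    · exact this.2
  · obtain rfl : q2 = (L - 6) / 2 := by omega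
    by_cases h0 : q1 = 0
    · subst h0
      have := hz.1 ((L - 6) / 2) (by omega)
      rcases he with rfl | rfl
      · exact this.1
      · exact this.2
    · have := hz.2 (q1 - 1) (by omega)
      rw [show q1 - 1 + 1 = q1 by omega] at this
      rcases he with rfl | rfl
      · exact this.1
      · exact this.2

end Crest.Agent.R195
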