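import Crest.Agent.R195.Zone0

/-! # Row 195: finite zone, L = 20 … 37 -/

namespace Crest.Agent.R195

theorem zone_20 : zoneL 20 = true := by decide +kernel
theorem zone_21 : zoneL 21 = true := by decide +kernel
theorem zone_22 : zoneL 22 = true := by decide +kernel
theorem zone_23 : zoneL 23 = true := by decide +kernel
theorem zone_24 : zoneL 24 = true := by decide +kernel
theorem zone_25 : zoneL 25 = true := by decide +kernel
theorem zone_26 : zoneL 26 = true := by decide +kernel
theorem zone_27 : zoneL 27 = true := by decide +kernel
theorem zone_28 : zoneL 28 = true := by decide +kernel
theorem zone_29 : zoneL 29 = true := by decide +kernel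
theorem zone_30 : zoneL 30 = true := by decide +kernel
theorem zone_31 : zoneL 31 = true := by decide +kernel
theorem zone_32 : zoneL 32 = true := by decide +kernel
theorem zone_33 : zoneL 33 = true := by decide +kernel
theorem zone_34 : zoneL 34 = true := by decide +kernel
theorem zone_35 : zoneL 35 = true := by decide +kernel
theorem zone_36 : zoneL 36 = true := by decide +kernel
theorem zone_37 : zoneL 37 = true := by decide +kernel

end Crest.Agent.R195
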